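import Mathlib

/-! The centered maximal function. -/

namespace Vale.Agent.P137

open MeasureTheory Metric
open scoped ENNReal

/-- The centered Hardy-Littlewood maximal function (value in `[0, ∞]`): the supremum over `r > 0`
of the averages of `|f|` over the open Euclidean balls `B(x, r)`. -/
noncomputable def cmax {d : ℕ} (f : EuclideanSpace ℝ (Fin d) → ℝ) (x : EuclideanSpace ℝ (Fin d)) :
    ℝ≥0∞ :=
  ⨆ (r : ℝ) (_ : 0 < r), (∫⁻ y in ball x r, ‖f y‖ₑ) / volume (ball x r)

end Vale.Agent.P137
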