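import Vale.Agent.P137.Vec
import Vale.Agent.P137.C.CStmt

/-! P137, centered operator: working definitions. See notes/P137C.md. -/

namespace Vale.Agent.P137

open MeasureTheory Metric Set Filter Topology
open scoped ENNReal NNReal RealInnerProductSpace

noncomputable section

variable {d : ℕ}

/-- `μ` is curl free inside `O`. -/
def Curl (μ : E d → E d) (O : Set (E d)) : Prop :=
  ∀ φ : E d → ℝ, ContDiff ℝ 1 φ → HasCompactSupport φ → tsupport φ ⊆ O → ∀ a b : E d,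
    ∫ p, ⟪μ p, a⟫ * fderiv ℝ φ p b = ∫ p, ⟪μ p, b⟫ * fderiv ℝ φ p a

structure PairC (h : E d → ℝ) (μ : E d → E d) (O : Set (E d)) : Prop where
  pair : Pair h μ O
  curl : Curl μ O

/-- Centered maximal function with radii in `[a, b]`. -/
def Nc (h : E d → ℝ) (a b : ℝ) (x : E d) : ℝ := sSup {t | ∃ r, a ≤ r ∧ r ≤ b ∧ t = av h x r}

def OptC (h : E d → ℝ) (a b : ℝ) (x : E d) (r : ℝ) : Prop :=
  a ≤ r ∧ r ≤ b ∧ av h x r = Nc h a b x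

/-- The centered maximal function of level `i`. -/
def Ni (g : Grid d) (h : E d → ℝ) (i : ℕ) : E d → ℝ := Nc h (g.R i / 2) (g.R i)

/-- Bad mass with slowly decaying weights. -/
def Grid.BE (g : Grid d) (μ : E d → E d) (Gd : Set (E d)) (k : ℕ) (y : E d) : ℝ≥0∞ :=
  ∑' m : ℕ, (15 / 16 : ℝ≥0∞) ^ m * g.bd μ Gd (k + m) y

/-- Level `k` mass plus bad mass of the finer levels. -/
def Grid.mm (g : Grid d) (μ : E d → E d) (Gd : Set (E d)) (k : ℕ) (y : E d) : ℝ≥0∞ :=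
  ‖g.vk μ k y‖ₑ + g.BD μ Gd k y

/-- Lipschitz bound with a real constant. -/
def Lip {F : Type} [NormedAddCommGroup F] (c : ℝ) (Φ : E d → F) : Prop :=
  ∀ p p', ‖Φ p - Φ p'‖ ≤ c * ‖p - p'‖

/-- Pairing of a test field with `μ`. -/
def tst (μ Φ : E d → E d) : ℝ := ∫ p, ⟪Φ p, μ p⟫

/-- Radial profile of the dilation from radius `r1` to radius `r2`. -/
def chi (d : ℕ) (r1 r2 ρ : ℝ) : ℝ :=
  max 0 ((max ρ r1 ^ d)⁻¹ - (r2 ^ d)⁻¹) / ((r1 ^ d)⁻¹ - (r2 ^ d)⁻¹)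

/-- Closed spherical shell. -/
def Sh (x : E d) (r L : ℝ) : Set (E d) := {p | |‖p - x‖ - r| ≤ L}

def ep (k : ℕ) : ℝ := (15 / 16) ^ (2 * k)

/-- Points with light inner ball and spread out shell. -/
def Exc (w : E d → ℝ≥0∞) (x0 : E d) (R L κ T m1 : ℝ) : Set (E d) :=
  {x | x ∈ ball x0 (R / 4) ∧ ∃ r, R / 2 ≤ r ∧ r ≤ R ∧
    ∫⁻ p in ball x (r - L), w p ≤ ENNReal.ofReal T ∧
    ∀ y, ‖y - x‖ = r → ENNReal.ofReal m1 < ∫⁻ p in Sh x r L \ ball y (3 * κ), w p}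

/-- The data of one ball `B(x, r)` of level `j`, a cone, and a direction `v`. -/
structure Sit (d : ℕ) where
  h : E d → ℝ
  μ : E d → E d
  O : Set (E d)
  g : Grid d
  j : ℕ
  ν : E d
  Gd : Set (E d)
  v : E d
  x : E d
  r : ℝ

namespace Sit

variable (S : Sit d)

def R : ℝ := S.g.R S.j
def tau (k : ℕ) : ℝ := S.R / (16 * 2 ^ k)
def kap (k : ℕ) : ℝ := S.R * ep k
def lev (k : ℕ) : ℕ := S.j + aa d + k
def nn (p : E d) : E d := S.r⁻¹ • (p - S.x)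
/-- Inner cutoff: `1` at depth `≥ tau k`, `0` outside the ball. -/
def X (k : ℕ) (p : E d) : ℝ := chi d (S.r - S.tau k) S.r ‖p - S.x‖
/-- Outer cutoff: `1` on the ball, `0` at distance `≥ tau k` from it. -/
def Xp (k : ℕ) (p : E d) : ℝ := chi d S.r (S.r + S.tau k) ‖p - S.x‖
def Pos (k : ℕ) : ℝ := tst S.μ fun p => S.X k p • S.ν
def Rad (k : ℕ) : ℝ := tst S.μ fun p => S.X k p • S.nn p
def Vv (k : ℕ) : ℝ := tst S.μ fun p => S.X k p • S.v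
def sv (y : E d) : ℝ := ⟪S.v, S.nn y⟫
def mm (k : ℕ) : E d → ℝ≥0∞ := S.g.mm S.μ S.Gd (S.lev k)

structure Ok : Prop where
  pair : PairC S.h S.μ S.O
  sub : ball S.x (2 * S.R) ⊆ S.O
  r1 : S.R / 2 ≤ S.r
  r2 : S.r ≤ S.R
  cone : Cone S.ν S.Gd
  nv : ‖S.v‖ = 1
  near : ∀ ξ ∈ S.Gd, ‖‖ξ‖ • S.v - ξ‖ ≤ 9 / 20 * ‖ξ‖

/-- `B` bounds the bad mass of level `k` near the ball. -/
def Bd (k : ℕ) (B : ℝ) : Prop :=
  0 ≤ B ∧ ∫⁻ p in ball S.x (2 * S.R), S.g.BD S.μ S.Gd (S.lev k) p ≤ ENNReal.ofReal B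

/-- The shell mass of level `k` is concentrated near the point `y` of the sphere. -/
def Conc (k : ℕ) (y : E d) (B : ℝ) : Prop :=
  ‖y - S.x‖ = S.r ∧ ∫⁻ p in Sh S.x S.r (4 * S.tau k) \ ball y (3 * S.kap k), S.mm k p ≤
    ENNReal.ofReal (ep k * B)

/-- The radius `r` beats `r ± tau k`. -/
def Valid (k : ℕ) : Prop :=
  av S.h S.x (S.r - S.tau k) ≤ av S.h S.x S.r ∧ av S.h S.x (S.r + S.tau k) ≤ av S.h S.x S.r

end Sit

/-! ### Point charges, zones and costs for the centered operator -/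

/-- `x` is charged to a down crossing of one of the functions `F j` inside `Sp j`. -/
def ChgP (N : E d → ℝ) (F : ℕ → E d → ℝ) (Sp : ℕ → Set (E d)) (Tm : ℝ) (u x : E d) : Prop :=
  ∃ (j : ℕ) (w : ℝ), 0 < w ∧ w ≤ Tm ∧ x + w • u ∈ Sp j ∧ F j (x + w • u) = N x ∧
    (∀ ε, 0 < ε → ∃ t, w - ε < t ∧ t < w ∧ N x < F j (x + t • u)) ∧
    ∀ s', 0 < s' → N (x + s' • u) = N x → w ≤ s'

/-- Points where `N` is attained by the level `j` function at a deep point of `S j`. -/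
def AC (h N : E d → ℝ) (g : Grid d) (S : ℕ → Set (E d)) : Set (E d) :=
  {x | Act N x ∧ ∃ j, Ni g h j x = N x ∧ DifferentiableAt ℝ (Ni g h j) x ∧ g.Deep j x ∧ x ∈ S j}

/-- Points where the level `j` optimum beats the neighbouring levels. -/
def Best (g : Grid d) (h : E d → ℝ) (j : ℕ) : Set (E d) :=
  {p | ∀ ρ, g.R j / 4 ≤ ρ → ρ ≤ 2 * g.R j → av h p ρ ≤ Ni g h j p}

def DD (g : Grid d) (j0 : ℕ) (y0 : E d) (T : ℕ → Set (E d)) (j : ℕ) : Set (E d) :=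
  {p | p ∈ g.Nb T 4 j ∧ 10 * g.R j ≤ g.tt j0 y0 p}

def ZP (g : Grid d) (j0 : ℕ) (y0 : E d) (T : ℕ → Set (E d)) (j : ℕ) : Set (E d) :=
  {p | p ∈ DD g j0 y0 T j ∧ (j = j0 ∨ g.tt j0 y0 p ≤ 23 * g.R j ∨ p ∉ g.Nb T 2 (j + 1))}

def SP (h : E d → ℝ) (g : Grid d) (j0 : ℕ) (y0 : E d) (T : ℕ → Set (E d)) (j : ℕ) : Set (E d) :=
  (DD g j0 y0 T j ∩ Best g h j) ∪ ZP g j0 y0 T j

def Zb (g : Grid d) (j0 : ℕ) (y0 : E d) (T : ℕ → Set (E d)) (j : ℕ) : Set (E d) :=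
  HH g j0 y0 T j \ g.Nb T 1 (j + 1)

def ZC (g : Grid d) (j0 : ℕ) (y0 : E d) (T : ℕ → Set (E d)) (j : ℕ) : Set (E d) :=
  Zb g j0 y0 T j ∪ Zs g j0 y0 T j ∪ Zt g j0 y0 j

def wC (g : Grid d) (μ : E d → E d) (Gd : Set (E d)) (j0 : ℕ) (y0 : E d) (T : ℕ → Set (E d))
    (j : ℕ) (u : E d) : ℝ≥0∞ :=
  (HH g j0 y0 T j).indicator (g.BD μ Gd (j + aa d)) u +
    (ZC g j0 y0 T j).indicator (fun u => ‖g.vk μ (j + aa d) u‖ₑ) u

def costE (g : Grid d) (μ : E d → E d) (Gd : Set (E d)) (j0 : ℕ) (y0 : E d) (T : ℕ → Set (E d)) :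
    ℝ≥0∞ :=
  (∫⁻ u in g.cube j0 y0, ‖g.vk μ j0 u‖ₑ) +
    ∑' j : ℕ, ∫⁻ u in HH g j0 y0 T j, g.BE μ Gd (j + aa d) u

/-- The `d + 1` directions used in a tree. -/
def tdir (ν : E d) : Option (Fin d) → E d
  | none => ν
  | some i => uv (ν + (1 / 10 : ℝ) • cdir i (decide (0 ≤ ν i)))

end

end Vale.Agent.P137
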