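import Vale.Agent.P137.Nreg
import Vale.Agent.P137.C.CDefs

/-! P137 C/NcBasic: the centered truncated maximal function (ports of Nmax.lean and Nreg.lean).

`Nc h a b x = sSup ((fun r => av h x (max r a)) '' Icc a b)`; `IsCompact.continuous_sSup`,
`IsCompact.exists_sSup_image_eq`. `av_trans_loc` is `av_trans_sub` for a local pair (same proof, `Pair.eq`
with `c = z`, `ρ = 2 r`). `fderiv_Nc`: as `fderiv_Nm` with `z = x`, using only small `s` (`‖s • v‖ ≤ r`).
`exists_Ni_eq`: `exists_level` for an optimal radius. `AC` is a countable union of measurable sets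
(`measurableSet_of_differentiableAt`, `{Deep j}` is measurable because `cor j` is, `Cst.measurable`).
-/

namespace Vale.Agent.P137

open MeasureTheory Metric Set Filter Topology
open scoped ENNReal NNReal RealInnerProductSpace

variable {d : ℕ}

variable {h : E d → ℝ} {μ : E d → E d} {a b : ℝ}

theorem continuous_avC (hh : Integrable h) (ha : 0 < a) :
    Continuous fun q : E d × ℝ => av h q.1 (max q.2 a) := by
  have := (continuousOn_av hh).comp_continuous
    (f := fun q : E d × ℝ => (q.1, max q.2 a)) (by fun_prop) (fun q => lt_max_of_lt_right ha)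
  exact this

theorem Nc_set (x : E d) : {t | ∃ r, a ≤ r ∧ r ≤ b ∧ t = av h x r} =
    (fun r : ℝ => av h x (max r a)) '' Icc a b := by
  ext t
  constructor
  · rintro ⟨r, h1, h2, rfl⟩
    exact ⟨r, ⟨h1, h2⟩, by simp [max_eq_left h1]⟩
  · rintro ⟨r, ⟨h1, h2⟩, rfl⟩
    exact ⟨r, h1, h2, by simp [max_eq_left h1]⟩

theorem continuous_avC' (hh : Integrable h) (ha : 0 < a) (x : E d) :
    Continuous fun r : ℝ => av h x (max r a) :=
  (continuous_avC hh ha).comp (f := fun r : ℝ => (x, r)) (by fun_prop)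

theorem le_Nc (hh : Integrable h) (ha : 0 < a) (x : E d) {r : ℝ} (h1 : a ≤ r) (h2 : r ≤ b) :
    av h x r ≤ Nc h a b x := by
  refine le_csSup ?_ ⟨r, h1, h2, rfl⟩
  rw [Nc_set]
  exact (isCompact_Icc.image (continuous_avC' hh ha x)).bddAbove

theorem exists_optC (hh : Integrable h) (ha : 0 < a) (hab : a ≤ b) (x : E d) :
    ∃ r, OptC h a b x r := by
  have := (isCompact_Icc.image (continuous_avC' hh ha x)).sSup_mem
    ((nonempty_Icc.2 hab).image _)
  rw [← Nc_set] at this
  obtain ⟨r, h1, h2, h4⟩ := this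
  exact ⟨r, h1, h2, h4.symm⟩

theorem continuous_Nc (hh : Integrable h) (ha : 0 < a) (hab : a ≤ b) : Continuous (Nc h a b) := by
  have e : Nc h a b = fun x => sSup ((fun r : ℝ => av h x (max r a)) '' Icc a b) := by
    funext x
    rw [Nc, Nc_set]
  have _ := hab
  rw [e]
  exact isCompact_Icc.continuous_sSup (f := fun (x : E d) (r : ℝ) => av h x (max r a))
    (continuous_avC hh ha)

theorem Nc_mono (hh : Integrable h) {a' b' : ℝ} (ha' : 0 < a') (h1 : a' ≤ a) (hab : a ≤ b)
    (h2 : b ≤ b') (x : E d) : Nc h a b x ≤ Nc h a' b' x := by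
  obtain ⟨r, h3, h4, h6⟩ := exists_optC hh (ha'.trans_le h1) hab x
  rw [← h6]
  exact le_Nc hh ha' x (h1.trans h3) (h4.trans h2)

theorem Nc_nonneg (hh : Integrable h) (h0 : ∀ x, 0 ≤ h x) (ha : 0 < a) (hab : a ≤ b) (x : E d) :
    0 ≤ Nc h a b x := by
  obtain ⟨r, -, -, h4⟩ := exists_optC hh ha hab x
  rw [← h4]
  exact integral_nonneg h0

theorem lipschitz_Nc (hP : Pair h μ univ) (ha : 0 < a) (hab : a ≤ b) :
    ∃ L : ℝ≥0, LipschitzWith L (Nc h a b) := by
  have ho := om_pos (d := d)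
  have hL : 0 ≤ (om d * a ^ d)⁻¹ * ∫ y in univ, ‖μ y‖ :=
    mul_nonneg (by positivity) (integral_nonneg fun _ => norm_nonneg _)
  refine ⟨Real.toNNReal ((om d * a ^ d)⁻¹ * ∫ y in univ, ‖μ y‖),
    LipschitzWith.of_le_add_mul _ fun x y => ?_⟩
  obtain ⟨r, h1, h2, h4⟩ := exists_optC hP.ih ha hab x
  have h5 := le_Nc (b := b) hP.ih ha y h1 h2
  have h6 := av_trans_sub hP x (y - x) (ha.trans_le h1)
  have h7 : ‖∫ σ in Icc (0 : ℝ) 1, ⟪av μ (x + σ • (y - x)) r, y - x⟫‖ ≤
      ((om d * a ^ d)⁻¹ * ∫ y in univ, ‖μ y‖) * ‖y - x‖ * volume.real (Icc (0 : ℝ) 1) := by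
    refine norm_setIntegral_le_of_norm_le_const (by simp) fun σ _ => ?_
    exact (norm_inner_le_norm _ _).trans (mul_le_mul_of_nonneg_right
      (norm_av_le_set_Nreg hP.im ha h1 (subset_univ _)) (norm_nonneg _))
  rw [← h6, Real.norm_eq_abs, Real.volume_real_Icc_of_le zero_le_one, add_sub_cancel] at h7
  rw [dist_comm, dist_eq_norm]
  have h8 := (abs_le.1 h7).1
  rw [Real.coe_toNNReal _ hL]
  linarith

theorem tendsto_Nc (hh : Integrable h) (ha : 0 < a) (hab : a ≤ b) :
    Tendsto (Nc h a b) (cocompact (E d)) (𝓝 0) := by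
  have ht : Tendsto (fun t : ℝ => ∫ y in (ball (0 : E d) t)ᶜ, ‖h y‖) atTop (𝓝 0) := by
    have h1 := tendsto_setIntegral_of_antitone (μ := volume) (f := fun y => ‖h y‖)
      (s := fun t : ℝ => (ball (0 : E d) t)ᶜ) (fun _ => measurableSet_ball.compl)
      (fun a b hab => compl_subset_compl.2 (ball_subset_ball hab)) ⟨0, hh.norm.integrableOn⟩
    have h2 : ⋂ t : ℝ, (ball (0 : E d) t)ᶜ = ∅ := by
      refine eq_empty_of_forall_notMem fun y hy => ?_
      exact mem_iInter.1 hy (‖y‖ + 1) (by simp)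
    simpa [h2] using h1
  have hn : Tendsto (fun x : E d => ‖x‖ + -b) (cocompact (E d)) atTop :=
    tendsto_atTop_add_const_right _ _ (tendsto_norm_cocompact_atTop (E := E d))
  have h3 := (ht.comp hn).const_mul (om d * a ^ d)⁻¹
  rw [mul_zero] at h3
  refine squeeze_zero_norm (fun x => ?_) h3
  obtain ⟨r, h4, h5, h7⟩ := exists_optC hh ha hab x
  rw [← h7]
  refine norm_av_le_set_Nreg hh ha h4 fun y hy hy' => ?_
  rw [mem_ball_zero_iff] at hy'
  rw [mem_ball, dist_eq_norm] at hy
  have h8 : ‖x‖ ≤ ‖x - y‖ + ‖y‖ := by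
    have := norm_add_le (x - y) y
    rwa [sub_add_cancel] at this
  rw [norm_sub_rev] at hy
  linarith

theorem av_trans_loc {O : Set (E d)} (hP : Pair h μ O) {z w : E d} {r : ℝ} (hr : 0 < r)
    (hO : ball z (2 * r) ⊆ O) (hw : ‖w‖ ≤ r) :
    av h (z + w) r - av h z r = ∫ σ in Icc (0 : ℝ) 1, ⟪av μ (z + σ • w) r, w⟫ := by
  set c : ℝ := (om d * r ^ d)⁻¹ with hc
  set U : Set (E d × ℝ) := {q | q.1 ∈ ball (z + q.2 • w) r} with hU
  have hUm : MeasurableSet U := by
    refine IsOpen.measurableSet ?_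
    simp only [hU, mem_ball]
    exact isOpen_lt (by fun_prop) continuous_const
  have hi : Integrable fun p => c * ⟪w, μ p⟫ := (hP.im.const_inner w).const_mul c
  have hint : Integrable (U.indicator fun q : E d × ℝ => c * ⟪w, μ q.1⟫)
      (volume.prod (volume.restrict (Icc (0 : ℝ) 1))) := (hi.comp_fst _).indicator hUm
  have hsw := integral_integral_swap
    (f := fun (p : E d) (σ : ℝ) => U.indicator (fun q : E d × ℝ => c * ⟪w, μ q.1⟫) (p, σ)) hint
  rw [hP.eq z (2 * r) z r (z + w) r hO hr hr (by rw [sub_self, norm_zero]; linarith)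
    (by rw [add_sub_cancel_left]; linarith)]
  refine Eq.trans ?_ (hsw.trans ?_)
  · refine integral_congr_ae (Eventually.of_forall fun p => ?_)
    have hm : MeasurableSet {σ : ℝ | p ∈ ball (z + σ • w) r} := measurable_prodMk_left hUm
    have e : (fun σ : ℝ => U.indicator (fun q : E d × ℝ => c * ⟪w, μ q.1⟫) (p, σ)) =
        {σ : ℝ | p ∈ ball (z + σ • w) r}.indicator fun _ => c * ⟪w, μ p⟫ := by
      funext σ
      rfl
    have e2 : {σ : ℝ | p ∈ ball (z + σ • w) r} ∩ Icc (0 : ℝ) 1 =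
        {σ ∈ Icc (0 : ℝ) 1 | p ∈ ball (z + σ • w) r} := by
      ext σ
      exact and_comm
    simp only
    rw [e, integral_indicator_const _ hm, fld_trans z w hr, real_inner_smul_left, Measure.real,
      Measure.restrict_apply hm, e2, th, smul_eq_mul]
    ring
  · refine integral_congr_ae (Eventually.of_forall fun σ => ?_)
    have e : (fun p : E d => U.indicator (fun q : E d × ℝ => c * ⟪w, μ q.1⟫) (p, σ)) =
        (ball (z + σ • w) r).indicator fun p => c * ⟪w, μ p⟫ := by
      funext p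
      rfl
    simp only
    rw [e, integral_indicator measurableSet_ball, integral_const_mul,
      integral_inner hP.im.integrableOn, av_eq μ _ hr, real_inner_smul_left, real_inner_comm]

theorem fderiv_Nc {O : Set (E d)} (hP : Pair h μ O) (ha : 0 < a) {x : E d} {r : ℝ}
    (hx : DifferentiableAt ℝ (Nc h a b) x) (ho : OptC h a b x r) (hO : ball x (2 * r) ⊆ O) :
    fderiv ℝ (Nc h a b) x = innerSL ℝ (av μ x r) := by
  obtain ⟨h1, h2, h4⟩ := ho
  have hr : 0 < r := ha.trans_le h1
  ext v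
  set G : ℝ → ℝ := fun t => ⟪av μ (x + t • v) r, v⟫ with hG
  have hGc : Continuous G :=
    ((continuous_av hP.im hr).comp (by fun_prop)).inner continuous_const
  have hA : ∀ s : ℝ, ‖s • v‖ ≤ r →
      av h (x + s • v) r = av h x r + ∫ t in (0 : ℝ)..s, G t := fun s hs => by
    have e := av_trans_loc hP hr hO hs
    have e2 := intervalIntegral.mul_integral_comp_mul_right (f := G) (a := 0) (b := 1) s
    rw [zero_mul, one_mul] at e2
    rw [← e2, ← intervalIntegral.integral_const_mul, intervalIntegral.integral_of_le zero_le_one,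
      ← integral_Icc_eq_integral_Ioc, ← sub_eq_iff_eq_add', e]
    congr 1
    funext σ
    rw [hG, real_inner_smul_right, smul_smul]
  have hev : ∀ᶠ s : ℝ in 𝓝 0, ‖s • v‖ ≤ r := by
    have hc : Continuous fun s : ℝ => ‖s • v‖ := by fun_prop
    exact (hc.continuousAt.eventually_lt continuousAt_const (by simpa using hr)).mono
      fun _ hs => hs.le
  have hD : HasDerivAt (fun s : ℝ => av h (x + s • v) r) (G 0) 0 := by
    refine HasDerivAt.congr_of_eventuallyEq
      (f := fun s : ℝ => av h x r + ∫ t in (0 : ℝ)..s, G t) ?_ (hev.mono hA)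
    exact (intervalIntegral.integral_hasDerivAt_right (hGc.intervalIntegrable _ _)
      (hGc.stronglyMeasurableAtFilter _ _) hGc.continuousAt).const_add _
  have hl : HasDerivAt (fun s : ℝ => x + s • v) v 0 := by
    simpa using ((hasDerivAt_id (0 : ℝ)).smul_const v).const_add x
  have hN : HasDerivAt (fun s : ℝ => Nc h a b (x + s • v)) (fderiv ℝ (Nc h a b) x v) 0 :=
    hx.hasFDerivAt.comp_hasDerivAt_of_eq 0 hl (by simp)
  have hmin : IsLocalMin (fun s : ℝ => Nc h a b (x + s • v) - av h (x + s • v) r) 0 := by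
    refine Eventually.of_forall fun s => ?_
    have h5 := le_Nc (b := b) hP.ih ha (x + s • v) h1 h2
    simp only [zero_smul, add_zero]
    linarith
  have h6 := hmin.hasDerivAt_eq_zero (hN.sub hD)
  rw [sub_eq_zero] at h6
  rw [h6, hG]
  simp

/-- Touching from below forces equal derivatives. -/
theorem fderiv_eq_of_touch {N F : E d → ℝ} {x : E d} (hN : DifferentiableAt ℝ N x)
    (hF : DifferentiableAt ℝ F x) (hle : ∀ y, F y ≤ N y) (heq : F x = N x) :
    fderiv ℝ F x = fderiv ℝ N x := by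
  have hmin : IsLocalMin (fun y => N y - F y) x := by
    refine Eventually.of_forall fun y => ?_
    have := hle y
    simp only
    linarith
  have h6 := hmin.hasFDerivAt_eq_zero (hN.hasFDerivAt.sub hF.hasFDerivAt)
  exact (sub_eq_zero.1 h6).symm

theorem continuous_Ni (hh : Integrable h) (g : Grid d) (i : ℕ) : Continuous (Ni g h i) := by
  have := g.R_pos i
  exact continuous_Nc hh (by linarith) (by linarith)

theorem le_Ni (hh : Integrable h) (g : Grid d) (i : ℕ) (x : E d) {r : ℝ} (h1 : g.R i / 2 ≤ r)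
    (h2 : r ≤ g.R i) : av h x r ≤ Ni g h i x := by
  have := g.R_pos i
  exact le_Nc hh (by linarith) x h1 h2

theorem exists_opt_Ni (hh : Integrable h) (g : Grid d) (i : ℕ) (x : E d) :
    ∃ r, g.R i / 2 ≤ r ∧ r ≤ g.R i ∧ av h x r = Ni g h i x := by
  have := g.R_pos i
  exact exists_optC hh (by linarith) (by linarith) x

theorem Ni_le_Nc (hh : Integrable h) (g : Grid d) {i K : ℕ} (h4 : 4 ≤ i) (hK : i ≤ K) (x : E d) :
    Ni g h i x ≤ Nc h (g.R K / 2) (g.R 4) x := by
  have h1 := g.R_pos i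
  have h2 := g.R_pos K
  have h3 := g.R_anti hK
  exact Nc_mono hh (by linarith) (by linarith) (by linarith) (g.R_anti h4) x

theorem exists_Ni_eq (hh : Integrable h) (g : Grid d) {K : ℕ} (hK : 4 ≤ K) (x : E d) :
    ∃ i, 4 ≤ i ∧ i ≤ K ∧ Ni g h i x = Nc h (g.R K / 2) (g.R 4) x := by
  have h2 := g.R_pos K
  have h3 := g.R_anti hK
  obtain ⟨r, a1, a2, a3⟩ := exists_optC (b := g.R 4) hh (half_pos h2) (by linarith) x
  obtain ⟨i, b1, b2, b3, b4⟩ := g.exists_level hK a1 a2
  refine ⟨i, b1, b2, le_antisymm (Ni_le_Nc hh g b1 b2 x) ?_⟩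
  rw [← a3]
  exact le_Ni hh g i x b3 b4

theorem mem_Best (hh : Integrable h) (g : Grid d) {i : ℕ} {x : E d}
    (h1 : Ni g h i x ≤ Ni g h (i + 1) x) (h2 : Ni g h (i + 2) x ≤ Ni g h (i + 1) x) :
    x ∈ Best g h (i + 1) := by
  intro ρ a1 a2
  have e1 := g.R_succ i
  have e2 := g.R_succ (i + 1)
  rcases le_total ρ (g.R (i + 1 + 1)) with c1 | c1
  · exact (le_Ni hh g (i + 2) x (by linarith) c1).trans h2
  rcases le_total ρ (g.R (i + 1)) with c2 | c2
  · exact le_Ni hh g (i + 1) x (by linarith) c2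
  · exact (le_Ni hh g i x (by linarith) (by linarith)).trans h1

theorem measurableSet_Best (hh : Integrable h) (g : Grid d) (j : ℕ) :
    MeasurableSet (Best g h j) := by
  have e : Best g h j = ⋂ (ρ : ℝ) (_ : g.R j / 4 ≤ ρ) (_ : ρ ≤ 2 * g.R j),
      {p | av h p ρ ≤ Ni g h j p} := by
    ext p
    simp only [Best, mem_ofPred_eq, mem_iInter]
  rw [e]
  refine IsClosed.measurableSet (isClosed_iInter fun ρ => isClosed_iInter fun h1 =>
    isClosed_iInter fun _ => ?_)
  have := g.R_pos j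
  exact isClosed_le (continuous_av hh (by linarith)) (continuous_Ni hh g j)

theorem measurableSet_deep (g : Grid d) (j : ℕ) : MeasurableSet {x | g.Deep j x} := by
  have e : {x | g.Deep j x} = ⋃ n : Fin d → ℤ, {z | g.idx j z = n ∧ g.Deep j z} := by
    ext x
    simp
  rw [e]
  exact MeasurableSet.iUnion fun n => (g.isCompact_deep j n).isClosed.measurableSet

theorem measurableSet_AC (hh : Integrable h) {N : E d → ℝ} (hN : Continuous N) (g : Grid d)
    {S : ℕ → Set (E d)} (hS : ∀ j, MeasurableSet (S j)) : MeasurableSet (AC h N g S) := by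
  have e : AC h N g S = {x | Act N x} ∩ ⋃ j : ℕ, {x | Ni g h j x = N x} ∩
      ({x | DifferentiableAt ℝ (Ni g h j) x} ∩ ({x | g.Deep j x} ∩ S j)) := by
    ext x
    simp only [AC, mem_ofPred_eq, mem_inter_iff, mem_iUnion]
  rw [e]
  refine (measurableSet_act N).inter (MeasurableSet.iUnion fun j => ?_)
  exact (isClosed_eq (continuous_Ni hh g j) hN).measurableSet.inter
    ((measurableSet_of_differentiableAt ℝ _).inter ((measurableSet_deep g j).inter (hS j)))

end Vale.Agent.P137
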