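import Vale.Agent.P137.AE
import Vale.Agent.P137.C.NcBasic

/-! P137 C/AEC: the centered truncations and a.e. convergence of their gradients (port of AE.lean with `z = x`;
`aeN_scale`, `aeN_ratio`, `aeN_closed`, `aeN_av_le` can be reused). `Nq h n = Nc h 2^(-n) 2^(n+1)`. -/

namespace Vale.Agent.P137

open MeasureTheory Metric Set Filter Topology
open scoped ENNReal NNReal RealInnerProductSpace

variable {d : ℕ}

/-- The centered truncations exhausting all radii. -/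
noncomputable def Nq (h : E d → ℝ) (n : ℕ) : E d → ℝ :=
  Nc h ((2 : ℝ) ^ n)⁻¹ (((2 : ℝ) ^ n)⁻¹ * 2 ^ (2 * n + 1))

theorem aec_top (n : ℕ) : ((2 : ℝ) ^ n)⁻¹ * 2 ^ (2 * n + 1) = 2 * 2 ^ n := by
  rw [pow_succ, two_mul, pow_add]
  field_simp

theorem Nq_le (n : ℕ) : ((2 : ℝ) ^ n)⁻¹ ≤ ((2 : ℝ) ^ n)⁻¹ * 2 ^ (2 * n + 1) :=
  le_mul_of_one_le_right (Nn_pos n).le (one_le_pow₀ (by norm_num))

theorem Nq_mono {h : E d → ℝ} (hh : Integrable h) (x : E d) : Monotone fun n => Nq h n x := by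
  intro m n hmn
  have h1 : (2 : ℝ) ^ m ≤ 2 ^ n := pow_le_pow_right₀ (by norm_num) hmn
  refine Nc_mono hh (Nn_pos n) (inv_anti₀ (by positivity) h1) (Nq_le m) ?_ x
  rw [aec_top, aec_top]
  linarith

theorem aec_scale {r : ℝ} (hr : 0 < r) :
    ∀ᶠ n : ℕ in atTop, ((2 : ℝ) ^ n)⁻¹ ≤ r ∧ r ≤ ((2 : ℝ) ^ n)⁻¹ * 2 ^ (2 * n + 1) := by
  filter_upwards [aeN_scale hr] with n hn
  rw [aec_top]
  exact ⟨hn.1, by linarith [hn.2]⟩

theorem cmax_eq {f : E d → ℝ} (hf : Integrable f) (x : E d) :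
    cmax f x = ⨆ n, ENNReal.ofReal (Nq (fun y => |f y|) n x) := by
  have hh : Integrable fun y => |f y| := hf.abs
  refine le_antisymm ?_ (iSup_le fun n => ?_)
  · refine iSup_le fun r => iSup_le fun hr => ?_
    obtain ⟨n, h1, h2⟩ := (aec_scale hr).exists
    rw [aeN_ratio hf x hr]
    exact le_iSup_of_le n (ENNReal.ofReal_le_ofReal (le_Nc hh (Nn_pos n) x h1 h2))
  · obtain ⟨r, h1, -, h4⟩ := exists_optC hh (Nn_pos n) (Nq_le n) x
    have hr : 0 < r := (Nn_pos n).trans_le h1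
    rw [Nq, ← h4, ← aeN_ratio hf x hr]
    exact le_iSup_of_le r (le_iSup_of_le hr le_rfl)

theorem aec_radii (hd : 0 < d) {h : E d → ℝ} (hh : Integrable h) (h0 : ∀ x, 0 ≤ h x) {x : E d}
    (hc : ¬ ∃ r, 0 < r ∧ ∀ n, Nq h n x ≤ av h x r) {r : ℕ → ℝ}
    (ho : ∀ n, OptC h ((2 : ℝ) ^ n)⁻¹ (((2 : ℝ) ^ n)⁻¹ * 2 ^ (2 * n + 1)) x (r n)) :
    Tendsto r atTop (𝓝 0) := by
  have hr : ∀ n, 0 < r n := fun n => (Nn_pos n).trans_le (ho n).1
  have hN : ∀ m n, m ≤ n → Nq h m x ≤ av h x (r n) := fun m n hmn =>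
    (Nq_mono hh x hmn).trans (ho n).2.2.symm.le
  refine tendsto_order.2 ⟨fun a ha => Eventually.of_forall fun n => ha.trans (hr n),
    fun ε hε => ?_⟩
  by_contra hne
  have hfr : ∃ᶠ n in atTop, ε ≤ r n := by
    simpa only [not_eventually, not_lt] using hne
  by_cases hb : ∃ M, ∃ᶠ n in atTop, ε ≤ r n ∧ r n ≤ M
  · obtain ⟨M, hM⟩ := hb
    obtain ⟨a, ha, φ, hφ, hlim⟩ := (isCompact_Icc (a := ε) (b := M)).tendsto_subseq' (x := r) hM
    have ha0 : 0 < a := hε.trans_le ha.1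
    refine hc ⟨a, ha0, fun n => ?_⟩
    have hca : ContinuousAt (fun p : E d × ℝ => av h p.1 p.2) (x, a) :=
      (continuousOn_av hh).continuousAt
        ((isOpen_lt continuous_const continuous_snd).mem_nhds ha0)
    refine ge_of_tendsto (hca.tendsto.comp (tendsto_const_nhds.prodMk_nhds hlim)) ?_
    filter_upwards [eventually_ge_atTop n] with k hk
    exact hN n (φ k) (hk.trans (hφ.id_le k))
  · refine hc ⟨1, one_pos, fun n => ?_⟩
    have h1 : 0 ≤ av h x 1 := by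
      rw [av_eq _ x one_pos, smul_eq_mul]
      exact mul_nonneg (inv_nonneg.2 (mul_pos om_pos (pow_pos one_pos d)).le)
        (integral_nonneg h0)
    refine le_trans ?_ h1
    have ht : Tendsto (fun M : ℝ => (∫ y, h y) / om d / M) atTop (𝓝 0) :=
      tendsto_id.const_div_atTop _
    refine ge_of_tendsto ht ?_
    filter_upwards [eventually_ge_atTop 1] with M hM
    have hev : ∀ᶠ k in atTop, ¬ (ε ≤ r k ∧ r k ≤ M) := not_frequently.1 fun hf => hb ⟨M, hf⟩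
    obtain ⟨k, h2, h3, h4⟩ := (hfr.and_eventually (hev.and (eventually_ge_atTop n))).exists
    have h5 : M ≤ r k := by
      by_contra h6
      exact h3 ⟨h2, (not_le.1 h6).le⟩
    exact (hN n k h4).trans (aeN_av_le hd hh h0 _ hM h5)

theorem ae_tendsto_fderivC (hd : 0 < d) {h : E d → ℝ} {μ : E d → E d} (hP : Pair h μ univ)
    (h0 : ∀ x, 0 ≤ h x) :
    ∀ᵐ x, ∃ D : E d →L[ℝ] ℝ, Tendsto (fun n => fderiv ℝ (Nq h n) x) atTop (𝓝 D) := by
  have hh := hP.ih
  have hdiff : ∀ᵐ x, ∀ n, DifferentiableAt ℝ (Nq h n) x := by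
    rw [ae_all_iff]
    intro n
    obtain ⟨L, hL⟩ := lipschitz_Nc hP (Nn_pos n) (Nq_le n)
    exact hL.ae_differentiableAt
  filter_upwards [hdiff, IsUnifLocDoublingMeasure.ae_tendsto_average (volume : Measure (E d))
    hP.im.locallyIntegrable 1] with x hx hleb
  by_cases hc : ∃ r, 0 < r ∧ ∀ n, Nq h n x ≤ av h x r
  · obtain ⟨r, hr, hle⟩ := hc
    refine ⟨innerSL ℝ (av μ x r), tendsto_const_nhds.congr' ?_⟩
    filter_upwards [aec_scale hr] with n hn
    exact (fderiv_Nc hP (Nn_pos n) (hx n)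
      ⟨hn.1, hn.2, le_antisymm (le_Nc hh (Nn_pos n) x hn.1 hn.2) (hle n)⟩ (subset_univ _)).symm
  · choose r ho using fun n => exists_optC hh (Nn_pos n) (Nq_le n) x
    have hr : ∀ n, 0 < r n := fun n => (Nn_pos n).trans_le (ho n).1
    have hr0 : Tendsto r atTop (𝓝[>] 0) :=
      tendsto_nhdsWithin_iff.2 ⟨aec_radii hd hh h0 hc ho, Eventually.of_forall hr⟩
    have hlim := hleb (fun _ => x) r hr0 (Eventually.of_forall fun n => by
      rw [one_mul]
      exact mem_closedBall_self (hr n).le)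
    refine ⟨innerSL ℝ (μ x), (((innerSL ℝ (E := E d)).continuous.tendsto _).comp hlim).congr
      fun n => ?_⟩
    rw [Nq, fderiv_Nc hP (Nn_pos n) (hx n) (ho n) (subset_univ _), Function.comp_apply,
      aeN_closed μ _ (hr n)]

end Vale.Agent.P137
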