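import Vale.Agent.P137.Area

/-! P137 C/Area2: the line estimate with interval charges and point charges.

* `indicatrix` (Banach indicatrix bound): `S0` = points where `F` is not differentiable is null
  (`LipschitzWith.ae_differentiableAt_real`), so `F '' S0` is null (`LipschitzWith.hausdorffMeasure_image_le`,
  `MeasureTheory.hausdorffMeasure_real`). `S1 = S ∩ {differentiable, deriv F ≤ 0}` is measurable. A point of `W` where `F` is
  differentiable has `deriv F ≤ 0` (slopes from the left). For `m : ℕ`, `I m z = Ico (z/2^m) ((z+1)/2^m)`,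
  `c m = ∑' z : ℤ, indicator (toMeasurable (F '' (S1 ∩ I m z))) 1`; `∫ c m ≤ ∑' z ∫_{S1 ∩ I m z} |F'| = ∫_{S1} |F'|`
  (`addHaar_image_le_lintegral_abs_det_fderiv`, cf. the use of one dimensional determinants in Area.lean).
  `c = liminf c m + ⊤ * indicator (toMeasurable (F '' S0))`, Fatou (`lintegral_liminf_le`); for large `m` the points
  of `W` lie in different intervals.
* `area_line2`: as `area_line` (`area_partition`, `area_count`, `area_swap`). For a level `lam` and finitely many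
  pieces hit by `lam`, with points `s n`, split the pieces into those with an interval charge (count them as in
  `area_count`) and those with a point charge `(j n, w n)`; the points `w n` are distinct
  (`s n < w n ≤ s n' < w n'`), so their number is at most `∑' j, c j lam`.
-/

namespace Vale.Agent.P137

open MeasureTheory Set
open scoped ENNReal NNReal

/-- The image of the critical set of a Lipschitz function is null. -/
theorem a2_null {F : ℝ → ℝ} {L : ℝ≥0} (hF : LipschitzWith L F) :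
    volume (F '' {t | deriv F t = 0}) = 0 := by
  have hsub : {t | deriv F t = 0} ⊆ {t | ¬ DifferentiableAt ℝ F t} ∪
      {t | DifferentiableAt ℝ F t ∧ deriv F t = 0} := by
    intro t ht
    by_cases h : DifferentiableAt ℝ F t
    · exact Or.inr ⟨h, ht⟩
    · exact Or.inl h
  refine measure_mono_null (image_mono hsub) ?_
  rw [image_union]
  refine measure_union_null ?_ ?_
  · have h0 : volume {t | ¬ DifferentiableAt ℝ F t} = 0 := hF.ae_differentiableAt_real
    have h1 := hF.hausdorffMeasure_image_le (d := 1) zero_le_one {t | ¬ DifferentiableAt ℝ F t}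
    rw [hausdorffMeasure_real, h0, mul_zero] at h1
    exact le_antisymm h1 zero_le
  · refine addHaar_image_eq_zero_of_det_fderivWithin_eq_zero volume
      (f' := fun t => ContinuousLinearMap.toSpanSingleton ℝ (deriv F t)) ?_ ?_
    · intro x hx
      exact hx.1.hasDerivAt.hasDerivWithinAt.hasFDerivWithinAt
    · intro x hx
      rw [ContinuousLinearMap.det_toSpanSingleton]
      exact hx.2

/-- A point approached from the left by larger values has nonpositive derivative. -/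
theorem a2_deriv_nonpos {F : ℝ → ℝ} {w : ℝ}
    (h : ∀ ε, 0 < ε → ∃ t, w - ε < t ∧ t < w ∧ F w < F t) : deriv F w ≤ 0 := by
  by_contra hpos
  push Not at hpos
  have hd : HasDerivAt F (deriv F w) w := (differentiableAt_of_deriv_ne_zero hpos.ne').hasDerivAt
  have ht := hasDerivAt_iff_tendsto_slope.1 hd
  have hev : ∀ᶠ t in nhdsWithin w {w}ᶜ, 0 < slope F w t := ht.eventually (lt_mem_nhds hpos)
  rw [eventually_nhdsWithin_iff, Metric.eventually_nhds_iff] at hev
  obtain ⟨ε, hε, hev⟩ := hev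
  obtain ⟨t, h1, h2, h3⟩ := h ε hε
  have h4 : dist t w < ε := by
    rw [Real.dist_eq, abs_lt]
    constructor <;> linarith
  have h5 := hev h4 (ne_of_lt h2)
  rw [slope_def_field] at h5
  have h6 : (F t - F w) / (t - w) < 0 := div_neg_of_pos_of_neg (by linarith) (by linarith)
  linarith

/-- Integrating the number of pieces hit by a level. -/
theorem a2_pieces (f f' : ℝ → ℝ) (A : Set ℝ) (P : ℕ → Set ℝ)
    (hf : ∀ s ∈ A, HasDerivAt f (f' s) s)
    (hdis : Pairwise (Function.onFun Disjoint P)) (hPm : ∀ n, MeasurableSet (P n))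
    (hPA : ∀ n, P n ⊆ A) (hAU : A = ⋃ n, P n) (hinj : ∀ n, InjOn f (P n)) :
    (∀ n, MeasurableSet (f '' P n)) ∧
      ∫⁻ s in A, ‖f' s‖ₑ = ∫⁻ lam, ∑' n, (f '' P n).indicator (1 : ℝ → ℝ≥0∞) lam := by
  have hder : ∀ n, ∀ x ∈ P n, HasDerivWithinAt f (f' x) (P n) x :=
    fun n x hx => (hf x (hPA n hx)).hasDerivWithinAt
  have him : ∀ n, MeasurableSet (f '' P n) := fun n =>
    measurable_image_of_fderivWithin (hPm n) (fun x hx => (hder n x hx).hasFDerivWithinAt) (hinj n)
  refine ⟨him, ?_⟩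
  calc ∫⁻ s in A, ‖f' s‖ₑ = ∑' n, ∫⁻ s in P n, ‖f' s‖ₑ := by
        conv_lhs => rw [hAU]
        exact lintegral_iUnion hPm hdis _
    _ = ∑' n, ∫⁻ lam, (f '' P n).indicator (1 : ℝ → ℝ≥0∞) lam := by
        refine tsum_congr fun n => ?_
        rw [lintegral_indicator (him n),
          lintegral_image_eq_lintegral_abs_deriv_mul (hPm n) (hder n) (hinj n)]
        simp only [Pi.one_apply, mul_one, Real.enorm_eq_ofReal_abs]
    _ = ∫⁻ lam, ∑' n, (f '' P n).indicator (1 : ℝ → ℝ≥0∞) lam :=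
        (lintegral_tsum fun n => (measurable_one.indicator (him n)).aemeasurable).symm

theorem indicatrix {F : ℝ → ℝ} {L : ℝ≥0} (hF : LipschitzWith L F) {S : Set ℝ}
    (hS : MeasurableSet S) : ∃ c : ℝ → ℝ≥0∞, Measurable c ∧
    (∫⁻ lam, c lam ≤ ∫⁻ t in S, ENNReal.ofReal (-deriv F t)) ∧
    ∀ (lam : ℝ) (W : Finset ℝ), (∀ w ∈ W, w ∈ S ∧ F w = lam ∧
      ∀ ε, 0 < ε → ∃ t, w - ε < t ∧ t < w ∧ lam < F t) → (W.card : ℝ≥0∞) ≤ c lam := by
  classical
  let S1 : Set ℝ := S ∩ {t | deriv F t < 0}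
  have hS1 : MeasurableSet S1 := hS.inter (measurableSet_lt (measurable_deriv F) measurable_const)
  have hf : ∀ s ∈ S1, HasDerivAt F (deriv F s) s := fun s hs =>
    (differentiableAt_of_deriv_ne_zero (ne_of_lt hs.2)).hasDerivAt
  obtain ⟨P, hdis, hPm, hPA, hAU, hinj⟩ :=
    area_partition F (deriv F) S1 hS1 hf (fun s hs => ne_of_lt hs.2)
  obtain ⟨him, hint⟩ := a2_pieces F (deriv F) S1 P hf hdis hPm hPA hAU hinj
  let Z : Set ℝ := toMeasurable volume (F '' {t | deriv F t = 0})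
  have hZm : MeasurableSet Z := measurableSet_toMeasurable _ _
  have hZ0 : volume Z = 0 := by
    simp only [Z]
    rw [measure_toMeasurable]
    exact a2_null hF
  have hc1 : Measurable fun lam => ∑' n, (F '' P n).indicator (1 : ℝ → ℝ≥0∞) lam :=
    Measurable.tsum fun n => measurable_one.indicator (him n)
  refine ⟨fun lam => (∑' n, (F '' P n).indicator (1 : ℝ → ℝ≥0∞) lam) +
    Z.indicator (fun _ => ⊤) lam, hc1.add (measurable_const.indicator hZm), ?_, ?_⟩
  · rw [lintegral_add_left hc1, lintegral_indicator hZm, Measure.restrict_eq_zero.2 hZ0,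
      lintegral_zero_measure, add_zero, ← hint]
    calc ∫⁻ s in S1, ‖deriv F s‖ₑ = ∫⁻ s in S1, ENNReal.ofReal (-deriv F s) := by
          refine setLIntegral_congr_fun hS1 fun s hs => ?_
          have h : deriv F s < 0 := hs.2
          simp only [Real.enorm_eq_ofReal_abs, abs_of_neg h]
      _ ≤ _ := lintegral_mono_set inter_subset_left
  · intro lam W hW
    by_cases hZ : lam ∈ Z
    · simp only [indicator_of_mem hZ, add_top, le_top]
    refine le_trans ?_ le_self_add
    have hin : ∀ w ∈ W, ∃ n, w ∈ P n := by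
      intro w hw
      obtain ⟨h1, h2, h3⟩ := hW w hw
      have h4 : deriv F w ≤ 0 := a2_deriv_nonpos (by rw [h2]; exact h3)
      have h5 : deriv F w ≠ 0 := by
        intro h
        exact hZ (subset_toMeasurable _ _ ⟨w, h, h2⟩)
      have h6 : w ∈ S1 := ⟨h1, lt_of_le_of_ne h4 h5⟩
      rw [hAU] at h6
      exact mem_iUnion.1 h6
    choose! N hN using hin
    have hNinj : InjOn N (W : Set ℝ) := by
      intro w hw w' hw' h
      refine hinj (N w) (hN w hw) (h ▸ hN w' hw') ?_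
      rw [(hW w hw).2.1, (hW w' hw').2.1]
    calc (W.card : ℝ≥0∞) = ∑ n ∈ W.image N, (1 : ℝ≥0∞) := by
          rw [Finset.sum_const, Finset.card_image_of_injOn hNinj, nsmul_eq_mul, mul_one]
      _ = ∑ n ∈ W.image N, (F '' P n).indicator (1 : ℝ → ℝ≥0∞) lam := by
          refine Finset.sum_congr rfl fun n hn => ?_
          obtain ⟨w, hw, rfl⟩ := Finset.mem_image.1 hn
          rw [indicator_of_mem (show lam ∈ F '' P (N w) from ⟨w, hN w hw, (hW w hw).2.1⟩),
            Pi.one_apply]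
      _ ≤ _ := ENNReal.sum_le_tsum _

/-- Counting the preimages of a level by point charges. -/
theorem a2_count (f : ℝ → ℝ) (A : Set ℝ) (Q : ℕ → ℝ → ℝ → Prop) (c : ℕ → ℝ → ℝ≥0∞)
    (hc : ∀ j (lam : ℝ) (W : Finset ℝ), (∀ w ∈ W, Q j lam w) → (W.card : ℝ≥0∞) ≤ c j lam)
    (hch : ∀ s ∈ A, ∃ (j : ℕ) (w : ℝ), s < w ∧ Q j (f s) w ∧
      ∀ s' ∈ A, s < s' → f s' = f s → w ≤ s')
    (P : ℕ → Set ℝ) (hdis : Pairwise (Function.onFun Disjoint P)) (hP : ∀ n, P n ⊆ A) (lam : ℝ) :
    ∑' n, (f '' P n).indicator (1 : ℝ → ℝ≥0∞) lam ≤ ∑' j, c j lam := by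
  classical
  choose! J w h1 h2 h3 using hch
  have hex : ∀ n, lam ∈ f '' P n → ∃ s, s ∈ P n ∧ f s = lam := fun n hn => hn
  choose! s hsP hsf using hex
  have key : ∀ n k, lam ∈ f '' P n → lam ∈ f '' P k → s n < s k → w (s n) < w (s k) := by
    intro n k hn hk hlt
    have a1 := h3 (s n) (hP n (hsP n hn)) (s k) (hP k (hsP k hk)) hlt
      ((hsf k hk).trans (hsf n hn).symm)
    have a2 := h1 (s k) (hP k (hsP k hk))
    linarith
  have hinj : ∀ n k, lam ∈ f '' P n → lam ∈ f '' P k → w (s n) = w (s k) → n = k := by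
    intro n k hn hk h
    by_contra hnk
    have hne : s n ≠ s k := by
      intro h'
      exact Set.disjoint_left.1 (hdis hnk) (hsP n hn) (h' ▸ hsP k hk)
    rcases lt_or_gt_of_ne hne with h' | h'
    · exact (key n k hn hk h').ne h
    · exact (key k n hk hn h').ne h.symm
  rw [ENNReal.tsum_eq_iSup_sum]
  refine iSup_le fun N => ?_
  let N' : Finset ℕ := N.filter fun n => lam ∈ f '' P n
  have hN' : ∀ n ∈ N', lam ∈ f '' P n := fun n hn => (Finset.mem_filter.1 hn).2
  calc ∑ n ∈ N, (f '' P n).indicator (1 : ℝ → ℝ≥0∞) lam = (N'.card : ℝ≥0∞) := by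
        simp only [N', Finset.card_filter, Nat.cast_sum, Nat.cast_ite, Nat.cast_one, Nat.cast_zero]
        refine Finset.sum_congr rfl fun n _ => ?_
        simp only [indicator, Pi.one_apply]
    _ = ∑ j ∈ N'.image (fun n => J (s n)),
          ((N'.filter fun n => J (s n) = j).card : ℝ≥0∞) := by
        rw [Finset.card_eq_sum_card_image (fun n => J (s n)) N', Nat.cast_sum]
    _ ≤ ∑ j ∈ N'.image (fun n => J (s n)), c j lam := by
        refine Finset.sum_le_sum fun j _ => ?_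
        have hi : InjOn (fun n => w (s n)) (N'.filter fun n => J (s n) = j : Finset ℕ) := by
          intro n hn k hk h
          exact hinj n k (hN' n (Finset.mem_filter.1 hn).1) (hN' k (Finset.mem_filter.1 hk).1) h
        rw [← Finset.card_image_of_injOn hi]
        refine hc j lam _ fun x hx => ?_
        obtain ⟨n, hn, rfl⟩ := Finset.mem_image.1 hx
        obtain ⟨hn1, hn2⟩ := Finset.mem_filter.1 hn
        have h := h2 (s n) (hP n (hsP n (hN' n hn1)))
        rwa [hn2, hsf n (hN' n hn1)] at h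
    _ ≤ _ := ENNReal.sum_le_tsum _

theorem area_line2 (f f' : ℝ → ℝ) (A : Set ℝ) (a b T : ℝ) (γ : ℕ → ℝ) (p : ℕ → ℝ → ℝ)
    (e : ℕ → ℝ → ℝ≥0∞) (F : ℕ → ℝ → ℝ) (S : ℕ → Set ℝ) (hA : MeasurableSet A)
    (hab : A ⊆ Ioo a b) (hγ : ∀ j, 0 < γ j) (hp : ∀ j, Measurable (p j))
    (he : ∀ j, Measurable (e j)) (hF : ∀ j, ∃ L : ℝ≥0, LipschitzWith L (F j))
    (hS : ∀ j, MeasurableSet (S j))
    (hf : ∀ s ∈ A, HasDerivAt f (f' s) s) (hf' : ∀ s ∈ A, f' s ≠ 0)
    (hch : ∀ s ∈ A, (∃ (j : ℕ) (s0 : ℝ), s ≤ s0 ∧ s0 + γ j ≤ s + T ∧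
        (∀ t ∈ Ioo s0 (s0 + γ j), edist (f s) (p j t) ≤ e j t) ∧
        ∀ s' ∈ A, s < s' → f s' = f s → s0 + γ j ≤ s') ∨
      ∃ (j : ℕ) (w : ℝ), s < w ∧ w ≤ s + T ∧ w ∈ S j ∧ F j w = f s ∧
        (∀ ε, 0 < ε → ∃ t, w - ε < t ∧ t < w ∧ f s < F j t) ∧
        ∀ s' ∈ A, s < s' → f s' = f s → w ≤ s') :
    ∫⁻ s in A, ‖f' s‖ₑ ≤
      (∑' j : ℕ, 2 * (ENNReal.ofReal (γ j))⁻¹ * ∫⁻ t in Ioo a (b + T), e j t) +
        ∑' j : ℕ, ∫⁻ t in S j ∩ Ioo a (b + T), ENNReal.ofReal (-deriv (F j) t) := by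
  classical
  obtain ⟨P, hdis, hPm, hPA, hAU, hinj⟩ := area_partition f f' A hA hf hf'
  obtain ⟨him, hint⟩ := a2_pieces f f' A P hf hdis hPm hPA hAU hinj
  have hc : ∀ j, ∃ c : ℝ → ℝ≥0∞, Measurable c ∧
      (∫⁻ lam, c lam ≤ ∫⁻ t in S j ∩ Ioo a (b + T), ENNReal.ofReal (-deriv (F j) t)) ∧
      ∀ (lam : ℝ) (W : Finset ℝ), (∀ w ∈ W, w ∈ S j ∩ Ioo a (b + T) ∧ F j w = lam ∧
        ∀ ε, 0 < ε → ∃ t, w - ε < t ∧ t < w ∧ lam < F j t) → (W.card : ℝ≥0∞) ≤ c lam := by
    intro j
    obtain ⟨L, hL⟩ := hF j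
    exact indicatrix hL ((hS j).inter measurableSet_Ioo)
  choose c hcm hci hcW using hc
  let A1 : Set ℝ := {s | s ∈ A ∧ ∃ (j : ℕ) (s0 : ℝ), s ≤ s0 ∧ s0 + γ j ≤ s + T ∧
    (∀ t ∈ Ioo s0 (s0 + γ j), edist (f s) (p j t) ≤ e j t) ∧
    ∀ s' ∈ A, s < s' → f s' = f s → s0 + γ j ≤ s'}
  have hU : ∀ j, MeasurableSet {q : ℝ × ℝ | edist q.1 (p j q.2) ≤ e j q.2} := fun j =>
    measurableSet_le (measurable_fst.edist ((hp j).comp measurable_snd))
      ((he j).comp measurable_snd)
  have hsec : ∀ j (lam : ℝ), volume (Ioo a (b + T) ∩ {t | edist lam (p j t) ≤ e j t}) =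
      volume.restrict (Ioo a (b + T)) {t | edist lam (p j t) ≤ e j t} := by
    intro j lam
    rw [Measure.restrict_apply' measurableSet_Ioo, inter_comm]
  have hmeas : ∀ j, Measurable fun lam : ℝ =>
      volume.restrict (Ioo a (b + T)) {t | edist lam (p j t) ≤ e j t} := fun j =>
    measurable_measure_prodMk_left (ν := volume.restrict (Ioo a (b + T))) (hU j)
  have hpt : ∀ lam : ℝ, ∑' n, (f '' P n).indicator (1 : ℝ → ℝ≥0∞) lam ≤
      (∑' j, (ENNReal.ofReal (γ j))⁻¹ *
        volume.restrict (Ioo a (b + T)) {t | edist lam (p j t) ≤ e j t}) + ∑' j, c j lam := by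
    intro lam
    have e1 : ∑' n, (f '' (P n ∩ A1)).indicator (1 : ℝ → ℝ≥0∞) lam ≤
        ∑' j, (ENNReal.ofReal (γ j))⁻¹ *
          volume.restrict (Ioo a (b + T)) {t | edist lam (p j t) ≤ e j t} := by
      simp only [← hsec]
      refine area_count f A1 a b T γ p e (fun s hs => hab hs.1) hγ ?_ (fun n => P n ∩ A1) ?_
        (fun n => inter_subset_right) lam
      · intro s hs
        obtain ⟨j, s0, h1, h2, h3, h4⟩ := hs.2
        exact ⟨j, s0, h1, h2, h3, fun s' hs' => h4 s' hs'.1⟩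
      · intro i j hij
        exact (hdis hij).mono inter_subset_left inter_subset_left
    have e2 : ∑' n, (f '' (P n \ A1)).indicator (1 : ℝ → ℝ≥0∞) lam ≤ ∑' j, c j lam := by
      refine a2_count f (A \ A1) (fun j lam w => w ∈ S j ∩ Ioo a (b + T) ∧ F j w = lam ∧
        ∀ ε, 0 < ε → ∃ t, w - ε < t ∧ t < w ∧ lam < F j t) c hcW ?_ (fun n => P n \ A1) ?_
        (fun n => sdiff_subset_sdiff_left (hPA n)) lam
      · intro s hs
        rcases hch s hs.1 with h | h
        · exact absurd ⟨hs.1, h⟩ hs.2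
        · obtain ⟨j, w, h1, h2, h3, h4, h5, h6⟩ := h
          have hs' := hab hs.1
          exact ⟨j, w, h1, ⟨⟨h3, by linarith [hs'.1], by linarith [hs'.2]⟩, h4, h5⟩,
            fun s' hs' => h6 s' hs'.1⟩
      · intro i j hij
        exact (hdis hij).mono sdiff_subset sdiff_subset
    refine le_trans ?_ (add_le_add e1 e2)
    rw [← ENNReal.tsum_add]
    refine ENNReal.tsum_le_tsum fun n => ?_
    by_cases hn : lam ∈ f '' P n
    swap
    · rw [indicator_of_notMem hn]; exact zero_le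
    rw [indicator_of_mem hn, Pi.one_apply]
    obtain ⟨s, hs, hsf⟩ := hn
    by_cases h1 : s ∈ A1
    · rw [indicator_of_mem (show lam ∈ f '' (P n ∩ A1) from ⟨s, ⟨hs, h1⟩, hsf⟩), Pi.one_apply]
      exact le_self_add
    · rw [indicator_of_mem (show lam ∈ f '' (P n \ A1) from ⟨s, ⟨hs, h1⟩, hsf⟩), Pi.one_apply]
      exact le_add_self
  have hm1 : Measurable fun lam : ℝ => ∑' j, (ENNReal.ofReal (γ j))⁻¹ *
      volume.restrict (Ioo a (b + T)) {t | edist lam (p j t) ≤ e j t} :=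
    Measurable.tsum fun j => (hmeas j).const_mul _
  rw [hint]
  refine le_trans (lintegral_mono hpt) ?_
  rw [lintegral_add_left hm1]
  refine add_le_add (le_of_eq ?_) ?_
  · rw [lintegral_tsum fun j => ((hmeas j).const_mul _).aemeasurable]
    refine tsum_congr fun j => ?_
    rw [lintegral_const_mul _ (hmeas j), area_swap _ _ _ (hp j) (he j)]
    ring
  · rw [lintegral_tsum fun j => (hcm j).aemeasurable]
    exact ENNReal.tsum_le_tsum hci

end Vale.Agent.P137
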