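import Vale.Agent.P137.C.Prof

/-! P137 C/Basic: the basic tests of `μ` at level `k` of a `Sit` (`l = S.lev k`, `τ = S.tau k`,
`√d len l ≤ τ / 100`, `τ ≤ R / 16`).

* `cone_lin`: `Ψ p = X k p • (a • v + b • nn p + c • ν)`, bounded by `30`, zero off `ball x r`, `Lip (A/τ)` by `Lip.smul`
  (`S = ball x r`, there `‖nn p‖ ≤ 1`); `test_cone` with `κ = 1/3000`, `ρ = r`, `ρ' = 2 R`; `tst` is linear.
* `basic`: five instances of `cone_lin` (`inner_v`, `cone.le`, `⟪ν, ξ⟫ ≤ ‖ξ‖`, `|⟪nn p, ξ⟫| ≤ ‖ξ‖`):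
  `(1,0,-1/4)`, `(0,0,1)`, `(0,±1,4)`, `(1,-s,6)`, `(1,-s,-1/4)`.
* `small`: `test_cone` (`κ = 1/5`) for `(4 ε X) • ν ± Φ`, bounded by `5 ε`, `Lip ((4 ε 2^(d+1) + A)/τ)`.
* `deep`: `D = {p | ∃ u ∈ ball x (r - 4τ), idx l p = idx l u}` is `Sat l`, contains the ball and lies in
  `ball x (r - τ)` where `X = 1`. `Pos = ∫_D ⟪ν, μ⟫ + tst (Dᶜ.indicator μ) (X • ν)`; the second term is `≥ -C B`
  (`test_cone` for `Dᶜ.indicator μ`, `BD_indicator_le`), the first equals `∫_D ⟪ν, vk l⟫`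
  (`setIntegral_inner_vk_mu`) and `‖ξ‖ ≤ 2 ⟪ν, ξ⟫ + 3 bd` pointwise.
* `far`, `shell`, `ball0`: `test_osc` with the obvious `S`, `W`.
-/

namespace Vale.Agent.P137

open MeasureTheory Metric Set Filter Topology
open scoped ENNReal NNReal RealInnerProductSpace

variable {d : ℕ}

theorem basic_meas_Sh (x : E d) (r L : ℝ) : MeasurableSet (Sh x r L) :=
  measurableSet_le (by fun_prop) measurable_const

theorem basic_Sh_near {x p u : E d} {r L L' e : ℝ} (hu : u ∈ Sh x r L) (h : ‖p - u‖ ≤ e)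
    (hL : L + e ≤ L') : p ∈ Sh x r L' := by
  have h1 : |‖p - x‖ - ‖u - x‖| ≤ ‖p - u‖ := by
    have := abs_norm_sub_norm_le (p - x) (u - x)
    rwa [sub_sub_sub_cancel_right] at this
  have h2 : |‖u - x‖ - r| ≤ L := hu
  change |‖p - x‖ - r| ≤ L'
  rw [abs_le] at h1 h2 ⊢
  constructor <;> linarith [h1.1, h1.2, h2.1, h2.2]

namespace Sit

theorem basic_X_zero {S : Sit d} (hS : S.Ok) (k : ℕ) {p : E d} (hp : p ∉ ball S.x S.r) :
    S.X k p = 0 := by
  apply hS.X_eq_zero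
  rwa [mem_ball_iff_norm, not_lt] at hp

theorem basic_nn_le {S : Sit d} (hS : S.Ok) {p : E d} (hp : p ∈ ball S.x S.r) : ‖S.nn p‖ ≤ 1 := by
  rw [hS.norm_nn, div_le_one hS.r_pos]
  exact (mem_ball_iff_norm.1 hp).le

theorem basic_rho {S : Sit d} (hS : S.Ok) (k : ℕ) :
    S.r + √(d : ℝ) * S.g.len (S.lev k) ≤ 2 * S.R := by
  have h1 := S.len_lev_le k
  have h2 := S.tau_le k
  have h3 := S.R_pos
  have h4 := hS.r2
  linarith

theorem basic_abs_X (hd : 0 < d) {S : Sit d} (hS : S.Ok) (k : ℕ) (p : E d) : |S.X k p| ≤ 1 := by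
  rw [abs_of_nonneg (hS.X_nonneg hd k p)]
  exact hS.X_le_one hd k p

theorem cone_lin (hd : 0 < d) : ∃ C : ℝ, 0 ≤ C ∧ ∀ (S : Sit d) (k : ℕ) (B a b c : ℝ), S.Ok →
    S.Bd k B → |a| ≤ 10 → |b| ≤ 10 → |c| ≤ 10 →
    (∀ p ∈ ball S.x S.r, ∀ ξ ∈ S.Gd, 1 / 100 * ‖ξ‖ ≤ ⟪a • S.v + b • S.nn p + c • S.ν, ξ⟫) →
    -(C * B) ≤ a * S.Vv k + b * S.Rad k + c * S.Pos k := by
  obtain ⟨C, hC, H⟩ := test_cone hd (κ := 1 / 3000) (by norm_num)
  refine ⟨C * (30 + √(30 * (2 ^ (d + 1) * 30 + 10))), by positivity, ?_⟩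
  intro S k B a b c hS hB ha hb hc hcone
  have hτ := S.tau_pos k
  have hF : ∀ p ∈ ball S.x S.r, ‖a • S.v + b • S.nn p + c • S.ν‖ ≤ 30 := by
    intro p hp
    have h1 : ‖a • S.v‖ ≤ 10 := by rw [norm_smul, hS.nv, Real.norm_eq_abs]; linarith
    have h2 : ‖b • S.nn p‖ ≤ 10 := by
      rw [norm_smul, Real.norm_eq_abs]
      have := basic_nn_le hS hp
      nlinarith [abs_nonneg b, norm_nonneg (S.nn p)]
    have h3 : ‖c • S.ν‖ ≤ 10 := by
      rw [norm_smul, Real.norm_eq_abs]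
      have := hS.cone.norm_le
      nlinarith [abs_nonneg c, norm_nonneg S.ν]
    linarith [norm_add₃_le (a := a • S.v) (b := b • S.nn p) (c := c • S.ν)]
  have hLF : Lip (10 / S.tau k) fun p => a • S.v + b • S.nn p + c • S.ν := by
    refine (((lip_const (a • S.v)).add ((hS.lip_nn' k).const_smul b)).add
      (lip_const (c • S.ν))).mono ?_
    rw [zero_add, add_zero, mul_one_div]
    gcongr
  have hL : Lip ((2 ^ (d + 1) * 30 + 10) / S.tau k)
      fun p => S.X k p • (a • S.v + b • S.nn p + c • S.ν) := by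
    refine (Lip.smul (hS.lip_X hd k) hLF (by positivity) (by positivity) (by norm_num)
      (basic_abs_X hd hS k) (fun p hp => basic_X_zero hS k hp) hF).mono (le_of_eq ?_)
    ring
  have hb30 : ∀ p, ‖S.X k p • (a • S.v + b • S.nn p + c • S.ν)‖ ≤ S.X k p * 30 := by
    intro p
    by_cases hp : p ∈ ball S.x S.r
    · rw [norm_smul, Real.norm_of_nonneg (hS.X_nonneg hd k p)]
      exact mul_le_mul_of_nonneg_left (hF p hp) (hS.X_nonneg hd k p)
    · rw [basic_X_zero hS k hp]; simp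
  have key := H S.g S.μ S.ν S.Gd (fun p => S.X k p • (a • S.v + b • S.nn p + c • S.ν)) 30
    (2 ^ (d + 1) * 30 + 10) (S.tau k) B S.x S.r (2 * S.R) (S.lev k) hS.pair.pair.im hS.cone
    (by positivity) (S.len_lev_le' hd k)
    (fun p => (hb30 p).trans (by linarith [hS.X_le_one hd k p])) hL
    (fun p hp => by rw [basic_X_zero hS k hp, zero_smul])
    (fun p ξ hξ => by
      by_cases hp : p ∈ ball S.x S.r
      · rw [real_inner_smul_left]
        have h1 := hcone p hp ξ hξ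
        have h2 := hS.X_nonneg hd k p
        calc 1 / 3000 * (‖S.X k p • (a • S.v + b • S.nn p + c • S.ν)‖ * ‖ξ‖)
            ≤ 1 / 3000 * (S.X k p * 30 * ‖ξ‖) := by gcongr; exact hb30 p
          _ = S.X k p * (1 / 100 * ‖ξ‖) := by ring
          _ ≤ _ := by gcongr
      · rw [basic_X_zero hS k hp]; simp)
    (basic_rho hS k) hB.1 hB.2
  have e : tst S.μ (fun p => S.X k p • (a • S.v + b • S.nn p + c • S.ν))
      = a * S.Vv k + b * S.Rad k + c * S.Pos k := by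
    have hI : Integrable fun p =>
        a * ⟪S.X k p • S.v, S.μ p⟫ + b * ⟪S.X k p • S.nn p, S.μ p⟫ :=
      ((hS.integrable_Vv hd k).const_mul a).add ((hS.integrable_Rad hd k).const_mul b)
    unfold Vv Rad Pos tst
    rw [← integral_const_mul, ← integral_const_mul, ← integral_const_mul,
      ← integral_add ((hS.integrable_Vv hd k).const_mul a) ((hS.integrable_Rad hd k).const_mul b),
      ← integral_add hI ((hS.integrable_Pos hd k).const_mul c)]
    congr 1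
    funext p
    simp only [inner_add_left, real_inner_smul_left]
    ring
  rwa [e] at key

theorem basic (hd : 0 < d) : ∃ C : ℝ, 0 ≤ C ∧ ∀ (S : Sit d) (k : ℕ) (B : ℝ), S.Ok → S.Bd k B →
    S.Pos k / 4 - C * B ≤ S.Vv k ∧ -(C * B) ≤ S.Pos k ∧ |S.Rad k| ≤ 4 * S.Pos k + C * B ∧
    (∀ s, |s| ≤ 1 → -(6 * S.Pos k) - C * B ≤ S.Vv k - s * S.Rad k) ∧
    ∀ s, 0 ≤ s → s ≤ 1 / 2 → S.Pos k / 4 - C * B ≤ S.Vv k - s * S.Rad k := by
  obtain ⟨C, hC, H⟩ := cone_lin hd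
  refine ⟨C, hC, fun S k B hS hB => ?_⟩
  have hpt : ∀ p ∈ ball S.x S.r, ∀ ξ ∈ S.Gd, 89 / 100 * ‖ξ‖ ≤ ⟪S.v, ξ⟫ ∧ |⟪S.nn p, ξ⟫| ≤ ‖ξ‖ ∧
      ‖ξ‖ ≤ 2 * ⟪S.ν, ξ⟫ ∧ ⟪S.ν, ξ⟫ ≤ ‖ξ‖ := by
    intro p hp ξ hξ
    refine ⟨hS.inner_v hξ, ?_, hS.cone.le ξ hξ, ?_⟩
    · refine (abs_real_inner_le_norm _ _).trans ?_
      have := basic_nn_le hS hp
      nlinarith [norm_nonneg ξ]
    · refine (real_inner_le_norm _ _).trans ?_
      have := hS.cone.norm_le
      nlinarith [norm_nonneg ξ]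
  have G : ∀ a b c : ℝ, |a| ≤ 10 → |b| ≤ 10 → |c| ≤ 10 →
      (∀ t V N W : ℝ, 0 ≤ t → 89 / 100 * t ≤ V → |N| ≤ t → t ≤ 2 * W → W ≤ t →
        1 / 100 * t ≤ a * V + b * N + c * W) →
      -(C * B) ≤ a * S.Vv k + b * S.Rad k + c * S.Pos k := by
    intro a b c ha hb hc h
    refine H S k B a b c hS hB ha hb hc fun p hp ξ hξ => ?_
    obtain ⟨h1, h2, h3, h4⟩ := hpt p hp ξ hξ
    simp only [inner_add_left, real_inner_smul_left]
    exact h _ _ _ _ (norm_nonneg ξ) h1 h2 h3 h4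
  refine ⟨?_, ?_, ?_, ?_, ?_⟩
  · have := G 1 0 (-1 / 4) (by norm_num) (by norm_num) (by norm_num [abs_le])
      (fun t V N W h0 h1 h2 h3 h4 => by linarith)
    linarith
  · have := G 0 0 1 (by norm_num) (by norm_num) (by norm_num)
      (fun t V N W h0 h1 h2 h3 h4 => by linarith)
    linarith
  · have h1 := G 0 1 4 (by norm_num) (by norm_num) (by norm_num)
      (fun t V N W h0 h1 h2 h3 h4 => by linarith [(abs_le.1 h2).1])
    have h2 := G 0 (-1) 4 (by norm_num) (by norm_num) (by norm_num)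
      (fun t V N W h0 h1 h2 h3 h4 => by linarith [(abs_le.1 h2).2])
    rw [abs_le]
    constructor <;> linarith
  · intro s hs
    have := G 1 (-s) 6 (by norm_num) (by rw [abs_neg]; linarith) (by norm_num)
      (fun t V N W h0 h1 h2 h3 h4 => by
        have h5 : s * N ≤ t := by
          calc s * N ≤ |s * N| := le_abs_self _
            _ = |s| * |N| := abs_mul _ _
            _ ≤ 1 * t := by gcongr
            _ = t := one_mul t
        linarith)
    linarith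
  · intro s hs0 hs
    have := G 1 (-s) (-1 / 4) (by norm_num) (by rw [abs_neg, abs_of_nonneg hs0]; linarith)
      (by norm_num [abs_le])
      (fun t V N W h0 h1 h2 h3 h4 => by
        have h5 : s * N ≤ 1 / 2 * t := by
          calc s * N ≤ s * t := by gcongr; exact (le_abs_self _).trans h2
            _ ≤ 1 / 2 * t := by gcongr
        linarith)
    linarith

theorem small (hd : 0 < d) {A : ℝ} (hA : 0 ≤ A) : ∃ C : ℝ, 0 ≤ C ∧ ∀ (S : Sit d) (k : ℕ) (B ε : ℝ)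
    (Φ : E d → E d), S.Ok → S.Bd k B → 0 ≤ ε → (∀ p, ‖Φ p‖ ≤ ε * S.X k p) →
    Lip (A / S.tau k) Φ → |tst S.μ Φ| ≤ 4 * ε * S.Pos k + C * (ε + √ε) * B := by
  obtain ⟨C, hC, H⟩ := test_cone hd (κ := 1 / 5) (by norm_num)
  refine ⟨C * (5 + √(20 * 2 ^ (d + 1)) + √(5 * A)), by positivity, ?_⟩
  have main : ∀ (S : Sit d) (k : ℕ) (B ε : ℝ) (Φ : E d → E d), S.Ok → S.Bd k B → 0 ≤ ε →
      (∀ p, ‖Φ p‖ ≤ ε * S.X k p) → Lip (A / S.tau k) Φ →
      -(C * (5 + √(20 * 2 ^ (d + 1)) + √(5 * A)) * (ε + √ε) * B)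
        ≤ 4 * ε * S.Pos k + tst S.μ Φ := by
    intro S k B ε Φ hS hB hε hΦ hL
    have hτ := S.tau_pos k
    have hν := hS.cone.norm_le
    have hb : ∀ p, ‖(4 * ε) • (S.X k p • S.ν) + Φ p‖ ≤ 5 * ε * S.X k p := by
      intro p
      have h0 := hS.X_nonneg hd k p
      have h1 : ‖(4 * ε) • (S.X k p • S.ν)‖ ≤ 4 * ε * S.X k p := by
        rw [norm_smul, norm_smul, Real.norm_of_nonneg (by positivity), Real.norm_of_nonneg h0]
        gcongr
        exact mul_le_of_le_one_right h0 hν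
      linarith [norm_add_le ((4 * ε) • (S.X k p • S.ν)) (Φ p), hΦ p]
    have hL' : Lip ((4 * ε * 2 ^ (d + 1) + A) / S.tau k)
        fun p => (4 * ε) • (S.X k p • S.ν) + Φ p := by
      refine ((((hS.lip_X hd k).smul_const S.ν).const_smul (4 * ε)).add hL).mono ?_
      rw [abs_of_nonneg (by positivity), add_div, mul_div_assoc]
      gcongr
      exact mul_le_of_le_one_right (by positivity) hν
    have key := H S.g S.μ S.ν S.Gd (fun p => (4 * ε) • (S.X k p • S.ν) + Φ p) (5 * ε)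
      (4 * ε * 2 ^ (d + 1) + A) (S.tau k) B S.x S.r (2 * S.R) (S.lev k) hS.pair.pair.im hS.cone
      (by positivity) (S.len_lev_le' hd k)
      (fun p => (hb p).trans (mul_le_of_le_one_right (by positivity) (hS.X_le_one hd k p))) hL'
      (fun p hp => by
        have := hb p
        rw [basic_X_zero hS k hp, mul_zero] at this
        rw [basic_X_zero hS k hp]
        exact norm_le_zero_iff.1 this)
      (fun p ξ hξ => by
        have h0 := hS.X_nonneg hd k p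
        have h1 := hS.cone.le ξ hξ
        have h2 : -(ε * S.X k p * ‖ξ‖) ≤ ⟪Φ p, ξ⟫ := by
          have h3 := abs_real_inner_le_norm (Φ p) ξ
          have h4 : ‖Φ p‖ * ‖ξ‖ ≤ ε * S.X k p * ‖ξ‖ := by gcongr; exact hΦ p
          linarith [(abs_le.1 (h3.trans h4)).1]
        have h5 : ε * S.X k p * ‖ξ‖ ≤ ε * S.X k p * (2 * ⟪S.ν, ξ⟫) := by gcongr
        rw [inner_add_left, real_inner_smul_left, real_inner_smul_left]
        calc 1 / 5 * (‖(4 * ε) • (S.X k p • S.ν) + Φ p‖ * ‖ξ‖)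
            ≤ 1 / 5 * (5 * ε * S.X k p * ‖ξ‖) := by gcongr; exact hb p
          _ ≤ _ := by linarith)
      (basic_rho hS k) hB.1 hB.2
    have hI : Integrable fun p => ⟪Φ p, S.μ p⟫ :=
      integrable_tst hS.pair.pair.im hL.continuous (M := ε)
        (fun p => (hΦ p).trans (mul_le_of_le_one_right hε (hS.X_le_one hd k p)))
    have hI2 : Integrable fun p => ⟪(4 * ε) • (S.X k p • S.ν), S.μ p⟫ := by
      have := (hS.integrable_Pos hd k).const_mul (4 * ε)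
      refine this.congr (Eventually.of_forall fun p => ?_)
      simp only [real_inner_smul_left]
    rw [tst_add hI2 hI, tst_smul] at key
    refine le_trans ?_ key
    have hs : √(5 * ε * (4 * ε * 2 ^ (d + 1) + A)) ≤ √(20 * 2 ^ (d + 1)) * ε + √(5 * A) * √ε := by
      rw [Real.sqrt_le_iff]
      refine ⟨by positivity, ?_⟩
      have e1 : √(20 * 2 ^ (d + 1) : ℝ) ^ 2 = 20 * 2 ^ (d + 1) := Real.sq_sqrt (by positivity)
      have e2 : √(5 * A) ^ 2 = 5 * A := Real.sq_sqrt (by positivity)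
      have e3 : √ε ^ 2 = ε := Real.sq_sqrt hε
      have e4 : 0 ≤ √(20 * 2 ^ (d + 1) : ℝ) * ε * (√(5 * A) * √ε) := by positivity
      calc 5 * ε * (4 * ε * 2 ^ (d + 1) + A)
          = √(20 * 2 ^ (d + 1) : ℝ) ^ 2 * ε ^ 2 + √(5 * A) ^ 2 * √ε ^ 2 := by
            rw [e1, e2, e3]; ring
        _ ≤ _ := by nlinarith
    have h6 : 5 * ε + √(5 * ε * (4 * ε * 2 ^ (d + 1) + A))
        ≤ (5 + √(20 * 2 ^ (d + 1)) + √(5 * A)) * (ε + √ε) := by
      have a1 : 0 ≤ √(20 * 2 ^ (d + 1) : ℝ) * √ε := by positivity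
      have a2 : 0 ≤ √(5 * A) * ε := by positivity
      have a3 : 0 ≤ √ε := Real.sqrt_nonneg _
      nlinarith
    have hB0 := hB.1
    rw [neg_le_neg_iff, mul_assoc C _ (ε + √ε)]
    gcongr
  intro S k B ε Φ hS hB hε hΦ hL
  have h1 := main S k B ε Φ hS hB hε hΦ hL
  have h2 := main S k B ε (fun p => -Φ p) hS hB hε (fun p => by rw [norm_neg]; exact hΦ p) hL.neg
  rw [tst_neg] at h2
  rw [abs_le]
  constructor <;> linarith

theorem deep (hd : 0 < d) : ∃ C : ℝ, 0 ≤ C ∧ ∀ (S : Sit d) (k : ℕ) (B : ℝ), S.Ok → S.Bd k B →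
    ∫⁻ p in ball S.x (S.r - 4 * S.tau k), S.mm k p ≤
      ENNReal.ofReal (C * (max (S.Pos k) 0 + B)) := by
  obtain ⟨C, hC, H⟩ := test_cone hd (κ := 1 / 2) (by norm_num)
  refine ⟨2 * (C * (1 + √(1 * 2 ^ (d + 1)))) + 4, by positivity, fun S k B hS hB => ?_⟩
  set C1 : ℝ := C * (1 + √(1 * 2 ^ (d + 1))) with hC1
  have hC10 : 0 ≤ C1 := by positivity
  have hτ := S.tau_pos k
  have hν := hS.cone.norm_le
  have hμ := hS.pair.pair.im
  have hB0 := hB.1
  set l := S.lev k with hl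
  set D : Set (E d) := {p | ∃ u ∈ ball S.x (S.r - 4 * S.tau k), S.g.idx l p = S.g.idx l u} with hD
  have hDs : S.g.Sat l D := fun y u e ⟨w, hw, hw'⟩ => ⟨w, hw, e.symm.trans hw'⟩
  have hDm : MeasurableSet D := hDs.measurableSet
  have hD1 : ball S.x (S.r - 4 * S.tau k) ⊆ D := fun p hp => ⟨p, hp, rfl⟩
  have hD2 : ∀ p ∈ D, ‖p - S.x‖ ≤ S.r - S.tau k := by
    rintro p ⟨u, hu, e⟩
    have h1 := S.g.norm_sub_le_of_idx e
    have h2 := S.len_lev_le k
    rw [mem_ball_iff_norm] at hu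
    have h3 : ‖p - S.x‖ ≤ ‖p - u‖ + ‖u - S.x‖ := norm_sub_le_norm_sub_add_norm_sub _ _ _
    linarith
  have hD3 : D ⊆ ball S.x (2 * S.R) := fun p hp => by
    rw [mem_ball_iff_norm]
    linarith [hD2 p hp, hS.r2, S.R_pos]
  have key := H S.g (Dᶜ.indicator S.μ) S.ν S.Gd (fun p => S.X k p • S.ν) 1 (2 ^ (d + 1))
    (S.tau k) B S.x S.r (2 * S.R) l (hμ.indicator hDm.compl) hS.cone (by positivity)
    (S.len_lev_le' hd k)
    (fun p => by
      rw [norm_smul, Real.norm_eq_abs]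
      exact mul_le_one₀ (basic_abs_X hd hS k p) (norm_nonneg _) hν)
    (((hS.lip_X hd k).smul_const S.ν).mono (mul_le_of_le_one_right (by positivity) hν))
    (fun p hp => by rw [basic_X_zero hS k hp, zero_smul])
    (fun p ξ hξ => by
      have h0 := hS.X_nonneg hd k p
      have h1 := hS.cone.le ξ hξ
      rw [real_inner_smul_left, norm_smul, Real.norm_of_nonneg h0]
      calc 1 / 2 * (S.X k p * ‖S.ν‖ * ‖ξ‖) ≤ 1 / 2 * (S.X k p * 1 * (2 * ⟪S.ν, ξ⟫)) := by gcongr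
        _ = _ := by ring)
    (basic_rho hS k) hB0
    ((lintegral_mono fun y => S.g.BD_indicator_le S.μ S.Gd hDs.compl y).trans hB.2)
  have e1 : S.Pos k = (∫ p in D, ⟪S.ν, S.μ p⟫) + tst (Dᶜ.indicator S.μ) fun p => S.X k p • S.ν := by
    unfold Pos tst
    rw [← integral_add_compl hDm (hS.integrable_Pos hd k)]
    congr 1
    · refine setIntegral_congr_fun hDm fun p hp => ?_
      simp only [hS.X_eq_one hd k (hD2 p hp), one_smul]
    · rw [← integral_indicator hDm.compl]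
      congr 1
      funext p
      by_cases hp : p ∈ Dᶜ
      · rw [indicator_of_mem hp, indicator_of_mem hp]
      · rw [indicator_of_notMem hp, indicator_of_notMem hp, inner_zero_right]
  have e2 : ∫ p in D, ⟪S.ν, S.g.vk S.μ l p⟫ = ∫ p in D, ⟪S.ν, S.μ p⟫ :=
    S.g.setIntegral_inner_vk_mu hμ (φ := fun _ => S.ν) (fun _ _ _ => rfl) (fun _ => le_rfl) hDs
  have hbd : ∫⁻ p in D, S.g.bd S.μ S.Gd l p ≤ ENNReal.ofReal B :=
    ((lintegral_mono fun y => S.g.bd_le_BD S.Gd l y).trans (lintegral_mono_set hD3)).trans hB.2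
  have hbd' : ∫⁻ p in D, S.g.bd S.μ S.Gd l p ≠ ⊤ := ne_top_of_le_ne_top ENNReal.ofReal_ne_top hbd
  have hbm : AEMeasurable (S.g.bd S.μ S.Gd l) (volume.restrict D) :=
    (S.g.measurable_bd S.Gd l).aemeasurable
  have hI3 : Integrable (fun p => (S.g.bd S.μ S.Gd l p).toReal) (volume.restrict D) :=
    integrable_toReal_of_lintegral_ne_top hbm hbd'
  have e3 : ∫ p in D, (S.g.bd S.μ S.Gd l p).toReal ≤ B := by
    rw [integral_toReal hbm (ae_lt_top' hbm hbd')]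
    exact ENNReal.toReal_le_of_le_ofReal hB0 hbd
  have hvk := S.g.integrable_vk hμ l
  have hI1 : Integrable (fun p => ⟪S.ν, S.g.vk S.μ l p⟫) (volume.restrict D) :=
    (hvk.const_inner S.ν).integrableOn
  have e4 : ∫ p in D, ‖S.g.vk S.μ l p‖ ≤ 2 * (∫ p in D, ⟪S.ν, S.g.vk S.μ l p⟫)
      + 3 * ∫ p in D, (S.g.bd S.μ S.Gd l p).toReal := by
    rw [← integral_const_mul, ← integral_const_mul,
      ← integral_add (hI1.const_mul 2) (hI3.const_mul 3)]
    refine integral_mono hvk.norm.integrableOn ((hI1.const_mul 2).add (hI3.const_mul 3))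
      fun p => ?_
    dsimp only
    by_cases hp : S.g.vk S.μ l p ∈ S.Gd
    · rw [S.g.bd_of_mem hp]
      simpa using hS.cone.le _ hp
    · rw [S.g.bd_of_notMem hp, toReal_enorm]
      have h1 := abs_real_inner_le_norm S.ν (S.g.vk S.μ l p)
      have h2 : ‖S.ν‖ * ‖S.g.vk S.μ l p‖ ≤ ‖S.g.vk S.μ l p‖ :=
        mul_le_of_le_one_left (norm_nonneg _) hν
      linarith [(abs_le.1 (h1.trans h2)).1]
  have hm0 : 0 ≤ max (S.Pos k) 0 := le_max_right _ _
  have e5 : ∫ p in D, ‖S.g.vk S.μ l p‖ ≤ (2 * C1 + 3) * (max (S.Pos k) 0 + B) := by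
    have h1 : S.Pos k ≤ max (S.Pos k) 0 := le_max_left _ _
    have h2 : 0 ≤ C1 * max (S.Pos k) 0 := mul_nonneg hC10 hm0
    nlinarith
  calc ∫⁻ p in ball S.x (S.r - 4 * S.tau k), S.mm k p
      ≤ ∫⁻ p in D, S.mm k p := lintegral_mono_set hD1
    _ = (∫⁻ p in D, ‖S.g.vk S.μ l p‖ₑ) + ∫⁻ p in D, S.g.BD S.μ S.Gd l p :=
        lintegral_add_left (S.g.measurable_vk S.μ l).enorm _
    _ ≤ ENNReal.ofReal ((2 * C1 + 3) * (max (S.Pos k) 0 + B))
          + ENNReal.ofReal (max (S.Pos k) 0 + B) := by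
        refine add_le_add ?_ ?_
        · rw [← ofReal_integral_norm_eq_lintegral_enorm hvk.integrableOn]
          exact ENNReal.ofReal_le_ofReal e5
        · exact ((lintegral_mono_set hD3).trans hB.2).trans
            (ENNReal.ofReal_le_ofReal (by linarith))
    _ = _ := by
        rw [← ENNReal.ofReal_add (by positivity) (by positivity)]
        congr 1; ring

theorem far (hd : 0 < d) {A : ℝ} (hA : 0 ≤ A) : ∃ C : ℝ, 0 ≤ C ∧ ∀ (S : Sit d) (k : ℕ) (B : ℝ)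
    (y : E d) (Φ : E d → E d), S.Ok → 0 ≤ B → S.Conc k y B → (∀ p, ‖Φ p‖ ≤ A) →
    Lip (A / S.tau k) Φ →
    (∀ p, p ∉ Sh S.x S.r (3 * S.tau k) \ ball y (4 * S.kap k) → Φ p = 0) →
    |tst S.μ Φ| ≤ C * ep k * B := by
  obtain ⟨C, hC, H⟩ := test_osc hd
  refine ⟨C * (A + √(A * A)), by positivity, fun S k B y Φ hS hB hc hΦ hL h0 => ?_⟩
  have hep : 0 ≤ ep k := by unfold ep; positivity
  have h1 := S.len_lev_le k
  have h2 := S.four_tau_le_kap k
  have h3 := S.tau_pos k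
  have key := H S.g S.μ S.ν S.Gd Φ A A (S.tau k) (ep k * B)
    (Sh S.x S.r (3 * S.tau k) \ ball y (4 * S.kap k))
    (Sh S.x S.r (4 * S.tau k) \ ball y (3 * S.kap k)) (S.lev k) hS.pair.pair.im hS.cone hA
    (S.len_lev_le' hd k) hΦ hL h0 ((basic_meas_Sh _ _ _).diff measurableSet_ball)
    (fun p u hu hpu => by
      refine ⟨basic_Sh_near hu.1 hpu (by linarith), fun hp => hu.2 ?_⟩
      rw [mem_ball_iff_norm] at hp ⊢
      have h4 : ‖u - y‖ ≤ ‖u - p‖ + ‖p - y‖ := norm_sub_le_norm_sub_add_norm_sub _ _ _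
      rw [norm_sub_rev u p] at h4
      linarith)
    (by positivity) hc.2
  rwa [← mul_assoc] at key

theorem shell (hd : 0 < d) {A : ℝ} (hA : 0 ≤ A) : ∃ C : ℝ, 0 ≤ C ∧ ∀ (S : Sit d) (k : ℕ) (M : ℝ)
    (Φ : E d → E d), S.Ok → 0 ≤ M →
    ∫⁻ p in Sh S.x S.r (4 * S.tau k), S.mm k p ≤ ENNReal.ofReal M → (∀ p, ‖Φ p‖ ≤ A) →
    Lip (A / S.tau k) Φ → (∀ p, p ∉ Sh S.x S.r (3 * S.tau k) → Φ p = 0) →
    |tst S.μ Φ| ≤ C * M := by
  obtain ⟨C, hC, H⟩ := test_osc hd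
  refine ⟨C * (A + √(A * A)), by positivity, fun S k M Φ hS hM hc hΦ hL h0 => ?_⟩
  have h1 := S.len_lev_le k
  have h3 := S.tau_pos k
  exact H S.g S.μ S.ν S.Gd Φ A A (S.tau k) M (Sh S.x S.r (3 * S.tau k))
    (Sh S.x S.r (4 * S.tau k)) (S.lev k) hS.pair.pair.im hS.cone hA
    (S.len_lev_le' hd k) hΦ hL h0 (basic_meas_Sh _ _ _)
    (fun p u hu hpu => basic_Sh_near hu hpu (by linarith)) hM hc

theorem ball0 (hd : 0 < d) {A : ℝ} (hA : 0 ≤ A) : ∃ C : ℝ, 0 ≤ C ∧ ∀ (S : Sit d) (k : ℕ) (M : ℝ)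
    (Φ : E d → E d), S.Ok → 0 ≤ M →
    ∫⁻ p in ball S.x (2 * S.R), S.mm k p ≤ ENNReal.ofReal M → (∀ p, ‖Φ p‖ ≤ A) →
    Lip (A / S.tau k) Φ → (∀ p, p ∉ ball S.x S.r → Φ p = 0) → |tst S.μ Φ| ≤ C * M := by
  obtain ⟨C, hC, H⟩ := test_osc hd
  refine ⟨C * (A + √(A * A)), by positivity, fun S k M Φ hS hM hc hΦ hL h0 => ?_⟩
  have h1 := basic_rho hS k
  exact H S.g S.μ S.ν S.Gd Φ A A (S.tau k) M (ball S.x S.r)
    (ball S.x (2 * S.R)) (S.lev k) hS.pair.pair.im hS.cone hA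
    (S.len_lev_le' hd k) hΦ hL h0 measurableSet_ball
    (fun p u hu hpu => by
      rw [mem_ball_iff_norm] at hu ⊢
      have h4 : ‖p - S.x‖ ≤ ‖p - u‖ + ‖u - S.x‖ := norm_sub_le_norm_sub_add_norm_sub _ _ _
      linarith) hM hc

end Sit

end Vale.Agent.P137
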