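import Vale.Agent.P137.C.CLip

/-! P137 C/Bump: scaled bump functions and the tangential integration by parts.

* `exists_bump`: fix `ζ0 : ContDiffBump (0 : E d)` with `rIn = 1`, `rOut = 2`; `ζ0` and `fderiv ζ0` are smooth with
  compact support, hence bounded and Lipschitz (`ContDiff.lipschitzWith_of_hasCompactSupport`,
  `HasCompactSupport.fderiv`). Put `ζ p = ζ0 ((4 κ)⁻¹ • (p - y))`, chain rule.
* `gam_hasFDerivAt`: `Q ↦ -∫ q in Q..r^2, G √q` has derivative `G √Q` (`intervalIntegral.integral_hasDerivAt_left`,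
  `G ∘ sqrt` is continuous), and `p ↦ ‖p - x‖^2` has derivative `2 ⟪p - x, ·⟫` (`HasFDerivAt.norm_sq`).
* `ibp`: apply `Curl` to `φ = ζ * gam` (`C¹`: `contDiff_one_iff_fderiv`, compact support from `ζ`) with the
  directions `a`, `b`; product rule; expand the inner products.
-/

namespace Vale.Agent.P137

open MeasureTheory Metric Set Filter Topology
open scoped ENNReal NNReal RealInnerProductSpace

variable {d : ℕ}

/-- The properties of a bump at scale `κ` around `y`. -/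
structure IsBump (A : ℝ) (y : E d) (κ : ℝ) (ζ : E d → ℝ) : Prop where
  smooth : ContDiff ℝ 1 ζ
  nonneg : ∀ p, 0 ≤ ζ p
  le_one : ∀ p, ζ p ≤ 1
  one : ∀ p ∈ ball y (4 * κ), ζ p = 1
  zero : ∀ p, p ∉ ball y (8 * κ) → ζ p = 0
  supp : tsupport ζ ⊆ closedBall y (8 * κ)
  lip : Lip (A / κ) ζ
  dnorm : ∀ p, ‖fderiv ℝ ζ p‖ ≤ A / κ
  dlip : Lip (A / κ ^ 2) (fderiv ℝ ζ)
  dzero : ∀ p, p ∉ closedBall y (8 * κ) → fderiv ℝ ζ p = 0

theorem exists_bump : ∃ A : ℝ, 1 ≤ A ∧ ∀ (y : E d) (κ : ℝ), 0 < κ → ∃ ζ, IsBump A y κ ζ := by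
  let ζ0 : ContDiffBump (0 : E d) := ⟨1, 2, one_pos, one_lt_two⟩
  have hs2 : ContDiff ℝ 2 (ζ0 : E d → ℝ) := ζ0.contDiff
  have hs1 : ContDiff ℝ 1 (ζ0 : E d → ℝ) := ζ0.contDiff
  have hcs : HasCompactSupport (ζ0 : E d → ℝ) := ζ0.hasCompactSupport
  have hd1 : ContDiff ℝ 1 (fderiv ℝ (ζ0 : E d → ℝ)) := hs2.fderiv_right (by norm_num)
  obtain ⟨K1, hK1⟩ := ContDiff.lipschitzWith_of_hasCompactSupport hcs hs1 one_ne_zero
  obtain ⟨K2, hK2⟩ := ContDiff.lipschitzWith_of_hasCompactSupport (hcs.fderiv (𝕜 := ℝ)) hd1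
    one_ne_zero
  refine ⟨max 1 (max (K1 : ℝ) K2), le_max_left _ _, fun y κ hκ => ?_⟩
  set A : ℝ := max 1 (max (K1 : ℝ) K2) with hA
  have hA1 : (K1 : ℝ) ≤ A := (le_max_left _ _).trans (le_max_right _ _)
  have hA2 : (K2 : ℝ) ≤ A := (le_max_right _ _).trans (le_max_right _ _)
  have hA0 : 0 ≤ A := K1.2.trans hA1
  set c : ℝ := (4 * κ)⁻¹ with hc
  have hc0 : 0 < c := by positivity
  have hcκ : c ≤ κ⁻¹ := by
    rw [hc]; exact inv_anti₀ hκ (by linarith)
  let T : E d → E d := fun p => c • (p - y)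
  have hT : ∀ p, HasFDerivAt T (c • ContinuousLinearMap.id ℝ (E d)) p := fun p =>
    ((hasFDerivAt_id p).sub_const y).const_smul c
  have hTn : ∀ p, ‖T p‖ = c * ‖p - y‖ := fun p => by
    simp only [T, norm_smul, Real.norm_eq_abs, abs_of_pos hc0]
  have hTd : ∀ p p', ‖T p - T p'‖ = c * ‖p - p'‖ := fun p p' => by
    have : T p - T p' = c • (p - p') := by simp only [T, smul_sub]; abel
    rw [this, norm_smul, Real.norm_eq_abs, abs_of_pos hc0]
  have hfd : ∀ p, fderiv ℝ (fun p => ζ0 (T p)) p = c • fderiv ℝ (ζ0 : E d → ℝ) (T p) := fun p => by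
    have h1 := ((hs1.differentiable one_ne_zero) (T p)).hasFDerivAt.comp p (hT p)
    have h2 : fderiv ℝ (fun p => ζ0 (T p)) p = _ := h1.fderiv
    rw [h2]
    ext v
    simp
  have hz : ∀ p, p ∉ ball y (8 * κ) → ζ0 (T p) = 0 := fun p hp => by
    apply ζ0.zero_of_le_dist
    rw [dist_zero_right, hTn]
    rw [mem_ball, dist_eq_norm, not_lt] at hp
    show (2 : ℝ) ≤ _
    calc (2 : ℝ) = c * (8 * κ) := by rw [hc]; field_simp; norm_num
      _ ≤ c * ‖p - y‖ := by gcongr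
  have hsupp : tsupport (fun p => ζ0 (T p)) ⊆ closedBall y (8 * κ) := by
    apply closure_minimal _ isClosed_closedBall
    intro p hp
    by_contra hn
    exact hp (hz p fun h => hn (ball_subset_closedBall h))
  refine ⟨fun p => ζ0 (T p), ?_, fun p => ζ0.nonneg, fun p => ζ0.le_one, ?_, hz, hsupp, ?_, ?_, ?_,
    ?_⟩
  · exact hs1.comp ((contDiff_id.sub contDiff_const).const_smul c)
  · intro p hp
    apply ζ0.one_of_mem_closedBall
    rw [mem_closedBall, dist_zero_right, hTn]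
    rw [mem_ball, dist_eq_norm] at hp
    show _ ≤ (1 : ℝ)
    calc c * ‖p - y‖ ≤ c * (4 * κ) := by gcongr
      _ = 1 := by rw [hc]; field_simp
  · intro p p'
    have h1 := hK1.dist_le_mul (T p) (T p')
    rw [dist_eq_norm, dist_eq_norm, hTd] at h1
    calc _ ≤ _ := h1
      _ ≤ A * (κ⁻¹ * ‖p - p'‖) := by gcongr
      _ = _ := by rw [div_eq_mul_inv]; ring
  · intro p
    rw [hfd, norm_smul, Real.norm_eq_abs, abs_of_pos hc0]
    have h1 : ‖fderiv ℝ (ζ0 : E d → ℝ) (T p)‖ ≤ K1 := norm_fderiv_le_of_lipschitz ℝ hK1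
    calc _ ≤ κ⁻¹ * A := by gcongr; exact h1.trans hA1
      _ = _ := by rw [div_eq_mul_inv]; ring
  · intro p p'
    rw [hfd, hfd, ← smul_sub, norm_smul, Real.norm_eq_abs, abs_of_pos hc0]
    have h1 := hK2.dist_le_mul (T p) (T p')
    rw [dist_eq_norm, dist_eq_norm, hTd] at h1
    calc _ ≤ c * (K2 * (c * ‖p - p'‖)) := by gcongr
      _ ≤ κ⁻¹ * (A * (κ⁻¹ * ‖p - p'‖)) := by gcongr
      _ = _ := by field_simp
  · intro p hp
    exact fderiv_of_notMem_tsupport ℝ fun h => hp (hsupp h)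

/-- Radial primitive of the profile `G`. -/
noncomputable def gam (G : ℝ → ℝ) (x : E d) (r : ℝ) (p : E d) : ℝ :=
  -((2 * r)⁻¹ * ∫ q in (‖p - x‖ ^ 2)..(r ^ 2), G √q)

theorem gam_hasFDerivAt {G : ℝ → ℝ} (hG : Continuous G) (x : E d) {r : ℝ} (hr : 0 < r) (p : E d) :
    HasFDerivAt (gam G x r) (innerSL ℝ (G ‖p - x‖ • r⁻¹ • (p - x))) p := by
  have hc : Continuous fun q : ℝ => G √q := hG.comp Real.continuous_sqrt
  have h1 : HasDerivAt (fun Q : ℝ => ∫ q in Q..(r ^ 2), G √q) (-G √(‖p - x‖ ^ 2)) (‖p - x‖ ^ 2) :=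
    intervalIntegral.integral_hasDerivAt_left (hc.intervalIntegrable _ _)
      (hc.stronglyMeasurableAtFilter _ _) hc.continuousAt
  have h2 : HasFDerivAt (fun p : E d => ‖p - x‖ ^ 2) _ p :=
    ((hasFDerivAt_id p).sub_const x).norm_sq
  have h3 := ((h1.comp_hasFDerivAt p h2).const_mul (2 * r)⁻¹).neg
  refine h3.congr_fderiv ?_
  ext v
  rw [Real.sqrt_sq (norm_nonneg _)]
  simp
  field_simp

/-- Size of the primitive: `G` is between `0` and an antitone `H`, and vanishes off `[r - τ, r]`. -/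
theorem gam_bound {G H : ℝ → ℝ} (hG : Continuous G) (hH : Antitone H) (h0 : ∀ ρ, 0 ≤ G ρ)
    (hGH : ∀ ρ, G ρ ≤ H ρ) (x : E d) {r τ : ℝ} (hτ : 0 < τ) (hr : τ < r)
    (h1 : ∀ ρ, ρ ≤ r - τ → G ρ = 0) (h2 : ∀ ρ, r ≤ ρ → G ρ = 0) (p : E d) :
    |gam G x r p| ≤ τ * H ‖p - x‖ := by
  have hc : Continuous fun q : ℝ => G √q := hG.comp Real.continuous_sqrt
  set ρ := ‖p - x‖ with hρ
  have hρ0 : 0 ≤ ρ := norm_nonneg _
  have hr0 : 0 < r := hτ.trans hr
  have hH0 : 0 ≤ H ρ := (h0 ρ).trans (hGH ρ)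
  unfold gam
  rw [← hρ, abs_neg, abs_mul, abs_of_pos (by positivity : (0 : ℝ) < (2 * r)⁻¹)]
  rcases le_or_gt r ρ with h | h
  · have : ∫ q in (ρ ^ 2)..(r ^ 2), G √q = 0 := by
      rw [intervalIntegral.integral_congr (g := fun _ => (0 : ℝ))]
      · simp
      · intro q hq
        have h3 : r ^ 2 ≤ ρ ^ 2 := by gcongr
        rw [uIcc_of_ge h3] at hq
        exact h2 _ (Real.le_sqrt_of_sq_le hq.1)
    rw [this, abs_zero, mul_zero]
    positivity
  · set m := max ρ (r - τ) with hm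
    have hm1 : ρ ≤ m := le_max_left _ _
    have hm2 : r - τ ≤ m := le_max_right _ _
    have hm3 : m ≤ r := max_le h.le (by linarith)
    have hm0 : 0 ≤ m := hρ0.trans hm1
    have e1 : ∫ q in (ρ ^ 2)..(m ^ 2), G √q = 0 := by
      rcases le_total ρ (r - τ) with h' | h'
      · rw [intervalIntegral.integral_congr (g := fun _ => (0 : ℝ))]
        · simp
        · intro q hq
          have h3 : ρ ^ 2 ≤ m ^ 2 := by gcongr
          rw [uIcc_of_le h3] at hq
          apply h1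
          rw [hm, max_eq_right h'] at hq
          exact Real.sqrt_le_iff.2 ⟨by linarith, hq.2⟩
      · rw [hm, max_eq_left h', intervalIntegral.integral_same]
    have e2 : ∫ q in (ρ ^ 2)..(r ^ 2), G √q = ∫ q in (m ^ 2)..(r ^ 2), G √q := by
      rw [← intervalIntegral.integral_add_adjacent_intervals (b := m ^ 2)
        (hc.intervalIntegrable _ _) (hc.intervalIntegrable _ _), e1, zero_add]
    have h3 : m ^ 2 ≤ r ^ 2 := by gcongr
    have e3 : ‖∫ q in (m ^ 2)..(r ^ 2), G √q‖ ≤ H ρ * |r ^ 2 - m ^ 2| := by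
      apply intervalIntegral.norm_integral_le_of_norm_le_const
      intro q hq
      rw [uIoc_of_le h3] at hq
      rw [Real.norm_eq_abs, abs_of_nonneg (h0 _)]
      exact (hGH _).trans (hH (hm1.trans (Real.le_sqrt_of_sq_le hq.1.le)))
    rw [Real.norm_eq_abs, abs_of_nonneg (sub_nonneg.2 h3)] at e3
    have e4 : r ^ 2 - m ^ 2 ≤ 2 * r * τ := by nlinarith
    rw [e2]
    calc _ ≤ (2 * r)⁻¹ * (H ρ * (2 * r * τ)) := by
          gcongr
          exact e3.trans (by gcongr)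
      _ = _ := by field_simp

theorem gam_lip {G : ℝ → ℝ} (hG : Continuous G) (h0 : ∀ ρ, 0 ≤ G ρ) (h1 : ∀ ρ, G ρ ≤ 1) (x : E d)
    {r : ℝ} (hr : 0 < r) (h2 : ∀ ρ, r ≤ ρ → G ρ = 0) : Lip 1 (gam G x r) := by
  intro p p'
  refine Convex.norm_image_sub_le_of_norm_hasFDerivWithin_le (𝕜 := ℝ) (s := univ)
    (f' := fun p => innerSL ℝ (G ‖p - x‖ • r⁻¹ • (p - x)))
    (fun q _ => (gam_hasFDerivAt hG x hr q).hasFDerivWithinAt) (fun q _ => ?_) convex_univ
    (mem_univ _) (mem_univ _)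
  rw [innerSL_apply_norm, norm_smul, norm_smul, Real.norm_eq_abs, Real.norm_eq_abs,
    abs_of_nonneg (h0 _), abs_of_pos (inv_pos.2 hr)]
  rcases le_or_gt r ‖q - x‖ with h | h
  · rw [h2 _ h]; simp
  · have : r⁻¹ * ‖q - x‖ ≤ 1 := by
      rw [inv_mul_le_iff₀ hr]; linarith
    exact mul_le_one₀ (h1 _) (by positivity) this

theorem bump_integrable_cs {μ Φ : E d → E d} (hμ : Integrable μ) (hΦ : Continuous Φ)
    (hs : HasCompactSupport Φ) : Integrable fun p => ⟪Φ p, μ p⟫ := by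
  obtain ⟨M, hM⟩ := hs.exists_bound_of_continuous hΦ
  exact integrable_tst hμ hΦ hM

theorem ibp {μ : E d → E d} {O : Set (E d)} (hμ : Integrable μ) (hc : Curl μ O) {G : ℝ → ℝ}
    (hG : Continuous G) (x : E d) {r : ℝ} (hr : 0 < r) {A κ : ℝ} {y : E d} {ζ : E d → ℝ}
    (hζ : IsBump A y κ ζ) (hO : closedBall y (8 * κ) ⊆ O) (a b : E d) :
    tst μ (fun p => (ζ p * G ‖p - x‖) •
        (⟪r⁻¹ • (p - x), b⟫ • a - ⟪r⁻¹ • (p - x), a⟫ • b)) =
      tst μ fun p => gam G x r p • (fderiv ℝ ζ p a • b - fderiv ℝ ζ p b • a) := by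
  have hgd := gam_hasFDerivAt hG x hr
  have hGc : Continuous fun p : E d => G ‖p - x‖ := hG.comp (by fun_prop)
  have hg1 : ContDiff ℝ 1 (gam G x r) := by
    rw [contDiff_one_iff_fderiv]
    refine ⟨fun p => (hgd p).differentiableAt, ?_⟩
    have : fderiv ℝ (gam G x r) = fun p => innerSL ℝ (G ‖p - x‖ • r⁻¹ • (p - x)) :=
      funext fun p => (hgd p).fderiv
    rw [this]
    exact (innerSL ℝ).continuous.comp (hGc.smul (by fun_prop))
  have hζs : HasCompactSupport ζ :=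
    (isCompact_closedBall y (8 * κ)).of_isClosed_subset (isClosed_tsupport _) hζ.supp
  have hζc : Continuous ζ := hζ.smooth.continuous
  have hDc : Continuous (fderiv ℝ ζ) := hζ.smooth.continuous_fderiv one_ne_zero
  have hDs : HasCompactSupport (fderiv ℝ ζ) := hζs.fderiv (𝕜 := ℝ)
  have hgc : Continuous (gam G x r) := hg1.continuous
  have hφ1 : ContDiff ℝ 1 fun p => ζ p * gam G x r p := hζ.smooth.mul hg1
  have hφs : HasCompactSupport fun p => ζ p * gam G x r p := hζs.mul_right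
  have hφO : tsupport (fun p => ζ p * gam G x r p) ⊆ O :=
    (tsupport_mul_subset_left.trans hζ.supp).trans hO
  have hφd : ∀ p v, fderiv ℝ (fun p => ζ p * gam G x r p) p v =
      ζ p * (G ‖p - x‖ * ⟪r⁻¹ • (p - x), v⟫) + gam G x r p * fderiv ℝ ζ p v := fun p v => by
    have h1 := ((hζ.smooth.differentiable one_ne_zero) p).hasFDerivAt.mul (hgd p)
    have h2 : fderiv ℝ (fun p => ζ p * gam G x r p) p = _ := h1.fderiv
    rw [h2]
    simp only [add_apply, smul_apply, innerSL_apply_apply,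
      smul_eq_mul, real_inner_smul_left]
  have key := hc _ hφ1 hφs hφO a b
  have hDφc : Continuous (fderiv ℝ fun p => ζ p * gam G x r p) := hφ1.continuous_fderiv one_ne_zero
  have hDφs : HasCompactSupport (fderiv ℝ fun p => ζ p * gam G x r p) := hφs.fderiv (𝕜 := ℝ)
  have hi : ∀ u v : E d, Integrable fun p =>
      ⟪μ p, u⟫ * fderiv ℝ (fun p => ζ p * gam G x r p) p v := fun u v => by
    have h1 : Continuous fun p => fderiv ℝ (fun p => ζ p * gam G x r p) p v • u :=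
      (hDφc.clm_apply continuous_const).smul continuous_const
    have h2 : HasCompactSupport fun p => fderiv ℝ (fun p => ζ p * gam G x r p) p v • u := by
      refine hDφs.mono fun p hp h0 => hp ?_
      simp only [h0]; simp
    refine (bump_integrable_cs hμ h1 h2).congr (Eventually.of_forall fun p => ?_)
    simp only [inner_smul_left, conj_trivial]
    rw [real_inner_comm, mul_comm]
  have hL : Integrable fun p => ⟪(ζ p * G ‖p - x‖) •
      (⟪r⁻¹ • (p - x), b⟫ • a - ⟪r⁻¹ • (p - x), a⟫ • b), μ p⟫ := by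
    refine bump_integrable_cs hμ ((hζc.mul hGc).smul (by fun_prop)) ?_
    refine hζs.mono fun p hp h0 => hp ?_
    simp only [h0]; simp
  have hR : Integrable fun p =>
      ⟪gam G x r p • (fderiv ℝ ζ p a • b - fderiv ℝ ζ p b • a), μ p⟫ := by
    refine bump_integrable_cs hμ (hgc.smul (((hDc.clm_apply continuous_const).smul
      continuous_const).sub ((hDc.clm_apply continuous_const).smul continuous_const))) ?_
    refine hDs.mono fun p hp h0 => hp ?_
    simp only [h0]; simp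
  unfold tst
  rw [← sub_eq_zero, ← integral_sub hL hR, ← sub_eq_zero.2 key, ← integral_sub (hi a b) (hi b a)]
  refine integral_congr_ae (Eventually.of_forall fun p => ?_)
  simp only [hφd, real_inner_smul_left, inner_sub_left]
  rw [real_inner_comm (μ p) a, real_inner_comm (μ p) b]
  ring

end Vale.Agent.P137
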