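import Vale.Agent.P137.Mart
import Vale.Agent.P137.C.CDefs

/-! P137 C/CGrid: localisation of the martingale and the weights `BE`.

* `vk_indicator`: for `D` saturated at level `k ≤ k'` the cube `cube k' y` is inside `D` or disjoint from it.
* `tsum_BD_le`: `∑_k (15/16)^k ∑_m (3/4)^m b (k+m) = ∑_n b n ∑_{k+m=n} .. ≤ ∑_n 5 (15/16)^n b n`
  (e.g. write each inner series as `∑' n, if k ≤ n then .. else 0` and use `ENNReal.tsum_comm`, or
  `Finset.HasAntidiagonal.sigmaAntidiagonalEquivProd`; `(3/4)^m = (15/16)^m (4/5)^m`).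
* `lintegral_vk_le_cone`: pointwise `‖ξ‖ ≤ 2 ⟪ν, ξ⟫ + 3 bd`, and `setIntegral_inner_vk`.
-/

namespace Vale.Agent.P137

open MeasureTheory Metric Set Filter Topology
open scoped ENNReal NNReal RealInnerProductSpace

variable {d : ℕ}

namespace Grid

variable (g : Grid d) {μ : E d → E d}

theorem cgrid_ratio : (15 / 16 : ℝ≥0∞) * (4 / 5) = 3 / 4 := by
  rw [← ENNReal.toReal_eq_toReal_iff' (by finiteness) (by finiteness)]
  simp only [ENNReal.toReal_mul, ENNReal.toReal_div, ENNReal.toReal_ofNat]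
  norm_num

theorem cgrid_le_one : (4 / 5 : ℝ≥0∞) ≤ 1 :=
  ENNReal.div_le_of_le_mul (by norm_num)

theorem cgrid_geo : ∑' m : ℕ, (4 / 5 : ℝ≥0∞) ^ m = 5 := by
  rw [ENNReal.tsum_geometric]
  have h : (1 - 4 / 5 : ℝ≥0∞) = 5⁻¹ := by
    refine ENNReal.sub_eq_of_eq_add (by finiteness) ?_
    rw [← one_div, ← ENNReal.add_div]
    norm_num
    exact (ENNReal.div_self (by norm_num) (by norm_num)).symm
  rw [h, inv_inv]

theorem vk_indicator (μ : E d → E d) {k k' : ℕ} (hk : k ≤ k') {D : Set (E d)} (hD : g.Sat k D) :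
    g.vk (D.indicator μ) k' = D.indicator (g.vk μ k') := by
  funext y
  have hm : MeasurableSet (g.cube k' y) := (g.sat_cube k' y).measurableSet
  by_cases hy : y ∈ D
  · rw [indicator_of_mem hy, vk, vk]
    exact setAverage_congr_fun hm (Eventually.of_forall fun u hu =>
      indicator_of_mem ((hD.mono hk) y u (Eq.symm hu) hy) _)
  · rw [indicator_of_notMem hy, vk]
    have h : ⨍ u in g.cube k' y, D.indicator μ u = ⨍ _ in g.cube k' y, (0 : E d) :=
      setAverage_congr_fun hm (Eventually.of_forall fun u hu =>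
        indicator_of_notMem (fun h' => hy ((hD.mono hk) u y hu h')) _)
    rw [h]
    simp

theorem BD_indicator_le (μ : E d → E d) (Gd : Set (E d)) {k : ℕ} {D : Set (E d)} (hD : g.Sat k D)
    (y : E d) : g.BD (D.indicator μ) Gd k y ≤ g.BD μ Gd k y := by
  refine ENNReal.tsum_le_tsum fun m => mul_le_mul_right ?_ _
  rw [bd, bd, g.vk_indicator μ (Nat.le_add_right k m) hD]
  by_cases hy : y ∈ D
  · rw [indicator_of_mem hy]
  · rw [indicator_of_notMem hy]
    refine (indicator_le_self _ _ _).trans ?_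
    simp

theorem BD_succ_le (Gd : Set (E d)) (k : ℕ) (y : E d) :
    3 / 4 * g.BD μ Gd (k + 1) y ≤ g.BD μ Gd k y := by
  unfold BD
  rw [← ENNReal.tsum_mul_left]
  refine le_trans (le_of_eq ?_) (ENNReal.tsum_comp_le_tsum_of_injective
    (f := fun m : ℕ => m + 1) (add_left_injective 1) _)
  refine tsum_congr fun m => ?_
  rw [pow_succ', mul_assoc, show k + 1 + m = k + (m + 1) by ring]

theorem lintegral_BD_le (hμ : Integrable μ) (Gd : Set (E d)) (k : ℕ) :
    ∫⁻ y, g.BD μ Gd k y ≤ 4 * ∫⁻ y, ‖μ y‖ₑ := by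
  have h := g.lintegral_BD (μ := μ) Gd k univ
  rw [Measure.restrict_univ] at h
  rw [h]
  refine le_trans ?_ (le_of_eq (congrArg (· * ∫⁻ y, ‖μ y‖ₑ) tsum_geo))
  rw [← ENNReal.tsum_mul_right]
  refine ENNReal.tsum_le_tsum fun m => mul_le_mul_right ?_ _
  have h2 := g.lintegral_vk_le hμ (k := k + m) (S := univ) fun _ _ _ _ => mem_univ _
  rw [Measure.restrict_univ] at h2
  exact (lintegral_mono fun y => g.bd_le Gd (k + m) y).trans h2

theorem measurable_mm (Gd : Set (E d)) (k : ℕ) : Measurable (g.mm μ Gd k) := by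
  exact (g.measurable_vk μ k).enorm.add (g.measurable_BD Gd k)

theorem lintegral_mm_ne_top (hμ : Integrable μ) (Gd : Set (E d)) (k : ℕ) :
    ∫⁻ y, g.mm μ Gd k y ≠ ⊤ := by
  unfold mm
  rw [lintegral_add_left (g.measurable_vk μ k).enorm]
  refine ENNReal.add_ne_top.2 ⟨(g.integrable_vk hμ k).2.ne, ?_⟩
  exact ne_top_of_le_ne_top (ENNReal.mul_ne_top (by norm_num) hμ.2.ne) (g.lintegral_BD_le hμ Gd k)

theorem mm_empty_le (k : ℕ) (y : E d) : g.mm μ ∅ k y ≤ 2 * g.BD μ ∅ k y := by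
  rw [mm, two_mul, ← g.bd_empty k y]
  exact add_le_add_left (g.bd_le_BD ∅ k y) _

theorem measurable_BE (Gd : Set (E d)) (k : ℕ) : Measurable (g.BE μ Gd k) := by
  exact Measurable.tsum fun m => (g.measurable_bd Gd (k + m)).const_mul _

theorem BD_le_BE (Gd : Set (E d)) (k : ℕ) (y : E d) : g.BD μ Gd k y ≤ g.BE μ Gd k y := by
  refine ENNReal.tsum_le_tsum fun m => mul_le_mul_left (pow_le_pow_left' ?_ m) _
  rw [← cgrid_ratio]
  exact mul_le_of_le_one_right' cgrid_le_one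

theorem lintegral_BE (Gd : Set (E d)) (k : ℕ) (S : Set (E d)) :
    ∫⁻ y in S, g.BE μ Gd k y =
      ∑' m : ℕ, (15 / 16 : ℝ≥0∞) ^ m * ∫⁻ y in S, g.bd μ Gd (k + m) y := by
  unfold BE
  rw [lintegral_tsum fun m => ((g.measurable_bd Gd (k + m)).const_mul _).aemeasurable]
  exact tsum_congr fun m => lintegral_const_mul _ (g.measurable_bd Gd (k + m))

theorem tsum_geoE : ∑' m : ℕ, (15 / 16 : ℝ≥0∞) ^ m = 16 := by
  rw [ENNReal.tsum_geometric]
  have h : (1 - 15 / 16 : ℝ≥0∞) = 16⁻¹ := by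
    refine ENNReal.sub_eq_of_eq_add (by finiteness) ?_
    rw [← one_div, ← ENNReal.add_div]
    norm_num
    exact (ENNReal.div_self (by norm_num) (by norm_num)).symm
  rw [h, inv_inv]

theorem tsum_BD_le (Gd : Set (E d)) (l : ℕ) (y : E d) :
    ∑' k : ℕ, (15 / 16 : ℝ≥0∞) ^ k * g.BD μ Gd (l + k) y ≤ 5 * g.BE μ Gd l y := by
  obtain ⟨a, ha⟩ : ∃ a : ℕ → ℝ≥0∞, a = fun n => (15 / 16 : ℝ≥0∞) ^ n * g.bd μ Gd (l + n) y :=
    ⟨_, rfl⟩
  have e1 : ∀ k : ℕ, (15 / 16 : ℝ≥0∞) ^ k * g.BD μ Gd (l + k) y =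
      ∑' m : ℕ, (4 / 5 : ℝ≥0∞) ^ m * a (k + m) := by
    intro k
    rw [BD, ← ENNReal.tsum_mul_left]
    refine tsum_congr fun m => ?_
    rw [ha, ← cgrid_ratio, add_assoc]
    simp only [mul_pow, pow_add]
    ring
  have e2 : g.BE μ Gd l y = ∑' n, a n := by
    rw [ha]
    rfl
  rw [tsum_congr e1, ENNReal.tsum_comm, e2]
  refine le_trans ?_ (le_of_eq (congrArg (· * ∑' n, a n) cgrid_geo))
  rw [← ENNReal.tsum_mul_right]
  refine ENNReal.tsum_le_tsum fun m => ?_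
  rw [ENNReal.tsum_mul_left]
  exact mul_le_mul_right (ENNReal.tsum_comp_le_tsum_of_injective
    (f := fun k : ℕ => k + m) (add_left_injective m) a) _

/-- On a saturated set the mass of finer levels is controlled by the coarse mass and bad mass. -/
theorem lintegral_vk_le_cone (hμ : Integrable μ) {ν : E d} {Gd : Set (E d)} (hG : Cone ν Gd)
    {k k' : ℕ} (hk : k ≤ k') {Z : Set (E d)} (hZ : g.Sat k Z) :
    ∫⁻ y in Z, ‖g.vk μ k' y‖ₑ ≤
      2 * (∫⁻ y in Z, ‖g.vk μ k y‖ₑ) + 3 * ∫⁻ y in Z, g.bd μ Gd k' y := by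
  obtain ⟨b, hb⟩ : ∃ b : E d → ℝ, b = fun y => Gdᶜ.indicator (fun ξ => ‖ξ‖) (g.vk μ k' y) :=
    ⟨_, rfl⟩
  have hb0 : ∀ y, 0 ≤ b y := fun y => by
    rw [hb]
    exact indicator_nonneg (fun ξ _ => norm_nonneg ξ) _
  have hb1 : ∀ y, b y ≤ ‖g.vk μ k' y‖ := fun y => by
    rw [hb]
    exact indicator_le_self' (fun ξ _ => norm_nonneg ξ) _
  have hbm : Measurable b := by
    rw [hb]
    exact (measurable_norm.indicator hG.meas.compl).comp (g.measurable_vk μ k')
  have hbi : Integrable b := (g.integrable_vk hμ k').norm.mono' hbm.aestronglyMeasurable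
    (Eventually.of_forall fun y => by rw [Real.norm_of_nonneg (hb0 y)]; exact hb1 y)
  have hbd : ∀ y, g.bd μ Gd k' y = ENNReal.ofReal (b y) := fun y => by
    rw [hb]
    by_cases hy : g.vk μ k' y ∈ Gd
    · rw [g.bd_of_mem hy]
      simp only [indicator_of_notMem (s := Gdᶜ) (fun h' => h' hy), ENNReal.ofReal_zero]
    · rw [g.bd_of_notMem hy]
      simp only [indicator_of_mem (s := Gdᶜ) hy, ofReal_norm]
  have hν : ∀ ξ : E d, |⟪ν, ξ⟫| ≤ ‖ξ‖ := fun ξ =>
    (abs_real_inner_le_norm ν ξ).trans (mul_le_of_le_one_left (norm_nonneg ξ) hG.norm_le)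
  have hpt : ∀ y, ‖g.vk μ k' y‖ ≤ 2 * ⟪ν, g.vk μ k' y⟫ + 3 * b y := fun y => by
    by_cases hy : g.vk μ k' y ∈ Gd
    · linarith [hG.le _ hy, hb0 y]
    · have e : b y = ‖g.vk μ k' y‖ := by
        rw [hb]
        exact indicator_of_mem (s := Gdᶜ) hy _
      linarith [(abs_le.1 (hν (g.vk μ k' y))).1]
  have hi : ∀ j, Integrable fun y => ⟪ν, g.vk μ j y⟫ := fun j =>
    mart_integrable_inner (φ := fun _ => ν) aestronglyMeasurable_const (fun _ => le_rfl)
      (g.integrable_vk hμ j)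
  have h1 : ∫ y in Z, ‖g.vk μ k' y‖ ≤ ∫ y in Z, (2 * ⟪ν, g.vk μ k' y⟫ + 3 * b y) :=
    integral_mono (g.integrable_vk hμ k').norm.integrableOn
      (((hi k').const_mul 2).add (hbi.const_mul 3)).integrableOn hpt
  rw [integral_add ((hi k').const_mul 2).integrableOn (hbi.const_mul 3).integrableOn,
    integral_const_mul, integral_const_mul,
    g.setIntegral_inner_vk hμ hk (φ := fun _ => ν) (fun _ _ _ => rfl) (fun _ => le_rfl) hZ] at h1
  have h2 : ∫ y in Z, ⟪ν, g.vk μ k y⟫ ≤ ∫ y in Z, ‖g.vk μ k y‖ :=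
    integral_mono (hi k).integrableOn (g.integrable_vk hμ k).norm.integrableOn
      fun y => (le_abs_self _).trans (hν _)
  simp only [hbd]
  rw [← ofReal_integral_norm_eq_lintegral_enorm (g.integrable_vk hμ k').integrableOn,
    ← ofReal_integral_norm_eq_lintegral_enorm (g.integrable_vk hμ k).integrableOn,
    ← ofReal_integral_eq_lintegral_ofReal hbi.integrableOn (Eventually.of_forall hb0)]
  have e2 : ∀ t : ℝ, ENNReal.ofReal (2 * t) = 2 * ENNReal.ofReal t := fun t => by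
    rw [ENNReal.ofReal_mul (by norm_num), ENNReal.ofReal_ofNat]
  have e3 : ∀ t : ℝ, ENNReal.ofReal (3 * t) = 3 * ENNReal.ofReal t := fun t => by
    rw [ENNReal.ofReal_mul (by norm_num), ENNReal.ofReal_ofNat]
  rw [← e2, ← e3]
  refine le_trans (ENNReal.ofReal_le_ofReal ?_) ENNReal.ofReal_add_le
  linarith

theorem lintegral_BE_empty_le (hμ : Integrable μ) {ν : E d} {Gd : Set (E d)} (hG : Cone ν Gd)
    {k : ℕ} {Z : Set (E d)} (hZ : g.Sat k Z) :
    ∫⁻ y in Z, g.BE μ ∅ k y ≤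
      32 * (∫⁻ y in Z, ‖g.vk μ k y‖ₑ) + 3 * ∫⁻ y in Z, g.BE μ Gd k y := by
  have e : ∀ t : ℝ≥0∞, 32 * t = ∑' m : ℕ, (15 / 16 : ℝ≥0∞) ^ m * (2 * t) := fun t => by
    rw [ENNReal.tsum_mul_right, tsum_geoE]
    ring
  rw [lintegral_BE, lintegral_BE, ← ENNReal.tsum_mul_left, e, ← ENNReal.tsum_add]
  refine ENNReal.tsum_le_tsum fun m => ?_
  simp only [bd_empty]
  refine (mul_le_mul_right (g.lintegral_vk_le_cone hμ hG (Nat.le_add_right k m) hZ) _).trans
    (le_of_eq ?_)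
  ring

end Grid


end Vale.Agent.P137
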