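import Vale.Agent.P137.C.CDefs

/-! P137 C/CLip: Lipschitz calculus and linearity of `tst`.

* `Lip.smul`: if `p ∈ S` write `a p • F p - a p' • F p' = (a p - a p') • F p + a p' • (F p - F p')`; the case
  `p' ∈ S` is symmetric; otherwise both terms vanish.
* `Lip.holder`: `‖Φ p - Φ p'‖ ≤ min (2 M) (c ε) ≤ √(2 M c ε)`.
-/

namespace Vale.Agent.P137

open MeasureTheory Metric Set Filter Topology
open scoped ENNReal NNReal RealInnerProductSpace

variable {d : ℕ}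

section Lip

variable {F : Type} [NormedAddCommGroup F]

theorem Lip.mono {c c' : ℝ} {Φ : E d → F} (h : Lip c Φ) (hc : c ≤ c') : Lip c' Φ := by
  intro p p'
  exact (h p p').trans (mul_le_mul_of_nonneg_right hc (norm_nonneg _))

theorem Lip.add {c c' : ℝ} {Φ Ψ : E d → F} (h : Lip c Φ) (h' : Lip c' Ψ) :
    Lip (c + c') fun p => Φ p + Ψ p := by
  intro p p'
  have e : Φ p + Ψ p - (Φ p' + Ψ p') = (Φ p - Φ p') + (Ψ p - Ψ p') := by abel
  rw [e, add_mul]
  exact (norm_add_le _ _).trans (add_le_add (h p p') (h' p p'))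

theorem Lip.sub {c c' : ℝ} {Φ Ψ : E d → F} (h : Lip c Φ) (h' : Lip c' Ψ) :
    Lip (c + c') fun p => Φ p - Ψ p := by
  intro p p'
  have e : Φ p - Ψ p - (Φ p' - Ψ p') = (Φ p - Φ p') - (Ψ p - Ψ p') := by abel
  rw [e, add_mul]
  exact (norm_sub_le _ _).trans (add_le_add (h p p') (h' p p'))

theorem Lip.neg {c : ℝ} {Φ : E d → F} (h : Lip c Φ) : Lip c fun p => -Φ p := by
  intro p p'
  have e : -Φ p - -Φ p' = -(Φ p - Φ p') := by abel
  rw [e, norm_neg]
  exact h p p'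

theorem lip_const (a : F) : Lip 0 fun _ : E d => a := by
  intro p p'
  simp

theorem Lip.const_smul [NormedSpace ℝ F] {c : ℝ} {Φ : E d → F} (h : Lip c Φ) (a : ℝ) :
    Lip (|a| * c) fun p => a • Φ p := by
  intro p p'
  rw [← smul_sub, norm_smul, Real.norm_eq_abs, mul_assoc]
  exact mul_le_mul_of_nonneg_left (h p p') (abs_nonneg _)

theorem Lip.smul_const [NormedSpace ℝ F] {c : ℝ} {a : E d → ℝ} (h : Lip c a) (w : F) :
    Lip (c * ‖w‖) fun p => a p • w := by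
  intro p p'
  rw [← sub_smul, norm_smul, mul_right_comm]
  exact mul_le_mul_of_nonneg_right (h p p') (norm_nonneg _)

theorem Lip.inner_const {c : ℝ} {Φ : E d → E d} (h : Lip c Φ) (w : E d) :
    Lip (c * ‖w‖) fun p => ⟪Φ p, w⟫ := by
  intro p p'
  rw [← inner_sub_left, mul_right_comm]
  exact (norm_inner_le_norm _ _).trans (mul_le_mul_of_nonneg_right (h p p') (norm_nonneg _))

theorem Lip.smul [NormedSpace ℝ F] {c1 c2 M1 M2 : ℝ} {a : E d → ℝ} {Φ : E d → F} {S : Set (E d)}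
    (h1 : Lip c1 a) (h2 : Lip c2 Φ) (hc1 : 0 ≤ c1) (hc2 : 0 ≤ c2) (hM2 : 0 ≤ M2)
    (ha : ∀ p, |a p| ≤ M1) (hS : ∀ p, p ∉ S → a p = 0) (hΦ : ∀ p ∈ S, ‖Φ p‖ ≤ M2) :
    Lip (c1 * M2 + M1 * c2) fun p => a p • Φ p := by
  have hM1 : 0 ≤ M1 := (abs_nonneg _).trans (ha 0)
  have key : ∀ p p', p ∈ S → ‖a p • Φ p - a p' • Φ p'‖ ≤ (c1 * M2 + M1 * c2) * ‖p - p'‖ := by
    intro p p' hp
    have e : a p • Φ p - a p' • Φ p' = (a p - a p') • Φ p + a p' • (Φ p - Φ p') := by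
      rw [sub_smul, smul_sub]
      abel
    rw [e]
    refine (norm_add_le _ _).trans ?_
    rw [norm_smul, norm_smul]
    have b1 : ‖a p - a p'‖ * ‖Φ p‖ ≤ c1 * ‖p - p'‖ * M2 :=
      mul_le_mul (h1 p p') (hΦ p hp) (norm_nonneg _) (by positivity)
    have b2 : ‖a p'‖ * ‖Φ p - Φ p'‖ ≤ M1 * (c2 * ‖p - p'‖) :=
      mul_le_mul (ha p') (h2 p p') (norm_nonneg _) hM1
    nlinarith [b1, b2]
  intro p p'
  by_cases hp : p ∈ S
  · exact key p p' hp
  by_cases hp' : p' ∈ S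
  · rw [norm_sub_rev, norm_sub_rev p]
    exact key p' p hp'
  simp only [hS p hp, hS p' hp', zero_smul, sub_self, norm_zero]
  positivity

theorem Lip.continuous {c : ℝ} {Φ : E d → F} (h : Lip c Φ) : Continuous Φ := by
  have hL : LipschitzWith (Real.toNNReal c) Φ := by
    refine LipschitzWith.of_dist_le_mul fun p p' => ?_
    rw [dist_eq_norm, dist_eq_norm]
    exact (h p p').trans (mul_le_mul_of_nonneg_right (Real.le_coe_toNNReal c) (norm_nonneg _))
  exact hL.continuous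

theorem Lip.holder {c M : ℝ} {Φ : E d → F} (h : Lip c Φ) (hc : 0 ≤ c) (hM : ∀ p, ‖Φ p‖ ≤ M)
    (p p' : E d) : ‖Φ p - Φ p'‖ ≤ √(2 * M * c) * √‖p - p'‖ := by
  have hM0 : 0 ≤ M := (norm_nonneg _).trans (hM p)
  have b1 : ‖Φ p - Φ p'‖ ≤ 2 * M := (norm_sub_le _ _).trans (by linarith [hM p, hM p'])
  have b2 := h p p'
  rw [← Real.sqrt_mul (by positivity)]
  refine Real.le_sqrt_of_sq_le ?_
  rw [sq, mul_assoc (2 * M)]
  exact mul_le_mul b1 b2 (norm_nonneg _) (by positivity)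

end Lip

theorem integrable_tst {μ Φ : E d → E d} (hμ : Integrable μ) (hΦ : Continuous Φ) {M : ℝ}
    (hM : ∀ p, ‖Φ p‖ ≤ M) : Integrable fun p => ⟪Φ p, μ p⟫ := by
  refine Integrable.mono' (hμ.norm.const_mul M)
    (hΦ.aestronglyMeasurable.inner hμ.aestronglyMeasurable) (Eventually.of_forall fun p => ?_)
  exact (norm_inner_le_norm _ _).trans (mul_le_mul_of_nonneg_right (hM p) (norm_nonneg _))

theorem tst_add {μ Φ Ψ : E d → E d} (h1 : Integrable fun p => ⟪Φ p, μ p⟫)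
    (h2 : Integrable fun p => ⟪Ψ p, μ p⟫) : tst μ (fun p => Φ p + Ψ p) = tst μ Φ + tst μ Ψ := by
  simp only [tst, inner_add_left]
  exact integral_add h1 h2

theorem tst_sub {μ Φ Ψ : E d → E d} (h1 : Integrable fun p => ⟪Φ p, μ p⟫)
    (h2 : Integrable fun p => ⟪Ψ p, μ p⟫) : tst μ (fun p => Φ p - Ψ p) = tst μ Φ - tst μ Ψ := by
  simp only [tst, inner_sub_left]
  exact integral_sub h1 h2

theorem tst_smul (μ Φ : E d → E d) (a : ℝ) : tst μ (fun p => a • Φ p) = a * tst μ Φ := by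
  simp only [tst, real_inner_smul_left]
  exact integral_const_mul _ _

theorem tst_neg (μ Φ : E d → E d) : tst μ (fun p => -Φ p) = -tst μ Φ := by
  simp only [tst, inner_neg_left]
  exact integral_neg _


end Vale.Agent.P137
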