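import Vale.Agent.P137.KL
import Vale.Agent.P137.C.CLip
import Vale.Agent.P137.C.CGrid

/-! P137 C/CTest: real valued forms of the key lemma.

* `kl_osc_set`: copy `kl_osc_aux`, `kl_osc` from KL.lean with `ball z ρ` replaced by `S`.
* `test_cone`, `test_osc`: `Lip.holder` with `c = A / τ` gives `Λ √(len k) ≤ √(2 M A)`; pass from `ℝ≥0∞` to `ℝ`
  with `ENNReal.ofReal_le_ofReal_iff`.
-/

namespace Vale.Agent.P137

open MeasureTheory Metric Set Filter Topology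
open scoped ENNReal NNReal RealInnerProductSpace

variable {d : ℕ}

theorem ctest_aux (hd : 0 < d) (g : Grid d) (μ : E d → E d)
    (ν : E d) (Gd : Set (E d)) (Ψ : E d → E d) (M Λ : ℝ) (S W : Set (E d)) (k : ℕ)
    (hμ : Integrable μ) (hG : Cone ν Gd) (hΛ : 0 ≤ Λ) (hM : ∀ y, ‖Ψ y‖ ≤ M)
    (hH : ∀ y y', ‖Ψ y - Ψ y'‖ ≤ Λ * √‖y - y'‖) (hz : ∀ y, y ∉ S → Ψ y = 0)
    (hW : MeasurableSet W) (hSW : ∀ y u, u ∈ S → ‖y - u‖ ≤ √(d : ℝ) * g.len k → y ∈ W) :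
    ENNReal.ofReal (-∫ y, ⟪Ψ y, μ y⟫) ≤ ENNReal.ofReal (10 * √(d : ℝ) * (M + Λ * √(g.len k))) *
      ∫⁻ y in W, (‖g.vk μ k y‖ₑ + g.BD μ Gd k y) := by
  have hq := one_le_sqrt hd
  have hM0 : 0 ≤ M := (norm_nonneg _).trans (hM 0)
  have hs : 0 ≤ Λ * √(g.len k) := by positivity
  have hl : 0 ≤ Λ * √(d : ℝ) * √(g.len k) := by positivity
  refine kl_main g hμ hG k (l := Λ * √(d : ℝ) * √(g.len k)) (K := 0) hM hl le_rfl
    (fun m y u h => kl_hol hd g hΛ hH k m h) ?_ hW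
    (fun _ => {y | ∃ u ∈ S, g.idx k u = g.idx k y})
    ?_ (fun _ => subset_rfl) ?_ (fun m y h h' => absurd h h') ?_ _
    (g.measurable_vk μ k).enorm ?_
  · nlinarith [mul_nonneg (Real.sqrt_nonneg (d : ℝ)) hM0]
  · rintro m y u hyu ⟨w, hw, h⟩
    exact ⟨w, hw, h.trans (g.idx_mono (Nat.le_add_right k m) hyu)⟩
  · rintro m y ⟨w, hw, h⟩
    refine hSW y w hw ?_
    rw [norm_sub_rev]
    exact g.norm_sub_le_of_idx h
  · intro m y hy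
    rw [hz (g.cor (k + m) y) fun h =>
      hy ⟨_, h, g.idx_mono (Nat.le_add_right k m) (g.idx_cor (k + m) y)⟩, norm_zero, zero_mul]
  · intro y _
    refine le_trans (kl_pt0 ?_) (mul_le_mul_right le_self_add _)
    refine (norm_sub_le _ _).trans ?_
    have h2 : ‖(8 * (Λ * √(d : ℝ) * √(g.len k))) • ν‖ ≤ 8 * (Λ * √(d : ℝ) * √(g.len k)) := by
      rw [norm_smul, Real.norm_of_nonneg (by positivity)]
      exact mul_le_of_le_one_right (by positivity) hG.norm_le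
    have h3 := hM (g.cor k y)
    have h4 : M ≤ 10 * √(d : ℝ) * M := le_mul_of_one_le_left hM0 (by nlinarith)
    nlinarith

theorem ctest_real {C : ℝ≥0} {x M A τ l B : ℝ} {I : ℝ≥0∞} (hM : 0 ≤ M) (hA : 0 ≤ A) (hl : 0 < l)
    (hτ : l ≤ τ) (hB : 0 ≤ B) (hI : I ≤ ENNReal.ofReal B)
    (h : ENNReal.ofReal x ≤ C * ENNReal.ofReal (M + √(2 * M * (A / τ)) * √l) * I) :
    x ≤ 2 * C * (M + √(M * A)) * B := by
  have hτ0 : 0 < τ := hl.trans_le hτ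
  have h1 : √(2 * M * (A / τ)) * √l ≤ 2 * √(M * A) := by
    rw [← Real.sqrt_mul (by positivity)]
    refine Real.sqrt_le_iff.2 ⟨by positivity, ?_⟩
    rw [mul_pow, Real.sq_sqrt (by positivity)]
    have h2 : A / τ * l ≤ A := by
      rw [div_mul_eq_mul_div, div_le_iff₀ hτ0]
      exact mul_le_mul_of_nonneg_left hτ hA
    nlinarith [mul_le_mul_of_nonneg_left h2 hM, mul_nonneg hM hA]
  have h3 : ENNReal.ofReal x ≤ ENNReal.ofReal (2 * C * (M + √(M * A)) * B) := by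
    refine h.trans ?_
    rw [ENNReal.ofReal_mul (by positivity), mul_comm 2 (C : ℝ), mul_assoc (C : ℝ),
      ENNReal.ofReal_mul C.coe_nonneg, ENNReal.ofReal_coe_nnreal]
    gcongr
    linarith
  exact (ENNReal.ofReal_le_ofReal_iff (by positivity)).1 h3

theorem kl_osc_set (hd : 0 < d) : ∃ C : ℝ≥0, ∀ (g : Grid d) (μ : E d → E d)
    (ν : E d) (Gd : Set (E d)) (Ψ : E d → E d) (M Λ : ℝ) (S W : Set (E d)) (k : ℕ),
    Integrable μ → Cone ν Gd → 0 ≤ Λ → (∀ y, ‖Ψ y‖ ≤ M) →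
    (∀ y y', ‖Ψ y - Ψ y'‖ ≤ Λ * √‖y - y'‖) → (∀ y, y ∉ S → Ψ y = 0) → MeasurableSet W →
    (∀ y u, u ∈ S → ‖y - u‖ ≤ √(d : ℝ) * g.len k → y ∈ W) →
    ENNReal.ofReal |∫ y, ⟪Ψ y, μ y⟫| ≤ C * ENNReal.ofReal (M + Λ * √(g.len k)) *
      ∫⁻ y in W, g.mm μ Gd k y := by
  refine ⟨Real.toNNReal (10 * √(d : ℝ)), ?_⟩
  intro g μ ν Gd Ψ M Λ S W k hμ hG hΛ hM hH hz hW hSW
  have hC : 0 ≤ 10 * √(d : ℝ) := by positivity
  have h1 := ctest_aux hd g μ ν Gd Ψ M Λ S W k hμ hG hΛ hM hH hz hW hSW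
  have h2 := ctest_aux hd g μ ν Gd (fun y => -Ψ y) M Λ S W k hμ hG hΛ
    (fun y => by rw [norm_neg]; exact hM y)
    (fun y y' => by rw [neg_sub_neg, norm_sub_rev]; exact hH y y')
    (fun y hy => by rw [hz y hy, neg_zero]) hW hSW
  simp only [inner_neg_left, integral_neg, neg_neg] at h2
  rw [ENNReal.ofReal_mul hC] at h1 h2
  rcases abs_choice (∫ y, ⟪Ψ y, μ y⟫) with h | h
  · rw [h]
    exact h2
  · rw [h]
    exact h1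

theorem test_cone (hd : 0 < d) {κ : ℝ} (hκ : 0 < κ) : ∃ C : ℝ, 0 ≤ C ∧ ∀ (g : Grid d)
    (μ : E d → E d) (ν : E d) (Gd : Set (E d)) (Ψ : E d → E d) (M A τ B : ℝ) (z : E d) (ρ ρ' : ℝ)
    (k : ℕ), Integrable μ → Cone ν Gd → 0 ≤ A → g.len k ≤ τ → (∀ y, ‖Ψ y‖ ≤ M) → Lip (A / τ) Ψ →
    (∀ y, y ∉ ball z ρ → Ψ y = 0) → (∀ y, ∀ ξ ∈ Gd, κ * (‖Ψ y‖ * ‖ξ‖) ≤ ⟪Ψ y, ξ⟫) →
    ρ + √(d : ℝ) * g.len k ≤ ρ' → 0 ≤ B →
    ∫⁻ y in ball z ρ', g.BD μ Gd k y ≤ ENNReal.ofReal B →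
    -(C * (M + √(M * A)) * B) ≤ tst μ Ψ := by
  obtain ⟨C, hC⟩ := kl_cone hd hκ
  refine ⟨2 * C, by positivity, ?_⟩
  intro g μ ν Gd Ψ M A τ B z ρ ρ' k hμ hG hA hτ hM hL hz hc hρ hB hI
  have hl := g.len_pos k
  have h := hC g μ ν Gd Ψ M _ z ρ k hμ hG (Real.sqrt_nonneg _) hM
    (hL.holder (div_nonneg hA (hl.le.trans hτ)) hM) hz hc
  exact neg_le.1 (ctest_real ((norm_nonneg _).trans (hM 0)) hA hl hτ hB
    ((lintegral_mono_set (ball_subset_ball hρ)).trans hI) h)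

theorem test_osc (hd : 0 < d) : ∃ C : ℝ, 0 ≤ C ∧ ∀ (g : Grid d)
    (μ : E d → E d) (ν : E d) (Gd : Set (E d)) (Ψ : E d → E d) (M A τ B : ℝ) (S W : Set (E d))
    (k : ℕ), Integrable μ → Cone ν Gd → 0 ≤ A → g.len k ≤ τ → (∀ y, ‖Ψ y‖ ≤ M) → Lip (A / τ) Ψ →
    (∀ y, y ∉ S → Ψ y = 0) → MeasurableSet W →
    (∀ y u, u ∈ S → ‖y - u‖ ≤ √(d : ℝ) * g.len k → y ∈ W) → 0 ≤ B →
    ∫⁻ y in W, g.mm μ Gd k y ≤ ENNReal.ofReal B →
    |tst μ Ψ| ≤ C * (M + √(M * A)) * B := by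
  obtain ⟨C, hC⟩ := kl_osc_set hd
  refine ⟨2 * C, by positivity, ?_⟩
  intro g μ ν Gd Ψ M A τ B S W k hμ hG hA hτ hM hL hz hW hSW hB hI
  have hl := g.len_pos k
  exact ctest_real ((norm_nonneg _).trans (hM 0)) hA hl hτ hB hI
    (hC g μ ν Gd Ψ M _ S W k hμ hG (Real.sqrt_nonneg _) hM
      (hL.holder (div_nonneg hA (hl.le.trans hτ)) hM) hz hW hSW)


end Vale.Agent.P137
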