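import Vale.Agent.P137.Charge
import Vale.Agent.P137.C.Area2
import Vale.Agent.P137.C.CDefs

/-! P137 C/Charge2: integrate `area_line2` over all lines in direction `u` (port of `charge`).

As in Charge.lean with `Φ = A.indicator fun x => ofReal (fderiv N x u)`; on the line through `x` use
`F j (x + t u)` (Lipschitz) and `S j = {t | x + t u ∈ Sp j}`. `deriv (fun t => F j (x + t u)) t = lineDeriv ℝ (F j) (x + t u) u`
(unfold `lineDeriv`, `deriv_comp_const_add`, cf. Loc.lean); `Ψ j = (Sp j).indicator fun y => ofReal (-lineDeriv ℝ (F j) y u)` is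
measurable (`measurable_lineDeriv`), `line_trick` gives the factor `2 Tm`, and `lineDeriv = fderiv` a.e.
(`LipschitzWith.ae_differentiableAt`, `DifferentiableAt.lineDeriv_eq_fderiv`). A later point of `A` is `Act`.
-/

namespace Vale.Agent.P137

open MeasureTheory Metric Set Filter Topology
open scoped ENNReal NNReal RealInnerProductSpace

variable {d : ℕ}

theorem ch2_deriv (F : E d → ℝ) (x u : E d) (t : ℝ) :
    deriv (fun t : ℝ => F (x + t • u)) t = lineDeriv ℝ F (x + t • u) u := by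
  unfold lineDeriv
  have h : (fun s : ℝ => F (x + t • u + s • u)) =
      fun s : ℝ => (fun t : ℝ => F (x + t • u)) (t + s) := by
    funext s
    simp only [add_smul, add_assoc]
  rw [h, deriv_comp_const_add (fun t : ℝ => F (x + t • u)) t 0, add_zero]

theorem ch2_lip {F : E d → ℝ} {L : ℝ≥0} (hF : LipschitzWith L F) (x u : E d) :
    LipschitzWith (L * ‖u‖₊) fun t : ℝ => F (x + t • u) := by
  refine hF.comp (g := fun t : ℝ => x + t • u) ?_
  refine LipschitzWith.of_dist_le_mul fun s t => le_of_eq ?_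
  rw [dist_add_left, dist_eq_norm, ← sub_smul, norm_smul, Real.dist_eq, Real.norm_eq_abs, mul_comm]
  rfl

theorem charge2 (hd : 0 < d) (C : ℝ≥0) : ∃ C' : ℝ≥0, ∀ (h N : E d → ℝ) (A : Set (E d)) (u : E d)
    (Tm : ℝ) (R : ℕ → ℝ) (w : ℕ → E d → ℝ≥0∞) (F : ℕ → E d → ℝ) (Sp : ℕ → Set (E d)),
    Integrable h → MeasurableSet A → (∀ j, 0 < R j) → (∀ j, Measurable (w j)) →
    (∀ j, ∃ L : ℝ≥0, LipschitzWith L (F j)) → (∀ j, MeasurableSet (Sp j)) →
    (∀ x ∈ A, DifferentiableAt ℝ N x ∧ 0 < fderiv ℝ N x u ∧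
      (Chg h N C R w Tm u x ∨ ChgP N F Sp Tm u x)) →
    ∫⁻ x in A, ENNReal.ofReal (fderiv ℝ N x u) ≤
      C' * ((∑' j : ℕ, ∫⁻ y, w j y) +
        ∑' j : ℕ, ∫⁻ y in Sp j, ENNReal.ofReal (-fderiv ℝ (F j) y u)) := by
  have hg := g0_pos hd
  have hom : 0 < om d := om_pos
  refine ⟨C * (4 * om d * 6 ^ d / g0 d).toNNReal + 2, ?_⟩
  intro h N A u Tm R w F Sp hh hA hR hw hF hSp H
  rcases A.eq_empty_or_nonempty with rfl | ⟨x0, hx0⟩
  · simp
  have hT : 0 < Tm := by
    rcases (H x0 hx0).2.2 with ⟨j, s0, h1, h2, -⟩ | ⟨j, s0, h1, h2, -⟩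
    · have := mul_pos hg (hR j)
      linarith
    · linarith
  have hact : ∀ x ∈ A, Act N x := fun x hx => ⟨(H x hx).1, fun h0 => by
    have := (H x hx).2.1
    rw [h0] at this
    simp at this⟩
  set Φ : E d → ℝ≥0∞ := A.indicator fun x => ‖fderiv ℝ N x u‖ₑ with hΦ
  have hΦm : Measurable Φ := (measurable_fderiv_apply_const ℝ N u).enorm.indicator hA
  set e : ℕ → E d → ℝ≥0∞ := fun j y =>
    C * ENNReal.ofReal (R j / R j ^ d) * ∫⁻ v in ball y (6 * R j), w j v with he
  have hem : ∀ j, Measurable (e j) := fun j =>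
    (measurable_lintegral_ball (hw j) _).const_mul _
  set Ψ : ℕ → E d → ℝ≥0∞ := fun j =>
    (Sp j).indicator fun y => ENNReal.ofReal (-lineDeriv ℝ (F j) y u) with hΨ
  have hΨm : ∀ j, Measurable (Ψ j) := fun j => by
    obtain ⟨L, hL⟩ := hF j
    exact (measurable_lineDeriv hL.continuous).neg.ennreal_ofReal.indicator (hSp j)
  have hline : ∀ x : E d, ∫⁻ s in Ioo 0 Tm, Φ (x + s • u) ≤
      (∑' j : ℕ, 2 * (ENNReal.ofReal (g0 d * R j))⁻¹ *
        ∫⁻ t in Ioo 0 (Tm + Tm), e j (x + t • u)) +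
        ∑' j : ℕ, ∫⁻ t in Ioo 0 (Tm + Tm), Ψ j (x + t • u) := by
    intro x
    have hc : Continuous fun s : ℝ => x + s • u := by fun_prop
    have hB : MeasurableSet ((fun s : ℝ => x + s • u) ⁻¹' A) := hc.measurable hA
    have h1 : ∫⁻ s in Ioo 0 Tm, Φ (x + s • u) =
        ∫⁻ s in (fun s : ℝ => x + s • u) ⁻¹' A ∩ Ioo 0 Tm, ‖fderiv ℝ N (x + s • u) u‖ₑ := by
      rw [← Measure.restrict_restrict hB, ← lintegral_indicator hB]
      rfl
    have h1' : ∀ j, ∫⁻ t in Ioo 0 (Tm + Tm), Ψ j (x + t • u) =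
        ∫⁻ t in (fun s : ℝ => x + s • u) ⁻¹' Sp j ∩ Ioo 0 (Tm + Tm),
          ENNReal.ofReal (-deriv (fun t : ℝ => F j (x + t • u)) t) := by
      intro j
      have hB' : MeasurableSet ((fun s : ℝ => x + s • u) ⁻¹' Sp j) := hc.measurable (hSp j)
      rw [← Measure.restrict_restrict hB', ← lintegral_indicator hB']
      simp only [ch2_deriv]
      rfl
    rw [h1]
    simp only [h1']
    refine area_line2 (fun s => N (x + s • u)) (fun s => fderiv ℝ N (x + s • u) u) _ 0 Tm Tm
      (fun j => g0 d * R j) (fun j t => av h (x + t • u) (c0 d * R j)) (fun j t => e j (x + t • u))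
      (fun j t => F j (x + t • u)) (fun j => (fun s : ℝ => x + s • u) ⁻¹' Sp j)
      (hB.inter measurableSet_Ioo) inter_subset_right (fun j => mul_pos hg (hR j))
      (fun j => ((continuous_av hh (mul_pos (c0_pos hd) (hR j))).comp hc).measurable)
      (fun j => (hem j).comp hc.measurable) (fun j => ?_) (fun j => hc.measurable (hSp j))
      (fun s hs => ?_) (fun s hs => ?_) fun s hs => ?_
    · obtain ⟨L, hL⟩ := hF j
      exact ⟨_, ch2_lip hL x u⟩
    · have h2 : HasDerivAt (fun s : ℝ => x + s • u) u s := by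
        simpa using ((hasDerivAt_id s).smul_const u).const_add x
      exact (H _ hs.1).1.hasFDerivAt.comp_hasDerivAt s h2
    · exact (H _ hs.1).2.1.ne'
    · have h6 : ∀ t : ℝ, x + s • u + (t - s) • u = x + t • u := fun t => by
        rw [add_assoc, ← add_smul]; congr 2; ring
      have h7 : ∀ t : ℝ, x + s • u + t • u = x + (s + t) • u := fun t => by
        rw [add_assoc, ← add_smul]
      rcases (H _ hs.1).2.2 with ⟨j, s0, h2, h3, h4, h5⟩ | ⟨j, s0, h2, h3, h4, h5, h8, h9⟩
      · refine Or.inl ⟨j, s + s0, by linarith, by linarith, fun t ht => ?_, fun s' hs' h7 h8 => ?_⟩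
        · have := h4 (t - s) ⟨by linarith [ht.1], by linarith [ht.2]⟩
          rwa [h6] at this
        · have := h5 (s' - s) (by linarith) (by rw [h6]; exact hact _ hs'.1)
            (by rw [h6]; exact h8)
          linarith
      · rw [h7] at h4 h5
        refine Or.inr ⟨j, s + s0, by linarith, by linarith, h4, h5, fun ε hε => ?_,
          fun s' hs' h10 h11 => ?_⟩
        · obtain ⟨t, a1, a2, a3⟩ := h8 ε hε
          rw [h7] at a3
          exact ⟨s + t, by linarith, by linarith, a3⟩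
        · have := h9 (s' - s) (by linarith) (by rw [h6]; exact h11)
          linarith
  have hΨi : ∀ j, ∫⁻ y, Ψ j y = ∫⁻ y in Sp j, ENNReal.ofReal (-fderiv ℝ (F j) y u) := by
    intro j
    obtain ⟨L, hL⟩ := hF j
    rw [hΨ, lintegral_indicator (hSp j)]
    refine lintegral_congr_ae (ae_restrict_of_ae ?_)
    filter_upwards [hL.ae_differentiableAt (μ := volume)] with y hy
    rw [hy.lineDeriv_eq_fderiv]
  have hsum : ENNReal.ofReal Tm * ∫⁻ x, Φ x ≤ ENNReal.ofReal Tm *
      (C * ENNReal.ofReal (4 * om d * 6 ^ d / g0 d) * (∑' j : ℕ, ∫⁻ y, w j y) +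
        2 * ∑' j : ℕ, ∫⁻ y in Sp j, ENNReal.ofReal (-fderiv ℝ (F j) y u)) := by
    have h1 := line_trick hΦm u 0 Tm
    rw [sub_zero] at h1
    rw [← h1]
    refine (lintegral_mono hline).trans (le_of_eq ?_)
    have h2 : ∀ j, Measurable fun x : E d => ∫⁻ t in Ioo 0 (Tm + Tm), e j (x + t • u) := fun j =>
      Measurable.lintegral_prod_right (f := fun (x : E d) (t : ℝ) => e j (x + t • u))
        ((hem j).comp (by fun_prop))
    have h2' : ∀ j, Measurable fun x : E d => ∫⁻ t in Ioo 0 (Tm + Tm), Ψ j (x + t • u) := fun j =>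
      Measurable.lintegral_prod_right (f := fun (x : E d) (t : ℝ) => Ψ j (x + t • u))
        ((hΨm j).comp (by fun_prop))
    rw [lintegral_add_left (Measurable.tsum fun j => (h2 j).const_mul _), mul_add]
    congr 1
    · rw [lintegral_tsum fun j => ((h2 j).const_mul _).aemeasurable, ← ENNReal.tsum_mul_left,
        ← ENNReal.tsum_mul_left]
      refine tsum_congr fun j => ?_
      have hj := hR j
      rw [lintegral_const_mul _ (h2 j), line_trick (hem j), he,
        lintegral_const_mul _ (measurable_lintegral_ball (hw j) _),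
        lintegral_ball_lintegral (hw j) (by positivity),
        ← ENNReal.ofReal_inv_of_pos (by positivity)]
      have h3 : (2 : ℝ≥0∞) * ENNReal.ofReal (g0 d * R j)⁻¹ * ENNReal.ofReal (Tm + Tm - 0) *
          ENNReal.ofReal (R j / R j ^ d) * ENNReal.ofReal (om d * (6 * R j) ^ d) =
          ENNReal.ofReal Tm * ENNReal.ofReal (4 * om d * 6 ^ d / g0 d) := by
        rw [← ENNReal.ofReal_ofNat 2, ← ENNReal.ofReal_mul (by positivity),
          ← ENNReal.ofReal_mul (by positivity), ← ENNReal.ofReal_mul (by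
            rw [sub_zero]; positivity), ← ENNReal.ofReal_mul (by rw [sub_zero]; positivity),
          ← ENNReal.ofReal_mul (by positivity)]
        congr 1
        rw [mul_pow]
        field_simp
        ring
      calc _ = C * ((2 : ℝ≥0∞) * ENNReal.ofReal (g0 d * R j)⁻¹ * ENNReal.ofReal (Tm + Tm - 0) *
          ENNReal.ofReal (R j / R j ^ d) * ENNReal.ofReal (om d * (6 * R j) ^ d)) *
            ∫⁻ y, w j y := by ring
        _ = _ := by rw [h3]; ring
    · rw [lintegral_tsum fun j => (h2' j).aemeasurable, ← ENNReal.tsum_mul_left,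
        ← ENNReal.tsum_mul_left]
      refine tsum_congr fun j => ?_
      rw [line_trick (hΨm j), hΨi, sub_zero, ENNReal.ofReal_add hT.le hT.le]
      ring
  have h1 := (ENNReal.mul_le_mul_iff_right (ENNReal.ofReal_pos.2 hT).ne' ENNReal.ofReal_ne_top).1 hsum
  have h2 : ∫⁻ x in A, ENNReal.ofReal (fderiv ℝ N x u) ≤ ∫⁻ x, Φ x := by
    rw [hΦ, lintegral_indicator hA]
    refine lintegral_mono fun x => ?_
    rw [← ofReal_norm]
    exact ENNReal.ofReal_le_ofReal (le_abs_self _)
  refine h2.trans (h1.trans ?_)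
  push_cast
  rw [mul_add]
  refine add_le_add (mul_le_mul_left ?_ _) (mul_le_mul_left ?_ _)
  · exact le_self_add
  · exact le_add_self

end Vale.Agent.P137
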