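import Vale.Agent.P137.Field
import Vale.Agent.P137.C.CDefs

/-! P137 C/Chi: the radial profile `chi` and the radial identity.

* `chi_lip`: `t ↦ (t^d)⁻¹` has derivative `-d t^(-d-1)`; on `[r1, r2]` its modulus lies between `d r2^(-d-1)` and
  `d r1^(-d-1)` (mean value theorem, `Convex.norm_image_sub_le_of_norm_deriv_le` / `exists_hasDerivAt_eq_slope`).
  `chi ρ = (u (clamp ρ) - u r2)/(u r1 - u r2)` with `clamp ρ = min r2 (max ρ r1)`, `u t = (t^d)⁻¹`.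
* `fld_radial`: `pz x x σ = x`, the integrand is `indicator {σ | ‖p - x‖ < pr σ} ((om pr^d)⁻¹ (r2-r1)/pr) • (p - x)`;
  use the primitive `σ ↦ -((pr σ)^d)⁻¹ / (d om)` on the interval `[σ0, 1]`,
  `σ0 = (max ‖p-x‖ r1 - r1)/(r2 - r1)` (if `r2 ≤ ‖p - x‖` both sides vanish).
-/

namespace Vale.Agent.P137

open MeasureTheory Metric Set Filter Topology
open scoped ENNReal NNReal RealInnerProductSpace

variable {d : ℕ}

section chi

variable {r1 r2 : ℝ}

theorem chi_u_anti {s t : ℝ} (hs : 0 < s) (hst : s ≤ t) : (t ^ d)⁻¹ ≤ (s ^ d)⁻¹ :=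
  inv_anti₀ (pow_pos hs d) (pow_le_pow_left₀ hs.le hst d)

theorem chi_den_pos (hd : 0 < d) (h1 : 0 < r1) (h2 : r1 < r2) : 0 < (r1 ^ d)⁻¹ - (r2 ^ d)⁻¹ :=
  sub_pos.2 (inv_strictAnti₀ (pow_pos h1 d) (pow_lt_pow_left₀ h2 h1.le hd.ne'))

theorem chi_u_upper {s t : ℝ} (hs : 0 < s) (hst : s ≤ t) :
    (s ^ d)⁻¹ - (t ^ d)⁻¹ ≤ d * (t - s) / (s ^ d * t) := by
  have ht : 0 < t := lt_of_lt_of_le hs hst
  have h0 : (-2 : ℝ) ≤ (s - t) / t := by
    rw [le_div_iff₀ ht]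
    linarith
  have h := one_add_mul_le_pow h0 d
  have e : 1 + (s - t) / t = s / t := by
    field_simp
    ring
  rw [e, div_pow] at h
  have hsd := pow_pos hs d
  have htd := pow_pos ht d
  have e1 : (s ^ d)⁻¹ - (t ^ d)⁻¹ = (s ^ d)⁻¹ * (1 - s ^ d / t ^ d) := by
    field_simp
  have e2 : d * (t - s) / (s ^ d * t) = (s ^ d)⁻¹ * (-(d * ((s - t) / t))) := by
    field_simp
    ring
  rw [e1, e2]
  exact mul_le_mul_of_nonneg_left (by linarith) (inv_pos.2 hsd).le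

theorem chi_u_lower {s t : ℝ} (hs : 0 < s) (hst : s ≤ t) :
    d * (t - s) / (t ^ d * s) ≤ (s ^ d)⁻¹ - (t ^ d)⁻¹ := by
  have ht : 0 < t := lt_of_lt_of_le hs hst
  have h0 : (-2 : ℝ) ≤ (t - s) / s := by
    have : 0 ≤ (t - s) / s := div_nonneg (sub_nonneg.2 hst) hs.le
    linarith
  have h := one_add_mul_le_pow h0 d
  have e : 1 + (t - s) / s = t / s := by
    field_simp
    ring
  rw [e, div_pow] at h
  have hsd := pow_pos hs d
  have htd := pow_pos ht d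
  have e1 : (s ^ d)⁻¹ - (t ^ d)⁻¹ = (t ^ d)⁻¹ * (t ^ d / s ^ d - 1) := by
    field_simp
  have e2 : d * (t - s) / (t ^ d * s) = (t ^ d)⁻¹ * (d * ((t - s) / s)) := by
    field_simp
  rw [e1, e2]
  exact mul_le_mul_of_nonneg_left (by linarith) (inv_pos.2 htd).le

theorem chi_nonneg (hd : 0 < d) (h1 : 0 < r1) (h2 : r1 < r2) (ρ : ℝ) : 0 ≤ chi d r1 r2 ρ :=
  div_nonneg (le_max_left _ _) (chi_den_pos hd h1 h2).le

theorem chi_le_one (hd : 0 < d) (h1 : 0 < r1) (h2 : r1 < r2) (ρ : ℝ) : chi d r1 r2 ρ ≤ 1 := by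
  have hD := chi_den_pos hd h1 h2
  unfold chi
  rw [div_le_one hD]
  exact max_le hD.le (sub_le_sub_right (chi_u_anti h1 (le_max_right _ _)) _)

theorem chi_eq_one (hd : 0 < d) (h1 : 0 < r1) (h2 : r1 < r2) {ρ : ℝ} (h : ρ ≤ r1) :
    chi d r1 r2 ρ = 1 := by
  have hD := chi_den_pos hd h1 h2
  unfold chi
  rw [max_eq_right h, max_eq_right hD.le, div_self hD.ne']

theorem chi_eq_zero (h1 : 0 < r1) (h2 : r1 < r2) {ρ : ℝ} (h : r2 ≤ ρ) : chi d r1 r2 ρ = 0 := by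
  unfold chi
  rw [max_eq_left (sub_nonpos.2 (chi_u_anti (h1.trans h2) (h.trans (le_max_left _ _)))), zero_div]

theorem chi_anti (hd : 0 < d) (h1 : 0 < r1) (h2 : r1 < r2) : Antitone (chi d r1 r2) := by
  intro ρ ρ' h
  unfold chi
  refine div_le_div_of_nonneg_right (max_le_max le_rfl (sub_le_sub_right ?_ _))
    (chi_den_pos hd h1 h2).le
  exact chi_u_anti (lt_of_lt_of_le h1 (le_max_right _ _)) (max_le_max h le_rfl)

theorem chi_mono_left (hd : 0 < d) {r1' : ℝ} (h0 : 0 < r1') (h1 : r1' ≤ r1) (h2 : r1 < r2)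
    (ρ : ℝ) : chi d r1' r2 ρ ≤ chi d r1 r2 ρ := by
  have h3 : 0 < r1 := lt_of_lt_of_le h0 h1
  rcases le_total ρ r1 with h | h
  · rw [chi_eq_one hd h3 h2 h]
    exact chi_le_one hd h0 (lt_of_le_of_lt h1 h2) ρ
  · unfold chi
    rw [max_eq_left h, max_eq_left (h1.trans h)]
    exact div_le_div_of_nonneg_left (le_max_left _ _) (chi_den_pos hd h3 h2)
      (sub_le_sub_right (chi_u_anti h0 h1) _)

theorem chi_u_lip (h1 : 0 < r1) {s t : ℝ} (hs : r1 ≤ s) (ht : r1 ≤ t) :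
    |(s ^ d)⁻¹ - (t ^ d)⁻¹| ≤ d / (r1 ^ d * r1) * |s - t| := by
  wlog hst : s ≤ t generalizing s t
  · rw [abs_sub_comm, abs_sub_comm s t]
    exact this ht hs (le_of_not_ge hst)
  have hs0 : 0 < s := lt_of_lt_of_le h1 hs
  rw [abs_of_nonneg (sub_nonneg.2 (chi_u_anti hs0 hst)), abs_sub_comm,
    abs_of_nonneg (sub_nonneg.2 hst)]
  refine (chi_u_upper hs0 hst).trans ?_
  rw [div_mul_eq_mul_div]
  refine div_le_div_of_nonneg_left (mul_nonneg (Nat.cast_nonneg d) (sub_nonneg.2 hst))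
    (by positivity) ?_
  exact mul_le_mul (pow_le_pow_left₀ h1.le hs d) ht h1.le (by positivity)

theorem chi_lip (hd : 0 < d) (h1 : 0 < r1) (h2 : r1 < r2) (h3 : r2 ≤ 2 * r1) (ρ ρ' : ℝ) :
    |chi d r1 r2 ρ - chi d r1 r2 ρ'| ≤ 2 ^ (d + 1) / (r2 - r1) * |ρ - ρ'| := by
  have hD := chi_den_pos hd h1 h2
  have hd' : (0 : ℝ) < d := Nat.cast_pos.2 hd
  have h21 : 0 < r2 - r1 := sub_pos.2 h2
  have hr2 : 0 < r2 := h1.trans h2
  unfold chi
  rw [← sub_div, abs_div, abs_of_pos hD, div_le_iff₀ hD]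
  have a1 : |max 0 ((max ρ r1 ^ d)⁻¹ - (r2 ^ d)⁻¹) - max 0 ((max ρ' r1 ^ d)⁻¹ - (r2 ^ d)⁻¹)| ≤
      |(max ρ r1 ^ d)⁻¹ - (max ρ' r1 ^ d)⁻¹| := by
    rw [max_comm 0, max_comm 0]
    refine (abs_max_sub_max_le_abs _ _ _).trans (le_of_eq ?_)
    congr 1
    ring
  have a2 := chi_u_lip (d := d) h1 (le_max_right ρ r1) (le_max_right ρ' r1)
  have a3 := abs_max_sub_max_le_abs ρ ρ' r1
  have a4 := chi_u_lower (d := d) h1 h2.le
  have a5 : r2 ^ d ≤ 2 ^ d * r1 ^ d := by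
    rw [← mul_pow]
    exact pow_le_pow_left₀ hr2.le h3 d
  have a6 : (d : ℝ) / (r1 ^ d * r1) ≤ 2 ^ (d + 1) / (r2 - r1) * ((r1 ^ d)⁻¹ - (r2 ^ d)⁻¹) := by
    refine le_trans ?_ (mul_le_mul_of_nonneg_left a4 (by positivity))
    have e : 2 ^ (d + 1) / (r2 - r1) * (d * (r2 - r1) / (r2 ^ d * r1)) =
        d * (2 * 2 ^ d) / (r2 ^ d * r1) := by
      field_simp
      ring
    rw [e, div_le_div_iff₀ (by positivity) (by positivity)]
    have b1 : 0 ≤ (2 : ℝ) ^ d * r1 ^ d := by positivity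
    have b2 : 0 ≤ (d : ℝ) * r1 := by positivity
    nlinarith [mul_le_mul_of_nonneg_left a5 b2, mul_nonneg b2 b1]
  calc _ ≤ d / (r1 ^ d * r1) * |ρ - ρ'| :=
        a1.trans (a2.trans (mul_le_mul_of_nonneg_left a3 (by positivity)))
    _ ≤ 2 ^ (d + 1) / (r2 - r1) * ((r1 ^ d)⁻¹ - (r2 ^ d)⁻¹) * |ρ - ρ'| :=
        mul_le_mul_of_nonneg_right a6 (abs_nonneg _)
    _ = _ := by ring

theorem continuous_chi (hd : 0 < d) (h1 : 0 < r1) (h2 : r1 < r2) : Continuous (chi d r1 r2) := by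
  have _ := chi_den_pos hd h1 h2
  unfold chi
  refine Continuous.div_const (continuous_const.max (Continuous.sub ?_ continuous_const)) _
  refine Continuous.inv₀ (by fun_prop) fun ρ => ?_
  exact (pow_pos (lt_of_lt_of_le h1 (le_max_right _ _)) d).ne'

theorem chi_int (hd : 0 < d) (h1 : 0 < r1) (h2 : r1 < r2) {s : ℝ} (hs0 : 0 ≤ s) (hs1 : s ≤ 1) :
    ∫ σ in Ioc s 1, (om d * pr r1 r2 σ ^ d)⁻¹ * ((r2 - r1) / pr r1 r2 σ) =
      ((pr r1 r2 s ^ d)⁻¹ - (r2 ^ d)⁻¹) / (d * om d) := by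
  have ho : 0 < om d := om_pos
  have hd' : (0 : ℝ) < d := Nat.cast_pos.2 hd
  have hpos : ∀ σ ∈ uIcc s 1, 0 < pr r1 r2 σ := by
    intro σ hσ
    rw [uIcc_of_le hs1] at hσ
    unfold pr
    have := mul_nonneg (hs0.trans hσ.1) (sub_pos.2 h2).le
    linarith
  rw [← intervalIntegral.integral_of_le hs1,
    intervalIntegral.integral_eq_sub_of_hasDerivAt
      (f := fun σ => -(pr r1 r2 σ ^ d)⁻¹ / (d * om d))]
  · have e : pr r1 r2 1 = r2 := by simp [pr]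
    simp only [e]
    ring
  · intro σ hσ
    have hp := hpos σ hσ
    have a1 : HasDerivAt (pr r1 r2) (r2 - r1) σ := by
      have := ((hasDerivAt_id σ).mul_const (r2 - r1)).const_add r1
      rw [one_mul] at this
      exact this
    have a2 := (((a1.fun_pow d).fun_inv (pow_pos hp d).ne').fun_neg).div_const (d * om d)
    refine a2.congr_deriv ?_
    obtain ⟨n, rfl⟩ : ∃ n, d = n + 1 := ⟨d - 1, by omega⟩
    rw [Nat.add_sub_cancel]
    field_simp
    ring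
  · refine ContinuousOn.intervalIntegrable ?_
    have hc := (field_cont_pr r1 r2).continuousOn (s := uIcc s 1)
    refine ContinuousOn.mul (ContinuousOn.inv₀ (continuousOn_const.mul (hc.pow d)) ?_)
      (continuousOn_const.div hc fun σ hσ => (hpos σ hσ).ne')
    intro σ hσ
    exact (mul_pos ho (pow_pos (hpos σ hσ) d)).ne'

theorem fld_radial (hd : 0 < d) (h1 : 0 < r1) (h2 : r1 < r2) (x p : E d) :
    fld x r1 x r2 p =
      ((((r1 ^ d)⁻¹ - (r2 ^ d)⁻¹) / (d * om d)) * chi d r1 r2 ‖p - x‖) • (p - x) := by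
  have hD := chi_den_pos hd h1 h2
  have h21 : 0 < r2 - r1 := sub_pos.2 h2
  have ez : ∀ σ, pz x x σ = x := by
    intro σ
    simp [pz]
  have e : ∀ σ, fldF x r1 x r2 p σ = (fldI x r1 x r2 p).indicator
      (fun σ => (om d * pr r1 r2 σ ^ d)⁻¹ * ((r2 - r1) / pr r1 r2 σ)) σ • (p - x) := by
    intro σ
    by_cases h : σ ∈ fldI x r1 x r2 p
    · rw [fldF_of_mem h, indicator_of_mem h]
      simp only [fldG, ez, sub_self, zero_add, smul_smul]
    · rw [fldF_of_notMem h, indicator_of_notMem h, zero_smul]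
  have hm : ∀ σ, σ ∈ fldI x r1 x r2 p ↔ ‖p - x‖ < r1 + σ * (r2 - r1) := by
    intro σ
    simp only [fldI, mem_setOf_eq, ez, pr]
  rw [fld_def]
  simp only [e]
  rw [integral_smul_const, setIntegral_indicator (measurableSet_fldI _ _ _ _ _)]
  congr 1
  rcases le_or_gt r2 ‖p - x‖ with h | h
  · rw [chi_eq_zero h1 h2 h, mul_zero]
    have : Icc (0 : ℝ) 1 ∩ fldI x r1 x r2 p = ∅ := by
      refine eq_empty_of_forall_notMem fun σ hσ => ?_
      have a := (hm σ).1 hσ.2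
      nlinarith [hσ.1.2]
    rw [this]
    simp
  · set m := max ‖p - x‖ r1 with hmdef
    have hm1 : r1 ≤ m := le_max_right _ _
    have hm2 : m < r2 := max_lt h h2
    set s := (m - r1) / (r2 - r1) with hs
    have hs0 : 0 ≤ s := div_nonneg (sub_nonneg.2 hm1) h21.le
    have hs1 : s ≤ 1 := by
      rw [hs, div_le_one h21]
      linarith
    have hsm : s * (r2 - r1) = m - r1 := div_mul_cancel₀ _ h21.ne'
    have hae : (Icc (0 : ℝ) 1 ∩ fldI x r1 x r2 p : Set ℝ) =ᵐ[volume] (Ioc s 1 : Set ℝ) := by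
      filter_upwards [Measure.ae_ne volume s] with σ hσ
      refine propext ⟨fun hh => ⟨lt_of_le_of_ne ?_ (Ne.symm hσ), hh.1.2⟩,
        fun hh => ⟨⟨hs0.trans hh.1.le, hh.2⟩, (hm σ).2 ?_⟩⟩
      · have a := (hm σ).1 hh.2
        have b : m ≤ r1 + σ * (r2 - r1) :=
          max_le a.le (le_add_of_nonneg_right (mul_nonneg hh.1.1 h21.le))
        rw [hs, div_le_iff₀ h21]
        linarith
      · have a := mul_lt_mul_of_pos_right hh.1 h21
        have b : ‖p - x‖ ≤ m := le_max_left _ _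
        linarith
    rw [setIntegral_congr_set hae, chi_int hd h1 h2 hs0 hs1]
    have e2 : pr r1 r2 s = m := by
      unfold pr
      linarith
    have e3 : chi d r1 r2 ‖p - x‖ =
        ((m ^ d)⁻¹ - (r2 ^ d)⁻¹) / ((r1 ^ d)⁻¹ - (r2 ^ d)⁻¹) := by
      unfold chi
      rw [← hmdef, max_eq_right (sub_nonneg.2 (chi_u_anti (lt_of_lt_of_le h1 hm1) hm2.le))]
    rw [e2, e3, div_mul_div_comm, mul_comm (d * om d), mul_div_mul_left _ _ hD.ne']

end chi

theorem ep_pos (k : ℕ) : 0 < ep k := by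
  unfold ep
  positivity

theorem ep_le_one (k : ℕ) : ep k ≤ 1 := pow_le_one₀ (by norm_num) (by norm_num)

theorem ep_succ_le (k : ℕ) : ep (k + 1) ≤ ep k :=
  pow_le_pow_of_le_one (by norm_num) (by norm_num) (by omega)

theorem ep_le_pow (k : ℕ) : ep k ≤ (15 / 16) ^ k :=
  pow_le_pow_of_le_one (by norm_num) (by norm_num) (by omega)

theorem sqrt_ep (k : ℕ) : √(ep k) = (15 / 16) ^ k := by
  unfold ep
  rw [mul_comm, pow_mul, Real.sqrt_sq (by positivity)]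

theorem ep_small {k : ℕ} (hk : 60 ≤ k) : ep k ≤ 1 / 1000 := by
  have h : ep k ≤ (15 / 16) ^ 120 := pow_le_pow_of_le_one (by norm_num) (by norm_num) (by omega)
  refine h.trans ?_
  norm_num

theorem measurableSet_Sh (x : E d) (r L : ℝ) : MeasurableSet (Sh x r L) :=
  (isClosed_le (by fun_prop) continuous_const).measurableSet

end Vale.Agent.P137
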