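import Vale.Agent.P137.C.ConcA
import Vale.Agent.P137.C.Chi

/-! P137 C/Conc: spread out shells with light inner ball are rare.

* `spread`: suppose that for every coordinate `i` there is `a i` with both tails
  `{p ∈ Sh | p i < a i}`, `{p ∈ Sh | a i + κ/√d < p i}` of mass `≤ m = m1/(2d)`. Then the mass of `Sh` outside the box
  `∏ [a i, a i + κ/√d]` (diameter `≤ κ`) is `≤ m1`. If the box meets `Sh` in a point `q`, project `q` radially
  to the sphere (`‖y - q‖ ≤ L ≤ κ`, `q ≠ x` since `r - L > 0`), so the box part lies in `ball y (3κ)`; otherwise take any `y`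
  on the sphere. Contradiction. So for some `i` no such `a` exists; take
  `a0 = sInf {t | m < mass {p i ≤ t}}` (the set is nonempty and bounded below as `Sh` is bounded), the lower
  tail at `a0` has mass `≤ m` (increasing union), so the upper tail beyond `a0 + κ/√d` has mass `> m`, and
  `{p i ≤ a0 + κ/(2√d)}` has mass `> m`.
* `conc`: `W = (w ·).toReal`; for `x ∈ Exc` with data from `spread` put `l = ⌈2 ∫_D W / m⌉₊ + 1 ≤ 2T/m + 2`,
  `T' = l m / 2`; then `x` lies in the set of `second_diff_meas` for the envelope of `T'`, `w = s e_i`,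
  `s = 8 R L/κ'`, `κ' = κ/(2√d)`, `b = 4 R L m`, `c = 4 R T'`. Union over `i` and `l`.
-/

namespace Vale.Agent.P137

open MeasureTheory Metric Set Filter Topology
open scoped ENNReal NNReal RealInnerProductSpace

variable {d : ℕ}

theorem conc_dich (w : E d → ℝ≥0∞) {S : Set (E d)} (f : E d → ℝ) {B δ : ℝ} {m : ℝ≥0∞}
    (hm : 0 < m) (hδ : 0 < δ) (hB : ∀ p ∈ S, |f p| ≤ B) :
    (∃ a, m ≤ ∫⁻ p in {p | p ∈ S ∧ f p ≤ a}, w p ∧
      m ≤ ∫⁻ p in {p | p ∈ S ∧ a + δ ≤ f p}, w p) ∨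
    ∃ a, ∫⁻ p in {p | p ∈ S ∧ f p < a}, w p ≤ m ∧
      ∫⁻ p in {p | p ∈ S ∧ a + 2 * δ < f p}, w p ≤ m := by
  classical
  by_cases hex : ∃ k : ℕ, m ≤ ∫⁻ p in {p | p ∈ S ∧ f p ≤ -B - 1 + k * δ}, w p
  · have h1 := Nat.find_spec hex
    have h0 : Nat.find hex ≠ 0 := by
      intro e
      rw [e] at h1
      have e2 : {p | p ∈ S ∧ f p ≤ -B - 1 + ((0 : ℕ) : ℝ) * δ} = ∅ := by
        refine eq_empty_of_forall_notMem fun p hp => ?_
        have a1 := (abs_le.1 (hB p hp.1)).1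
        have a2 := hp.2
        rw [Nat.cast_zero, zero_mul] at a2
        linarith
      rw [e2, Measure.restrict_empty, lintegral_zero_measure] at h1
      exact absurd h1 (not_le.2 hm)
    obtain ⟨k, hk⟩ := Nat.exists_eq_succ_of_ne_zero h0
    have h2 := not_le.1 (Nat.find_min hex (show k < Nat.find hex by omega))
    rw [hk] at h1
    by_cases h3 : m ≤ ∫⁻ p in {p | p ∈ S ∧ -B - 1 + (k.succ : ℝ) * δ + δ ≤ f p}, w p
    · exact Or.inl ⟨_, h1, h3⟩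
    · refine Or.inr ⟨-B - 1 + k * δ, le_trans (lintegral_mono_set fun p hp => ?_) h2.le,
        le_trans (lintegral_mono_set fun p hp => ?_) (not_le.1 h3).le⟩
      · exact ⟨hp.1, hp.2.le⟩
      · refine ⟨hp.1, ?_⟩
        have := hp.2
        push_cast
        linarith
  · obtain ⟨k, hk⟩ := exists_nat_ge ((2 * B + 1) / δ)
    have h1 := not_le.1 fun h => hex ⟨k, h⟩
    have h2 : 2 * B + 1 ≤ k * δ := (div_le_iff₀ hδ).1 hk
    refine Or.inr ⟨-B - 1 + k * δ, le_trans (lintegral_mono_set fun p hp => ?_) h1.le,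
      le_trans (lintegral_mono_set fun p hp => ?_) h1.le⟩
    · exact ⟨hp.1, hp.2.le⟩
    · have a1 := (abs_le.1 (hB p hp.1)).2
      exact ⟨hp.1, by linarith⟩

theorem conc_box (hd : 0 < d) {κ : ℝ} (hκ : 0 ≤ κ) {p q : E d}
    (h : ∀ i, |p i - q i| ≤ κ / √(d : ℝ)) : ‖p - q‖ ≤ κ := by
  have hd' : (0 : ℝ) < d := by exact_mod_cast hd
  rw [EuclideanSpace.norm_eq]
  refine Real.sqrt_le_iff.2 ⟨hκ, ?_⟩
  have h1 : ∀ i ∈ Finset.univ, ‖(p - q) i‖ ^ 2 ≤ κ ^ 2 / d := by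
    intro i _
    have := pow_le_pow_left₀ (abs_nonneg _) (h i) 2
    rwa [div_pow, Real.sq_sqrt hd'.le] at this
  refine (Finset.sum_le_card_nsmul _ _ _ h1).trans (le_of_eq ?_)
  rw [Finset.card_univ, Fintype.card_fin, nsmul_eq_mul]
  field_simp

theorem conc_proj {x q : E d} {r L : ℝ} (hLr : L < r) (hq : q ∈ Sh x r L) :
    ∃ y : E d, ‖y - x‖ = r ∧ ‖q - y‖ ≤ L := by
  have h1 : |‖q - x‖ - r| ≤ L := hq
  have h2 : 0 < ‖q - x‖ := by linarith [(abs_le.1 h1).1]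
  have hr : 0 < r := lt_of_le_of_lt ((abs_nonneg _).trans h1) hLr
  refine ⟨x + (r / ‖q - x‖) • (q - x), ?_, ?_⟩
  · rw [add_sub_cancel_left, norm_smul, Real.norm_of_nonneg (by positivity),
      div_mul_cancel₀ _ h2.ne']
  · have e : q - (x + (r / ‖q - x‖) • (q - x)) = ((‖q - x‖ - r) / ‖q - x‖) • (q - x) := by
      rw [sub_div, div_self h2.ne', sub_smul, one_smul]
      abel
    rw [e, norm_smul, Real.norm_eq_abs, abs_div, abs_of_pos h2, div_mul_cancel₀ _ h2.ne']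
    exact h1

theorem spread (hd : 0 < d) {w : E d → ℝ≥0∞} (hw : Measurable w) (hfin : ∫⁻ p, w p ≠ ⊤)
    {x : E d} {r L κ m1 : ℝ} (hL : 0 < L) (hLr : L < r) (hκ : L ≤ κ) (hm : 0 < m1)
    (h : ∀ y, ‖y - x‖ = r → ENNReal.ofReal m1 < ∫⁻ p in Sh x r L \ ball y (3 * κ), w p) :
    ∃ (i : Fin d) (a : ℝ),
      ENNReal.ofReal (m1 / (2 * d)) ≤ ∫⁻ p in {p | p ∈ Sh x r L ∧ p i ≤ a}, w p ∧
      ENNReal.ofReal (m1 / (2 * d)) ≤
        ∫⁻ p in {p | p ∈ Sh x r L ∧ a + κ / (2 * √(d : ℝ)) ≤ p i}, w p := by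
  have hd' : (0 : ℝ) < d := by exact_mod_cast hd
  have hκ0 : 0 < κ := hL.trans_le hκ
  have hs : 0 < √(d : ℝ) := Real.sqrt_pos.2 hd'
  by_contra hcon
  have hB : ∀ i, ∀ p ∈ Sh x r L, |p i| ≤ ‖x‖ + (r + L) := by
    intro i p hp
    have h1 : |‖p - x‖ - r| ≤ L := hp
    have h2 : |p i| ≤ ‖p‖ := PiLp.norm_apply_le p i
    have h3 := norm_sub_norm_le p x
    linarith [(abs_le.1 h1).2]
  have hall : ∀ i : Fin d, ∃ a, ∫⁻ p in {p | p ∈ Sh x r L ∧ p i < a}, w p ≤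
      ENNReal.ofReal (m1 / (2 * d)) ∧
      ∫⁻ p in {p | p ∈ Sh x r L ∧ a + 2 * (κ / (2 * √(d : ℝ))) < p i}, w p ≤
        ENNReal.ofReal (m1 / (2 * d)) := fun i =>
    (conc_dich w (fun p => p i) (ENNReal.ofReal_pos.2 (by positivity)) (by positivity)
      (hB i)).resolve_left fun ⟨a, ha⟩ => hcon ⟨i, a, ha⟩
  choose a ha1 ha2 using hall
  have e2 : 2 * (κ / (2 * √(d : ℝ))) = κ / √(d : ℝ) := by field_simp
  have hy : ∃ y : E d, ‖y - x‖ = r ∧ ∀ p ∈ Sh x r L,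
      (∀ i, a i ≤ p i ∧ p i ≤ a i + 2 * (κ / (2 * √(d : ℝ)))) → p ∈ ball y (3 * κ) := by
    by_cases hq : ∃ q ∈ Sh x r L, ∀ i, a i ≤ q i ∧ q i ≤ a i + 2 * (κ / (2 * √(d : ℝ)))
    · obtain ⟨q, hq1, hq2⟩ := hq
      obtain ⟨y, hy1, hy2⟩ := conc_proj hLr hq1
      refine ⟨y, hy1, fun p _ hp => ?_⟩
      have a1 : ‖p - q‖ ≤ κ := conc_box hd hκ0.le fun i => by
        rw [← e2, abs_le]
        constructor <;> linarith [hp i, hq2 i]
      have a2 := norm_sub_le_norm_sub_add_norm_sub p q y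
      rw [mem_ball, dist_eq_norm]
      linarith
    · refine ⟨x + r • EuclideanSpace.single (⟨0, hd⟩ : Fin d) (1 : ℝ), ?_,
        fun p hp hp' => absurd ⟨p, hp, hp'⟩ hq⟩
      rw [add_sub_cancel_left, norm_smul, EuclideanSpace.norm_single, norm_one, mul_one,
        Real.norm_of_nonneg (hL.trans hLr).le]
  obtain ⟨y, hy1, hy2⟩ := hy
  refine absurd (h y hy1) (not_lt.2 ?_)
  have hsub : Sh x r L \ ball y (3 * κ) ⊆ ⋃ i : Fin d, ({p | p ∈ Sh x r L ∧ p i < a i} ∪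
      {p | p ∈ Sh x r L ∧ a i + 2 * (κ / (2 * √(d : ℝ))) < p i}) := by
    intro p hp
    by_contra hn
    refine hp.2 (hy2 p hp.1 fun i => ⟨not_lt.1 fun h' => hn ?_, not_lt.1 fun h' => hn ?_⟩)
    · exact mem_iUnion.2 ⟨i, Or.inl ⟨hp.1, h'⟩⟩
    · exact mem_iUnion.2 ⟨i, Or.inr ⟨hp.1, h'⟩⟩
  refine (lintegral_mono_set hsub).trans ((lintegral_iUnion_le _ _).trans ?_)
  rw [tsum_fintype]
  refine (Finset.sum_le_card_nsmul _ _ (ENNReal.ofReal (m1 / d)) fun i _ => ?_).trans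
    (le_of_eq ?_)
  · refine (lintegral_union_le _ _ _).trans ((add_le_add (ha1 i) (ha2 i)).trans (le_of_eq ?_))
    rw [← ENNReal.ofReal_add (by positivity) (by positivity)]
    congr 1
    field_simp
    norm_num
  · rw [Finset.card_univ, Fintype.card_fin, nsmul_eq_mul, ← ENNReal.ofReal_natCast,
      ← ENNReal.ofReal_mul hd'.le]
    congr 1
    field_simp

theorem conc_int {w : E d → ℝ≥0∞} (hw : Measurable w) (hfin : ∫⁻ p, w p ≠ ⊤) (S : Set (E d)) :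
    ∫⁻ p in S, w p ≠ ⊤ ∧ ∫ p in S, (w p).toReal = (∫⁻ p in S, w p).toReal := by
  have h1 : ∫⁻ p in S, w p ≠ ⊤ := ne_top_of_le_ne_top hfin (setLIntegral_le_lintegral _ _)
  exact ⟨h1, integral_toReal hw.aemeasurable (ae_lt_top hw h1)⟩

theorem conc (hd : 0 < d) : ∃ C : ℝ, 0 ≤ C ∧ ∀ (w : E d → ℝ≥0∞) (x0 : E d) (R L κ T m1 : ℝ),
    Measurable w → ∫⁻ p, w p ≠ ⊤ → 0 < R → 0 < L → L ≤ R / 4 → L ≤ κ → 0 ≤ T → 0 < m1 →
    volume (Exc w x0 R L κ T m1) ≤
      ENNReal.ofReal (C * (T / m1 + 1) ^ 2 * (L * R / κ ^ 2) * R ^ d) := by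
  have hd' : (0 : ℝ) < d := by exact_mod_cast hd
  have hd1 : (1 : ℝ) ≤ d := by exact_mod_cast hd
  have hom : 0 ≤ om d := ENNReal.toReal_nonneg
  refine ⟨16384 * d ^ 4 * om d, by positivity, fun w x0 R L κ T m1 hw hfin hR hL hLR hκ hT hm => ?_⟩
  have hκ0 : 0 < κ := hL.trans_le hκ
  have hs : 0 < √(d : ℝ) := Real.sqrt_pos.2 hd'
  obtain ⟨m, hmd⟩ : ∃ m : ℝ, m = m1 / (2 * d) := ⟨_, rfl⟩
  have hm0 : 0 < m := by rw [hmd]; positivity
  have hW := integrable_toReal_of_lintegral_ne_top hw.aemeasurable hfin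
  choose Φ hΦ1 hΦ2 hΦ3 using fun l : ℕ => exists_envelope hW (fun p => ENNReal.toReal_nonneg) x0 hR
    (show 0 ≤ (l : ℝ) * m / 2 by positivity)
  obtain ⟨s, hsd⟩ : ∃ s : ℝ, s = 8 * R * L / (κ / (2 * √(d : ℝ))) := ⟨_, rfl⟩
  obtain ⟨K, hK⟩ : ∃ K : ℕ, K = ⌈2 * T / m⌉₊ + 2 := ⟨_, rfl⟩
  have hsub : Exc w x0 R L κ T m1 ⊆ ⋃ i : Fin d, ⋃ l : Fin K,
      {x | x ∈ ball x0 (R / 4) ∧ 4 * R * L * m ≤ 2 * Φ l x -
        Φ l (x + s • EuclideanSpace.single i (1 : ℝ)) -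
        Φ l (x - s • EuclideanSpace.single i (1 : ℝ))} := by
    rintro x ⟨hx, r, hr1, hr2, hI, hh⟩
    obtain ⟨i, a, h1, h2⟩ := spread hd hw hfin hL (by linarith) hκ hm hh
    rw [← hmd] at h1 h2
    have hI0 : 0 ≤ ∫ p in ball x (r - L), (w p).toReal :=
      integral_nonneg fun p => ENNReal.toReal_nonneg
    have hI1 : ∫ p in ball x (r - L), (w p).toReal ≤ T := by
      rw [(conc_int hw hfin _).2]
      exact ENNReal.toReal_le_of_le_ofReal hT hI
    have hci : Measurable fun p : E d => p i := by fun_prop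
    have hl := hΦ3 (⌈2 * (∫ p in ball x (r - L), (w p).toReal) / m⌉₊ + 1) x r L m
      (κ / (2 * √(d : ℝ))) a i {p | p ∈ Sh x r L ∧ p i ≤ a}
      {p | p ∈ Sh x r L ∧ a + κ / (2 * √(d : ℝ)) ≤ p i} hx hr1 hr2 hL hLR hm0 (by positivity)
      ((measurableSet_Sh x r L).inter (measurableSet_le hci measurable_const))
      ((measurableSet_Sh x r L).inter (measurableSet_le measurable_const hci))
      (fun p hp => hp.1) (fun p hp => hp.1) (fun p hp => hp.2) (fun p hp => hp.2)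
      (by rw [(conc_int hw hfin _).2]
          exact (ENNReal.ofReal_le_iff_le_toReal (conc_int hw hfin _).1).1 h1)
      (by rw [(conc_int hw hfin _).2]
          exact (ENNReal.ofReal_le_iff_le_toReal (conc_int hw hfin _).1).1 h2)
    generalize ∫ p in ball x (r - L), (w p).toReal = I at hI0 hI1 hl
    have c1 := Nat.le_ceil (2 * I / m)
    have c2 := Nat.ceil_lt_add_one (show 0 ≤ 2 * I / m by positivity)
    have c3 : 2 * I / m * m = 2 * I := div_mul_cancel₀ _ hm0.ne'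
    have c4 : ⌈2 * I / m⌉₊ ≤ ⌈2 * T / m⌉₊ := Nat.ceil_mono (by gcongr)
    refine mem_iUnion.2 ⟨i, mem_iUnion.2 ⟨⟨⌈2 * I / m⌉₊ + 1, by omega⟩, hx, ?_⟩⟩
    rw [hsd]
    refine hl ?_ ?_
    · push_cast
      nlinarith
    · push_cast
      nlinarith
  have hK1 : (K : ℝ) ≤ 4 * d * (T / m1 + 1) := by
    have c2 := Nat.ceil_lt_add_one (show 0 ≤ 2 * T / m by positivity)
    have c3 : 2 * T / m = 4 * d * (T / m1) := by rw [hmd]; field_simp; ring
    rw [hK]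
    push_cast
    nlinarith
  have hs2 : s ^ 2 = 256 * d * R ^ 2 * L ^ 2 / κ ^ 2 := by
    have e : s = 16 * √(d : ℝ) * R * L / κ := by rw [hsd]; field_simp; norm_num
    rw [e, div_pow, mul_pow, mul_pow, mul_pow, Real.sq_sqrt hd'.le]
    norm_num
  obtain ⟨Q, hQ⟩ : ∃ Q : ℝ, Q = 1024 * d * (L * R / κ ^ 2) * (om d * R ^ d) := ⟨_, rfl⟩
  have hQ0 : 0 ≤ Q := by rw [hQ]; positivity
  have hone : ∀ (i : Fin d) (l : Fin K), volume {x | x ∈ ball x0 (R / 4) ∧ 4 * R * L * m ≤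
      2 * Φ l x - Φ l (x + s • EuclideanSpace.single i (1 : ℝ)) -
        Φ l (x - s • EuclideanSpace.single i (1 : ℝ))} ≤ ENNReal.ofReal (K * Q) := by
    intro i l
    refine (second_diff_meas (by positivity) (hΦ1 l) (hΦ2 l) x0 _ hR (by positivity)).trans
      (ENNReal.ofReal_le_ofReal ?_)
    rw [norm_smul, EuclideanSpace.norm_single, norm_one, mul_one, Real.norm_eq_abs, sq_abs, hs2]
    have e : 8 * (4 * R * (((l : ℕ) : ℝ) * m / 2)) * (256 * d * R ^ 2 * L ^ 2 / κ ^ 2) /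
        (R * (4 * R * L * m)) * (om d * R ^ d) = ((l : ℕ) : ℝ) * Q := by
      rw [hQ]
      field_simp
      ring
    rw [e]
    exact mul_le_mul_of_nonneg_right (by exact_mod_cast l.2.le) hQ0
  refine (measure_mono hsub).trans ((measure_iUnion_le _).trans ?_)
  rw [tsum_fintype]
  refine (Finset.sum_le_card_nsmul _ _ (ENNReal.ofReal (K * (K * Q))) fun i _ => ?_).trans ?_
  · refine (measure_iUnion_le _).trans ?_
    rw [tsum_fintype]
    refine (Finset.sum_le_card_nsmul _ _ _ fun l _ => hone i l).trans (le_of_eq ?_)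
    rw [Finset.card_univ, Fintype.card_fin, nsmul_eq_mul, ← ENNReal.ofReal_natCast,
      ← ENNReal.ofReal_mul (Nat.cast_nonneg _)]
  · rw [Finset.card_univ, Fintype.card_fin, nsmul_eq_mul, ← ENNReal.ofReal_natCast,
      ← ENNReal.ofReal_mul hd'.le]
    refine ENNReal.ofReal_le_ofReal ?_
    calc (d : ℝ) * (K * (K * Q)) ≤
          d * ((4 * d * (T / m1 + 1)) * ((4 * d * (T / m1 + 1)) * Q)) := by gcongr
      _ = _ := by rw [hQ]; ring

end Vale.Agent.P137
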