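import Vale.Agent.P137.C.CLip

/-! P137 C/ConcA: a concave envelope detects spread out shells.

`W : E d → ℝ` is a nonnegative integrable density. For a mass `T'` let `𝔉` be the set of measurable
`f : E d → ℝ` with `0 ≤ f ≤ 1`, `f = 0` off `ball x0 (2R)`, `∫ f W = T'`, put
`val f x = ∫ (‖p - x0‖^2 - 2 ⟪x - x0, p - x0⟫) f p W p` (affine in `x`, `4 R T'`-Lipschitz,
`val f x + ‖x - x0‖^2 T' = ∫ ‖p - x‖^2 f W`) and `Φ x = sInf {val f x | f ∈ 𝔉}` (if `𝔉 = ∅` take `Φ = 0`; then the last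
claim is vacuous because its data produce an element of `𝔉`). `Φ` is Lipschitz, and midpoint concave
(`2 val f x = val f (x+w) + val f (x-w)`).
Last claim: `D = ball x (r - L)`, `α = T' - ∫_D W ∈ [m/2, m]`, `f1 = 1_D + (α/∫_{A1} W) 1_{A1}`, `f2` likewise
(`D`, `A1` are disjoint and inside `ball x0 (2R)`). For every `f ∈ 𝔉`:
`∫ (‖p-x‖^2 - (r-L)^2)(f - 1_D) W ≥ 0`, so `∫ ‖p-x‖^2 f W ≥ ∫_D ‖p-x‖^2 W + α (r-L)^2`, while
`∫ ‖p-x‖^2 f_{1,2} W ≤ ∫_D ‖p-x‖^2 W + α (r+L)^2`; so `val f_{1,2} x ≤ Φ x + 4 R L α`. With `e = single i 1`: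
`Φ (x + s e) ≤ val f2 x - 2 s ∫ (p-x0) i f2 W`, `Φ (x - s e) ≤ val f1 x + 2 s ∫ (p-x0) i f1 W`, and
`∫ (p - x0) i (f2 - f1) W ≥ α κ'`. For `s = 8 R L / κ'` the sum is `≤ 2 Φ x - 8 R L α`.

`second_diff_meas`: `D x = 2 Φ x - Φ (x+w) - Φ (x-w) ≥ 0`, `ζ x = max 0 (2 - 4 ‖x - x0‖ / R)` is `≥ 1` on `ball x0 (R/4)`, supported in
`ball x0 (R/2)`, `(4/R)`-Lipschitz. By translation invariance
`∫ D ζ = ∫ (Φ x - Φ (x+w)) (ζ x - ζ (x+w)) ≤ c ‖w‖ (4 ‖w‖/R) * 2 vol (ball x0 (R/2))`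
(all integrands are continuous with compact support); Markov inequality.
-/

namespace Vale.Agent.P137

open MeasureTheory Metric Set Filter Topology
open scoped ENNReal NNReal RealInnerProductSpace

variable {d : ℕ}

theorem conca_env (S : Set (E d → ℝ)) (x0 : E d) {c : ℝ} (hc : 0 ≤ c)
    (hS : ∀ g ∈ S, Lip c g ∧ (∀ x w, g (x + w) + g (x - w) ≤ 2 * g x) ∧ 0 ≤ g x0) :
    ∃ Φ : E d → ℝ, Lip c Φ ∧ (∀ x w, Φ (x + w) + Φ (x - w) ≤ 2 * Φ x) ∧
      (∀ g ∈ S, ∀ x, Φ x ≤ g x) ∧ ∀ x b, S.Nonempty → (∀ g ∈ S, b ≤ g x) → b ≤ Φ x := by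
  rcases S.eq_empty_or_nonempty with rfl | hne
  · refine ⟨fun _ => 0, fun p p' => ?_, fun x w => by norm_num, fun g hg => hg.elim,
      fun x b h => absurd h not_nonempty_empty⟩
    rw [sub_self, norm_zero]
    positivity
  have hl : ∀ g ∈ S, ∀ p p', g p ≤ g p' + c * ‖p - p'‖ := fun g hg p p' => by
    have h1 := (hS g hg).1 p p'
    rw [Real.norm_eq_abs] at h1
    linarith [(abs_le.1 h1).2]
  have h1 : ∀ g ∈ S, ∀ x, sInf ((fun g : E d → ℝ => g x) '' S) ≤ g x := fun g hg x => by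
    refine csInf_le ⟨-(c * ‖x0 - x‖), ?_⟩ ⟨g, hg, rfl⟩
    rintro _ ⟨g', hg', rfl⟩
    have h2 := hl g' hg' x0 x
    have h3 := (hS g' hg').2.2
    show _ ≤ g' x
    linarith
  have h2 : ∀ x b, (∀ g ∈ S, b ≤ g x) → b ≤ sInf ((fun g : E d → ℝ => g x) '' S) := fun x b h => by
    refine le_csInf (hne.image _) ?_
    rintro _ ⟨g, hg, rfl⟩
    exact h g hg
  have h3 : ∀ p p', sInf ((fun g : E d → ℝ => g p) '' S) - c * ‖p - p'‖ ≤
      sInf ((fun g : E d → ℝ => g p') '' S) := fun p p' =>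
    h2 p' _ fun g hg => by linarith [h1 g hg p, hl g hg p p']
  refine ⟨fun x => sInf ((fun g : E d → ℝ => g x) '' S), fun p p' => ?_, fun x w => ?_, h1,
    fun x b _ h => h2 x b h⟩
  · have h4 := h3 p p'
    have h5 := h3 p' p
    rw [norm_sub_rev] at h5
    rw [Real.norm_eq_abs]
    exact abs_le.2 ⟨by linarith, by linarith⟩
  · have h4 := h2 x ((sInf ((fun g : E d → ℝ => g (x + w)) '' S) +
      sInf ((fun g : E d → ℝ => g (x - w)) '' S)) / 2) fun g hg => by
        linarith [h1 g hg (x + w), h1 g hg (x - w), (hS g hg).2.1 x w]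
    beta_reduce
    linarith

theorem conca_int {u φ : E d → ℝ} {x0 : E d} {ρ : ℝ} (hu : Integrable u)
    (h0 : ∀ p, p ∉ ball x0 ρ → u p = 0) (hφ : Continuous φ) : Integrable fun p => u p * φ p := by
  refine (hu.integrableOn.mul_continuousOn hφ.continuousOn
    (isCompact_closedBall x0 ρ)).integrable_of_forall_notMem_eq_zero fun p hp => ?_
  rw [h0 p fun h => hp (ball_subset_closedBall h), zero_mul]

/-- The affine family of test functions. -/
noncomputable def concaPhi (x0 y p : E d) : ℝ := ‖p - x0‖ ^ 2 - 2 * ⟪y - x0, p - x0⟫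

theorem concaPhi_cont (x0 y : E d) : Continuous (concaPhi x0 y) := by
  unfold concaPhi
  fun_prop

theorem concaPhi_add (x0 y w p : E d) :
    concaPhi x0 (y + w) p = concaPhi x0 y p - 2 * ⟪w, p - x0⟫ := by
  unfold concaPhi
  rw [add_sub_right_comm, inner_add_left]
  ring

theorem concaPhi_sub (x0 y w p : E d) :
    concaPhi x0 (y - w) p = concaPhi x0 y p + 2 * ⟪w, p - x0⟫ := by
  unfold concaPhi
  rw [sub_right_comm, inner_sub_left]
  ring

theorem concaPhi_eq (x0 y p : E d) : concaPhi x0 y p = ‖p - y‖ ^ 2 - ‖y - x0‖ ^ 2 := by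
  unfold concaPhi
  have e : p - y = (p - x0) - (y - x0) := by abel
  rw [e, norm_sub_sq_real (p - x0), real_inner_comm]
  ring

/-- Admissible weights. -/
def ConcaU (W : E d → ℝ) (x0 : E d) (R T' : ℝ) (u : E d → ℝ) : Prop :=
  Integrable u ∧ (∀ p, 0 ≤ u p) ∧ (∀ p, u p ≤ W p) ∧ (∀ p, p ∉ ball x0 (2 * R) → u p = 0) ∧
    ∫ p, u p = T'

theorem conca_mid {u : E d → ℝ} {x0 : E d} {ρ : ℝ} (hu : Integrable u)
    (h0 : ∀ p, p ∉ ball x0 ρ → u p = 0) (x w : E d) :
    (∫ p, u p * concaPhi x0 (x + w) p) + ∫ p, u p * concaPhi x0 (x - w) p =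
      2 * ∫ p, u p * concaPhi x0 x p := by
  rw [← integral_add (conca_int hu h0 (concaPhi_cont _ _)) (conca_int hu h0 (concaPhi_cont _ _)),
    ← integral_const_mul]
  refine integral_congr_ae (Eventually.of_forall fun p => ?_)
  beta_reduce
  rw [concaPhi_add, concaPhi_sub]
  ring

theorem conca_lip {W u : E d → ℝ} {x0 : E d} {R T' : ℝ} (hu : ConcaU W x0 R T' u) :
    Lip (4 * R * T') fun x => ∫ p, u p * concaPhi x0 x p := by
  obtain ⟨h1, h2, -, h4, h5⟩ := hu
  intro x x'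
  rw [← integral_sub (conca_int h1 h4 (concaPhi_cont _ _)) (conca_int h1 h4 (concaPhi_cont _ _))]
  refine (norm_integral_le_of_norm_le (h1.mul_const (4 * R * ‖x - x'‖))
    (Eventually.of_forall fun p => ?_)).trans_eq ?_
  · by_cases hp : p ∈ ball x0 (2 * R)
    · have e : concaPhi x0 x p = concaPhi x0 x' p - 2 * ⟪x - x', p - x0⟫ := by
        rw [← concaPhi_add, add_sub_cancel]
      have e' : u p * concaPhi x0 x p - u p * concaPhi x0 x' p =
          u p * (-2 * ⟪x - x', p - x0⟫) := by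
        rw [e]
        ring
      rw [e', norm_mul, Real.norm_of_nonneg (h2 p), norm_mul, Real.norm_eq_abs, Real.norm_eq_abs]
      refine mul_le_mul_of_nonneg_left ?_ (h2 p)
      have h6 := abs_real_inner_le_norm (x - x') (p - x0)
      have h7 := mul_le_mul_of_nonneg_left (mem_ball_iff_norm.1 hp).le (norm_nonneg (x - x'))
      rw [abs_neg, abs_two]
      linarith
    · rw [h4 p hp]
      simp
  · rw [integral_mul_const, h5]
    ring

theorem conca_low {W u : E d → ℝ} (hW : Integrable W) {x0 x : E d} {R T' ρ : ℝ} (hρ : 0 ≤ ρ)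
    (hD : ball x ρ ⊆ ball x0 (2 * R)) (hu : ConcaU W x0 R T' u) :
    (∫ p, (ball x ρ).indicator W p * concaPhi x0 x p) +
      (T' - ∫ p in ball x ρ, W p) * (ρ ^ 2 - ‖x - x0‖ ^ 2) ≤ ∫ p, u p * concaPhi x0 x p := by
  obtain ⟨h1, h2, h3, h4, h5⟩ := hu
  have i0 : Integrable ((ball x ρ).indicator W) := hW.indicator measurableSet_ball
  have i1 := conca_int (x0 := x0) (ρ := 2 * R) i0
    (fun p hp => indicator_of_notMem (fun h => hp (hD h)) _) (concaPhi_cont x0 x)
  have i2 : Integrable fun p => (u p - (ball x ρ).indicator W p) * (ρ ^ 2 - ‖x - x0‖ ^ 2) :=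
    (h1.sub i0).mul_const _
  rw [← h5, ← integral_indicator measurableSet_ball, ← integral_sub h1 i0, ← integral_mul_const,
    ← integral_add i1 i2]
  refine integral_mono (i1.add i2) (conca_int h1 h4 (concaPhi_cont _ _)) fun p => ?_
  beta_reduce
  rw [concaPhi_eq]
  by_cases hp : p ∈ ball x ρ
  · rw [indicator_of_mem hp]
    have h6 : ‖p - x‖ ^ 2 ≤ ρ ^ 2 :=
      pow_le_pow_left₀ (norm_nonneg _) (mem_ball_iff_norm.1 hp).le 2
    nlinarith [mul_nonneg (sub_nonneg.2 (h3 p)) (sub_nonneg.2 h6)]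
  · rw [indicator_of_notMem hp]
    have h6 : ρ ^ 2 ≤ ‖p - x‖ ^ 2 :=
      pow_le_pow_left₀ hρ (not_lt.1 fun h => hp (mem_ball_iff_norm.2 h)) 2
    nlinarith [mul_nonneg (h2 p) (sub_nonneg.2 h6)]

theorem conca_test {W : E d → ℝ} (hW : Integrable W) (h0 : ∀ p, 0 ≤ W p) {x0 : E d} {R T' : ℝ}
    {D A : Set (E d)} (hDm : MeasurableSet D) (hAm : MeasurableSet A)
    (hD : D ⊆ ball x0 (2 * R)) (hA : A ⊆ ball x0 (2 * R)) (hDA : ∀ p ∈ A, p ∉ D)
    (h1 : 0 < T' - ∫ p in D, W p) (h2 : T' - ∫ p in D, W p ≤ ∫ p in A, W p) :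
    ∃ u, ConcaU W x0 R T' u ∧ ∀ (φ : E d → ℝ) (c : ℝ), Continuous φ → (∀ p ∈ A, φ p ≤ c) →
      ∫ p, u p * φ p ≤ (∫ p, D.indicator W p * φ p) + (T' - ∫ p in D, W p) * c := by
  set α := T' - ∫ p in D, W p with hα
  set I := ∫ p in A, W p with hI
  have hI0 : 0 < I := h1.trans_le h2
  have q0 : 0 ≤ α / I := by positivity
  have q1 : α / I ≤ 1 := (div_le_one hI0).2 h2
  have iD : Integrable (D.indicator W) := hW.indicator hDm
  have iA : Integrable (A.indicator W) := hW.indicator hAm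
  have zD : ∀ p, p ∉ ball x0 (2 * R) → D.indicator W p = 0 := fun p hp =>
    indicator_of_notMem (fun h => hp (hD h)) _
  have zA : ∀ p, p ∉ ball x0 (2 * R) → A.indicator W p = 0 := fun p hp =>
    indicator_of_notMem (fun h => hp (hA h)) _
  refine ⟨fun p => D.indicator W p + α / I * A.indicator W p, ⟨iD.add (iA.const_mul _),
    fun p => add_nonneg (indicator_nonneg (fun p _ => h0 p) p)
      (mul_nonneg q0 (indicator_nonneg (fun p _ => h0 p) p)), fun p => ?_, fun p hp => ?_, ?_⟩,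
    fun φ c hφ hc => ?_⟩
  · beta_reduce
    by_cases hp : p ∈ A
    · rw [indicator_of_notMem (hDA p hp), indicator_of_mem hp, zero_add]
      exact mul_le_of_le_one_left (h0 p) q1
    · rw [indicator_of_notMem hp, mul_zero, add_zero]
      exact indicator_le_self' (fun p _ => h0 p) p
  · beta_reduce
    rw [zD p hp, zA p hp, mul_zero, add_zero]
  · rw [integral_add iD (iA.const_mul _), integral_const_mul, integral_indicator hDm,
      integral_indicator hAm, ← hI, div_mul_cancel₀ _ hI0.ne', hα]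
    ring
  · have j1 := conca_int iD zD hφ
    have j2 := conca_int iA zA hφ
    have e : ∀ p, (D.indicator W p + α / I * A.indicator W p) * φ p =
        D.indicator W p * φ p + α / I * (A.indicator W p * φ p) := fun p => by ring
    have h3 : ∫ p, A.indicator W p * φ p ≤ I * c := by
      rw [hI, ← integral_indicator hAm, ← integral_mul_const]
      refine integral_mono j2 (iA.mul_const c) fun p => ?_
      beta_reduce
      by_cases hp : p ∈ A
      · rw [indicator_of_mem hp]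
        exact mul_le_mul_of_nonneg_left (hc p hp) (h0 p)
      · rw [indicator_of_notMem hp, zero_mul, zero_mul]
    simp only [e]
    rw [integral_add j1 (j2.const_mul _), integral_const_mul]
    have h4 := mul_le_mul_of_nonneg_left h3 q0
    rw [← mul_assoc, div_mul_cancel₀ _ hI0.ne'] at h4
    linarith

theorem exists_envelope {W : E d → ℝ} (hW : Integrable W) (h0 : ∀ p, 0 ≤ W p) (x0 : E d) {R T' : ℝ}
    (hR : 0 < R) (hT : 0 ≤ T') : ∃ Φ : E d → ℝ, Lip (4 * R * T') Φ ∧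
    (∀ x w, Φ (x + w) + Φ (x - w) ≤ 2 * Φ x) ∧
    ∀ (x : E d) (r L m κ' a : ℝ) (i : Fin d) (A1 A2 : Set (E d)), x ∈ ball x0 (R / 4) →
      R / 2 ≤ r → r ≤ R → 0 < L → L ≤ R / 4 → 0 < m → 0 < κ' →
      MeasurableSet A1 → MeasurableSet A2 → A1 ⊆ Sh x r L → A2 ⊆ Sh x r L →
      (∀ p ∈ A1, p i ≤ a) → (∀ p ∈ A2, a + κ' ≤ p i) →
      m ≤ ∫ p in A1, W p → m ≤ ∫ p in A2, W p →
      m / 2 ≤ T' - ∫ p in ball x (r - L), W p → T' - ∫ p in ball x (r - L), W p ≤ m →
      4 * R * L * m ≤ 2 * Φ x - Φ (x + (8 * R * L / κ') • EuclideanSpace.single i (1 : ℝ)) -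
        Φ (x - (8 * R * L / κ') • EuclideanSpace.single i (1 : ℝ)) := by
  obtain ⟨Φ, p1, p2, p3, p4⟩ := conca_env
    {g | ∃ u, ConcaU W x0 R T' u ∧ g = fun x => ∫ p, u p * concaPhi x0 x p} x0
    (c := 4 * R * T') (by positivity) (by
      rintro g ⟨u, hu, rfl⟩
      refine ⟨conca_lip hu, fun x w => (conca_mid hu.1 hu.2.2.2.1 x w).le,
        integral_nonneg fun p => mul_nonneg (hu.2.1 p) ?_⟩
      rw [concaPhi, sub_self, inner_zero_left, mul_zero, sub_zero]
      positivity)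
  refine ⟨Φ, p1, p2, ?_⟩
  intro x r L m κ' a i A1 A2 hx r1 r2 hL hLR hm hκ m1 m2 s1 s2 a1 a2 b1 b2 c1 c2
  have hx' := mem_ball_iff_norm.1 hx
  have hD : ball x (r - L) ⊆ ball x0 (2 * R) := fun p hp => by
    have h1 := mem_ball_iff_norm.1 hp
    have h2 := norm_sub_le_norm_sub_add_norm_sub p x x0
    exact mem_ball_iff_norm.2 (by linarith)
  have hS : Sh x r L ⊆ ball x0 (2 * R) := fun p hp => by
    have h1 := (abs_le.1 (show |‖p - x‖ - r| ≤ L from hp)).2
    have h2 := norm_sub_le_norm_sub_add_norm_sub p x x0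
    exact mem_ball_iff_norm.2 (by linarith)
  have hSD : ∀ p ∈ Sh x r L, p ∉ ball x (r - L) := fun p hp hp' => by
    have h1 := (abs_le.1 (show |‖p - x‖ - r| ≤ L from hp)).1
    have h2 := mem_ball_iff_norm.1 hp'
    linarith
  have hSq : ∀ p ∈ Sh x r L, ‖p - x‖ ^ 2 ≤ (r + L) ^ 2 := fun p hp =>
    pow_le_pow_left₀ (norm_nonneg _) (by linarith [(abs_le.1 (show |‖p - x‖ - r| ≤ L from hp)).2]) 2
  obtain ⟨u1, hu1, t1⟩ := conca_test hW h0 measurableSet_ball m1 hD (s1.trans hS)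
    (fun p hp => hSD p (s1 hp)) (T' := T') (by linarith) (by linarith)
  obtain ⟨u2, hu2, t2⟩ := conca_test hW h0 measurableSet_ball m2 hD (s2.trans hS)
    (fun p hp => hSD p (s2 hp)) (T' := T') (by linarith) (by linarith)
  set s := 8 * R * L / κ' with hs
  have hs0 : 0 < s := by positivity
  have hsκ : s * κ' = 8 * R * L := div_mul_cancel₀ _ hκ.ne'
  have hin : ∀ p : E d, ⟪s • EuclideanSpace.single i (1 : ℝ), p - x0⟫ = s * (p i - x0 i) :=
    fun p => by
      rw [real_inner_smul_left, EuclideanSpace.inner_single_left, PiLp.sub_apply]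
      simp
  have k1 := (p3 _ ⟨u1, hu1, rfl⟩ (x - s • EuclideanSpace.single i (1 : ℝ))).trans
    (t1 _ ((r + L) ^ 2 - ‖x - x0‖ ^ 2 + 2 * (s * (a - x0 i))) (concaPhi_cont _ _) fun p hp => by
      rw [concaPhi_sub, concaPhi_eq, hin]
      have h1 := hSq p (s1 hp)
      have h2 := mul_le_mul_of_nonneg_left (a1 p hp) hs0.le
      linarith)
  have k2 := (p3 _ ⟨u2, hu2, rfl⟩ (x + s • EuclideanSpace.single i (1 : ℝ))).trans
    (t2 _ ((r + L) ^ 2 - ‖x - x0‖ ^ 2 - 2 * (s * (a + κ' - x0 i))) (concaPhi_cont _ _)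
      fun p hp => by
        rw [concaPhi_add, concaPhi_eq, hin]
        have h1 := hSq p (s2 hp)
        have h2 := mul_le_mul_of_nonneg_left (a2 p hp) hs0.le
        linarith)
  have k3 := p4 x _ ⟨_, u1, hu1, rfl⟩ (by
    rintro g ⟨u, hu, rfl⟩
    exact conca_low hW (ρ := r - L) (by linarith) hD hu)
  have k4 := conca_mid (x0 := x0) (ρ := 2 * R) (hW.indicator (measurableSet_ball (x := x) (ε := r - L)))
    (fun p hp => indicator_of_notMem (fun h => hp (hD h)) _) x (s • EuclideanSpace.single i (1 : ℝ))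
  set α := T' - ∫ p in ball x (r - L), W p with hα
  have k5 : α * (s * κ') = α * (8 * R * L) := by rw [hsκ]
  have k6 : r * (L * α) ≤ R * (L * α) :=
    mul_le_mul_of_nonneg_right r2 (mul_nonneg hL.le (by linarith))
  have k7 : R * L * (m / 2) ≤ R * L * α := mul_le_mul_of_nonneg_left c1 (by positivity)
  linarith

theorem second_diff_meas {Φ : E d → ℝ} {c : ℝ} (hc : 0 ≤ c) (hΦ : Lip c Φ)
    (hcon : ∀ x w, Φ (x + w) + Φ (x - w) ≤ 2 * Φ x) (x0 w : E d) {R b : ℝ} (hR : 0 < R)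
    (hb : 0 < b) :
    volume {x | x ∈ ball x0 (R / 4) ∧ b ≤ 2 * Φ x - Φ (x + w) - Φ (x - w)} ≤
      ENNReal.ofReal (8 * c * ‖w‖ ^ 2 / (R * b) * (om d * R ^ d)) := by
  have hΦc := hΦ.continuous
  set ζ : E d → ℝ := fun x => max 0 (2 - 4 * ‖x - x0‖ / R) with hζ
  have ζc : Continuous ζ := by
    rw [hζ]
    fun_prop
  have ζ0 : ∀ x, x ∉ ball x0 R → ζ x = 0 := fun x hx => by
    have h1 : R ≤ ‖x - x0‖ := not_lt.1 fun h => hx (mem_ball_iff_norm.2 h)
    have h2 : 2 ≤ 4 * ‖x - x0‖ / R := by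
      rw [le_div_iff₀ hR]
      linarith
    exact max_eq_left (by linarith)
  have ζ1 : ∀ x ∈ ball x0 (R / 4), 1 ≤ ζ x := fun x hx => by
    have h1 := mem_ball_iff_norm.1 hx
    have h2 : 4 * ‖x - x0‖ / R ≤ 1 := by
      rw [div_le_one hR]
      linarith
    exact le_max_of_le_right (by linarith)
  have ζl : ∀ x, |ζ x - ζ (x + w)| ≤ 4 * ‖w‖ / R := fun x => by
    have h1 := abs_max_sub_max_le_abs (2 - 4 * ‖x - x0‖ / R) (2 - 4 * ‖x + w - x0‖ / R) 0
    rw [max_comm _ 0, max_comm _ 0] at h1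
    refine h1.trans ?_
    have h2 := abs_norm_sub_norm_le (x + w - x0) (x - x0)
    have e1 : x + w - x0 - (x - x0) = w := by abel
    have e2 : 2 - 4 * ‖x - x0‖ / R - (2 - 4 * ‖x + w - x0‖ / R) =
        4 / R * (‖x + w - x0‖ - ‖x - x0‖) := by ring
    rw [e1] at h2
    rw [e2, abs_mul, abs_of_pos (by positivity : 0 < 4 / R)]
    exact (mul_le_mul_of_nonneg_left h2 (by positivity)).trans_eq (by ring)
  have ζi : Integrable ζ := by
    refine (ζc.continuousOn.integrableOn_compact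
      (isCompact_closedBall x0 R)).integrable_of_forall_notMem_eq_zero fun p hp => ?_
    exact ζ0 p fun h => hp (ball_subset_closedBall h)
  have i1 : Integrable fun x => ζ x * (Φ x - Φ (x + w)) := conca_int ζi ζ0 (by fun_prop)
  have i2 : Integrable fun x => ζ x * (Φ x - Φ (x - w)) := conca_int ζi ζ0 (by fun_prop)
  have i3 : Integrable fun x => ζ (x + w) * (Φ (x + w) - Φ (x + w - w)) := i2.comp_add_right w
  have i4 : Integrable fun x => ζ x * (2 * Φ x - Φ (x + w) - Φ (x - w)) :=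
    conca_int ζi ζ0 (by fun_prop)
  have iB : Integrable ((ball x0 R).indicator fun _ => (1 : ℝ)) :=
    (integrableOn_const measure_ball_lt_top.ne).integrable_indicator measurableSet_ball
  have iB' : Integrable fun x => (ball x0 R).indicator (fun _ => (1 : ℝ)) (x + w) :=
    iB.comp_add_right w
  have hV : 0 ≤ om d * R ^ d := by
    have := om_pos (d := d)
    positivity
  have vB : ∫ x, (ball x0 R).indicator (fun _ => (1 : ℝ)) x = om d * R ^ d := by
    rw [integral_indicator measurableSet_ball, setIntegral_const, smul_eq_mul, mul_one,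
      Measure.real, volume_ball_eq x0 hR, ENNReal.toReal_ofReal hV]
  have hK : 0 ≤ 4 * ‖w‖ / R * (c * ‖w‖) := by positivity
  have key : ∫ x, ζ x * (2 * Φ x - Φ (x + w) - Φ (x - w)) ≤
      4 * ‖w‖ / R * (c * ‖w‖) * (om d * R ^ d + om d * R ^ d) := by
    have e1 : ∫ x, ζ x * (2 * Φ x - Φ (x + w) - Φ (x - w)) =
        ∫ x, (ζ x * (Φ x - Φ (x + w)) + ζ (x + w) * (Φ (x + w) - Φ (x + w - w))) := by
      rw [integral_add i1 i3,
        integral_add_right_eq_self (fun x => ζ x * (Φ x - Φ (x - w))) w, ← integral_add i1 i2]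
      exact integral_congr_ae (Eventually.of_forall fun x => by ring)
    have e2 : 4 * ‖w‖ / R * (c * ‖w‖) * (om d * R ^ d + om d * R ^ d) =
        ∫ x, 4 * ‖w‖ / R * (c * ‖w‖) * ((ball x0 R).indicator (fun _ => (1 : ℝ)) x +
          (ball x0 R).indicator (fun _ => (1 : ℝ)) (x + w)) := by
      rw [integral_const_mul, integral_add iB iB',
        integral_add_right_eq_self ((ball x0 R).indicator fun _ => (1 : ℝ)) w, vB]
    rw [e1, e2]
    refine integral_mono (i1.add i3) ((iB.add iB').const_mul _) fun x => ?_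
    beta_reduce
    rw [add_sub_cancel_right]
    have n1 : 0 ≤ (ball x0 R).indicator (fun _ => (1 : ℝ)) x :=
      indicator_nonneg (fun _ _ => zero_le_one) _
    have n2 : 0 ≤ (ball x0 R).indicator (fun _ => (1 : ℝ)) (x + w) :=
      indicator_nonneg (fun _ _ => zero_le_one) _
    have h1 : ζ x * (Φ x - Φ (x + w)) + ζ (x + w) * (Φ (x + w) - Φ x) ≤
        4 * ‖w‖ / R * (c * ‖w‖) := by
      have h2 := hΦ x (x + w)
      rw [sub_add_cancel_left, norm_neg, Real.norm_eq_abs] at h2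
      have h3 := mul_le_mul (ζl x) h2 (abs_nonneg _) (by positivity)
      rw [← abs_mul] at h3
      exact (le_of_eq (by ring)).trans ((le_abs_self _).trans h3)
    by_cases hx : x ∈ ball x0 R
    · rw [indicator_of_mem hx]
      nlinarith [mul_nonneg hK n2]
    · by_cases hx' : x + w ∈ ball x0 R
      · rw [indicator_of_mem hx']
        nlinarith [mul_nonneg hK n1]
      · rw [ζ0 x hx, ζ0 _ hx', zero_mul, zero_mul, add_zero]
        positivity
  have hD : ∀ x, 0 ≤ 2 * Φ x - Φ (x + w) - Φ (x - w) := fun x => by linarith [hcon x w]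
  have mk := mul_meas_ge_le_integral_of_nonneg
    (Eventually.of_forall fun x => mul_nonneg (le_max_left _ _ : 0 ≤ ζ x) (hD x)) i4 b
  have hfin : volume {x | b ≤ ζ x * (2 * Φ x - Φ (x + w) - Φ (x - w))} ≠ ⊤ := by
    refine ((measure_mono fun x hx => ?_).trans_lt
      (measure_ball_lt_top (x := x0) (r := R))).ne
    by_contra h
    have h1 : b ≤ ζ x * (2 * Φ x - Φ (x + w) - Φ (x - w)) := hx
    rw [ζ0 x h, zero_mul] at h1
    linarith
  refine (measure_mono (t := {x | b ≤ ζ x * (2 * Φ x - Φ (x + w) - Φ (x - w))})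
    fun x hx => ?_).trans ?_
  · exact hx.2.trans (le_mul_of_one_le_left (hD x) (ζ1 x hx.1))
  · rw [← ENNReal.ofReal_toReal hfin]
    refine ENNReal.ofReal_le_ofReal ?_
    have h1 := (le_div_iff₀' hb).2 (mk.trans key)
    refine h1.trans_eq ?_
    field_simp
    ring

end Vale.Agent.P137
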