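import Vale.Agent.P137.Approx
import Vale.Agent.P137.C.CDefs

/-! P137 C/CurlAp: the gradient of `|f|` is curl free.

* `curl_of_contDiff`: `⟪μ p, a⟫ = fderiv h p a` is `C¹`; integrate by parts
  (`integral_mul_fderiv_eq_neg_fderiv_mul_of_integrable` or `integral_bilinear_hasLineDerivAt_right_eq_neg_left_of_integrable`;
  all products are continuous with compact support) and use the symmetry of the second derivative
  (`ContDiffAt.isSymmSndFDerivAt`).
* `Curl.of_tendsto`: `fderiv φ` is bounded (continuous with compact support).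
* `exists_mollify2`: copy `exists_mollify` (Mollify.lean) with `ContDiff ℝ 2`.
* `curl_psi`, `pairC_abs`: follow `pair_psi`, `pair_abs` (Approx.lean); `ψ ∘ fn n` is `C²`. In `pairC_abs` use the same explicit field
  `μ x = Real.sign (f x) • G x` for both parts (copy the proof of `pair_abs`).
-/

namespace Vale.Agent.P137

open MeasureTheory Metric Set Filter Topology
open scoped ENNReal NNReal RealInnerProductSpace

variable {d : ℕ}

theorem curl_of_contDiff {h : E d → ℝ} {μ : E d → E d} (hc : ContDiff ℝ 2 h)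
    (hD : ∀ x v, fderiv ℝ h x v = ⟪μ x, v⟫) : Curl μ univ := by
  intro φ hφ hs _ a b
  have hd1 : ContDiff ℝ 1 (fderiv ℝ h) := hc.fderiv_right (by norm_num)
  have hDφ : Continuous (fderiv ℝ φ) := hφ.continuous_fderiv one_ne_zero
  have hDs : HasCompactSupport (fderiv ℝ φ) := hs.fderiv (𝕜 := ℝ)
  have key : ∀ u v : E d, ∫ p, fderiv ℝ h p u * fderiv ℝ φ p v =
      -∫ p, fderiv ℝ (fderiv ℝ h) p v u * φ p := fun u v => by
    have hu : ContDiff ℝ 1 fun p => fderiv ℝ h p u := hd1.clm_apply contDiff_const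
    have hfd : ∀ p, fderiv ℝ (fun p => fderiv ℝ h p u) p v = fderiv ℝ (fderiv ℝ h) p v u :=
      fun p => by
        rw [fderiv_clm_apply ((hd1.differentiable one_ne_zero) p) (differentiableAt_const _)]
        simp
    have h1 := integral_mul_fderiv_eq_neg_fderiv_mul_of_integrable (μ := volume)
      (f := fun p => fderiv ℝ h p u) (g := φ) (v := v) ?_ ?_ ?_
      (fun x _ => (hu.differentiable one_ne_zero) x) (fun x _ => (hφ.differentiable one_ne_zero) x)
    · simpa only [hfd] using h1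
    · exact (((hu.continuous_fderiv one_ne_zero).clm_apply continuous_const).mul
        hφ.continuous).integrable_of_hasCompactSupport hs.mul_left
    · refine (hu.continuous.mul (hDφ.clm_apply continuous_const)).integrable_of_hasCompactSupport
        ?_
      refine hDs.mono fun p hp h0 => hp ?_
      simp [h0]
    · exact (hu.continuous.mul hφ.continuous).integrable_of_hasCompactSupport hs.mul_left
  simp only [← hD]
  rw [key a b, key b a]
  congr 1
  refine integral_congr_ae (Eventually.of_forall fun p => ?_)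
  have := (hc.contDiffAt (x := p)).isSymmSndFDerivAt (by simp) b a
  simp only [this]

theorem Curl.of_tendsto {μn : ℕ → E d → E d} {μ : E d → E d} (hC : ∀ n, Curl (μn n) univ)
    (hn : ∀ n, Integrable (μn n)) (hμ : Integrable μ)
    (h2 : Tendsto (fun n => ∫ x, ‖μn n x - μ x‖) atTop (𝓝 0)) : Curl μ univ := by
  intro φ hφ hs hO a b
  have hDφ : Continuous (fderiv ℝ φ) := hφ.continuous_fderiv one_ne_zero
  have hDs : HasCompactSupport (fderiv ℝ φ) := hs.fderiv (𝕜 := ℝ)
  obtain ⟨M, hM⟩ := hDs.exists_bound_of_continuous hDφ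
  have hM0 : 0 ≤ M := (norm_nonneg _).trans (hM 0)
  have hb : ∀ (ν : E d) (u v p : E d), ‖⟪ν, u⟫ * fderiv ℝ φ p v‖ ≤ (‖u‖ * (M * ‖v‖)) * ‖ν‖ :=
    fun ν u v p => by
      rw [norm_mul]
      have e1 : ‖⟪ν, u⟫‖ ≤ ‖ν‖ * ‖u‖ := norm_inner_le_norm _ _
      have e2 : ‖fderiv ℝ φ p v‖ ≤ M * ‖v‖ :=
        (ContinuousLinearMap.le_opNorm _ _).trans (by gcongr; exact hM p)
      calc _ ≤ (‖ν‖ * ‖u‖) * (M * ‖v‖) := by gcongr
        _ = _ := by ring
  have hi : ∀ (ν : E d → E d), Integrable ν → ∀ u v : E d,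
      Integrable fun p => ⟪ν p, u⟫ * fderiv ℝ φ p v := fun ν hν u v =>
    (hν.norm.const_mul (‖u‖ * (M * ‖v‖))).mono'
      ((hν.aestronglyMeasurable.inner aestronglyMeasurable_const).mul
        (hDφ.clm_apply continuous_const).aestronglyMeasurable)
      (Eventually.of_forall fun p => hb _ _ _ _)
  have key : ∀ u v : E d, Tendsto (fun n => ∫ p, ⟪μn n p, u⟫ * fderiv ℝ φ p v) atTop
      (𝓝 (∫ p, ⟪μ p, u⟫ * fderiv ℝ φ p v)) := fun u v => by
    rw [tendsto_iff_norm_sub_tendsto_zero]
    have h3 := h2.const_mul (‖u‖ * (M * ‖v‖))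
    rw [mul_zero] at h3
    refine squeeze_zero (fun n => norm_nonneg _) (fun n => ?_) h3
    rw [← integral_sub (hi _ (hn n) u v) (hi _ hμ u v), ← integral_const_mul]
    refine norm_integral_le_of_norm_le (((hn n).sub hμ).norm.const_mul _)
      (Eventually.of_forall fun p => ?_)
    rw [← sub_mul, ← inner_sub_left]
    exact hb _ _ _ _
  exact tendsto_nhds_unique (key a b) ((key b a).congr fun n => (hC n φ hφ hs hO a b).symm)

theorem exists_mollify2 {f : E d → ℝ} {G : E d → E d} (hf : Integrable f) (hG : Integrable G)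
    (hw : IsWeakGrad f G) : ∃ (fn : ℕ → E d → ℝ) (Gn : ℕ → E d → E d),
    (∀ n, ContDiff ℝ 2 (fn n)) ∧ (∀ n, Integrable (fn n)) ∧ (∀ n, Integrable (Gn n)) ∧
    (∀ n x v, fderiv ℝ (fn n) x v = ⟪Gn n x, v⟫) ∧
    Tendsto (fun n => ∫ x, ‖Gn n x - G x‖) atTop (𝓝 0) ∧
    ∀ᵐ x, Tendsto (fun n => fn n x) atTop (𝓝 (f x)) :=
  ⟨fun n => convolution ((bumpMo d n).normed volume) f (ContinuousLinearMap.lsmul ℝ ℝ) volume,
    fun n => convolution ((bumpMo d n).normed volume) G (ContinuousLinearMap.lsmul ℝ ℝ) volume,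
    fun n => (bumpMo d n).hasCompactSupport_normed.contDiff_convolution_left (n := 2) _
      (bumpMo d n).contDiff_normed hf.locallyIntegrable,
    fun n => (bumpMo d n).integrable_normed.integrable_convolution _ hf,
    fun n => (bumpMo d n).integrable_normed.integrable_convolution _ hG,
    fun _ x v => conv_fderiv_mo hf hG hw _ x v, conv_tendsto_mo hG, conv_ae_mo hf⟩

theorem curl_psi {f : E d → ℝ} {G : E d → E d} (hf : Integrable f) (hG : Integrable G)
    (hw : IsWeakGrad f G) {ε : ℝ} (hε : 0 < ε) :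
    Curl (fun x => (f x / √(f x ^ 2 + ε ^ 2)) • G x) univ := by
  obtain ⟨fn, Gn, hc, hi, hi', hD, t2, hae⟩ := exists_mollify2 hf hG hw
  refine Curl.of_tendsto (μn := fun n x => (fn n x / √(fn n x ^ 2 + ε ^ 2)) • Gn n x)
    (fun n => ?_) (fun n => intg_dpsi_ap (hi n) (hi' n) hε) (intg_dpsi_ap hf hG hε) ?_
  · refine curl_of_contDiff (h := fun x => √(fn n x ^ 2 + ε ^ 2) - ε) ?_ fun x v => ?_
    · exact ((((hc n).pow 2).add contDiff_const).sqrt fun x => by positivity).sub contDiff_const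
    · have h1 := ((hasDerivAt_psi_ap hε (fn n x)).comp_hasFDerivAt x
        ((hc n).differentiable two_ne_zero x).hasFDerivAt).fderiv
      have h2 := congrArg (fun L : E d →L[ℝ] ℝ => L v) h1
      simp only [smul_apply, smul_eq_mul, hD] at h2
      rw [real_inner_smul_left, ← h2]
      rfl
  · have t3 : Tendsto (fun n => ∫ x, ‖(fn n x / √(fn n x ^ 2 + ε ^ 2)) • G x -
        (f x / √(f x ^ 2 + ε ^ 2)) • G x‖) atTop (𝓝 (∫ _ : E d, (0 : ℝ))) := by
      refine tendsto_integral_of_dominated_convergence (fun x => ‖G x‖ + ‖G x‖)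
        (fun n => ((intg_dpsi_ap (hi n) hG hε).sub
          (intg_dpsi_ap hf hG hε)).norm.aestronglyMeasurable) (hG.norm.add hG.norm)
        (fun n => Eventually.of_forall fun x => ?_) ?_
      · rw [norm_norm]
        exact (norm_sub_le _ _).trans (add_le_add (norm_dpsi_ap hε _ _) (norm_dpsi_ap hε _ _))
      · filter_upwards [hae] with x hx
        exact tendsto_iff_norm_sub_tendsto_zero.1
          ((((cont_dpsi_ap hε).tendsto _).comp hx).smul_const (G x))
    rw [integral_zero] at t3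
    have t4 := t2.add t3
    rw [add_zero] at t4
    refine squeeze_zero (fun n => integral_nonneg fun x => norm_nonneg _) (fun n => ?_) t4
    have i1 : Integrable fun x => ‖Gn n x - G x‖ := ((hi' n).sub hG).norm
    have i2 : Integrable fun x => ‖(fn n x / √(fn n x ^ 2 + ε ^ 2)) • G x -
        (f x / √(f x ^ 2 + ε ^ 2)) • G x‖ :=
      ((intg_dpsi_ap (hi n) hG hε).sub (intg_dpsi_ap hf hG hε)).norm
    rw [← integral_add i1 i2]
    refine integral_mono ((intg_dpsi_ap (hi n) (hi' n) hε).sub (intg_dpsi_ap hf hG hε)).norm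
      (i1.add i2) fun x => ?_
    refine (norm_sub_le_norm_sub_add_norm_sub _ ((fn n x / √(fn n x ^ 2 + ε ^ 2)) • G x) _).trans ?_
    rw [← smul_sub]
    exact add_le_add (norm_dpsi_ap hε _ _) le_rfl

theorem pairC_abs {f : E d → ℝ} {G : E d → E d} (hf : Integrable f) (hG : Integrable G)
    (hw : IsWeakGrad f G) :
    ∃ μ : E d → E d, PairC (fun x => |f x|) μ univ ∧ ∀ x, ‖μ x‖ ≤ ‖G x‖ := by
  have hε : ∀ n : ℕ, (0 : ℝ) < 1 / ((n : ℝ) + 1) := fun n => by positivity
  have hb : ∀ x, ‖(f x / |f x|) • G x‖ ≤ ‖G x‖ := by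
    intro x
    rw [norm_smul]
    refine mul_le_of_le_one_left (norm_nonneg _) ?_
    rw [Real.norm_eq_abs, abs_div, abs_abs]
    exact div_self_le_one _
  have hl : ∀ x, Tendsto (fun n : ℕ => (f x / √(f x ^ 2 + (1 / ((n : ℝ) + 1)) ^ 2)) • G x) atTop
      (𝓝 ((f x / |f x|) • G x)) := by
    intro x
    refine Tendsto.smul_const ?_ _
    by_cases h : f x = 0
    · simp [h]
    · exact tendsto_const_nhds.div (tendsto_sqrt_ap (f x)) (abs_ne_zero.2 h)
  have hμ : Integrable fun x => (f x / |f x|) • G x :=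
    hG.norm.mono' (aestronglyMeasurable_of_tendsto_ae atTop
      (fun n => (intg_dpsi_ap hf hG (hε n)).aestronglyMeasurable) (Eventually.of_forall hl))
      (Eventually.of_forall hb)
  have t2 : Tendsto (fun n : ℕ => ∫ x, ‖(f x / √(f x ^ 2 + (1 / ((n : ℝ) + 1)) ^ 2)) • G x -
      (f x / |f x|) • G x‖) atTop (𝓝 0) := by
    have := tendsto_integral_of_dominated_convergence (μ := volume) (f := fun _ : E d => (0 : ℝ))
      (F := fun (n : ℕ) x => ‖(f x / √(f x ^ 2 + (1 / ((n : ℝ) + 1)) ^ 2)) • G x -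
        (f x / |f x|) • G x‖) (fun x => ‖G x‖ + ‖G x‖)
      (fun n => ((intg_dpsi_ap hf hG (hε n)).sub hμ).norm.aestronglyMeasurable)
      (hG.norm.add hG.norm) (fun n => Eventually.of_forall fun x => ?_)
      (Eventually.of_forall fun x => tendsto_iff_norm_sub_tendsto_zero.1 (hl x))
    · rwa [integral_zero] at this
    · rw [norm_norm]
      exact (norm_sub_le _ _).trans (add_le_add (norm_dpsi_ap (hε n) _ _) (hb x))
  refine ⟨fun x => (f x / |f x|) • G x, ⟨Pair.of_tendsto (fun n => pair_psi hf hG hw (hε n))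
    hf.abs hμ ?_ t2, Curl.of_tendsto (fun n => curl_psi hf hG hw (hε n))
      (fun n => intg_dpsi_ap hf hG (hε n)) hμ t2⟩, hb⟩
  have := tendsto_integral_of_dominated_convergence (μ := volume) (f := fun _ : E d => (0 : ℝ))
    (F := fun (n : ℕ) x => |√(f x ^ 2 + (1 / ((n : ℝ) + 1)) ^ 2) - 1 / ((n : ℝ) + 1) - abs (f x)|)
    (fun x => |f x| + |f x|)
    (fun n => ((intg_psi_ap hf (hε n)).sub hf.abs).abs.aestronglyMeasurable)
    (hf.abs.add hf.abs) (fun n => Eventually.of_forall fun x => ?_)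
    (Eventually.of_forall fun x => ?_)
  · rwa [integral_zero] at this
  · rw [Real.norm_eq_abs, abs_abs]
    exact (abs_sub _ _).trans (add_le_add (abs_psi_ap (hε n) _) (abs_abs _).le)
  · have h1 := (((tendsto_sqrt_ap (f x)).sub
      (tendsto_one_div_add_atTop_nhds_zero_nat (𝕜 := ℝ))).sub_const |f x|).abs
    simpa using h1

end Vale.Agent.P137
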