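import Vale.Agent.P137.C.CDefs

/-! P137 C/Dirs: the directions used in a tree.

`p = ν + (1/10) cdir`, `9/10 ≤ ‖p‖ ≤ 11/10`, `|p l| ≥ |ν l|`, `‖uv p - ν‖ ≤ 1/5`;
`φ (cdir ..) = 10 (‖p‖ φ (uv p) - φ ν)`, and `exists_dir` gives `be ‖φ‖ ≤ φ (cdir i s)`, `cdir i s = ± cdir i s'`.
-/

namespace Vale.Agent.P137

open MeasureTheory Metric Set Filter Topology
open scoped ENNReal NNReal RealInnerProductSpace

variable {d : ℕ}

theorem Good_near {ν : E d} (hν : ‖ν‖ = 1) : ∀ ξ ∈ Good ν, ‖‖ξ‖ • ν - ξ‖ ≤ 1 / 4 * ‖ξ‖ := by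
  intro ξ hξ
  by_cases h0 : ξ = 0
  · simp [h0]
  have hν0 : ν ≠ 0 := norm_ne_zero_iff.1 (by rw [hν]; exact one_ne_zero)
  have h1 : ‖uv ν - uv ξ‖ ≤ 1 / 4 := not_lt.1 fun h => hξ ⟨hν0, h0, h⟩
  rw [uv_of_norm_one hν] at h1
  have hn : ‖ξ‖ ≠ 0 := norm_ne_zero_iff.2 h0
  have e : ‖ξ‖ • ν - ξ = ‖ξ‖ • (ν - uv ξ) := by
    rw [smul_sub, uv, smul_smul, mul_inv_cancel₀ hn, one_smul]
  rw [e, norm_smul, norm_norm, mul_comm]
  exact mul_le_mul_of_nonneg_right h1 (norm_nonneg _)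

theorem cone_of_near {ν : E d} (hν : ‖ν‖ = 1) {Gd : Set (E d)} (hm : MeasurableSet Gd)
    (hG : ∀ ξ ∈ Gd, ‖‖ξ‖ • ν - ξ‖ ≤ 1 / 4 * ‖ξ‖) : Cone ν Gd := by
  refine ⟨hν.le, hm, fun ξ hξ => ?_⟩
  have h1 := hG ξ hξ
  have h2 := real_inner_le_norm ν (‖ξ‖ • ν - ξ)
  rw [inner_sub_right, real_inner_smul_right, real_inner_self_eq_norm_sq, hν] at h2
  have h3 := norm_nonneg ξ
  linarith

theorem tdir_vec {ν : E d} (hν : ‖ν‖ = 1) (i : Fin d) (s : Bool) :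
    9 / 10 ≤ ‖ν + (1 / 10 : ℝ) • cdir i s‖ ∧ ‖ν + (1 / 10 : ℝ) • cdir i s‖ ≤ 11 / 10 := by
  have h1 : ‖(1 / 10 : ℝ) • cdir i s‖ = 1 / 10 := by
    rw [norm_smul, norm_cdir]
    norm_num
  have h2 := norm_sub_le (ν + (1 / 10 : ℝ) • cdir i s) ((1 / 10 : ℝ) • cdir i s)
  rw [add_sub_cancel_right] at h2
  exact ⟨by linarith, (norm_add_le _ _).trans (by linarith)⟩

theorem norm_tdir {ν : E d} (hν : ‖ν‖ = 1) (o : Option (Fin d)) : ‖tdir ν o‖ = 1 := by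
  cases o with
  | none => exact hν
  | some i => exact norm_uv (norm_pos_iff.1 (by linarith [(tdir_vec hν i (decide (0 ≤ ν i))).1]))

theorem tdir_coord (ν : E d) (i l : Fin d) :
    |ν l| ≤ |(ν + (1 / 10 : ℝ) • cdir i (decide (0 ≤ ν i))) l| := by
  by_cases hl : l = i
  · subst hl
    by_cases h : 0 ≤ ν l
    · have e : (ν + (1 / 10 : ℝ) • cdir l (decide (0 ≤ ν l))) l = ν l + 1 / 10 := by
        simp [cdir, h]
      rw [e, abs_of_nonneg h, abs_of_nonneg (by linarith)]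
      linarith
    · have e : (ν + (1 / 10 : ℝ) • cdir l (decide (0 ≤ ν l))) l = ν l - 1 / 10 := by
        simp [cdir, h, sub_eq_add_neg]
      have h' := not_le.1 h
      rw [e, abs_of_neg h', abs_of_neg (by linarith)]
      linarith
  · have e : (ν + (1 / 10 : ℝ) • cdir i (decide (0 ≤ ν i))) l = ν l := by
      simp [cdir, hl]
    rw [e]

theorem tdir_trans {ν : E d} (hν : ‖ν‖ = 1) (ht : ∀ i, 1 / (80 * √(d : ℝ)) ≤ |ν i|)
    (o : Option (Fin d)) (i : Fin d) : 1 / (88 * √(d : ℝ)) ≤ |tdir ν o i| := by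
  have hs := one_le_sqrt (lt_of_le_of_lt (Nat.zero_le _) i.2)
  cases o with
  | none =>
    refine le_trans ?_ (ht i)
    exact one_div_le_one_div_of_le (by linarith) (by linarith)
  | some k =>
    obtain ⟨h1, h2⟩ := tdir_vec hν k (decide (0 ≤ ν k))
    have h3 := (ht i).trans (tdir_coord ν k i)
    have e : tdir ν (some k) i = ‖ν + (1 / 10 : ℝ) • cdir k (decide (0 ≤ ν k))‖⁻¹ *
        (ν + (1 / 10 : ℝ) • cdir k (decide (0 ≤ ν k))) i := rfl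
    rw [e, abs_mul, abs_of_nonneg (inv_nonneg.2 (norm_nonneg _))]
    have h4 : (11 / 10 : ℝ)⁻¹ ≤ ‖ν + (1 / 10 : ℝ) • cdir k (decide (0 ≤ ν k))‖⁻¹ :=
      inv_anti₀ (by linarith) h2
    have h5 := mul_le_mul h4 h3 (by positivity) (by positivity)
    refine le_trans (le_of_eq ?_) h5
    field_simp
    norm_num

theorem tdir_sub {ν : E d} (hν : ‖ν‖ = 1) (o : Option (Fin d)) : ‖tdir ν o - ν‖ ≤ 1 / 5 := by
  cases o with
  | none => simp [tdir]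
  | some k =>
    obtain ⟨h1, h2⟩ := tdir_vec hν k (decide (0 ≤ ν k))
    set p := ν + (1 / 10 : ℝ) • cdir k (decide (0 ≤ ν k)) with hp
    have hp0 : ‖p‖ ≠ 0 := by linarith
    have h3 : ‖p - ν‖ = 1 / 10 := by
      rw [hp, add_sub_cancel_left, norm_smul, norm_cdir]
      norm_num
    have e : uv p - p = (1 - ‖p‖) • uv p := by
      rw [sub_smul, one_smul, uv, smul_smul, mul_inv_cancel₀ hp0, one_smul]
    have h4 : ‖uv p - p‖ ≤ 1 / 10 := by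
      rw [e, norm_smul, norm_uv (norm_ne_zero_iff.1 hp0), mul_one, Real.norm_eq_abs, abs_le]
      constructor <;> linarith
    have h5 : ‖uv p - ν‖ ≤ ‖uv p - p‖ + ‖p - ν‖ := norm_sub_le_norm_sub_add_norm_sub _ _ _
    show ‖uv p - ν‖ ≤ 1 / 5
    linarith

theorem tdir_near {ν ξ : E d} (hν : ‖ν‖ = 1) (hξ : ‖‖ξ‖ • ν - ξ‖ ≤ 1 / 4 * ‖ξ‖)
    (o : Option (Fin d)) : ‖‖ξ‖ • tdir ν o - ξ‖ ≤ 9 / 20 * ‖ξ‖ := by
  have h1 : ‖‖ξ‖ • tdir ν o - ξ‖ ≤ ‖‖ξ‖ • tdir ν o - ‖ξ‖ • ν‖ + ‖‖ξ‖ • ν - ξ‖ :=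
    norm_sub_le_norm_sub_add_norm_sub _ _ _
  rw [← smul_sub, norm_smul, norm_norm] at h1
  have h2 := mul_le_mul_of_nonneg_left (tdir_sub hν o) (norm_nonneg ξ)
  linarith

theorem cdir_abs (φ : E d →L[ℝ] ℝ) (i : Fin d) (s s' : Bool) :
    φ (cdir i s) ≤ |φ (cdir i s')| := by
  have e : cdir i false = -cdir i true := by
    ext l
    by_cases hl : l = i <;> simp [cdir, hl]
  cases s <;> cases s'
  · exact le_abs_self _
  · rw [e, map_neg]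
    exact neg_le_abs _
  · rw [e, map_neg, abs_neg]
    exact le_abs_self _
  · exact le_abs_self _

theorem tdir_span (hd : 0 < d) {ν : E d} (hν : ‖ν‖ = 1) (φ : E d →L[ℝ] ℝ) :
    ∃ o, ‖φ‖ ≤ 105 * √(d : ℝ) * |φ (tdir ν o)| := by
  have hs := one_le_sqrt hd
  obtain ⟨i, s, h⟩ := exists_dir hd φ
  have h0 := h.trans (cdir_abs φ i s (decide (0 ≤ ν i)))
  obtain ⟨h1, h2⟩ := tdir_vec hν i (decide (0 ≤ ν i))
  set p := ν + (1 / 10 : ℝ) • cdir i (decide (0 ≤ ν i)) with hp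
  have hp0 : ‖p‖ ≠ 0 := by linarith
  have e1 : φ p = ‖p‖ * φ (uv p) := by
    rw [uv, map_smul, smul_eq_mul, ← mul_assoc, mul_inv_cancel₀ hp0, one_mul]
  have e2 : φ (cdir i (decide (0 ≤ ν i))) = 10 * (‖p‖ * φ (uv p)) - 10 * φ ν := by
    rw [← e1, hp, map_add, map_smul, smul_eq_mul]
    ring
  have h3 : |φ (cdir i (decide (0 ≤ ν i)))| ≤ 11 * |φ (uv p)| + 10 * |φ ν| := by
    rw [e2]
    refine (abs_sub _ _).trans ?_
    rw [abs_mul, abs_mul, abs_mul, abs_of_nonneg (norm_nonneg p),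
      abs_of_nonneg (by norm_num : (0 : ℝ) ≤ 10)]
    have := mul_le_mul_of_nonneg_right h2 (abs_nonneg (φ (uv p)))
    linarith
  have e3 : ‖φ‖ = 5 * √(d : ℝ) * (be d * ‖φ‖) := by
    unfold be
    field_simp
  have key : ∀ M : ℝ, be d * ‖φ‖ ≤ 21 * M → ‖φ‖ ≤ 105 * √(d : ℝ) * M := by
    intro M hM
    have := mul_le_mul_of_nonneg_left hM (show 0 ≤ 5 * √(d : ℝ) by linarith)
    rw [← e3] at this
    linarith
  rcases le_total |φ (uv p)| |φ ν| with hc | hc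
  · exact ⟨none, key |φ ν| (by linarith)⟩
  · exact ⟨some i, key |φ (uv p)| (by linarith)⟩

end Vale.Agent.P137
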