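import Vale.Agent.P137.Sum
import Vale.Agent.P137.C.CGrid

/-! P137 C/PackE: the packing estimates with the weights `(15/16)^m` (`BE`, `costE`).

These are ports of `exists_sum_F_geo` (Mart.lean), `trivsum` (Pack1.lean), `pack2_level`, `badsum` (Pack2.lean),
`sum_bad_level`, `sum_bad_zero`, `treesum` (Sum.lean): copy the proofs, replacing `3/4` by `15/16`, `BD` by `BE`,
`tsum_geo` by `tsum_geoE` (`4` by `16`), `lintegral_BD` by `lintegral_BE`, `measurable_BD` by `measurable_BE`.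
`bad_point`, `bad_level`, `triv_mass`, `topsum`, `sum_top`, `sum_lint`, `tsum_le_fin` can be used as they are.
-/

namespace Vale.Agent.P137

open MeasureTheory Metric Set Filter Topology
open scoped ENNReal NNReal RealInnerProductSpace

variable {d : ℕ}

theorem exists_sum_F_geoE (a : ℕ) : ∃ C : ℝ≥0, ∀ (g : Grid d) (μ : E d → E d), Integrable μ →
    ∀ s : Finset ℕ, ∑ j ∈ s, ∑' m : ℕ, (15 / 16 : ℝ≥0∞) ^ m *
      ENNReal.ofReal (g.F μ (j + a + m) - g.F μ j) ≤ C * ∫⁻ y, ‖μ y‖ₑ := by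
  have hs : Summable fun m : ℕ => (15 / 16 : ℝ) ^ m * ((a + m : ℕ) : ℝ) := by
    have h1 : Summable fun m : ℕ => (15 / 16 : ℝ) ^ m :=
      summable_geometric_of_lt_one (by norm_num) (by norm_num)
    have h2 : Summable fun m : ℕ => (m : ℝ) ^ 1 * (15 / 16 : ℝ) ^ m :=
      summable_pow_mul_geometric_of_norm_lt_one 1 (by norm_num)
    refine ((h1.mul_right (a : ℝ)).add h2).congr fun m => ?_
    push_cast
    ring
  refine ⟨Real.toNNReal (∑' m : ℕ, (15 / 16 : ℝ) ^ m * ((a + m : ℕ) : ℝ)), fun g μ hμ s => ?_⟩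
  have hC : ((Real.toNNReal (∑' m : ℕ, (15 / 16 : ℝ) ^ m * ((a + m : ℕ) : ℝ)) : ℝ≥0) : ℝ≥0∞) =
      ∑' m : ℕ, (15 / 16 : ℝ≥0∞) ^ m * ((a + m : ℕ) : ℝ≥0∞) := by
    change ENNReal.ofReal _ = _
    rw [ENNReal.ofReal_tsum_of_nonneg (fun m => by positivity) hs]
    refine tsum_congr fun m => ?_
    rw [ENNReal.ofReal_mul (by positivity), ENNReal.ofReal_pow (by norm_num),
      ENNReal.ofReal_natCast, ENNReal.ofReal_div_of_pos (by norm_num)]
    simp
  rw [hC, ← Summable.tsum_finsetSum (fun _ _ => ENNReal.summable), ← ENNReal.tsum_mul_right]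
  refine ENNReal.tsum_le_tsum fun m => ?_
  rw [← Finset.mul_sum, mul_assoc]
  refine mul_le_mul_right ?_ _
  simpa only [add_assoc] using g.sum_F_le hμ (a + m) s

theorem trivsumE : ∃ C : ℝ≥0, ∀ (g : Grid d) (μ : E d → E d) (K : ℕ), Integrable μ →
    ∑ j ∈ Finset.Icc 4 K, ∫⁻ y in {y | Triv g μ j y}, g.BE μ ∅ (j + aa d) y ≤ C * bud g μ K := by
  obtain ⟨C, hC⟩ := exists_sum_F_geoE (d := d) (aa d)
  refine ⟨C + 25600, fun g μ K hμ => ?_⟩
  have h1 : ∀ j, ∫⁻ y in {y | Triv g μ j y}, g.BE μ ∅ (j + aa d) y ≤ 25600 * PL g μ j +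
      ∑' m : ℕ, (15 / 16 : ℝ≥0∞) ^ m * ENNReal.ofReal (g.F μ (j + aa d + m) - g.F μ j) := by
    intro j
    rw [g.lintegral_BE, show (25600 : ℝ≥0∞) * PL g μ j =
      (∑' m : ℕ, (15 / 16 : ℝ≥0∞) ^ m) * (1600 * PL g μ j) by
        rw [Grid.tsum_geoE, ← mul_assoc]; norm_num, ← ENNReal.tsum_mul_right, ← ENNReal.tsum_add]
    refine ENNReal.tsum_le_tsum fun m => ?_
    rw [← mul_add]
    refine mul_le_mul_right ?_ _
    simp only [g.bd_empty]
    exact (g.lintegral_vk_le_add hμ (by omega) (sat_triv g μ j)).trans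
      (add_le_add_left (triv_mass g μ j) _)
  refine (Finset.sum_le_sum fun j _ => h1 j).trans ?_
  rw [Finset.sum_add_distrib, ← Finset.mul_sum, bud, mul_add, add_comm]
  push_cast
  refine add_le_add ((hC g μ hμ _).trans ?_) ?_
  · exact mul_le_mul_left le_self_add _
  · exact mul_le_mul_left le_add_self _

theorem pack2_levelE (hd : 0 < d) (g : Grid d) {μ : E d → E d} (hμ : Integrable μ) (j : ℕ) :
    ∫⁻ u, ∑ e ∈ box d, {u | ¬ Triv g μ j (u + g.sh j e)}.indicator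
      (fun u => g.BE μ (coneAt g μ j (u + g.sh j e)) (j + aa d) u) u ≤
      ((box d).card : ℝ≥0∞) * 801 * (∑' m : ℕ, (15 / 16 : ℝ≥0∞) ^ m *
        ENNReal.ofReal (g.F μ (j + aa d + m) - g.F μ j)) + 25600 * PL g μ j := by
  have h1 : ∀ u, ∑ e ∈ box d, {u | ¬ Triv g μ j (u + g.sh j e)}.indicator
      (fun u => g.BE μ (coneAt g μ j (u + g.sh j e)) (j + aa d) u) u ≤
      ∑ e ∈ box d, ∑' m : ℕ, (15 / 16 : ℝ≥0∞) ^ m * (800 * ENNReal.ofReal (g.lo μ j (j + aa d + m) u) +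
        (Sfar g μ j e).indicator (fun u => ‖g.vk μ (j + aa d + m) u‖ₑ) u) := by
    intro u
    refine Finset.sum_le_sum fun e he => ?_
    by_cases hu : u ∈ {u | ¬ Triv g μ j (u + g.sh j e)}
    · rw [indicator_of_mem hu, Grid.BE]
      refine ENNReal.tsum_le_tsum fun m => ?_
      gcongr
      exact bad_point hd g μ j _ he hu
    · rw [indicator_of_notMem hu]
      exact zero_le
  refine (lintegral_mono h1).trans ?_
  rw [lintegral_finsetSum _ fun e _ =>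
    Measurable.tsum fun m => (pack2_meas g μ j (j + aa d + m) e).const_mul _]
  have h2 : ∀ e ∈ box d, ∫⁻ u, ∑' m : ℕ, (15 / 16 : ℝ≥0∞) ^ m *
      (800 * ENNReal.ofReal (g.lo μ j (j + aa d + m) u) +
        (Sfar g μ j e).indicator (fun u => ‖g.vk μ (j + aa d + m) u‖ₑ) u) ≤
      801 * (∑' m : ℕ, (15 / 16 : ℝ≥0∞) ^ m * ENNReal.ofReal (g.F μ (j + aa d + m) - g.F μ j)) +
        25600 * ∫⁻ y, ENNReal.ofReal (pl (g.vk μ j y) (g.vk μ j (y + g.sh j e))) := by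
    intro e _
    rw [lintegral_tsum fun m => ((pack2_meas g μ j (j + aa d + m) e).const_mul _).aemeasurable]
    have h3 : ∀ m : ℕ, ∫⁻ u, (15 / 16 : ℝ≥0∞) ^ m *
        (800 * ENNReal.ofReal (g.lo μ j (j + aa d + m) u) +
          (Sfar g μ j e).indicator (fun u => ‖g.vk μ (j + aa d + m) u‖ₑ) u) ≤
        801 * ((15 / 16 : ℝ≥0∞) ^ m * ENNReal.ofReal (g.F μ (j + aa d + m) - g.F μ j)) +
          (15 / 16 : ℝ≥0∞) ^ m *
            (1600 * ∫⁻ y, ENNReal.ofReal (pl (g.vk μ j y) (g.vk μ j (y + g.sh j e)))) := by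
      intro m
      rw [lintegral_const_mul _ (pack2_meas g μ j (j + aa d + m) e)]
      refine (mul_le_mul_right (bad_level g hμ (by omega) e) _).trans (le_of_eq ?_)
      ring
    refine (ENNReal.tsum_le_tsum h3).trans (le_of_eq ?_)
    rw [ENNReal.tsum_add, ENNReal.tsum_mul_left, ENNReal.tsum_mul_right, Grid.tsum_geoE, ← mul_assoc]
    norm_num
  refine (Finset.sum_le_sum h2).trans (le_of_eq ?_)
  rw [Finset.sum_add_distrib, Finset.sum_const, nsmul_eq_mul, ← Finset.mul_sum, PL, mul_assoc]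

theorem badsumE (hd : 0 < d) : ∃ C : ℝ≥0, ∀ (g : Grid d) (μ : E d → E d) (K : ℕ), Integrable μ →
    ∑ j ∈ Finset.Icc 4 K, ∫⁻ u, ∑ e ∈ box d, {u | ¬ Triv g μ j (u + g.sh j e)}.indicator
      (fun u => g.BE μ (coneAt g μ j (u + g.sh j e)) (j + aa d) u) u ≤ C * bud g μ K := by
  obtain ⟨C1, hC1⟩ := exists_sum_F_geoE (d := d) (aa d)
  refine ⟨((box d).card : ℝ≥0) * 801 * C1 + 25600, fun g μ K hμ => ?_⟩
  refine (Finset.sum_le_sum fun j _ => pack2_levelE hd g hμ j).trans ?_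
  rw [Finset.sum_add_distrib, ← Finset.mul_sum, ← Finset.mul_sum, bud]
  have h1 := hC1 g μ hμ (Finset.Icc 4 K)
  push_cast
  calc _ ≤ ((box d).card : ℝ≥0∞) * 801 * (C1 * ∫⁻ y, ‖μ y‖ₑ) +
        25600 * ∑ j ∈ Finset.Icc 4 K, PL g μ j := by gcongr
    _ ≤ ((box d).card : ℝ≥0∞) * 801 * (C1 * ((∫⁻ y, ‖μ y‖ₑ) + ∑ j ∈ Finset.Icc 4 K, PL g μ j)) +
        25600 * ((∫⁻ y, ‖μ y‖ₑ) + ∑ j ∈ Finset.Icc 4 K, PL g μ j) := by
        gcongr
        · exact le_self_add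
        · exact le_add_self
    _ = _ := by ring

theorem sum_bad_levelE (g : Grid d) (μ : E d → E d) (K j : ℕ) :
    ∑' p : ℕ × (Fin d → ℤ), (sumP g μ K).indicator
      (fun p => ∫⁻ u in HH g p.1 (g.rep p.1 p.2) (TT g μ K p.1 (g.rep p.1 p.2)) j,
        g.BE μ (Good (nu (g.vk μ p.1 (g.rep p.1 p.2)))) (j + aa d) u) p ≤
    ∫⁻ u, ∑ e ∈ box d, {u | ¬ Triv g μ j (u + g.sh j e)}.indicator
      (fun u => g.BE μ (coneAt g μ j (u + g.sh j e)) (j + aa d) u) u := by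
  rw [sum_lint (sumP g μ K) (fun p => HH g p.1 (g.rep p.1 p.2) (TT g μ K p.1 (g.rep p.1 p.2)) j)
    (fun p u => g.BE μ (Good (nu (g.vk μ p.1 (g.rep p.1 p.2)))) (j + aa d) u)
    (fun p hp => ((isTree_TT hp).sat_HH j).measurableSet) (fun p => g.measurable_BE _ _)]
  refine lintegral_mono fun u => ?_
  refine tsum_le_fin _ _ _ (fun e => (tp g μ j (u + g.sh j e),
    g.idx (tp g μ j (u + g.sh j e)) (u + g.sh j e))) fun p => ?_
  by_cases hp : p ∈ sumP g μ K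
  · by_cases hu : u ∈ HH g p.1 (g.rep p.1 p.2) (TT g μ K p.1 (g.rep p.1 p.2)) j
    · right
      obtain ⟨-, y, hy, hyu⟩ := id hu
      set e : Fin d → ℤ := g.idx j y - g.idx j u with he
      have hidx : g.idx j y = g.idx j (u + g.sh j e) := by
        rw [g.idx_add_sh, he]; abel
      have hy' : u + g.sh j e ∈ TT g μ K p.1 (g.rep p.1 p.2) j := (isTree_TT hp).sat j _ _ hidx hy
      obtain ⟨h1, h2, h3⟩ := TT_unique hy'
      refine ⟨e, ?_, ?_, ?_⟩
      · refine Fintype.mem_piFinset.2 fun i => Finset.mem_Icc.2 ?_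
        have := abs_le.1 (hyu i)
        simp only [he, Pi.sub_apply]
        push_cast at this
        omega
      · refine Prod.ext h1 ?_
        rw [← h1]; exact h2
      · have ht : u ∈ {u | ¬ Triv g μ j (u + g.sh j e)} := hy'.2.2.2.2
        rw [indicator_of_mem hp, indicator_of_mem hu, indicator_of_mem ht, h3, coneAt, ← h1]
    · left
      rw [indicator_of_mem hp, indicator_of_notMem hu]
  · left
    rw [indicator_of_notMem hp]

theorem sum_bad_zeroE (g : Grid d) (μ : E d → E d) (K j : ℕ) (hj : j ∉ Finset.Icc 4 K) :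
    ∑' p : ℕ × (Fin d → ℤ), (sumP g μ K).indicator
      (fun p => ∫⁻ u in HH g p.1 (g.rep p.1 p.2) (TT g μ K p.1 (g.rep p.1 p.2)) j,
        g.BE μ (Good (nu (g.vk μ p.1 (g.rep p.1 p.2)))) (j + aa d) u) p = 0 := by
  refine ENNReal.tsum_eq_zero.2 fun p => ?_
  by_cases hp : p ∈ sumP g μ K
  · have : HH g p.1 (g.rep p.1 p.2) (TT g μ K p.1 (g.rep p.1 p.2)) j = ∅ := by
      refine eq_empty_of_forall_notMem ?_
      rintro u ⟨-, y, hy, -⟩
      exact hj (Finset.mem_Icc.2 ⟨hp.1.trans hy.2.1, hy.2.2.1⟩)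
    rw [indicator_of_mem hp, this]
    simp
  · rw [indicator_of_notMem hp]

theorem treesumE (hd : 0 < d) : ∃ C : ℝ≥0, ∀ (g : Grid d) (μ : E d → E d) (K : ℕ), Integrable μ →
    ∑' p : ℕ × (Fin d → ℤ), {p : ℕ × (Fin d → ℤ) | IsTop g μ K p.1 (g.rep p.1 p.2)}.indicator
      (fun p => costE g μ (Good (nu (g.vk μ p.1 (g.rep p.1 p.2)))) p.1 (g.rep p.1 p.2)
        (TT g μ K p.1 (g.rep p.1 p.2))) p ≤ C * bud g μ K := by
  obtain ⟨C1, h1⟩ := topsum hd
  obtain ⟨C2, h2⟩ := badsumE hd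
  refine ⟨C1 + C2, fun g μ K hμ => ?_⟩
  have e : ∀ p : ℕ × (Fin d → ℤ), (sumP g μ K).indicator
      (fun p => costE g μ (Good (nu (g.vk μ p.1 (g.rep p.1 p.2)))) p.1 (g.rep p.1 p.2)
        (TT g μ K p.1 (g.rep p.1 p.2))) p =
      (sumP g μ K).indicator
        (fun p => ∫⁻ u in g.cube p.1 (g.rep p.1 p.2), ‖g.vk μ p.1 u‖ₑ) p +
      ∑' j : ℕ, (sumP g μ K).indicator
        (fun p => ∫⁻ u in HH g p.1 (g.rep p.1 p.2) (TT g μ K p.1 (g.rep p.1 p.2)) j,
          g.BE μ (Good (nu (g.vk μ p.1 (g.rep p.1 p.2)))) (j + aa d) u) p := by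
    intro p
    by_cases hp : p ∈ sumP g μ K
    · simp only [indicator_of_mem hp, costE]
    · simp [indicator_of_notMem hp]
  change ∑' p : ℕ × (Fin d → ℤ), (sumP g μ K).indicator _ p ≤ _
  rw [tsum_congr e, ENNReal.tsum_add, ENNReal.tsum_comm, tsum_eq_sum (sum_bad_zeroE g μ K)]
  push_cast
  rw [add_mul]
  exact add_le_add ((sum_top g μ K).trans (h1 g μ K hμ))
    ((Finset.sum_le_sum fun j _ => sum_bad_levelE g μ K j).trans (h2 g μ K hμ))

end Vale.Agent.P137
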