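import Vale.Agent.P137.C.NegA

/-! P137 C/NegInt: integrated forms of the pointwise bound (tools in NegA.lean). `R = g.R j`.

For a fixed `x0` the quantities `BB x0 k`, `Ex C1 x0 k`, `tau`, `kap`, `mm` of `S = ⟨h, μ, O, g, j, ν, Gd, v, x, r⟩` do not depend
on `v, x, r` (`rfl`).
* `exc_sum`: `conc` with `L = 4 tau k`, `κ = kap k`, `T/m1 = C1 / ep k`; `(1/ep k)^4 2^(-k) ≤ (15/16)^k`
  (`(16/15)^9 ≤ 2`); if `BB = 0` the term vanishes. Use `toMeasurable` of `Ex` and `lintegral_tsum`.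
* `sum_BB_le`: `lintegral_tsum` and `tsum_BD_le` (`lev k = j + aa d + k`).
* `shell_int`: Tonelli; for fixed `p` the set of `x` with `p ∈ Sh x ρ L` is `Sh p ρ L`, of volume
  `≤ om ((ρ + 2L)^d - (ρ - L)^d) ≤ C L R^(d-1)`; and `Sh x ρ L ⊆ ball x0 (3R)`.
* `neg_local`: at `x` where `Ni` is differentiable, `fderiv (Ni g h j) x v = (om r^d)⁻¹ ⟪v, ∫_{ball x r} μ⟫` for an
  optimal `r` (`fderiv_Nc`, `av_eq`), `(om r^d)⁻¹ ≤ 2^d/(om R^d)`; `pw` with `τs = R/4 = 4 tau 0` (so `One = 0`);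
  at the other points `fderiv = 0`. Integrate over `ball x0 (R/4)`.
* `zone_local`: `Gd = ∅`, `ν = 0`, `v = -uv (∫_{ball x r} μ)` (if the integral is `0` the gradient vanishes),
  `τs = min (r - R/2) (R - r)`; if `τs < 4 tau k` then `Sh x r (4 tau k) ⊆ Sh x R (8 tau k) ∪ Sh x (R/2) (8 tau k)`;
  `mm_empty_le`, `shell_int`, `2^(-k) ≤ (15/16)^k`.
* `local_to_set`: as `me_set` in ME.lean (`lintegral_ball_lintegral`).
-/

namespace Vale.Agent.P137

open MeasureTheory Metric Set Filter Topology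
open scoped ENNReal NNReal RealInnerProductSpace

variable {d : ℕ}

theorem negInt_grad {h : E d → ℝ} {μ : E d → E d} {O : Set (E d)} (hP : Pair h μ O) (g : Grid d)
    (j : ℕ) {x : E d} (hO : ball x (2 * g.R j) ⊆ O) (hx : DifferentiableAt ℝ (Ni g h j) x) :
    ∃ r c : ℝ, g.R j / 2 ≤ r ∧ r ≤ g.R j ∧ av h x r = Ni g h j x ∧ 0 ≤ c ∧
      c ≤ 2 ^ d / om d / g.R j ^ d ∧
      fderiv ℝ (Ni g h j) x = innerSL ℝ (c • ∫ p in ball x r, μ p) := by
  have hR := g.R_pos j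
  obtain ⟨r, h1, h2, h3⟩ := exists_opt_Ni hP.ih g j x
  have hr : 0 < r := by linarith
  have hom : 0 < om d := om_pos
  refine ⟨r, (om d * r ^ d)⁻¹, h1, h2, h3, by positivity, ?_, ?_⟩
  · rw [div_div, inv_eq_one_div, div_le_div_iff₀ (by positivity) (by positivity), one_mul,
      mul_left_comm, ← mul_pow]
    gcongr
    linarith
  · rw [← av_eq μ x hr]
    exact fderiv_Nc hP (by positivity) hx ⟨h1, h2, h3⟩
      ((ball_subset_ball (by linarith)).trans hO)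

theorem negInt_sub {x x0 : E d} {R : ℝ} (hx : x ∈ ball x0 (R / 4)) :
    ball x (2 * R) ⊆ ball x0 (3 * R) := by
  have h1 := mem_ball.1 hx
  have h2 := dist_nonneg (x := x) (y := x0)
  exact ball_subset_ball' (by linarith)

theorem negInt_vol (x0 : E d) {R : ℝ} (hR : 0 < R) :
    volume (ball x0 (R / 4)) ≤ ENNReal.ofReal (om d) * ENNReal.ofReal (R ^ d) := by
  have hom : 0 < om d := om_pos
  rw [volume_ball_eq _ (by positivity), ← ENNReal.ofReal_mul hom.le]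
  gcongr
  linarith

theorem negInt_main (hd : 0 < d) (C C3 : ℝ≥0) {C1 : ℝ} (hC1 : 0 ≤ C1) : ∃ C' : ℝ≥0,
    ∀ (S : Sit d) (x0 : E d) (f G : E d → ℝ≥0∞), Integrable S.μ → Measurable G →
      (∀ x ∈ ball x0 (S.R / 4), f x ≤ ENNReal.ofReal (2 ^ d / om d / S.R ^ d) *
        (C * ((∑' k, (15 / 16 : ℝ≥0∞) ^ k * S.BB x0 k) +
          (∑' k, (S.Ex C1 x0 k).indicator (fun _ => S.BB x0 k) x) + G x))) →
      ∫⁻ x in ball x0 (S.R / 4), G x ≤
        C3 * ENNReal.ofReal (S.R ^ d) * ∑' k, (15 / 16 : ℝ≥0∞) ^ k * S.BB x0 k →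
      ∫⁻ x in ball x0 (S.R / 4), f x ≤
        C' * ∫⁻ p in ball x0 (3 * S.R), S.g.BE S.μ S.Gd (S.j + aa d) p := by
  obtain ⟨C2, h2⟩ := exc_sum hd hC1
  refine ⟨(2 ^ d / om d).toNNReal * C * ((om d).toNNReal + C2 + C3) * 5,
    fun S x0 f G hμ hG hf h3 => ?_⟩
  have hR := S.R_pos
  have hom : 0 < om d := om_pos
  set A := ∑' k, (15 / 16 : ℝ≥0∞) ^ k * S.BB x0 k with hA
  let F : E d → ℝ≥0∞ := fun x =>
    ∑' k, (toMeasurable volume (S.Ex C1 x0 k)).indicator (fun _ => S.BB x0 k) x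
  have h4 : ∫⁻ x in ball x0 (S.R / 4), F x ≤ C2 * ENNReal.ofReal (S.R ^ d) * A := by
    refine (setLIntegral_le_lintegral _ _).trans (le_trans (le_of_eq ?_) (h2 S x0 hμ))
    rw [lintegral_tsum fun k =>
      (measurable_const.indicator (measurableSet_toMeasurable _ _)).aemeasurable]
    refine tsum_congr fun k => ?_
    rw [lintegral_indicator_const (measurableSet_toMeasurable _ _), measure_toMeasurable, mul_comm]
  have h5 : ENNReal.ofReal (2 ^ d / om d / S.R ^ d) * ENNReal.ofReal (S.R ^ d) =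
      ENNReal.ofReal (2 ^ d / om d) := by
    rw [← ENNReal.ofReal_mul (by positivity), div_mul_cancel₀ _ (by positivity)]
  calc _ ≤ ∫⁻ x in ball x0 (S.R / 4),
        ENNReal.ofReal (2 ^ d / om d / S.R ^ d) * (C * (A + F x + G x)) := by
        refine setLIntegral_mono' measurableSet_ball fun x hx => (hf x hx).trans ?_
        gcongr
        exact ENNReal.tsum_le_tsum fun k =>
          indicator_le_indicator_of_subset (subset_toMeasurable _ _) (fun _ => zero_le) x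
    _ = ENNReal.ofReal (2 ^ d / om d / S.R ^ d) * (C * (A * volume (ball x0 (S.R / 4)) +
          (∫⁻ x in ball x0 (S.R / 4), F x) + ∫⁻ x in ball x0 (S.R / 4), G x)) := by
        rw [lintegral_const_mul' _ _ ENNReal.ofReal_ne_top,
          lintegral_const_mul' _ _ ENNReal.coe_ne_top, lintegral_add_right _ hG,
          lintegral_add_left measurable_const, setLIntegral_const]
    _ ≤ ENNReal.ofReal (2 ^ d / om d / S.R ^ d) *
          (C * (A * (ENNReal.ofReal (om d) * ENNReal.ofReal (S.R ^ d)) +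
            C2 * ENNReal.ofReal (S.R ^ d) * A + C3 * ENNReal.ofReal (S.R ^ d) * A)) := by
        gcongr
        exact negInt_vol x0 hR
    _ = ENNReal.ofReal (2 ^ d / om d / S.R ^ d) * ENNReal.ofReal (S.R ^ d) * C *
          (ENNReal.ofReal (om d) + C2 + C3) * A := by ring
    _ ≤ ENNReal.ofReal (2 ^ d / om d) * C * (ENNReal.ofReal (om d) + C2 + C3) *
          (5 * ∫⁻ p in ball x0 (3 * S.R), S.g.BE S.μ S.Gd (S.j + aa d) p) := by
        rw [h5]
        gcongr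
        exact sum_BB_le S x0
    _ = _ := by
        unfold ENNReal.ofReal
        push_cast
        ring

theorem neg_local (hd : 0 < d) : ∃ C : ℝ≥0, ∀ (h : E d → ℝ) (μ : E d → E d) (O : Set (E d))
    (g : Grid d) (j : ℕ) (ν : E d) (Gd : Set (E d)) (v x0 : E d), PairC h μ O →
    ball x0 (3 * g.R j) ⊆ O → Cone ν Gd → ‖v‖ = 1 → (∀ ξ ∈ Gd, ‖‖ξ‖ • v - ξ‖ ≤ 9 / 20 * ‖ξ‖) →
    ∫⁻ x in ball x0 (g.R j / 4),
        (Best g h j).indicator (fun x => ENNReal.ofReal (-fderiv ℝ (Ni g h j) x v)) x ≤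
      C * ∫⁻ p in ball x0 (3 * g.R j), g.BE μ Gd (j + aa d) p := by
  obtain ⟨C, C1, hC1, hpw⟩ := Sit.pw hd
  obtain ⟨C', hm⟩ := negInt_main hd C 0 hC1
  refine ⟨C', fun h μ O g j ν Gd v x0 hP hO hG hv hn => ?_⟩
  refine hm ⟨h, μ, O, g, j, ν, Gd, v, x0, g.R j⟩ x0 _ (fun _ => 0) hP.pair.im measurable_const
    (fun x hx => ?_) (by simp)
  by_cases hB : x ∈ Best g h j
  swap
  · rw [indicator_of_notMem hB]
    exact zero_le
  rw [indicator_of_mem hB]
  by_cases hx' : DifferentiableAt ℝ (Ni g h j) x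
  swap
  · rw [fderiv_zero_of_not_differentiableAt hx']
    simp
  have hO' : ball x (2 * g.R j) ⊆ O := (negInt_sub hx).trans hO
  obtain ⟨r, c, h1, h2, h3, h4, h5, h6⟩ := negInt_grad hP.pair g j hO' hx'
  have hR := g.R_pos j
  let S : Sit d := ⟨h, μ, O, g, j, ν, Gd, v, x, r⟩
  have h7 := hpw S x0 (g.R j / 4) ⟨hP, hO', h1, h2, hG, hv, hn⟩ hx fun ρ hρ => by
    have h8 : |ρ - r| ≤ g.R j / 4 := hρ
    rw [abs_le] at h8
    exact (hB ρ (by linarith) (by linarith)).trans h3.ge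
  have h8 : ∑' k, S.One (g.R j / 4) k = 0 := by
    refine ENNReal.tsum_eq_zero.2 fun k => if_neg (not_lt.2 ?_)
    have h9 : S.tau k ≤ g.R j / 16 := S.tau_le k
    linarith
  rw [h8] at h7
  rw [h6, innerSL_apply_apply, real_inner_smul_left, ← mul_neg, ENNReal.ofReal_mul h4,
    real_inner_comm]
  exact mul_le_mul' (ENNReal.ofReal_le_ofReal h5) h7

theorem negInt_tau (S : Sit d) (k : ℕ) : ENNReal.ofReal (8 * S.tau k / S.R * S.R ^ d) ≤
    ENNReal.ofReal (S.R ^ d) * (15 / 16 : ℝ≥0∞) ^ k := by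
  have hR := S.R_pos
  have h1 : (15 / 16 : ℝ≥0∞) ^ k = ENNReal.ofReal ((15 / 16) ^ k) := by
    rw [ENNReal.ofReal_pow (by norm_num), ENNReal.ofReal_div_of_pos (by norm_num)]
    simp
  rw [h1, ← ENNReal.ofReal_mul (by positivity), mul_comm]
  refine ENNReal.ofReal_le_ofReal (mul_le_mul_of_nonneg_left ?_ (by positivity))
  have h2 : 8 * S.tau k / S.R = 1 / 2 * (1 / 2) ^ k := by
    unfold Sit.tau
    rw [one_div_pow]
    field_simp
    norm_num
  have h3 : (1 / 2 : ℝ) ^ k ≤ (15 / 16) ^ k := pow_le_pow_left₀ (by norm_num) (by norm_num) k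
  have h4 : (0 : ℝ) ≤ (1 / 2) ^ k := by positivity
  linarith

theorem negInt_one (S : Sit d) {x0 : E d} (hx : S.x ∈ ball x0 (S.R / 4)) (h1 : S.R / 2 ≤ S.r)
    (h2 : S.r ≤ S.R) : ∑' k, S.One (min (S.r - S.R / 2) (S.R - S.r)) k ≤
      (∑' k, ((∫⁻ p in Sh S.x S.R (8 * S.tau k), S.mm k p) +
        ∫⁻ p in Sh S.x (S.R / 2) (8 * S.tau k), S.mm k p)) + ∫⁻ p in ball x0 (3 * S.R), S.mm 0 p := by
  rw [← tsum_ite_eq (0 : ℕ) fun _ => ∫⁻ p in ball x0 (3 * S.R), S.mm 0 p, ← ENNReal.tsum_add]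
  refine ENNReal.tsum_le_tsum fun k => ?_
  unfold Sit.One
  split_ifs with h3 h4
  · refine add_le_add ((lintegral_mono_set ?_).trans (lintegral_union_le _ _ _))
      (lintegral_mono_set (negInt_sub hx))
    intro p hp
    simp only [Sh, mem_ofPred_eq, mem_union, abs_le] at hp ⊢
    rcases min_lt_iff.1 h3 with h | h
    · right; constructor <;> linarith
    · left; constructor <;> linarith
  · refine add_le_add ((lintegral_mono_set ?_).trans (lintegral_union_le _ _ _)) le_rfl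
    intro p hp
    simp only [Sh, mem_ofPred_eq, mem_union, abs_le] at hp ⊢
    rcases min_lt_iff.1 h3 with h | h
    · right; constructor <;> linarith
    · left; constructor <;> linarith
  · exact zero_le
  · exact zero_le

theorem negInt_G (hd : 0 < d) : ∃ C3 : ℝ≥0, ∀ (S : Sit d) (x0 : E d), S.Gd = ∅ →
    ∫⁻ x in ball x0 (S.R / 4), ((∑' k, ((∫⁻ p in Sh x S.R (8 * S.tau k), S.mm k p) +
        ∫⁻ p in Sh x (S.R / 2) (8 * S.tau k), S.mm k p)) + ∫⁻ p in ball x0 (3 * S.R), S.mm 0 p) ≤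
      C3 * ENNReal.ofReal (S.R ^ d) * ∑' k, (15 / 16 : ℝ≥0∞) ^ k * S.BB x0 k := by
  obtain ⟨C, hC⟩ := shell_int hd
  refine ⟨4 * C + 2 * (om d).toNNReal, fun S x0 hG => ?_⟩
  have hR := S.R_pos
  have hm : ∀ k, Measurable (S.mm k) := fun k => S.g.measurable_mm _ _
  have h1 : ∀ k, ∫⁻ p in ball x0 (3 * S.R), S.mm k p ≤ 2 * S.BB x0 k := fun k => by
    unfold Sit.BB Sit.mm
    rw [hG, ← lintegral_const_mul' _ _ (by simp)]
    exact lintegral_mono fun p => S.g.mm_empty_le _ p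
  have h2 : ∀ k (ρ : ℝ), S.R / 2 ≤ ρ → ρ ≤ S.R →
      ∫⁻ x in ball x0 (S.R / 4), ∫⁻ p in Sh x ρ (8 * S.tau k), S.mm k p ≤
        2 * C * ENNReal.ofReal (S.R ^ d) * ((15 / 16 : ℝ≥0∞) ^ k * S.BB x0 k) := by
    intro k ρ h3 h4
    have h5 := S.tau_pos k
    have h6 := S.tau_le k
    refine (hC _ x0 S.R ρ _ (hm k) hR h3 h4 (by linarith) (by linarith)).trans
      ((mul_le_mul' (mul_le_mul_right (negInt_tau S k) _) (h1 k)).trans (le_of_eq ?_))
    ring
  rw [lintegral_add_right _ measurable_const, setLIntegral_const, lintegral_tsum fun k =>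
    ((measurable_lintegral_Sh (hm k) _ _).fun_add
      (measurable_lintegral_Sh (hm k) _ _)).aemeasurable]
  have h3 : S.BB x0 0 ≤ ∑' k, (15 / 16 : ℝ≥0∞) ^ k * S.BB x0 k := by
    simpa using ENNReal.le_tsum (f := fun k => (15 / 16 : ℝ≥0∞) ^ k * S.BB x0 k) 0
  calc _ ≤ (∑' k, 4 * C * ENNReal.ofReal (S.R ^ d) * ((15 / 16 : ℝ≥0∞) ^ k * S.BB x0 k)) +
        2 * (∑' k, (15 / 16 : ℝ≥0∞) ^ k * S.BB x0 k) *
          (ENNReal.ofReal (om d) * ENNReal.ofReal (S.R ^ d)) := by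
        refine add_le_add (ENNReal.tsum_le_tsum fun k => ?_)
          (mul_le_mul' ((h1 0).trans (mul_le_mul_right h3 _)) (negInt_vol x0 hR))
        rw [lintegral_add_left (measurable_lintegral_Sh (hm k) _ _)]
        refine (add_le_add (h2 k _ (by linarith) le_rfl) (h2 k _ le_rfl (by linarith))).trans
          (le_of_eq ?_)
        ring
    _ = _ := by
        rw [ENNReal.tsum_mul_left]
        unfold ENNReal.ofReal
        push_cast
        ring

theorem zone_local (hd : 0 < d) : ∃ C : ℝ≥0, ∀ (h : E d → ℝ) (μ : E d → E d) (O : Set (E d))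
    (g : Grid d) (j : ℕ) (x0 : E d), PairC h μ O → ball x0 (3 * g.R j) ⊆ O →
    ∫⁻ x in ball x0 (g.R j / 4), ‖fderiv ℝ (Ni g h j) x‖ₑ ≤
      C * ∫⁻ p in ball x0 (3 * g.R j), g.BE μ ∅ (j + aa d) p := by
  obtain ⟨C, C1, hC1, hpw⟩ := Sit.pw hd
  obtain ⟨C3, hC3⟩ := negInt_G hd
  obtain ⟨C', hm⟩ := negInt_main hd C C3 hC1
  refine ⟨C', fun h μ O g j x0 hP hO => ?_⟩
  let S0 : Sit d := ⟨h, μ, O, g, j, 0, ∅, 0, x0, g.R j⟩
  have hm0 : ∀ k, Measurable (S0.mm k) := fun k => S0.g.measurable_mm _ _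
  refine hm S0 x0 _ _ hP.pair.im ((Measurable.tsum fun k =>
    (measurable_lintegral_Sh (hm0 k) _ _).fun_add (measurable_lintegral_Sh (hm0 k) _ _)).fun_add
      measurable_const) (fun x hx => ?_) (hC3 S0 x0 rfl)
  by_cases hx' : DifferentiableAt ℝ (Ni g h j) x
  swap
  · rw [fderiv_zero_of_not_differentiableAt hx', ← ofReal_norm, norm_zero, ENNReal.ofReal_zero]
    exact zero_le
  have hO' : ball x (2 * g.R j) ⊆ O := (negInt_sub hx).trans hO
  obtain ⟨r, c, h1, h2, h3, h4, h5, h6⟩ := negInt_grad hP.pair g j hO' hx'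
  rw [h6, ← ofReal_norm, innerSL_apply_norm, norm_smul, Real.norm_of_nonneg h4,
    ENNReal.ofReal_mul h4]
  by_cases hY : ∫ p in ball x r, μ p = 0
  · rw [hY, norm_zero, ENNReal.ofReal_zero, mul_zero]
    exact zero_le
  let S : Sit d := ⟨h, μ, O, g, j, 0, ∅, -uv (∫ p in ball x r, μ p), x, r⟩
  have h7 := hpw S x0 (min (r - g.R j / 2) (g.R j - r)) ⟨hP, hO', h1, h2,
    ⟨by simp [S], MeasurableSet.empty, fun _ h => h.elim⟩, (norm_neg _).trans (norm_uv hY),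
    fun _ h => h.elim⟩ hx fun ρ hρ => by
      have h8 : |ρ - r| ≤ min (r - g.R j / 2) (g.R j - r) := hρ
      rw [le_min_iff, abs_le, abs_le] at h8
      exact (le_Ni hP.pair.ih g j x (by linarith) (by linarith)).trans h3.ge
  have h8 : -⟪S.v, ∫ p in ball S.x S.r, S.μ p⟫ = ‖∫ p in ball x r, μ p‖ := by
    change -⟪-uv (∫ p in ball x r, μ p), ∫ p in ball x r, μ p⟫ = _
    rw [inner_neg_left, neg_neg, inner_uv_self]
  rw [h8] at h7
  exact mul_le_mul' (ENNReal.ofReal_le_ofReal h5)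
    (h7.trans (mul_le_mul_right (add_le_add_right (negInt_one S hx h1 h2) _) _))

theorem neg_set (hd : 0 < d) : ∃ C : ℝ≥0, ∀ (h : E d → ℝ) (μ : E d → E d) (O : Set (E d))
    (g : Grid d) (j : ℕ) (ν : E d) (Gd : Set (E d)) (v : E d) (X : Set (E d)), PairC h μ O →
    MeasurableSet X → thickening (4 * g.R j) X ⊆ O → Cone ν Gd → ‖v‖ = 1 →
    (∀ ξ ∈ Gd, ‖‖ξ‖ • v - ξ‖ ≤ 9 / 20 * ‖ξ‖) →
    ∫⁻ x in X ∩ Best g h j, ENNReal.ofReal (-fderiv ℝ (Ni g h j) x v) ≤
      C * ∫⁻ p in thickening (4 * g.R j) X, g.BE μ Gd (j + aa d) p := by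
  obtain ⟨C, hC⟩ := neg_local hd
  refine ⟨C * 12 ^ d, fun h μ O g j ν Gd v X hP hX hO hG hv hn => ?_⟩
  have hB := measurableSet_Best hP.pair.ih g j
  rw [inter_comm, ← setLIntegral_indicator hB]
  push_cast
  exact local_to_set ((measurable_fderiv_apply_const ℝ _ v).neg.ennreal_ofReal.indicator hB)
    (g.measurable_BE _ _) hX (g.R_pos j) C fun x0 h0 =>
      hC h μ O g j ν Gd v x0 hP (h0.trans hO) hG hv hn

theorem zone_set (hd : 0 < d) : ∃ C : ℝ≥0, ∀ (h : E d → ℝ) (μ : E d → E d) (O : Set (E d))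
    (g : Grid d) (j : ℕ) (X : Set (E d)), PairC h μ O → MeasurableSet X →
    thickening (4 * g.R j) X ⊆ O →
    ∫⁻ x in X, ‖fderiv ℝ (Ni g h j) x‖ₑ ≤
      C * ∫⁻ p in thickening (4 * g.R j) X, g.BE μ ∅ (j + aa d) p := by
  obtain ⟨C, hC⟩ := zone_local hd
  refine ⟨C * 12 ^ d, fun h μ O g j X hP hX hO => ?_⟩
  push_cast
  exact local_to_set (measurable_fderiv ℝ _).enorm (g.measurable_BE _ _) hX (g.R_pos j) C
    fun x0 h0 => hC h μ O g j x0 hP (h0.trans hO)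


end Vale.Agent.P137
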