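import Vale.Agent.P137.C.LowC
import Vale.Agent.P137.C.NegInt
import Vale.Agent.P137.C.Charge2

/-! P137 C/TreeC: the centered gradient bound for one tree and for trivial cubes.

* `sum_SP_le`: `∫_{SP j} ≤ ∫_{DD j ∩ Best j} + ∫_{ZP j}`; `neg_set` with `X = DD j` (`thick_DD`, `HH ⊆ cube`), `zone_set` with
  `X = ZP j` (`ofReal (-φ v) ≤ ‖φ‖ₑ`, `thick_ZP`), `lintegral_BE_empty_le` on `ZC j` (`sat_ZC`, `ZC_subset`), `sum_ZC_le`.
* `tree_boundC`: `‖fderiv N x‖ₑ ≤ c ∑_o (ofReal (fderiv N x v_o) + ofReal (-fderiv N x v_o))` (`tdir_span`), `v_o = tdir ν o`.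
  Positive part: `charge2` on `AC ∩ {0 < fderiv N x v_o}` with `low_pointC`, `sum_wC_le`, `sum_SP_le`. Negative part: a point of `AC`
  of level `j` lies in `SP j` (in `DD j` by `deep_tt`; in `ZP j` if `j = j0` or `j = K`, else in `Best j` by `mem_Best`) and
  `fderiv N x = fderiv (Ni j) x` (`fderiv_eq_of_touch`); bound pointwise by
  `∑' j, (SP j).indicator (ofReal (-fderiv (Ni j) · v_o))`, `lintegral_tsum`.
* `triv_boundC`: pointwise `‖fderiv N x‖ₑ ≤ ∑' j, (S j ∩ {Deep j}).indicator ‖fderiv (Ni j) ·‖ₑ` on `AC`; `zone_set` with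
  `thickening (4 R j) (S j ∩ {Deep j}) ⊆ S j` (`Deep.ball_subset`, `R_le_len`, `Sat`).
-/

namespace Vale.Agent.P137

open MeasureTheory Metric Set Filter Topology
open scoped ENNReal NNReal RealInnerProductSpace

variable {d : ℕ}

theorem treec_neg_le (φ : E d →L[ℝ] ℝ) {v : E d} (hv : ‖v‖ = 1) :
    ENNReal.ofReal (-φ v) ≤ ‖φ‖ₑ := by
  rw [← ofReal_norm]
  refine ENNReal.ofReal_le_ofReal ?_
  have h1 := φ.le_opNorm v
  rw [hv, mul_one, Real.norm_eq_abs] at h1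
  exact (neg_le_abs _).trans h1

theorem treec_cover {A : Set (E d)} {S : ℕ → Set (E d)} (hS : ∀ j, MeasurableSet (S j))
    {f : E d → ℝ≥0∞} {F : ℕ → E d → ℝ≥0∞} (hF : ∀ j, Measurable (F j))
    (h : ∀ x ∈ A, ∃ j, x ∈ S j ∧ f x ≤ F j x) :
    ∫⁻ x in A, f x ≤ ∑' j : ℕ, ∫⁻ x in S j, F j x := by
  have hm : ∀ j, Measurable ((S j).indicator (F j)) := fun j => (hF j).indicator (hS j)
  calc ∫⁻ x in A, f x ≤ ∫⁻ x in A, ∑' j : ℕ, (S j).indicator (F j) x := by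
        refine setLIntegral_mono (Measurable.tsum hm) fun x hx => ?_
        obtain ⟨j, h1, h2⟩ := h x hx
        refine le_trans ?_ (ENNReal.le_tsum j)
        rwa [indicator_of_mem h1]
    _ ≤ ∫⁻ x, ∑' j : ℕ, (S j).indicator (F j) x := setLIntegral_le_lintegral _ _
    _ = ∑' j : ℕ, ∫⁻ x in S j, F j x := by
        rw [lintegral_tsum fun j => (hm j).aemeasurable]
        simp only [lintegral_indicator (hS _)]

theorem treec_span (hd : 0 < d) {ν : E d} (hν : ‖ν‖ = 1) (φ : E d →L[ℝ] ℝ) :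
    ‖φ‖ₑ ≤ ENNReal.ofReal (105 * √(d : ℝ)) *
      ∑ o : Option (Fin d), (ENNReal.ofReal (φ (tdir ν o)) + ENNReal.ofReal (-φ (tdir ν o))) := by
  obtain ⟨o, ho⟩ := tdir_span hd hν φ
  rw [← ofReal_norm]
  refine (ENNReal.ofReal_le_ofReal ho).trans ?_
  rw [ENNReal.ofReal_mul (by positivity)]
  refine mul_le_mul' le_rfl (le_trans ?_ (Finset.single_le_sum
    (f := fun o => ENNReal.ofReal (φ (tdir ν o)) + ENNReal.ofReal (-φ (tdir ν o)))
    (fun _ _ => zero_le) (Finset.mem_univ o)))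
  rcases abs_choice (φ (tdir ν o)) with h | h <;> rw [h]
  · exact le_self_add
  · exact le_add_self

theorem sum_SP_le (hd : 0 < d) : ∃ C : ℝ≥0, ∀ (h : E d → ℝ) (μ : E d → E d) (g : Grid d) (j0 : ℕ)
    (y0 : E d) (T : ℕ → Set (E d)) (ν : E d) (Gd : Set (E d)) (v : E d),
    PairC h μ (g.cube j0 y0) → IsTree g j0 y0 T → Cone ν Gd → ‖v‖ = 1 →
    (∀ ξ ∈ Gd, ‖‖ξ‖ • v - ξ‖ ≤ 9 / 20 * ‖ξ‖) →
    ∑' j : ℕ, ∫⁻ y in SP h g j0 y0 T j, ENNReal.ofReal (-fderiv ℝ (Ni g h j) y v) ≤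
      C * costE g μ Gd j0 y0 T := by
  obtain ⟨C1, h1⟩ := neg_set hd
  obtain ⟨C2, h2⟩ := zone_set hd
  refine ⟨C1 + C2 * 1443, fun h μ g j0 y0 T ν Gd v hP hT hG hv hn => ?_⟩
  set b := ∑' j : ℕ, ∫⁻ u in HH g j0 y0 T j, g.BE μ Gd (j + aa d) u with hb
  have hbc : b ≤ costE g μ Gd j0 y0 T := le_add_self
  have hZ := sum_ZC_le hd hP.pair.im hT hG
  have key : ∀ j, ∫⁻ y in SP h g j0 y0 T j, ENNReal.ofReal (-fderiv ℝ (Ni g h j) y v) ≤
      C1 * (∫⁻ u in HH g j0 y0 T j, g.BE μ Gd (j + aa d) u) +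
        C2 * (32 * (∫⁻ u in ZC g j0 y0 T j, ‖g.vk μ (j + aa d) u‖ₑ) +
          3 * ∫⁻ u in HH g j0 y0 T j, g.BE μ Gd (j + aa d) u) := by
    intro j
    refine (lintegral_union_le _ _ _).trans (add_le_add ?_ ?_)
    · refine (h1 h μ _ g j ν Gd v _ hP (measurableSet_DD hd j)
        ((thick_DD hd j).trans inter_subset_left) hG hv hn).trans ?_
      exact mul_le_mul' le_rfl (lintegral_mono_set (thick_DD hd j))
    · refine (lintegral_mono fun y => treec_neg_le _ hv).trans ?_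
      refine (h2 h μ _ g j _ hP (measurableSet_ZP hd j)
        ((thick_ZP hd j).trans ((hT.ZC_subset j).trans inter_subset_left))).trans ?_
      refine mul_le_mul' le_rfl ((lintegral_mono_set (thick_ZP hd j)).trans ?_)
      refine (g.lintegral_BE_empty_le hP.pair.im hG (hT.sat_ZC j)).trans ?_
      exact add_le_add le_rfl (mul_le_mul' le_rfl (lintegral_mono_set (hT.ZC_subset j)))
  refine (ENNReal.tsum_le_tsum key).trans ?_
  rw [ENNReal.tsum_add, ENNReal.tsum_mul_left, ENNReal.tsum_mul_left, ENNReal.tsum_add,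
    ENNReal.tsum_mul_left, ENNReal.tsum_mul_left, ← hb]
  calc _ ≤ C1 * costE g μ Gd j0 y0 T +
        C2 * (32 * (45 * costE g μ Gd j0 y0 T) + 3 * costE g μ Gd j0 y0 T) := by gcongr
    _ = _ := by
        push_cast
        ring

theorem tree_boundC (hd : 0 < d) : ∃ C : ℝ≥0, ∀ (h N : E d → ℝ) (μ : E d → E d) (g : Grid d)
    (j0 K : ℕ) (y0 : E d) (T : ℕ → Set (E d)) (ν : E d) (Gd : Set (E d)),
    PairC h μ (g.cube j0 y0) → (∀ i, ∃ L : ℝ≥0, LipschitzWith L (Ni g h i)) → Continuous N →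
    IsTree g j0 y0 T → (∀ i, K < i → T i = ∅) → (∀ i, j0 ≤ i → i ≤ K → ∀ y, Ni g h i y ≤ N y) →
    ‖ν‖ = 1 → (∀ i, 1 / (80 * √(d : ℝ)) ≤ |ν i|) → MeasurableSet Gd →
    (∀ ξ ∈ Gd, ‖‖ξ‖ • ν - ξ‖ ≤ 1 / 4 * ‖ξ‖) →
    ∫⁻ x in AC h N g T, ‖fderiv ℝ N x‖ₑ ≤ C * costE g μ Gd j0 y0 T := by
  obtain ⟨C1, hlow⟩ := low_pointC hd
  obtain ⟨D1, hc⟩ := charge2 hd C1
  obtain ⟨C2, hsp⟩ := sum_SP_le hd
  refine ⟨Real.toNNReal (105 * √(d : ℝ)) * (Fintype.card (Option (Fin d)) * (D1 * (46 + C2) + C2)),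
    fun h N μ g j0 K y0 T ν Gd hP hL hN hT hK hle hν hνi hGm hGd => ?_⟩
  have hG : Cone ν Gd := cone_of_near hν hGm hGd
  have hh := hP.pair.ih
  set c := costE g μ Gd j0 y0 T with hcdef
  have hA : MeasurableSet (AC h N g T) :=
    measurableSet_AC hh hN g fun j => (hT.sat j).measurableSet
  have hSP : ∀ j, MeasurableSet (SP h g j0 y0 T j) := fun j =>
    ((measurableSet_DD hd j).inter (measurableSet_Best hh g j)).union (measurableSet_ZP hd j)
  have hS : ∀ o, ∑' j : ℕ, ∫⁻ y in SP h g j0 y0 T j,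
      ENNReal.ofReal (-fderiv ℝ (Ni g h j) y (tdir ν o)) ≤ C2 * c := fun o =>
    hsp h μ g j0 y0 T ν Gd _ hP hT hG (norm_tdir hν o) fun ξ hξ => tdir_near hν (hGd ξ hξ) o
  have hlev : ∀ {j : ℕ} {x : E d}, x ∈ T j → j0 ≤ j ∧ j ≤ K := by
    intro j x hx
    refine ⟨hT.le_of_mem hx, le_of_not_gt fun hj => ?_⟩
    rw [hK j hj] at hx
    exact hx
  have pos : ∀ o, ∫⁻ x in AC h N g T, ENNReal.ofReal (fderiv ℝ N x (tdir ν o)) ≤
      D1 * (46 * c + C2 * c) := by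
    intro o
    have hm : MeasurableSet {x | 0 < fderiv ℝ N x (tdir ν o)} :=
      measurableSet_lt measurable_const (measurable_fderiv_apply_const ℝ N _)
    have e : ∫⁻ x in AC h N g T, ENNReal.ofReal (fderiv ℝ N x (tdir ν o)) ≤
        ∫⁻ x in AC h N g T ∩ {x | 0 < fderiv ℝ N x (tdir ν o)},
          ENNReal.ofReal (fderiv ℝ N x (tdir ν o)) := by
      rw [← lintegral_indicator hA, ← lintegral_indicator (hA.inter hm)]
      refine lintegral_mono fun x => ?_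
      by_cases hx : x ∈ AC h N g T
      · by_cases hx2 : 0 < fderiv ℝ N x (tdir ν o)
        · rw [indicator_of_mem hx, indicator_of_mem (mem_inter hx hx2)]
        · rw [indicator_of_mem hx, ENNReal.ofReal_of_nonpos (not_lt.1 hx2)]
          exact zero_le
      · rw [indicator_of_notMem hx]
        exact zero_le
    refine e.trans ((hc h N _ (tdir ν o) (√(d : ℝ) * g.len j0) g.R (wC g μ Gd j0 y0 T) (Ni g h)
      (SP h g j0 y0 T) hh (hA.inter hm) g.R_pos (hT.measurable_wC μ Gd) hL hSP ?_).trans ?_)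
    · rintro x ⟨⟨hx, j, e1, e2, e3, e4⟩, hx2⟩
      exact ⟨hx.1, hx2, hlow h N μ g j0 K y0 T ν Gd _ x j hP.pair hT hK hG (norm_tdir hν o)
        (tdir_trans hν hνi o) hle hx.1 hx2 e1 e2 e3 e4⟩
    · exact mul_le_mul' le_rfl (add_le_add (sum_wC_le hd hP.pair.im hT hG) (hS o))
  have neg : ∀ o, ∫⁻ x in AC h N g T, ENNReal.ofReal (-fderiv ℝ N x (tdir ν o)) ≤ C2 * c := by
    intro o
    refine (treec_cover (F := fun j y => ENNReal.ofReal (-fderiv ℝ (Ni g h j) y (tdir ν o))) hSP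
      (fun j => (measurable_fderiv_apply_const ℝ (Ni g h j) (tdir ν o)).neg.ennreal_ofReal) ?_).trans (hS o)
    rintro x ⟨hx, j, e1, e2, e3, e4⟩
    obtain ⟨l1, l2⟩ := hlev e4
    refine ⟨j, ?_, by rw [fderiv_eq_of_touch hx.1 e2 (hle j l1 l2) e1]⟩
    have hD : x ∈ DD g j0 y0 T j :=
      ⟨Grid.subset_Nb 4 j e4, by linarith [hT.deep_tt hd e4 e3, g.R_pos j]⟩
    rcases l1.eq_or_lt with l3 | l3
    · exact Or.inr ⟨hD, Or.inl l3.symm⟩
    rcases l2.eq_or_lt with l4 | l4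
    · refine Or.inr ⟨hD, Or.inr (Or.inr ?_)⟩
      rintro ⟨y, hy, -⟩
      have := (hlev hy).2
      omega
    · obtain ⟨i, rfl⟩ : ∃ i, j = i + 1 := ⟨j - 1, by omega⟩
      refine Or.inl ⟨hD, mem_Best hh g ?_ ?_⟩
      · rw [e1]
        exact hle i (by omega) (by omega) x
      · rw [e1]
        exact hle (i + 2) (by omega) (by omega) x
  have mp : ∀ o, Measurable fun x => ENNReal.ofReal (fderiv ℝ N x (tdir ν o)) := fun o =>
    (measurable_fderiv_apply_const ℝ N _).ennreal_ofReal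
  have mn : ∀ o, Measurable fun x => ENNReal.ofReal (-fderiv ℝ N x (tdir ν o)) := fun o =>
    (measurable_fderiv_apply_const ℝ N _).neg.ennreal_ofReal
  calc ∫⁻ x in AC h N g T, ‖fderiv ℝ N x‖ₑ
      ≤ ∫⁻ x in AC h N g T, ENNReal.ofReal (105 * √(d : ℝ)) *
          ∑ o : Option (Fin d), (ENNReal.ofReal (fderiv ℝ N x (tdir ν o)) +
            ENNReal.ofReal (-fderiv ℝ N x (tdir ν o))) :=
        lintegral_mono fun x => treec_span hd hν _
    _ = ENNReal.ofReal (105 * √(d : ℝ)) *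
          ∑ o : Option (Fin d), ((∫⁻ x in AC h N g T, ENNReal.ofReal (fderiv ℝ N x (tdir ν o))) +
            ∫⁻ x in AC h N g T, ENNReal.ofReal (-fderiv ℝ N x (tdir ν o))) := by
        rw [lintegral_const_mul' _ _ ENNReal.ofReal_ne_top,
          lintegral_finsetSum (f := fun o x => ENNReal.ofReal (fderiv ℝ N x (tdir ν o)) +
            ENNReal.ofReal (-fderiv ℝ N x (tdir ν o))) _ fun o _ => (mp o).add (mn o)]
        simp only [lintegral_add_left (mp _)]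
    _ ≤ ENNReal.ofReal (105 * √(d : ℝ)) *
          ∑ _o : Option (Fin d), (D1 * (46 * c + C2 * c) + C2 * c) :=
        mul_le_mul' le_rfl (Finset.sum_le_sum fun o _ => add_le_add (pos o) (neg o))
    _ = _ := by
        rw [Finset.sum_const, Finset.card_univ, nsmul_eq_mul, ENNReal.ofReal]
        push_cast
        ring

theorem triv_boundC (hd : 0 < d) : ∃ C : ℝ≥0, ∀ (h N : E d → ℝ) (μ : E d → E d) (O : Set (E d))
    (g : Grid d) (S : ℕ → Set (E d)), PairC h μ O → (∀ j, g.Sat j (S j)) → (∀ j, S j ⊆ O) →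
    (∀ j, (S j).Nonempty → ∀ y, Ni g h j y ≤ N y) →
    ∫⁻ x in AC h N g S, ‖fderiv ℝ N x‖ₑ ≤
      C * ∑' j : ℕ, ∫⁻ y in S j, g.BE μ ∅ (j + aa d) y := by
  obtain ⟨C, hC⟩ := zone_set hd
  refine ⟨C, fun h N μ O g S hP hS hO hle => ?_⟩
  have hm : ∀ j, MeasurableSet (S j ∩ {x | g.Deep j x}) := fun j =>
    (hS j).measurableSet.inter (measurableSet_deep g j)
  have ht : ∀ j, thickening (4 * g.R j) (S j ∩ {x | g.Deep j x}) ⊆ S j := by
    intro j u hu
    obtain ⟨p, hp, hup⟩ := mem_thickening_iff.1 hu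
    have h1 := geoc_len hd g j
    rw [g.len_succ] at h1
    have h2 : u ∈ g.cube j p :=
      Grid.Deep.ball_subset hp.2 (mem_ball.2 (by linarith [g.R_pos j]))
    exact hS j p u (Eq.symm h2) hp.1
  refine (treec_cover hm (fun j => (measurable_fderiv ℝ (Ni g h j)).enorm) ?_).trans ?_
  · rintro x ⟨hx, j, e1, e2, e3, e4⟩
    exact ⟨j, ⟨e4, e3⟩, by rw [fderiv_eq_of_touch hx.1 e2 (hle j ⟨x, e4⟩) e1]⟩
  · rw [← ENNReal.tsum_mul_left]
    refine ENNReal.tsum_le_tsum fun j => ?_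
    exact (hC h μ O g j _ hP (hm j) ((ht j).trans (hO j))).trans
      (mul_le_mul' le_rfl (lintegral_mono_set (ht j)))

end Vale.Agent.P137
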