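import Vale.Agent.P137.ME
import Vale.Agent.P137.C.TreeC
import Vale.Agent.P137.C.PackE

/-! P137 C/MEC: the main estimate for the centered truncated maximal function
(ports of GridMain.lean and ME.lean).

* `PairC.mono`, `PairC.restrict`: `fderiv φ` vanishes off `tsupport φ ⊆ O` (`fderiv_of_notMem_tsupport` /
  `support_fderiv_subset`).
* `grid_boundC`: as `grid_bound` with `AC`, `triv_boundC` + `trivsumE`, `tree_boundC` + `treesumE` (`Good_near`, `Ni_le_Nc`,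
  `continuous_Nc`; `TT .. i = ∅` for `K < i`; `4 ≤ j0` for a top).
* `me_ballC`: `η = δ 2^(M+1)`, grid `g = ⟨0, η 2^(4 + bb d), _⟩`, `K = 4 + M`, so `g.R 4 = η`, `g.R K / 2 = δ`; `C' = 2 + √d 2^(bb d)`.
  For a.e. `x` all `Ni g h i` are differentiable (`lipschitz_Nc`, `ae_all_iff`; they only depend on the radii, which are the same
  for all moved grids); `exists_Ni_eq`, `third`, `exists_shift`; use `lintegral_mono_ae` or `lintegral_mono_set'`.
* `me_setC`: as `me_set`.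
-/

namespace Vale.Agent.P137

open MeasureTheory Metric Set Filter Topology
open scoped ENNReal NNReal RealInnerProductSpace

variable {d : ℕ}

theorem PairC.mono {h : E d → ℝ} {μ : E d → E d} {O O' : Set (E d)} (hP : PairC h μ O)
    (hO : O' ⊆ O) : PairC h μ O' :=
  ⟨hP.pair.mono hO, fun φ h1 h2 h3 => hP.curl φ h1 h2 (h3.trans hO)⟩

theorem PairC.restrict {h : E d → ℝ} {μ : E d → E d} {O : Set (E d)} (hP : PairC h μ univ)
    (hO : MeasurableSet O) : PairC h (O.indicator μ) O := by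
  refine ⟨hP.pair.restrict hO, fun φ h1 h2 h3 a b => ?_⟩
  have key : ∀ a b : E d, ∫ p, ⟪O.indicator μ p, a⟫ * fderiv ℝ φ p b =
      ∫ p, ⟪μ p, a⟫ * fderiv ℝ φ p b := fun a b => by
    refine integral_congr_ae (Eventually.of_forall fun p => ?_)
    by_cases hp : p ∈ O
    · simp only [indicator_of_mem hp]
    · have h4 : fderiv ℝ φ p = 0 := by
        by_contra h4
        exact hp (h3 (support_fderiv_subset ℝ h4))
      simp only [h4, zero_apply, mul_zero]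
  rw [key, key]
  exact hP.curl φ h1 h2 (subset_univ _) a b

theorem grid_boundC (hd : 0 < d) : ∃ C : ℝ≥0, ∀ (h : E d → ℝ) (μ : E d → E d) (O : Set (E d))
    (g : Grid d) (K : ℕ), PairC h μ O → (∀ i, ∃ L : ℝ≥0, LipschitzWith L (Ni g h i)) → 4 ≤ K →
    ∫⁻ x in AC h (Nc h (g.R K / 2) (g.R 4)) g (fun j => {z | 4 ≤ j ∧ j ≤ K ∧ g.cube 4 z ⊆ O}),
      ‖fderiv ℝ (Nc h (g.R K / 2) (g.R 4)) x‖ₑ ≤ C * bud g μ K := by
  classical
  obtain ⟨C1, hC1⟩ := triv_boundC hd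
  obtain ⟨C2, hC2⟩ := trivsumE (d := d)
  obtain ⟨C3, hC3⟩ := tree_boundC hd
  obtain ⟨C4, hC4⟩ := treesumE hd
  refine ⟨C1 * C2 + C3 * C4, fun h μ O g K hP hL hK => ?_⟩
  set N := Nc h (g.R K / 2) (g.R 4) with hN
  have hNc : Continuous N := continuous_Nc hP.pair.ih (half_pos (g.R_pos K))
    ((half_le_self (g.R_pos K).le).trans (g.R_anti hK))
  let S : ℕ → Set (E d) := fun j => {y | 4 ≤ j ∧ j ≤ K ∧ g.cube 4 y ⊆ O ∧ Triv g μ j y}
  let A : ℕ × (Fin d → ℤ) → Set (E d) := fun p =>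
    if IsTop g μ K p.1 (g.rep p.1 p.2) ∧ g.cube p.1 (g.rep p.1 p.2) ⊆ O then
      AC h N g (TT g μ K p.1 (g.rep p.1 p.2)) else ∅
  have hsub : AC h N g (fun j => {z | 4 ≤ j ∧ j ≤ K ∧ g.cube 4 z ⊆ O}) ⊆
      AC h N g S ∪ ⋃ p, A p := by
    rintro z ⟨hx, j, h1, h2, h4, h5, h6, h7⟩
    by_cases ht : Triv g μ j z
    · exact Or.inl ⟨hx, j, h1, h2, h4, h5, h6, h7, ht⟩
    · obtain ⟨t1, t2⟩ := isTop_of_not_triv h5 h6 ht
      refine Or.inr (mem_iUnion.2 ⟨(tp g μ j z, g.idx (tp g μ j z) z), ?_⟩)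
      have hc : g.cube (tp g μ j z) (g.rep (tp g μ j z) (g.idx (tp g μ j z) z)) ⊆ O := by
        rw [g.cube_eq (g.idx_rep _ _)]
        exact (g.cube_subset (four_le_tp h5 z) z).trans h7
      simp only [A, if_pos (And.intro t1 hc)]
      exact ⟨hx, j, h1, h2, h4, t2⟩
  have hS : ∀ j, g.Sat j (S j) := by
    rintro j y u e ⟨h1, h2, h3, h4⟩
    exact ⟨h1, h2, g.cube_eq (g.idx_mono h1 e) ▸ h3, sat_triv g μ j y u e h4⟩
  have b1 : ∫⁻ x in AC h N g S, ‖fderiv ℝ N x‖ₑ ≤ C1 * (C2 * bud g μ K) := by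
    refine (hC1 h N μ O g S hP hS (fun j y hy => hy.2.2.1 (g.mem_cube_self 4 y))
      fun j ⟨u, hu⟩ y => Ni_le_Nc hP.pair.ih g hu.1 hu.2.1 y).trans
      (mul_le_mul_right (le_trans ?_ (hC2 g μ K hP.pair.im)) _)
    rw [tsum_eq_sum (s := Finset.Icc 4 K) fun j hj => ?_]
    · exact Finset.sum_le_sum fun j _ => lintegral_mono_set fun y hy => hy.2.2.2
    · have : S j = ∅ := eq_empty_of_forall_notMem fun y hy =>
        hj (Finset.mem_Icc.2 ⟨hy.1, hy.2.1⟩)
      rw [this, Measure.restrict_empty, lintegral_zero_measure]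
  have b2 : ∫⁻ x in ⋃ p, A p, ‖fderiv ℝ N x‖ₑ ≤ C3 * (C4 * bud g μ K) := by
    refine (lintegral_iUnion_le _ _).trans
      (le_trans ?_ (mul_le_mul_right (hC4 g μ K hP.pair.im) _))
    rw [← ENNReal.tsum_mul_left]
    refine ENNReal.tsum_le_tsum fun p => ?_
    by_cases hp : IsTop g μ K p.1 (g.rep p.1 p.2) ∧ g.cube p.1 (g.rep p.1 p.2) ⊆ O
    · simp only [A, if_pos hp]
      rw [indicator_of_mem (show p ∈ {p : ℕ × (Fin d → ℤ) | IsTop g μ K p.1 (g.rep p.1 p.2)}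
        from hp.1)]
      obtain ⟨n1, -, n3⟩ := nu_spec hd (vk_ne_zero hp.1.2.2.2)
      exact hC3 h N μ g _ K _ _ _ _ (hP.mono hp.2) hL hNc (isTree_TT hp.1)
        (fun i hi => eq_empty_of_forall_notMem fun y hy => absurd hy.2.2.1 (not_le.2 hi))
        (fun i h1 h2 y => Ni_le_Nc hP.pair.ih g (hp.1.1.trans h1) h2 y)
        n1 n3 (measurableSet_Good _) (Good_near n1)
    · simp only [A, if_neg hp, Measure.restrict_empty, lintegral_zero_measure]
      exact zero_le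
  refine (lintegral_mono_set hsub).trans ((lintegral_union_le _ _ _).trans ?_)
  rw [ENNReal.coe_add, ENNReal.coe_mul, ENNReal.coe_mul, add_mul, mul_assoc, mul_assoc]
  exact add_le_add b1 b2

theorem me_ballC (hd : 0 < d) : ∃ (C : ℝ≥0) (C' : ℝ), 1 ≤ C' ∧ ∀ (h : E d → ℝ) (μ : E d → E d)
    (δ : ℝ) (M : ℕ) (x0 : E d), PairC h μ univ → 0 < δ →
    ∫⁻ x in ball x0 (δ * 2 ^ (M + 1)), ‖fderiv ℝ (Nc h δ (δ * 2 ^ (M + 1))) x‖ₑ ≤
      C * ∫⁻ y in ball x0 (C' * (δ * 2 ^ (M + 1))), ‖μ y‖ₑ := by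
  obtain ⟨C1, hC1⟩ := grid_boundC hd
  obtain ⟨C2, hC2⟩ := exists_shift (d := d)
  have hC' : (0 : ℝ) ≤ √(d : ℝ) * 2 ^ bb d := by positivity
  refine ⟨C1 * C2, 2 + √(d : ℝ) * 2 ^ bb d, by linarith, fun h μ δ M x0 hP hδ => ?_⟩
  obtain ⟨η, hη'⟩ : ∃ η, η = δ * 2 ^ (M + 1) := ⟨_, rfl⟩
  rw [← hη']
  have hη : 0 < η := by rw [hη']; positivity
  obtain ⟨g, hg⟩ : ∃ g : Grid d, g.R 4 = η := ⟨⟨0, η * 2 ^ (4 + bb d), by positivity⟩, by
    simp only [Grid.R, Grid.len]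
    exact mul_div_cancel_right₀ _ (by positivity)⟩
  have hK : g.R (4 + M) / 2 = δ := by
    rw [g.R_add, hg, hη', pow_succ]
    field_simp
  rw [show Nc h δ η = Nc h (g.R (4 + M) / 2) (g.R 4) by rw [hK, hg]]
  set N := Nc h (g.R (4 + M) / 2) (g.R 4) with hN
  set O := ball x0 ((2 + √(d : ℝ) * 2 ^ bb d) * η) with hO
  have hP' := hP.restrict (O := O) measurableSet_ball
  obtain ⟨w, hw⟩ := hC2 g (O.indicator μ) (4 + M) hP'.pair.im
  have hL : ∀ i, ∃ L : ℝ≥0, LipschitzWith L (Ni g h i) := fun i =>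
    lipschitz_Nc hP.pair (half_pos (g.R_pos i)) (half_le_self (g.R_pos i).le)
  have hae : ∀ᵐ x : E d, ∀ i, DifferentiableAt ℝ (Ni g h i) x := ae_all_iff.2 fun i => by
    obtain ⟨L, hL⟩ := hL i
    exact hL.ae_differentiableAt
  have hsub : ∀ᵐ x : E d, x ∈ ball x0 η ∩ {x | Act N x} → x ∈ ⋃ ε : Fin d → Bool,
      AC h N ((g.move w).move (g.thv ε)) fun j =>
        {z | 4 ≤ j ∧ j ≤ 4 + M ∧ ((g.move w).move (g.thv ε)).cube 4 z ⊆ O} := by
    filter_upwards [hae] with x hxd ⟨hx, hx'⟩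
    obtain ⟨j, hj1, hj2, hj3⟩ := exists_Ni_eq hP.pair.ih g (Nat.le_add_right 4 M) x
    obtain ⟨ε, hε⟩ := (g.move w).third j x
    refine mem_iUnion.mpr ⟨ε, hx', j, hj3, hxd j, hε, hj1, hj2, fun u hu => ?_⟩
    have h2 := Grid.norm_sub_le_of_idx _ hu
    rw [Grid.len_eq_R, Grid.move_R, Grid.move_R, hg] at h2
    have h3 := mem_ball_iff_norm.mp hx
    have h4 := norm_sub_le_norm_sub_add_norm_sub u x x0
    rw [hO, mem_ball_iff_norm]
    linarith
  have h1 : ∫⁻ x in ball x0 η, ‖fderiv ℝ N x‖ₑ =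
      ∫⁻ x in ball x0 η ∩ {x | Act N x}, ‖fderiv ℝ N x‖ₑ := by
    rw [inter_comm, ← Measure.restrict_restrict (measurableSet_act _),
      ← lintegral_indicator (measurableSet_act _)]
    refine lintegral_congr fun x => ?_
    by_cases hx : Act N x
    · rw [indicator_of_mem (show x ∈ {x | Act N x} from hx)]
    · rw [indicator_of_notMem (show x ∉ {x | Act N x} from hx)]
      by_cases hx' : DifferentiableAt ℝ N x
      · rw [not_not.mp fun h0 => hx ⟨hx', h0⟩, ← ofReal_norm, norm_zero, ENNReal.ofReal_zero]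
      · rw [fderiv_zero_of_not_differentiableAt hx', ← ofReal_norm, norm_zero,
          ENNReal.ofReal_zero]
  rw [h1]
  refine (lintegral_mono_set' hsub).trans ((lintegral_iUnion_le _ _).trans ?_)
  rw [tsum_fintype]
  refine (Finset.sum_le_sum fun ε _ => hC1 h _ O ((g.move w).move (g.thv ε)) (4 + M) hP' hL
    (Nat.le_add_right 4 M)).trans ?_
  rw [← Finset.mul_sum, ENNReal.coe_mul, mul_assoc]
  refine mul_le_mul_right (hw.trans (le_of_eq ?_)) _
  simp only [enorm_indicator_eq_indicator_enorm]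
  rw [lintegral_indicator measurableSet_ball]

theorem me_setC (hd : 0 < d) : ∃ (C : ℝ≥0) (C' : ℝ), 1 ≤ C' ∧ ∀ (h : E d → ℝ) (μ : E d → E d)
    (δ : ℝ) (M : ℕ) (X : Set (E d)), PairC h μ univ → 0 < δ → MeasurableSet X →
    ∫⁻ x in X, ‖fderiv ℝ (Nc h δ (δ * 2 ^ (M + 1))) x‖ₑ ≤
      C * ∫⁻ y in thickening (C' * (δ * 2 ^ (M + 1))) X, ‖μ y‖ₑ := by
  obtain ⟨C, C', hC', hb⟩ := me_ballC hd
  refine ⟨C * (C' ^ d).toNNReal, C' + 1, by linarith, fun h μ δ M X hP hδ hX => ?_⟩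
  have hb' := fun x0 => hb h μ δ M x0 hP hδ
  have hη : 0 < δ * 2 ^ (M + 1) := by positivity
  generalize δ * 2 ^ (M + 1) = η at hb' hη ⊢
  have hC0 : 0 < C' := by linarith
  have hom : 0 < om d := om_pos
  obtain ⟨m, hm, hμm⟩ : ∃ m : E d → ℝ≥0∞, Measurable m ∧ (fun y => ‖μ y‖ₑ) =ᵐ[volume] m :=
    hP.pair.im.1.enorm
  have hT : MeasurableSet (thickening ((C' + 1) * η) X) := isOpen_thickening.measurableSet
  have hf : Measurable fun x => ‖fderiv ℝ (Nc h δ η) x‖ₑ := (measurable_fderiv ℝ _).enorm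
  have h1 := lintegral_ball_lintegral (hf.indicator hX) hη
  have h2 := lintegral_ball_lintegral (hm.indicator hT) (mul_pos hC0 hη)
  rw [lintegral_indicator hX] at h1
  rw [lintegral_indicator hT] at h2
  have h3 : ∀ x0, ∫⁻ u in ball x0 η, X.indicator (fun x => ‖fderiv ℝ (Nc h δ η) x‖ₑ) u ≤
      C * ∫⁻ u in ball x0 (C' * η), (thickening ((C' + 1) * η) X).indicator m u := by
    intro x0
    by_cases hx : (ball x0 η ∩ X).Nonempty
    · obtain ⟨x, hx1, hx2⟩ := hx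
      refine (lintegral_mono fun u => indicator_le_self _ _ u).trans
        ((hb' x0).trans (le_of_eq ?_))
      rw [lintegral_congr_ae (ae_restrict_of_ae hμm)]
      congr 1
      refine setLIntegral_congr_fun measurableSet_ball fun u hu => (indicator_of_mem ?_ _).symm
      refine mem_thickening_iff.mpr ⟨x, hx2, ?_⟩
      have h4 := dist_triangle_right u x x0
      rw [mem_ball] at hu hx1
      linarith
    · rw [setLIntegral_congr_fun (g := fun _ => 0) measurableSet_ball fun u hu =>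
        indicator_of_notMem (fun h' => hx ⟨u, hu, h'⟩) _, lintegral_zero]
      exact zero_le
  have h4 := lintegral_mono (μ := volume) h3
  have e : ENNReal.ofReal (om d * (C' * η) ^ d) =
      ENNReal.ofReal (om d * η ^ d) * ENNReal.ofReal (C' ^ d) := by
    rw [← ENNReal.ofReal_mul (by positivity)]
    congr 1
    ring
  rw [h1, lintegral_const_mul' _ _ ENNReal.coe_ne_top, h2, e, mul_assoc, mul_left_comm (C : ℝ≥0∞),
    ENNReal.mul_le_mul_iff_right (ENNReal.ofReal_pos.mpr (by positivity)).ne'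
      ENNReal.ofReal_ne_top, ← mul_assoc] at h4
  rw [lintegral_congr_ae (ae_restrict_of_ae hμm), ENNReal.coe_mul]
  exact h4

end Vale.Agent.P137
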