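import Vale.Agent.P137.UI
import Vale.Agent.P137.C.MEC

/-! P137 C/UIC: uniform integrability for the centered operator (port of UI.lean; `uiX`, `uiX_tsum`, `uiX_thick` can be reused).

`C, C'` from `me_setC`, `A = 8 C'`, `Λ = A^d Λ0`, `η = δ 2^(M+1)`. If `Λ < ‖fderiv N x‖` with optimal radius `r`, then
`ball x (A r) ⊆ Ω`, so `8 C' r ≤ ρ x`. For `i : ℤ` put `b i = 2^(i+1) / (8 C')`; if `δ < b i` let `M i ≤ M` be the least `M'` with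
`min η (b i) ≤ δ 2^(M'+1)` (`Nat.find`); then `η i = δ 2^(M i + 1) ≤ 2 b i`, so `C' η i ≤ 2^(i+1)/4`, and for `x ∈ X i`
`δ ≤ r ≤ η i ≤ η`, so `r` is optimal for `Nc h δ (η i)` too (`le_Nc`, `Nc_mono`, `fderiv_Nc`).
-/

namespace Vale.Agent.P137

open MeasureTheory Metric Set Filter Topology
open scoped ENNReal NNReal RealInnerProductSpace

variable {d : ℕ}

theorem uic_level {δ b : ℝ} (M : ℕ) : ∃ m : ℕ, m ≤ M ∧ (δ ≤ b →
    min (δ * 2 ^ (M + 1)) b ≤ δ * 2 ^ (m + 1) ∧ δ * 2 ^ (m + 1) ≤ 2 * b) := by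
  classical
  have hex : ∃ m : ℕ, min (δ * 2 ^ (M + 1)) b ≤ δ * 2 ^ (m + 1) := ⟨M, min_le_left _ _⟩
  refine ⟨Nat.find hex, Nat.find_min' hex (min_le_left _ _), fun hb => ⟨Nat.find_spec hex, ?_⟩⟩
  rcases h0 : Nat.find hex with _ | k
  · simp only [zero_add, pow_one]
    linarith
  · have h1 := Nat.find_min hex (m := k) (by omega)
    have h2 := (not_le.1 h1).le.trans (min_le_right _ _)
    rw [pow_succ]
    linarith

theorem uic_point {h : E d → ℝ} {μ : E d → E d} (hP : Pair h μ univ) {δ η C' Λ0 : ℝ} (hδ : 0 < δ)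
    (hδη : δ ≤ η) (hC' : 1 ≤ C') (hΛ0 : 0 < Λ0) (hne : (Om (fun x => ‖μ x‖) Λ0)ᶜ.Nonempty)
    {x : E d} (hx : (8 * C') ^ d * Λ0 < ‖fderiv ℝ (Nc h δ η) x‖) :
    ∃ i : ℤ, x ∈ uiX (Om (fun x => ‖μ x‖) Λ0)ᶜ i ∧ δ ≤ 2 ^ (i + 1) / (8 * C') ∧
      ∀ η', min η (2 ^ (i + 1) / (8 * C')) ≤ η' → η' ≤ η →
        DifferentiableAt ℝ (Nc h δ η') x → fderiv ℝ (Nc h δ η) x = fderiv ℝ (Nc h δ η') x := by
  have hA : (0 : ℝ) < (8 * C') ^ d := by positivity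
  have hdiff : DifferentiableAt ℝ (Nc h δ η) x := by
    by_contra hn
    rw [fderiv_zero_of_not_differentiableAt hn, norm_zero] at hx
    exact absurd hx (not_lt.2 (by positivity))
  obtain ⟨r, ho⟩ := exists_optC hP.ih hδ hδη x
  have hr : 0 < r := hδ.trans_le ho.1
  rw [fderiv_Nc hP hδ hdiff ho (subset_univ _), innerSL_apply_norm] at hx
  have h1 : Λ0 < av (fun x => ‖μ x‖) x ((8 * C') * r) :=
    lt_of_mul_lt_mul_left (hx.trans_le ((norm_av_le μ x r).trans (av_le_enlarge hP.im.norm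
      (fun _ => norm_nonneg _) x hr (by linarith)))) hA.le
  have h2 : 8 * C' * r ≤ infDist x (Om (fun x => ‖μ x‖) Λ0)ᶜ := by
    refine (le_infDist hne).2 fun y hy => ?_
    have h3 : (8 * C') * r ≤ dist y x := not_lt.1 fun h3 => hy ⟨x, _, h3, h1⟩
    rwa [dist_comm] at h3
  obtain ⟨i, hi⟩ := exists_mem_Ico_zpow (lt_of_lt_of_le (by positivity) h2) one_lt_two
  have h3 : r ≤ 2 ^ (i + 1) / (8 * C') := by
    rw [le_div_iff₀ (by positivity)]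
    linarith [hi.2]
  refine ⟨i, hi, ho.1.trans h3, fun η' h4 h5 hd => ?_⟩
  have h6 : r ≤ η' := (le_min ho.2.1 h3).trans h4
  rw [fderiv_Nc hP hδ hdiff ho (subset_univ _), fderiv_Nc hP hδ hd (r := r) ⟨ho.1, h6,
    le_antisymm (le_Nc hP.ih hδ x ho.1 h6) ((Nc_mono hP.ih hδ le_rfl (ho.1.trans h6) h5 x).trans
      ho.2.2.ge)⟩ (subset_univ _)]

theorem unif_intC (hd : 0 < d) {h : E d → ℝ} {μ : E d → E d} (hP : PairC h μ univ) (ε : ℝ≥0∞)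
    (hε : ε ≠ 0) : ∃ Λ : ℝ, ∀ (δ : ℝ) (M : ℕ), 0 < δ →
    ∫⁻ x in {x | Λ < ‖fderiv ℝ (Nc h δ (δ * 2 ^ (M + 1))) x‖},
      ‖fderiv ℝ (Nc h δ (δ * 2 ^ (M + 1))) x‖ₑ ≤ ε := by
  obtain ⟨C, C', hC', hme⟩ := me_setC hd
  obtain ⟨Λ0, hΛ0, hne, hΩ⟩ := exists_Om_small hd hP.pair.im (ε := ε / (3 * C + 1))
    (ENNReal.div_ne_zero.2 ⟨hε, by finiteness⟩)
  refine ⟨(8 * C') ^ d * Λ0, fun δ M hδ => ?_⟩
  have hle : ∀ m : ℕ, δ ≤ δ * 2 ^ (m + 1) := fun m =>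
    le_mul_of_one_le_right hδ.le (one_le_pow₀ one_le_two)
  have key := fun x => uic_point hP.pair hδ (hle M) hC' hΛ0 hne (x := x)
  rw [← compl_compl (Om (fun x => ‖μ x‖) Λ0)] at hΩ
  have hs := (uiX_tsum (Om (fun x => ‖μ x‖) Λ0)ᶜ fun x => ‖μ x‖ₑ).trans hΩ
  generalize (Om (fun x => ‖μ x‖) Λ0)ᶜ = F at key hs
  choose m hmM hm using fun i : ℤ => uic_level (δ := δ) (b := 2 ^ (i + 1) / (8 * C')) M
  have hη : ∀ i : ℤ, δ ≤ 2 ^ (i + 1) / (8 * C') →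
      C' * (δ * 2 ^ (m i + 1)) ≤ 2 ^ (i + 1) / 4 := fun i hi =>
    (mul_le_mul_of_nonneg_left (hm i hi).2 (by linarith)).trans
      (le_of_eq (by field_simp; norm_num))
  have hae : ∀ᵐ x, ∀ i, DifferentiableAt ℝ (Nc h δ (δ * 2 ^ (m i + 1))) x := by
    refine ae_all_iff.2 fun i => ?_
    obtain ⟨L, hL⟩ := lipschitz_Nc hP.pair hδ (hle (m i))
    exact hL.ae_differentiableAt
  have h1 : {x | (8 * C') ^ d * Λ0 < ‖fderiv ℝ (Nc h δ (δ * 2 ^ (M + 1))) x‖} ≤ᵐ[volume]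
      (⋃ i : ℤ, {x | δ ≤ 2 ^ (i + 1) / (8 * C')} ∩ (uiX F i ∩
        {x | ‖fderiv ℝ (Nc h δ (δ * 2 ^ (M + 1))) x‖ₑ ≤
          ‖fderiv ℝ (Nc h δ (δ * 2 ^ (m i + 1))) x‖ₑ}) : Set (E d)) := by
    filter_upwards [hae] with x hx hx'
    obtain ⟨i, h1, h2, h3⟩ := key x hx'
    refine mem_iUnion.2 ⟨i, h2, h1, (congrArg enorm (h3 _ (hm i h2).1 ?_ (hx i))).le⟩
    exact mul_le_mul_of_nonneg_left (pow_le_pow_right₀ one_le_two (Nat.succ_le_succ (hmM i))) hδ.le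
  refine (lintegral_mono_set' h1).trans ((lintegral_iUnion_le _ _).trans ?_)
  refine (ENNReal.tsum_le_tsum (g := fun i => C * ((∫⁻ x in uiX F (i - 1), ‖μ x‖ₑ) +
    (∫⁻ x in uiX F i, ‖μ x‖ₑ) + ∫⁻ x in uiX F (i + 1), ‖μ x‖ₑ)) fun i => ?_).trans ?_
  · by_cases hi : δ ≤ 2 ^ (i + 1) / (8 * C')
    swap
    · simp [hi]
    refine (lintegral_mono_set inter_subset_right).trans ((setLIntegral_mono'
      ((measurableSet_uiX F i).inter (measurableSet_le (measurable_fderiv ℝ _).enorm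
        (measurable_fderiv ℝ _).enorm)) fun x hx => hx.2).trans
      ((lintegral_mono_set inter_subset_left).trans
        ((hme h μ δ _ _ hP hδ (measurableSet_uiX F i)).trans ?_)))
    refine mul_le_mul_right ((lintegral_mono_set (uiX_thick F i (hη i hi))).trans
      ((lintegral_union_le _ _ _).trans ?_)) _
    exact add_le_add_left (lintegral_union_le _ _ _) _
  · rw [ENNReal.tsum_mul_left, ENNReal.tsum_add, ENNReal.tsum_add]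
    have e1 : ∑' i : ℤ, ∫⁻ x in uiX F (i - 1), ‖μ x‖ₑ = ∑' i, ∫⁻ x in uiX F i, ‖μ x‖ₑ :=
      (Equiv.subRight (1 : ℤ)).tsum_eq fun i => ∫⁻ x in uiX F i, ‖μ x‖ₑ
    have e2 : ∑' i : ℤ, ∫⁻ x in uiX F (i + 1), ‖μ x‖ₑ = ∑' i, ∫⁻ x in uiX F i, ‖μ x‖ₑ :=
      (Equiv.addRight (1 : ℤ)).tsum_eq fun i => ∫⁻ x in uiX F i, ‖μ x‖ₑ
    rw [e1, e2]
    calc _ ≤ (C : ℝ≥0∞) * (ε / (3 * C + 1) + ε / (3 * C + 1) + ε / (3 * C + 1)) := by gcongr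
      _ = (3 * C) * (ε / (3 * C + 1)) := by ring
      _ ≤ (3 * C + 1) * (ε / (3 * C + 1)) := by gcongr; exact le_self_add
      _ ≤ ε := ENNReal.mul_div_le

end Vale.Agent.P137
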