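import Vale.Agent.P137.Final
import Vale.Agent.P137.C.CurlAp
import Vale.Agent.P137.C.AEC
import Vale.Agent.P137.C.UIC

/-! P137 C/FinalC: assembly for the centered operator. -/

namespace Vale.Agent.P137

open MeasureTheory Metric Set Filter Topology
open scoped ENNReal NNReal RealInnerProductSpace

variable {d : ℕ}

theorem main_thmC (hd : 0 < d) : ∃ C : ℝ, ∀ (f : E d → ℝ) (G : E d → E d), Integrable f →
    Integrable G → IsWeakGrad f G →
    (∀ᵐ x, cmax f x < ⊤) ∧ LocallyIntegrable (fun x => (cmax f x).toReal) ∧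
      ∃ G' : E d → E d, Integrable G' ∧ IsWeakGrad (fun x => (cmax f x).toReal) G' ∧
        ∫ x, ‖G' x‖ ≤ C * ∫ x, ‖G x‖ := by
  obtain ⟨C, C', -, hme⟩ := me_setC hd
  refine ⟨C, fun f G hf hG hw => ?_⟩
  obtain ⟨μ, hP, hμ⟩ := pairC_abs hf hG hw
  have h0 : ∀ x, 0 ≤ |f x| := fun x => abs_nonneg _
  have hGt : ∫⁻ x, ‖G x‖ₑ ≠ ⊤ := hG.2.ne
  set B : ℝ≥0∞ := C * ∫⁻ x, ‖G x‖ₑ with hBdef
  have hB : B ≠ ⊤ := ENNReal.mul_ne_top ENNReal.coe_ne_top hGt
  have hbd : ∀ n, ∫⁻ x, ‖fderiv ℝ (Nq (fun y => |f y|) n) x‖ₑ ≤ B := by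
    intro n
    have := hme _ μ _ (2 * n) univ hP (Nn_pos n) MeasurableSet.univ
    rw [Measure.restrict_univ] at this
    refine this.trans ?_
    rw [hBdef]
    refine mul_le_mul_right ?_ _
    refine (setLIntegral_le_lintegral _ _).trans (lintegral_mono fun x => ?_)
    rw [← ofReal_norm, ← ofReal_norm]
    exact ENNReal.ofReal_le_ofReal (hμ x)
  have hL : ∀ n, ∃ L : ℝ≥0, LipschitzWith L (Nq (fun y => |f y|) n) := fun n =>
    lipschitz_Nc hP.pair (Nn_pos n) (Nq_le n)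
  have key := pass_limit (Nq (fun y => |f y|)) B hB hL
    (fun n x => Nc_nonneg hP.pair.ih h0 (Nn_pos n) (Nq_le n) x) (Nq_mono hP.pair.ih)
    (fun S => ⟨ENNReal.ofReal (2 * S) * B, ENNReal.mul_ne_top ENNReal.ofReal_ne_top hB, fun n => by
      obtain ⟨L, hL⟩ := hL n
      refine (lintegral_ball_le hd hL (tendsto_Nc hP.pair.ih (Nn_pos n) (Nq_le n)) S).trans ?_
      gcongr
      exact hbd n⟩)
    hbd
    (fun ε hε => by
      obtain ⟨Λ, hΛ⟩ := unif_intC hd hP ε hε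
      exact ⟨Λ, fun n => hΛ _ (2 * n) (Nn_pos n)⟩)
    (ae_tendsto_fderivC hd hP.pair h0)
  have hu : cmax f = fun x => ⨆ n, ENNReal.ofReal (Nq (fun y => |f y|) n x) :=
    funext fun x => cmax_eq hf x
  simp only [hu]
  obtain ⟨k1, k2, G', hG', k3, k4⟩ := key
  refine ⟨k1, k2, G', hG', k3, ?_⟩
  rw [integral_norm_eq_lintegral_enorm hG'.1, integral_norm_eq_lintegral_enorm hG.1]
  have := ENNReal.toReal_mono hB k4
  simpa [hBdef] using this

end Vale.Agent.P137
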