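import Vale.Agent.P137.LowA
import Vale.Agent.P137.GM
import Vale.Agent.P137.C.CTest
import Vale.Agent.P137.C.Dirs

/-! P137 C/GeoC: zones for the centered operator, directions, and local charges.

* zones: `Zr ⊆ Zb` (`Nb 1 (j+1) ⊆ Nb 2 (j+1) ⊆ Nb 1 j` for `j0 ≤ j`; both are empty for `j < j0`), `Zb_overlap`:
  `Nb 6 j' ⊆ Nb 3 (j'-1) ⊆ Nb 4 (j'-1) ⊆ Nb 2 (j'-2) ⊆ Nb 1 (j'-3) ⊆ Nb 1 (j+1)` if `j + 4 ≤ j'`; `aa d ≥ 1`.
* thickenings: `4 R j ≤ len (j+1)`, `Nb_near`, `tt_le_add`, `mem_cube_of_tt`, `norm_cor_sub`, `len_aa_le`.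
* `sum_ZC_le`: `gm` three times with `m = 5` (as `sum_wT_le` in Tree.lean), `bd_le_BD`, `BD_le_BE`.
* `near_b`: `osc` with both centres `z`; for `u ∈ ball y (6R)`: `u ∈ cube ∩ Nb 5 j` and `u ∉ Nb 2 j ⊇ Nb 1 (j+1)`.
* `near_sigmaC`: `near_sigma`, `wT_le_wC`, `Near.mono`.
-/

namespace Vale.Agent.P137

open MeasureTheory Metric Set Filter Topology
open scoped ENNReal NNReal RealInnerProductSpace

variable {d : ℕ}

variable {g : Grid d} {j0 : ℕ} {y0 : E d} {T : ℕ → Set (E d)}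

theorem geoc_len (hd : 0 < d) (g : Grid d) (j : ℕ) : 1000 * g.R j ≤ g.len (j + 1) := by
  have h3 := g.R_le_len j
  have h4 := mul_le_mul_of_nonneg_right (one_le_sqrt hd) (g.R_pos j).le
  rw [g.len_succ]
  linarith

theorem IsTree.Zr_subset_Zb (hT : IsTree g j0 y0 T) (j : ℕ) : Zr g j0 y0 T j ⊆ Zb g j0 y0 T j := by
  intro u hu
  refine ⟨hT.Zr_subset j hu, fun h => hu.2.2 ?_⟩
  exact hT.Nb_anti 1 (hT.le_of_mem_Nb hu.2.1) (Nat.le_succ j) h

theorem IsTree.wT_le_wC (hT : IsTree g j0 y0 T) (μ : E d → E d) (Gd : Set (E d)) (j : ℕ) (u : E d) :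
    wT g μ Gd j0 y0 T j u ≤ wC g μ Gd j0 y0 T j u := by
  unfold wT wC
  refine add_le_add le_rfl (indicator_le_indicator_of_subset ?_ (fun _ => zero_le) u)
  exact union_subset_union_left _ (union_subset_union_left _ (hT.Zr_subset_Zb j))

theorem IsTree.sat_Zb (hT : IsTree g j0 y0 T) (j : ℕ) : g.Sat (j + aa d) (Zb g j0 y0 T j) := by
  have h1 : 1 ≤ aa d := by unfold aa bb; omega
  exact ((hT.sat_HH j).mono (Nat.le_add_right j (aa d))).diff
    ((Grid.sat_Nb 1 (j + 1)).mono (by omega))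

theorem IsTree.sat_ZC (hT : IsTree g j0 y0 T) (j : ℕ) : g.Sat (j + aa d) (ZC g j0 y0 T j) := by
  exact ((hT.sat_Zb j).union (hT.sat_Zs j)).union (sat_Zt j)

theorem IsTree.ZC_subset (hT : IsTree g j0 y0 T) (j : ℕ) : ZC g j0 y0 T j ⊆ HH g j0 y0 T j := by
  exact union_subset (union_subset (fun u hu => hu.1) (Zs_subset j)) (hT.Zt_subset j)

theorem IsTree.Zb_overlap (hT : IsTree g j0 y0 T) {j j' : ℕ} {u : E d} (h : u ∈ Zb g j0 y0 T j)
    (h' : u ∈ Zb g j0 y0 T j') : j' < j + 5 := by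
  refine lt_of_not_ge fun hj => h.2 ?_
  have h0 := hT.le_of_mem_Nb h.1.2
  have h1 := hT.Nb_anti 6 (j := j + 1 + 1 + 1 + 1) (j' := j') (by omega) (by omega) h'.1.2
  have h2 := Grid.Nb_succ (n := 3) (hT.anti (j + 1 + 1 + 1) (by omega)) h1
  have h3 := Grid.Nb_succ (n := 2) (hT.anti (j + 1 + 1) (by omega))
    (Grid.Nb_mono (by norm_num) _ h2)
  exact Grid.Nb_succ (n := 1) (hT.anti (j + 1) (by omega)) h3

theorem IsTree.measurable_wC (hT : IsTree g j0 y0 T) (μ : E d → E d) (Gd : Set (E d)) (j : ℕ) :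
    Measurable (wC g μ Gd j0 y0 T j) := by
  exact ((g.measurable_BD Gd _).indicator (hT.sat_HH j).measurableSet).add
    ((g.measurable_vk μ _).enorm.indicator (hT.sat_ZC j).measurableSet)

theorem measurableSet_DD (hd : 0 < d) (j : ℕ) : MeasurableSet (DD g j0 y0 T j) := by
  exact (Grid.sat_Nb (g := g) (T := T) 4 j).measurableSet.inter
    (measurableSet_le measurable_const (g.continuous_tt j0 y0 hd).measurable)

theorem measurableSet_ZP (hd : 0 < d) (j : ℕ) : MeasurableSet (ZP g j0 y0 T j) := by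
  refine (measurableSet_DD (g := g) (j0 := j0) (y0 := y0) (T := T) hd j).inter ?_
  refine (MeasurableSet.const (j = j0)).union ?_
  exact (measurableSet_le (g.continuous_tt j0 y0 hd).measurable measurable_const).union
    (Grid.sat_Nb (g := g) (T := T) 2 (j + 1)).measurableSet.compl

theorem thick_DD (hd : 0 < d) (j : ℕ) :
    thickening (4 * g.R j) (DD g j0 y0 T j) ⊆ HH g j0 y0 T j := by
  intro u hu
  obtain ⟨p, hp, hup⟩ := mem_thickening_iff.1 hu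
  have hR := g.R_pos j
  have h1 := geoc_len hd g j
  have h2 := g.len_anti (Nat.le_succ j)
  refine ⟨g.ball_tt_subset j0 y0 hd p (mem_ball.2 (by linarith [hp.2])), ?_⟩
  rw [dist_eq_norm] at hup
  exact Grid.Nb_mono (by norm_num) j (Grid.Nb_near hp.1 (by linarith))

theorem thick_ZP (hd : 0 < d) (j : ℕ) :
    thickening (4 * g.R j) (ZP g j0 y0 T j) ⊆ ZC g j0 y0 T j := by
  intro u hu
  have hH : u ∈ HH g j0 y0 T j :=
    thick_DD hd j (thickening_subset_of_subset _ (fun p hp => hp.1) hu)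
  obtain ⟨p, hp, hup⟩ := mem_thickening_iff.1 hu
  have hR := g.R_pos j
  have h1 := geoc_len hd g j
  rw [dist_eq_norm] at hup
  rcases hp.2 with h | h | h
  · exact Or.inr ⟨h, hH.1⟩
  · have h7 := g.norm_cor_sub (j + aa d) u
    have h8 := g.len_aa_le j
    have h9 := norm_sub_le_norm_sub_add_norm_sub (g.cor (j + aa d) u) u p
    have h10 := g.tt_le_add j0 y0 hd p (g.cor (j + aa d) u)
    have h11 := g.tt_le_add j0 y0 hd (g.cor (j + aa d) u) p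
    rw [norm_sub_rev] at h10
    exact Or.inl (Or.inr ⟨hH, by linarith [hp.1.2], by linarith⟩)
  · refine Or.inl (Or.inl ⟨hH, fun h2 => h (Grid.Nb_near h2 ?_)⟩)
    rw [norm_sub_rev]
    linarith

theorem IsTree.deep_tt (hd : 0 < d) (hT : IsTree g j0 y0 T) {j : ℕ} {x : E d} (hx : x ∈ T j)
    (hD : g.Deep j x) : 300 * g.R j ≤ g.tt j0 y0 x := by
  have h1 := g.le_tt j0 y0 hd (z := x) (ρ := g.len j / 6) (by linarith [g.len_pos j])
    (hD.ball_subset.trans ((hT.cube_subset_of_mem hx).trans (hT.subset_cube j)))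
  have h2 := geoc_len hd g j
  rw [g.len_succ] at h2
  linarith [g.R_pos j]

theorem sum_ZC_le (hd : 0 < d) {μ : E d → E d} (hμ : Integrable μ) (hT : IsTree g j0 y0 T)
    {ν : E d} {Gd : Set (E d)} (hG : Cone ν Gd) :
    ∑' j : ℕ, ∫⁻ u in ZC g j0 y0 T j, ‖g.vk μ (j + aa d) u‖ₑ ≤ 45 * costE g μ Gd j0 y0 T := by
  set a := ∫⁻ u in g.cube j0 y0, ‖g.vk μ j0 u‖ₑ with ha
  set b := ∑' j : ℕ, ∫⁻ u in HH g j0 y0 T j, g.BE μ Gd (j + aa d) u with hb
  have h1 : 1 ≤ aa d := by unfold aa bb; omega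
  have hb' : ∑' j : ℕ, ∫⁻ u in HH g j0 y0 T j, g.bd μ Gd (j + aa d) u ≤ b :=
    ENNReal.tsum_le_tsum fun j => lintegral_mono fun u =>
      (g.bd_le_BD Gd _ u).trans (g.BD_le_BE Gd _ u)
  have key : ∀ Z : ℕ → Set (E d), (∀ j, g.Sat (j + aa d) (Z j)) →
      (∀ j, Z j ⊆ HH g j0 y0 T j) → (∀ u j j', u ∈ Z j → u ∈ Z j' → j' < j + 5) →
      ∑' j : ℕ, ∫⁻ u in Z j, ‖g.vk μ (j + aa d) u‖ₑ ≤ 5 * (2 * a + 3 * b) := by
    intro Z z1 z2 z3
    refine (gm g hμ hG h1 j0 y0 (HH g j0 y0 T) Z hT.sat_HH (fun j hj => hT.HH_low hj) hT.HH_top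
      (fun j hj => hT.HH_anti hj) z1 z2 5 z3).trans ?_
    rw [Nat.cast_ofNat]
    gcongr
  have k1 := key _ hT.sat_Zb (fun j u hu => hu.1) fun u j j' h h' => hT.Zb_overlap h h'
  have k2 := key _ hT.sat_Zs Zs_subset fun u j j' h h' => Zs_overlap hd h h'
  have k3 := key _ sat_Zt hT.Zt_subset fun u j j' h h' => Zt_overlap h h'
  have h2 : ∀ j, ∫⁻ u in ZC g j0 y0 T j, ‖g.vk μ (j + aa d) u‖ₑ ≤
        ((∫⁻ u in Zb g j0 y0 T j, ‖g.vk μ (j + aa d) u‖ₑ) +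
          (∫⁻ u in Zs g j0 y0 T j, ‖g.vk μ (j + aa d) u‖ₑ) +
          ∫⁻ u in Zt g j0 y0 j, ‖g.vk μ (j + aa d) u‖ₑ) := by
    intro j
    refine (lintegral_union_le _ _ _).trans ?_
    gcongr
    exact lintegral_union_le _ _ _
  refine (ENNReal.tsum_le_tsum h2).trans ?_
  rw [ENNReal.tsum_add, ENNReal.tsum_add]
  calc _ ≤ 5 * (2 * a + 3 * b) + 5 * (2 * a + 3 * b) + 5 * (2 * a + 3 * b) := by gcongr
    _ = 30 * a + 45 * b := by ring
    _ ≤ 45 * a + 45 * b := by gcongr; norm_num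
    _ = 45 * costE g μ Gd j0 y0 T := by rw [costE, mul_add]

theorem sum_wC_le (hd : 0 < d) {μ : E d → E d} (hμ : Integrable μ) (hT : IsTree g j0 y0 T)
    {ν : E d} {Gd : Set (E d)} (hG : Cone ν Gd) :
    ∑' j : ℕ, ∫⁻ u, wC g μ Gd j0 y0 T j u ≤ 46 * costE g μ Gd j0 y0 T := by
  have h2 : ∀ j, ∫⁻ u, wC g μ Gd j0 y0 T j u ≤
      (∫⁻ u in HH g j0 y0 T j, g.BE μ Gd (j + aa d) u) +
        ∫⁻ u in ZC g j0 y0 T j, ‖g.vk μ (j + aa d) u‖ₑ := by
    intro j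
    have m1 := (hT.sat_HH j).measurableSet
    have m2 := (hT.sat_ZC j).measurableSet
    unfold wC
    rw [lintegral_add_left ((g.measurable_BD Gd _).indicator m1), lintegral_indicator m1,
      lintegral_indicator m2]
    exact add_le_add (lintegral_mono fun u => g.BD_le_BE Gd _ u) le_rfl
  refine (ENNReal.tsum_le_tsum h2).trans ?_
  rw [ENNReal.tsum_add]
  calc _ ≤ costE g μ Gd j0 y0 T + 45 * costE g μ Gd j0 y0 T :=
        add_le_add le_add_self (sum_ZC_le hd hμ hT hG)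
    _ = 46 * costE g μ Gd j0 y0 T := by ring

theorem near_b (hd : 0 < d) : ∃ C : ℝ≥0, ∀ (h : E d → ℝ) (μ : E d → E d) (g : Grid d)
    (j0 : ℕ) (y0 : E d) (T : ℕ → Set (E d)) (ν : E d) (Gd : Set (E d)) (j : ℕ) (z y : E d)
    (r1 r2 lam : ℝ), Pair h μ (g.cube j0 y0) → IsTree g j0 y0 T → Cone ν Gd →
    z ∈ g.Nb T 4 j → z ∉ g.Nb T 3 j → 10 * g.R j ≤ g.tt j0 y0 z → ‖y - z‖ ≤ g.R j →
    g.R j / 2 ≤ r1 → r1 ≤ g.R j → g.R j / 2 ≤ r2 → r2 ≤ g.R j →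
    av h z r1 ≤ lam → lam ≤ av h z r2 →
    Near h C (g.R j) (wC g μ Gd j0 y0 T j) lam y := by
  obtain ⟨C, hC⟩ := osc hd
  refine ⟨C, fun h μ g j0 y0 T ν Gd j z y r1 r2 lam hP hT hG hz hz' ht hy h1 h2 h3 h4 ha hb => ?_⟩
  have hR := g.R_pos j
  have hc := mul_le_mul_of_nonneg_right (c0_le hd) hR.le
  have hy' : ‖z - y‖ ≤ g.R j := by rwa [norm_sub_rev]
  have hsub := lowa_ball hd (g := g) (j0 := j0) (y0 := y0) (j := j) (y := y) (by
    have := g.tt_le_add j0 y0 hd z y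
    linarith)
  refine (hC h μ _ g ν Gd j z z y r1 r2 lam hP hG hsub (by linarith) (by linarith)
    (by linarith) (by linarith) ha hb).mono le_rfl fun u hu => ?_
  have h5 : ‖u - z‖ ≤ g.len j := lowa_len hd hu hy
  have hH : u ∈ HH g j0 y0 T j := ⟨hsub hu, Grid.Nb_mono (by norm_num) j (Grid.Nb_near hz h5)⟩
  have hZ : u ∈ ZC g j0 y0 T j := by
    refine Or.inl (Or.inl ⟨hH, fun h6 => hz' ?_⟩)
    have h7 := hT.Nb_anti 1 (hT.le_of_mem_Nb hz) (Nat.le_succ j) h6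
    exact Grid.Nb_mono (by norm_num) j (Grid.Nb_near h7 (by rwa [norm_sub_rev]))
  rw [wC, indicator_of_mem hH, indicator_of_mem hZ, add_comm]

theorem near_sigmaC (hd : 0 < d) : ∃ C : ℝ≥0, ∀ (h : E d → ℝ) (μ : E d → E d) (g : Grid d)
    (j0 : ℕ) (y0 : E d) (T : ℕ → Set (E d)) (ν : E d) (Gd : Set (E d)) (j : ℕ) (z y : E d)
    (r1 r2 lam : ℝ), Pair h μ (g.cube j0 y0) → IsTree g j0 y0 T → Cone ν Gd →
    z ∈ g.Nb T 5 j → 10 * g.R j ≤ g.tt j0 y0 z → (j = j0 ∨ g.tt j0 y0 z ≤ 22 * g.R j) →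
    ‖y - z‖ ≤ g.R j / 2 → g.R j / 2 ≤ r1 → r1 ≤ g.R j → g.R j / 2 ≤ r2 → r2 ≤ g.R j →
    av h z r1 ≤ lam → lam ≤ av h z r2 →
    Near h C (g.R j) (wC g μ Gd j0 y0 T j) lam y := by
  obtain ⟨C, hC⟩ := near_sigma hd
  refine ⟨C, fun h μ g j0 y0 T ν Gd j z y r1 r2 lam hP hT hG hz ht ht' hy h1 h2 h3 h4 ha hb => ?_⟩
  have hR := g.R_pos j
  have hy' : ‖z - y‖ ≤ g.R j / 2 := by rwa [norm_sub_rev]
  have a1 := g.tt_le_add j0 y0 hd z y
  have a2 := g.tt_le_add j0 y0 hd y z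
  refine (hC h μ g j0 y0 T ν Gd j z z y z r1 r2 lam hP hG hz (by linarith) (by linarith)
    (ht'.imp id fun h5 => by linarith) h1 h3 (by linarith) (by linarith) ha hb).mono le_rfl
    fun u _ => hT.wT_le_wC μ Gd j u

end Vale.Agent.P137
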