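import Vale.Agent.P137.C.GeoC
import Vale.Agent.P137.C.NcBasic

/-! P137 C/IvtC: discrete intermediate value argument along Whitney levels.

`p w = x + w v`, `t = g.tt j0 y0`, `lam = N x`, `c = 1/(88 √d)`.
`Adm w i := j0 ≤ i ∧ p w ∈ Nb T 5 i ∧ 9.5 R i ≤ t (p w) ∧ (t (p w) ≤ 23 R i ∨ i = j0)`; a point of `Nb T n i` forces `i ≤ K`.
* `margin`: `chord_depth` (with `0 ≤ w ≤ e`) gives an anchor `q ∈ {p 0, p e}` with level `jq`, `q ∈ Nb 4 jq`,
  `10 R jq ≤ t q ≤ t (p w)`, `c ‖p w - q‖ ≤ t (p w)`. If `10 R j0 ≤ t (p w)` take `i = j0` (nearby points are in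
  `cube = T j0`, `mem_cube_of_tt`); otherwise `exists_level` for `ρ = t (p w)/20` gives `i ≤ jq` with
  `10 R i ≤ t ≤ 20 R i`, and `‖p w' - q‖ ≤ 1760 √d R i + ε ≤ len i` (`Nb_anti`, `Nb_near`). Take `ε = R i / 2`.
* `ivt_disc`: `W = {w ∈ [0, e] | ∃ i, Adm w i ∧ Ni i (p w) ≤ lam}` contains `0`; `w* = sSup W`. Finitely many levels, so one level `i1`
  has points of `W` arbitrarily close to `w*`; by continuity `Ni i1 (p w*) ≤ lam`, `9.5 R i1 ≤ t (p w*)`,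
  `t (p w*) ≤ 23 R i1 ∨ i1 = j0`. If `w* < e` let `i2` come from `margin`; points right of `w*` are not in `W`, so
  `lam ≤ Ni i2 (p w*)`. If `w* = e` let `i2 = i`. In both cases `j0 ≤ i2`, `p w* ∈ Nb 5 i2`, `10 R i2 ≤ t`, `t ≤ 22 R i2 ∨ i2 = j0`,
  and comparing depths gives `i1 ≤ i2 + 1`, `i2 ≤ i1 + 1` (`R_add`, `R_anti`), so some `r1 ∈ {R i2 / 2, R i2}` lies in
  `[R i1 / 2, R i1]` (`le_Ni`). Charge level `i2` with `s0 = min w* (e - g0 R i2)`, `near_sigmaC` (`z = p w*`, `exists_opt_Ni`);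
  `s0 ≥ 0` because `e - g0 R i2 < w*` forces `10 R i2 ≤ 22 R i + R i2/500`. Later same level points are `> e`, and
  `e ≤ √d len j0` as `x`, `p e` are in the cube.
-/

namespace Vale.Agent.P137

open MeasureTheory Metric Set Filter Topology
open scoped ENNReal NNReal RealInnerProductSpace

variable {d : ℕ}

theorem ivtc_norm {v : E d} (hv : ‖v‖ = 1) (x : E d) (a b : ℝ) :
    ‖x + b • v - (x + a • v)‖ = |b - a| := by
  rw [add_sub_add_left_eq_sub, ← sub_smul, norm_smul, hv, mul_one, Real.norm_eq_abs]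

theorem ivtc_tt (hd : 0 < d) (g : Grid d) (j0 : ℕ) (y0 : E d) {v : E d} (hv : ‖v‖ = 1) (x : E d)
    (a b : ℝ) : g.tt j0 y0 (x + a • v) ≤ g.tt j0 y0 (x + b • v) + |a - b| := by
  rw [← ivtc_norm hv x b a]
  exact g.tt_le_add j0 y0 hd _ _

theorem ivtc_R_le (hd : 0 < d) (g : Grid d) (j : ℕ) : 2000 * g.R j ≤ g.len j := by
  have h1 := g.R_le_len j
  have h2 := mul_le_mul_of_nonneg_right (one_le_sqrt hd) (g.R_pos j).le
  linarith

theorem ivtc_g0 (hd : 0 < d) (g : Grid d) (j : ℕ) :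
    0 < g0 d * g.R j ∧ g0 d * g.R j ≤ g.R j / 500 := by
  refine ⟨mul_pos (g0_pos hd) (g.R_pos j), ?_⟩
  have := mul_le_mul_of_nonneg_right (be_le hd) (g.R_pos j).le
  rw [g0]
  linarith

theorem ivtc_le_K {g : Grid d} {T : ℕ → Set (E d)} {K n j : ℕ} {z : E d}
    (hK : ∀ j, K < j → T j = ∅) (hz : z ∈ g.Nb T n j) : j ≤ K := by
  obtain ⟨y, hy, -⟩ := hz
  refine le_of_not_gt fun h => ?_
  rw [hK j h] at hy
  exact hy

theorem ivtc_bound (hd : 0 < d) {g : Grid d} {j0 : ℕ} {y0 v x : E d} (hv : ‖v‖ = 1)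
    (hx : 0 < g.tt j0 y0 x) {s : ℝ} (hs : 0 < g.tt j0 y0 (x + s • v)) :
    s ≤ √(d : ℝ) * g.len j0 := by
  have h1 : g.idx j0 (x + s • v) = g.idx j0 y0 := g.mem_cube_of_tt j0 y0 hd hs
  have h2 : g.idx j0 x = g.idx j0 y0 := g.mem_cube_of_tt j0 y0 hd hx
  have h3 := g.norm_sub_le_of_idx (h1.trans h2.symm)
  rw [add_sub_cancel_left, norm_smul, hv, mul_one, Real.norm_eq_abs] at h3
  exact (le_abs_self s).trans h3

theorem ivtc_two (g : Grid d) {i i' : ℕ} (h : i + 2 ≤ i') : g.R i' ≤ g.R i / 4 := by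
  have h1 := g.R_anti h
  rw [g.R_add] at h1
  exact h1.trans_eq (by norm_num)

theorem margin (hd : 0 < d) {g : Grid d} {j0 : ℕ} {y0 : E d} {T : ℕ → Set (E d)}
    (hT : IsTree g j0 y0 T) {v x : E d} (hv : ‖v‖ = 1) (ht : ∀ i, 1 / (88 * √(d : ℝ)) ≤ |v i|)
    {e w : ℝ} {jx i : ℕ} (hx : x ∈ DD g j0 y0 T jx) (he : x + e • v ∈ DD g j0 y0 T i)
    (hw0 : 0 ≤ w) (hwe : w ≤ e) :
    ∃ i2, j0 ≤ i2 ∧ 10 * g.R i2 ≤ g.tt j0 y0 (x + w • v) ∧
      (g.tt j0 y0 (x + w • v) ≤ 20 * g.R i2 ∨ i2 = j0) ∧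
      ∀ w', |w' - w| ≤ g.R i2 / 2 → x + w' • v ∈ g.Nb T 5 i2 := by
  have hs := one_le_sqrt hd
  obtain ⟨q, jq, hq, hc⟩ : ∃ q jq, q ∈ DD g j0 y0 T jq ∧
      g.tt j0 y0 q + 1 / (88 * √(d : ℝ)) * ‖x + w • v - q‖ ≤ g.tt j0 y0 (x + w • v) := by
    rcases g.chord_depth j0 y0 hd ht x hw0 hwe with h | h
    · refine ⟨x, jx, hx, ?_⟩
      rw [zero_smul, add_zero, sub_zero] at h
      rwa [add_sub_cancel_left, norm_smul, hv, mul_one, Real.norm_of_nonneg hw0]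
    · refine ⟨x + e • v, i, he, ?_⟩
      rwa [ivtc_norm hv, abs_sub_comm, abs_of_nonneg (sub_nonneg.2 hwe)]
  have hRq := g.R_pos jq
  have hn : 0 ≤ 1 / (88 * √(d : ℝ)) * ‖x + w • v - q‖ := by positivity
  have hq2 : 10 * g.R jq ≤ g.tt j0 y0 q := hq.2
  by_cases h0 : 10 * g.R j0 ≤ g.tt j0 y0 (x + w • v)
  · refine ⟨j0, le_rfl, h0, Or.inr rfl, fun w' hw' => Grid.subset_Nb 5 j0 ?_⟩
    rw [hT.top]
    have h1 := ivtc_tt hd g j0 y0 hv x w w'
    rw [abs_sub_comm] at h1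
    exact g.mem_cube_of_tt j0 y0 hd (by linarith [g.R_pos j0])
  · have h0' := not_le.1 h0
    obtain ⟨j, a1, a2, a3, a4⟩ := g.exists_level (ρ := g.tt j0 y0 (x + w • v) / 20)
      (hT.le_of_mem_Nb hq.1) (by linarith) (by linarith [g.R_pos j0])
    have hR := g.R_pos j
    refine ⟨j, a1, by linarith, Or.inl (by linarith), fun w' hw' => ?_⟩
    refine Grid.Nb_near (hT.Nb_anti 4 a1 a2 hq.1) ?_
    have h1 := norm_sub_le_norm_sub_add_norm_sub (x + w' • v) (x + w • v) q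
    rw [ivtc_norm hv] at h1
    have h2 : 1 / (88 * √(d : ℝ)) * ‖x + w • v - q‖ ≤ 20 * g.R j := by linarith
    rw [one_div, inv_mul_le_iff₀ (by positivity)] at h2
    have h3 := g.R_le_len j
    have h4 := mul_le_mul_of_nonneg_right hs hR.le
    linarith

theorem ivt_disc (hd : 0 < d) : ∃ C : ℝ≥0, ∀ (h N : E d → ℝ) (μ : E d → E d) (g : Grid d)
    (j0 K : ℕ) (y0 : E d) (T : ℕ → Set (E d)) (ν : E d) (Gd : Set (E d)) (v x : E d) (e : ℝ)
    (jx i : ℕ), Pair h μ (g.cube j0 y0) → IsTree g j0 y0 T → (∀ j, K < j → T j = ∅) → Cone ν Gd →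
    ‖v‖ = 1 → (∀ l, 1 / (88 * √(d : ℝ)) ≤ |v l|) →
    (∀ j, j0 ≤ j → j ≤ K → Ni g h j x ≤ N x) →
    x ∈ DD g j0 y0 T jx → x + e • v ∈ DD g j0 y0 T i → g.tt j0 y0 (x + e • v) ≤ 22 * g.R i →
    g.R i / 2 ≤ e → N x < Ni g h i (x + e • v) →
    (∀ s', 0 < s' → N (x + s' • v) = N x → e < s') →
    Chg h N C g.R (wC g μ Gd j0 y0 T) (√(d : ℝ) * g.len j0) v x := by
  obtain ⟨C, hC⟩ := near_sigmaC hd
  refine ⟨C, fun h N μ g j0 K y0 T ν Gd v x e jx i hP hT hK hG hv hvl hN hx he hte hRe hlt hl => ?_⟩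
  have hRi := g.R_pos i
  have he0 : 0 < e := by linarith
  have hp : Continuous fun s : ℝ => x + s • v := by fun_prop
  have hct : Continuous fun s : ℝ => g.tt j0 y0 (x + s • v) := (g.continuous_tt j0 y0 hd).comp hp
  have hcN : ∀ k, Continuous fun s : ℝ => Ni g h k (x + s • v) := fun k =>
    (continuous_Ni hP.ih g k).comp hp
  let V : ℕ → Set ℝ := fun k => {w | w ∈ Icc 0 e ∧ j0 ≤ k ∧ x + w • v ∈ g.Nb T 5 k ∧
    19 / 2 * g.R k ≤ g.tt j0 y0 (x + w • v) ∧ (g.tt j0 y0 (x + w • v) ≤ 23 * g.R k ∨ k = j0) ∧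
    Ni g h k (x + w • v) ≤ N x}
  let W : Set ℝ := ⋃ k ∈ Finset.range (K + 1), V k
  have hW : ∀ k w, w ∈ V k → w ∈ W := fun k w hw =>
    mem_biUnion (Finset.mem_coe.2 (Finset.mem_range.2
      (Nat.lt_succ_of_le (ivtc_le_K hK hw.2.2.1)))) hw
  have hWI : W ⊆ Icc 0 e := by
    intro w hw
    obtain ⟨k, -, hk⟩ := mem_iUnion₂.1 hw
    exact hk.1
  have h0W : (0 : ℝ) ∈ W := by
    obtain ⟨k, a1, a2, a3, a4⟩ := margin hd hT hv hvl hx he le_rfl he0.le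
    have hRk := g.R_pos k
    have a5 := a4 0 (by rw [sub_self, abs_zero]; linarith)
    refine hW k 0 ⟨⟨le_rfl, he0.le⟩, a1, a5, by linarith, a3.imp_left fun a => by linarith, ?_⟩
    rw [zero_smul, add_zero]
    exact hN k a1 (ivtc_le_K hK a5)
  have hbdd : BddAbove W := bddAbove_Icc.mono hWI
  set ws := sSup W with hws
  have hcl : ws ∈ closure W := csSup_mem_closure ⟨0, h0W⟩ hbdd
  have hwI : ws ∈ Icc 0 e := closure_minimal hWI isClosed_Icc hcl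
  obtain ⟨i1, b0, b1, b2, b3⟩ : ∃ i1, j0 ≤ i1 ∧ 19 / 2 * g.R i1 ≤ g.tt j0 y0 (x + ws • v) ∧
      (g.tt j0 y0 (x + ws • v) ≤ 23 * g.R i1 ∨ i1 = j0) ∧ Ni g h i1 (x + ws • v) ≤ N x := by
    rw [Finset.closure_biUnion] at hcl
    obtain ⟨k, -, hk⟩ := mem_iUnion₂.1 hcl
    obtain ⟨w0, hw0⟩ := closure_nonempty_iff.1 ⟨ws, hk⟩
    refine ⟨k, hw0.2.1, ?_, ?_, ?_⟩
    · exact closure_minimal (fun w hw => hw.2.2.2.1) (isClosed_le continuous_const hct) hk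
    · by_cases hkj : k = j0
      · exact Or.inr hkj
      · exact Or.inl (closure_minimal (fun w hw => hw.2.2.2.2.1.resolve_right hkj)
          (isClosed_le hct continuous_const) hk)
    · exact closure_minimal (fun w hw => hw.2.2.2.2.2) (isClosed_le (hcN k) continuous_const) hk
  obtain ⟨i2, c0, c1, c2, c3, c4⟩ : ∃ i2, j0 ≤ i2 ∧ x + ws • v ∈ g.Nb T 5 i2 ∧
      10 * g.R i2 ≤ g.tt j0 y0 (x + ws • v) ∧
      (i2 = j0 ∨ g.tt j0 y0 (x + ws • v) ≤ 22 * g.R i2) ∧ N x ≤ Ni g h i2 (x + ws • v) := by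
    rcases hwI.2.lt_or_eq with hlt' | heq
    · obtain ⟨k, a1, a2, a3, a4⟩ := margin hd hT hv hvl hx he hwI.1 hwI.2
      have hRk := g.R_pos k
      refine ⟨k, a1, a4 ws (by rw [sub_self, abs_zero]; linarith), a2,
        a3.symm.imp_right fun a => by linarith, ?_⟩
      have hlim : Tendsto (fun s : ℝ => Ni g h k (x + s • v)) (𝓝[>] ws)
          (𝓝 (Ni g h k (x + ws • v))) := ((hcN k).tendsto ws).mono_left nhdsWithin_le_nhds
      refine ge_of_tendsto hlim ?_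
      have hm : ws < min e (ws + g.R k / 2) := lt_min hlt' (by linarith)
      filter_upwards [Ioo_mem_nhdsGT hm] with s hs
      have s1 := hs.1
      have s2 := hs.2.trans_le (min_le_left _ _)
      have s3 := hs.2.trans_le (min_le_right _ _)
      have s4 : |s - ws| ≤ g.R k / 2 := abs_le.2 ⟨by linarith, by linarith⟩
      have s5 := ivtc_tt hd g j0 y0 hv x ws s
      have s6 := ivtc_tt hd g j0 y0 hv x s ws
      rw [abs_sub_comm] at s5
      by_contra hcon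
      have s7 : s ∈ W := hW k s ⟨⟨by linarith [hwI.1], s2.le⟩, a1, a4 s s4, by linarith,
        a3.imp_left fun a => by linarith, (not_le.1 hcon).le⟩
      exact absurd (le_csSup hbdd s7) (not_le.2 s1)
    · rw [heq]
      exact ⟨i, hT.le_of_mem_Nb he.1, Grid.Nb_mono (by norm_num) i he.1, he.2, Or.inr hte, hlt.le⟩
  have hR1 := g.R_pos i1
  have hR2 := g.R_pos i2
  have d1 : i1 ≤ i2 + 1 := by
    by_contra hcon
    have h1 := ivtc_two g (i := i2) (i' := i1) (by omega)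
    have h2 := b2.resolve_right (by omega)
    linarith
  have d2 : i2 ≤ i1 + 1 := by
    by_contra hcon
    have h1 := ivtc_two g (i := i1) (i' := i2) (by omega)
    have h2 := c3.resolve_left (by omega)
    linarith
  obtain ⟨r1, e1, e2, e3, e4⟩ : ∃ r1, g.R i2 / 2 ≤ r1 ∧ r1 ≤ g.R i2 ∧ g.R i1 / 2 ≤ r1 ∧
      r1 ≤ g.R i1 := by
    rcases lt_trichotomy i1 i2 with hh | hh | hh
    · have h1 : i2 = i1 + 1 := by omega
      have h2 := g.R_succ i1
      rw [← h1] at h2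
      exact ⟨g.R i2, by linarith, le_rfl, by linarith, by linarith⟩
    · rw [hh]
      exact ⟨g.R i2, by linarith, le_rfl, by linarith, le_rfl⟩
    · have h1 : i1 = i2 + 1 := by omega
      have h2 := g.R_succ i2
      rw [← h1] at h2
      exact ⟨g.R i1, by linarith, by linarith, by linarith, le_rfl⟩
  obtain ⟨r2, f1, f2, f3⟩ := exists_opt_Ni hP.ih g i2 (x + ws • v)
  have k1 := (le_Ni hP.ih g i1 (x + ws • v) e3 e4).trans b3
  obtain ⟨g1, g2⟩ := ivtc_g0 hd g i2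
  have m1 := min_le_left ws (e - g0 d * g.R i2)
  have m2 := min_le_right ws (e - g0 d * g.R i2)
  refine ⟨i2, min ws (e - g0 d * g.R i2), ?_, ?_, fun s hs => ?_, fun s' h1 _ h3 => ?_⟩
  · refine le_min hwI.1 ?_
    by_cases hcase : ws ≤ e - g0 d * g.R i2
    · exact hwI.1.trans hcase
    · have h1 := ivtc_tt hd g j0 y0 hv x ws e
      have h2 : |ws - e| ≤ g.R i2 / 500 := abs_le.2 ⟨by linarith, by linarith [hwI.2]⟩
      linarith
  · have h1 := ivtc_bound hd (g := g) (j0 := j0) (y0 := y0) hv (x := x) (s := e)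
      (by linarith [hx.2, g.R_pos jx]) (by linarith [he.2])
    linarith
  · refine hC h μ g j0 y0 T ν Gd i2 (x + ws • v) _ r1 r2 _ hP hT hG c1 c2 c3 ?_ e1 e2 f1 f2 k1
      (c4.trans f3.ge)
    rw [ivtc_norm hv]
    have s1 := hs.1
    have s2 := hs.2
    rcases min_choice ws (e - g0 d * g.R i2) with hh | hh <;> rw [hh] at s1 s2 m1 m2 <;>
      exact abs_le.2 ⟨by linarith [hwI.2], by linarith [hwI.2]⟩
  · linarith [hl s' h1 h3]

end Vale.Agent.P137
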