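import Vale.Agent.P137.C.Basic
import Vale.Agent.P137.C.Bump

/-! P137 C/Layer: the contribution of one layer, anchored at the concentration point.

Level `k+1`, `τ = tau (k+1)`, `κ = kap (k+1)`, `e = ep (k+1) ≤ 1/1000`, `n = nn`, `n0 = nn y` (`‖n0‖ = 1`), `s = sv y`,
`ψ = X (k+1) - X k = G ‖p - x‖` with `G = chi (r - τ) r - chi (r - 2τ) r`, `0 ≤ ψ ≤ X (k+1)`, `ψ = 0` off
`Sh x r (2τ)`. The difference in the statement is `tst (ψ • (v - s • n))`. With a bump `ζ` (`exists_bump`, scale `κ`):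
`ψ • (v - s n) = ((1 - ζ) ψ) • (v - s n) + (ζ ψ) • (⟪n,n0⟫ v - ⟪n,v⟫ n0) + (ζ ψ) • W`,
`W = (1 - ⟪n,n0⟫) v + ⟪n - n0, v⟫ n0 + s (n0 - n)`.
First term: `far`. Third term: on `ball y (8κ)` one has `‖n - n0‖ ≤ 16 e`, so `‖W‖ ≤ 48 e`; `small`.
Second term: `ibp` (`a = v`, `b = n0`; `closedBall y (8κ) ⊆ ball x (2R) ⊆ O`) turns it into
`tst (gam • (dζ v • n0 - dζ n0 • v))`, of norm `≤ 2τ X (k+1) * 2A/κ ≤ 4 A e X (k+1)` (`gam_bound` with
`H = chi (r-τ) r`, `tau_le_ep_mul_kap`), Lipschitz with constant `≤ 2A/κ + 2τ * 2A/κ^2 ≤ 6A/τ`; `small`.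
All Lipschitz constants are `≤ const/τ` because `τ ≤ κ ≤ R` (`Lip.smul`, `lip_nn'`). Finally
`e + √e ≤ 2 (15/16)^(k+1)` (`ep_le_pow`, `sqrt_ep`).
-/

namespace Vale.Agent.P137

open MeasureTheory Metric Set Filter Topology
open scoped ENNReal NNReal RealInnerProductSpace

variable {d : ℕ}

namespace Sit

theorem layer_W_norm {v n0 : E d} {s : ℝ} (hv : ‖v‖ = 1) (hn : ‖n0‖ = 1) (hs : |s| ≤ 1)
    (δ : E d) : ‖⟪δ, v⟫ • n0 - ⟪δ, n0⟫ • v - s • δ‖ ≤ 3 * ‖δ‖ := by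
  have h1 : ‖⟪δ, v⟫ • n0‖ ≤ ‖δ‖ := by
    rw [norm_smul, hn, mul_one, Real.norm_eq_abs]
    simpa [hv] using abs_real_inner_le_norm δ v
  have h2 : ‖⟪δ, n0⟫ • v‖ ≤ ‖δ‖ := by
    rw [norm_smul, hv, mul_one, Real.norm_eq_abs]
    simpa [hn] using abs_real_inner_le_norm δ n0
  have h3 : ‖s • δ‖ ≤ ‖δ‖ := by
    rw [norm_smul, Real.norm_eq_abs]
    nlinarith [norm_nonneg δ]
  have h4 := norm_sub_le (⟪δ, v⟫ • n0 - ⟪δ, n0⟫ • v) (s • δ)
  have h5 := norm_sub_le (⟪δ, v⟫ • n0) (⟪δ, n0⟫ • v)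
  linarith

theorem layer_U_norm {v n0 : E d} (hv : ‖v‖ = 1) (hn : ‖n0‖ = 1) (L : E d →L[ℝ] ℝ) :
    ‖L v • n0 - L n0 • v‖ ≤ 2 * ‖L‖ := by
  have h1 : ‖L v • n0‖ ≤ ‖L‖ := by
    rw [norm_smul, hn, mul_one]
    simpa [hv] using L.le_opNorm v
  have h2 : ‖L n0 • v‖ ≤ ‖L‖ := by
    rw [norm_smul, hv, mul_one]
    simpa [hn] using L.le_opNorm n0
  have h5 := norm_sub_le (L v • n0) (L n0 • v)
  linarith

theorem layer_psi_nonneg (hd : 0 < d) {S : Sit d} (hS : S.Ok) (k : ℕ) (p : E d) :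
    0 ≤ S.X (k + 1) p - S.X k p := sub_nonneg.2 (hS.X_le_succ hd k p)

theorem layer_psi_le (hd : 0 < d) {S : Sit d} (hS : S.Ok) (k : ℕ) (p : E d) :
    S.X (k + 1) p - S.X k p ≤ S.X (k + 1) p := by
  linarith [hS.X_nonneg hd k p]

theorem layer_psi_lip (hd : 0 < d) {S : Sit d} (hS : S.Ok) (k : ℕ) :
    Lip (2 ^ (d + 2) / S.tau (k + 1)) fun p => S.X (k + 1) p - S.X k p := by
  refine ((hS.lip_X hd (k + 1)).sub (hS.lip_X hd k)).mono ?_
  have ht := S.tau_pos (k + 1)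
  have h1 : (2 : ℝ) ^ (d + 1) / S.tau k ≤ 2 ^ (d + 1) / S.tau (k + 1) := by
    apply div_le_div_of_nonneg_left (by positivity) ht
    rw [S.tau_succ k]; linarith
  have h2 : (2 : ℝ) ^ (d + 2) / S.tau (k + 1) =
      2 ^ (d + 1) / S.tau (k + 1) + 2 ^ (d + 1) / S.tau (k + 1) := by
    rw [pow_succ 2 (d + 1)]; ring
  linarith

theorem layer_norm_n0 {S : Sit d} (hS : S.Ok) {y : E d} (hy : ‖y - S.x‖ = S.r) :
    ‖S.nn y‖ = 1 := by
  rw [hS.norm_nn, hy, div_self hS.r_pos.ne']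

theorem layer_tau_le_kap (S : Sit d) (k : ℕ) : S.tau k ≤ S.kap k := by
  linarith [S.four_tau_le_kap k, S.tau_pos k]

/-- The far part. -/
theorem layer_far (hd : 0 < d) {A : ℝ} (hA : 1 ≤ A) : ∃ C : ℝ, 0 ≤ C ∧ ∀ (S : Sit d) (k : ℕ) (B : ℝ)
    (y : E d) (ζ : E d → ℝ), S.Ok → 0 ≤ B → S.Conc (k + 1) y B → IsBump A y (S.kap (k + 1)) ζ →
    Integrable (fun p => ⟪((S.X (k + 1) p - S.X k p) * (1 - ζ p)) • (S.v - S.sv y • S.nn p),
      S.μ p⟫) ∧
    |tst S.μ fun p => ((S.X (k + 1) p - S.X k p) * (1 - ζ p)) • (S.v - S.sv y • S.nn p)| ≤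
      C * ep (k + 1) * B := by
  obtain ⟨C, hC, H⟩ := far hd (A := 3 * (2 ^ (d + 2) + A) + 1) (by positivity)
  refine ⟨C, hC, fun S k B y ζ hS hB hc hζ => ?_⟩
  have ht := S.tau_pos (k + 1)
  have hs := hS.abs_sv_le hc.1
  have hψ0 := layer_psi_nonneg hd hS k
  have hψ1 : ∀ p, S.X (k + 1) p - S.X k p ≤ 1 := fun p =>
    (layer_psi_le hd hS k p).trans (hS.X_le_one hd _ p)
  have hζl : Lip (A / S.tau (k + 1)) fun p => 1 - ζ p := by
    refine ((lip_const (1 : ℝ)).sub hζ.lip).mono ?_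
    rw [zero_add]
    exact div_le_div_of_nonneg_left (by linarith) ht (layer_tau_le_kap S _)
  have ha : Lip (2 ^ (d + 2) / S.tau (k + 1) * 1 + 1 * (A / S.tau (k + 1)))
      fun p => (S.X (k + 1) p - S.X k p) • (1 - ζ p) := by
    refine Lip.smul (S := univ) (layer_psi_lip hd hS k) hζl (by positivity) (by positivity)
      zero_le_one (fun p => ?_) (fun p hp => absurd (mem_univ p) hp) (fun p _ => ?_)
    · rw [abs_of_nonneg (hψ0 p)]; exact hψ1 p
    · rw [Real.norm_eq_abs, abs_of_nonneg (by linarith [hζ.le_one p])]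
      linarith [hζ.nonneg p]
  have ha1 : ∀ p, |(S.X (k + 1) p - S.X k p) * (1 - ζ p)| ≤ 1 := fun p => by
    rw [abs_of_nonneg (mul_nonneg (hψ0 p) (by linarith [hζ.le_one p]))]
    nlinarith [hψ0 p, hψ1 p, hζ.le_one p, hζ.nonneg p]
  have hz : ∀ (c : ℝ), 2 ≤ c → ∀ p, p ∉ Sh S.x S.r (c * S.tau (k + 1)) →
      S.X (k + 1) p - S.X k p = 0 := by
    intro c hc2 p hp
    rw [hS.X_succ_eq hd k, sub_self]
    intro hq
    apply hp
    simp only [Sh, mem_ofPred_eq] at hq ⊢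
    rw [S.tau_succ k] at hq
    nlinarith
  have hb : Lip (1 / S.tau (k + 1)) fun p => S.v - S.sv y • S.nn p := by
    refine ((lip_const S.v).sub ((hS.lip_nn' (k + 1)).const_smul (S.sv y))).mono ?_
    have : 0 < 1 / S.tau (k + 1) := by positivity
    nlinarith
  have hb3 : ∀ p ∈ Sh S.x S.r (4 * S.tau (k + 1)), ‖S.v - S.sv y • S.nn p‖ ≤ 3 := by
    intro p hp
    have h1 := hS.norm_nn_le_two (k + 1) hp
    have h2 := norm_sub_le S.v (S.sv y • S.nn p)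
    rw [hS.nv, norm_smul, Real.norm_eq_abs] at h2
    nlinarith [norm_nonneg (S.nn p), abs_nonneg (S.sv y)]
  have hL : Lip ((3 * (2 ^ (d + 2) + A) + 1) / S.tau (k + 1))
      fun p => ((S.X (k + 1) p - S.X k p) * (1 - ζ p)) • (S.v - S.sv y • S.nn p) := by
    refine (Lip.smul (S := Sh S.x S.r (4 * S.tau (k + 1))) (M1 := 1) (M2 := 3) ha hb
      (by positivity) (by positivity) (by norm_num) ha1
      (fun p hp => by rw [hz 4 (by norm_num) p hp, zero_smul]) hb3).mono (le_of_eq ?_)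
    ring
  have hN : ∀ p, ‖((S.X (k + 1) p - S.X k p) * (1 - ζ p)) • (S.v - S.sv y • S.nn p)‖ ≤
      3 * (2 ^ (d + 2) + A) + 1 := by
    intro p
    have h0 : (0 : ℝ) < 2 ^ (d + 2) := by positivity
    by_cases hp : p ∈ Sh S.x S.r (4 * S.tau (k + 1))
    · rw [norm_smul, Real.norm_eq_abs]
      have := hb3 p hp
      have h2 := ha1 p
      nlinarith [norm_nonneg (S.v - S.sv y • S.nn p),
        abs_nonneg ((S.X (k + 1) p - S.X k p) * (1 - ζ p))]
    · rw [hz 4 (by norm_num) p hp, zero_mul, zero_smul, norm_zero]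
      positivity
  refine ⟨integrable_tst hS.pair.pair.im hL.continuous hN, H S (k + 1) B y _ hS hB hc hN hL ?_⟩
  intro p hp
  by_cases h1 : p ∈ Sh S.x S.r (3 * S.tau (k + 1))
  · have h2 : p ∈ ball y (4 * S.kap (k + 1)) := by
      by_contra h2
      exact hp ⟨h1, h2⟩
    rw [hζ.one p h2, sub_self, mul_zero, zero_smul]
  · rw [hz 3 (by norm_num) p h1, zero_mul, zero_smul]

theorem layer_sqrt {c e : ℝ} (hc : 1 ≤ c) (he : 0 ≤ e) : √(c * e) ≤ c * √e := by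
  rw [Real.sqrt_mul (by linarith)]
  have : √c ≤ c := by
    rw [Real.sqrt_le_left (by linarith)]
    nlinarith
  exact mul_le_mul_of_nonneg_right this (Real.sqrt_nonneg e)

/-- `small` with `ε = c * ep k`. -/
theorem layer_small (hd : 0 < d) {A c : ℝ} (hA : 0 ≤ A) (hc : 1 ≤ c) : ∃ C : ℝ, 0 ≤ C ∧
    ∀ (S : Sit d) (k : ℕ) (B : ℝ) (Φ : E d → E d), S.Ok → S.Bd k B →
    (∀ p, ‖Φ p‖ ≤ c * ep k * S.X k p) → Lip (A / S.tau k) Φ →
    Integrable (fun p => ⟪Φ p, S.μ p⟫) ∧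
    |tst S.μ Φ| ≤ C * (15 / 16) ^ k * (max (S.Pos k) 0 + B) := by
  obtain ⟨C, hC, H⟩ := small hd hA
  refine ⟨4 * c + 2 * c * C, by positivity, fun S k B Φ hS hB hΦ hL => ?_⟩
  have he := ep_pos k
  have hc0 : 0 ≤ c := by linarith
  refine ⟨integrable_tst hS.pair.pair.im hL.continuous (M := c * ep k) fun p => ?_, ?_⟩
  · refine (hΦ p).trans ?_
    have := hS.X_le_one hd k p
    have h2 : 0 ≤ c * ep k := by positivity
    nlinarith
  · have h1 := H S k B (c * ep k) Φ hS hB (by positivity) hΦ hL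
    have h2 := layer_sqrt hc he.le
    rw [sqrt_ep] at h2
    have h3 := ep_le_pow k
    have hq : (0 : ℝ) < (15 / 16) ^ k := by positivity
    have hB0 := hB.1
    have hm0 : 0 ≤ max (S.Pos k) 0 := le_max_right _ _
    have hm1 : S.Pos k ≤ max (S.Pos k) 0 := le_max_left _ _
    have h4 : 4 * (c * ep k) * S.Pos k ≤ 4 * c * (15 / 16) ^ k * max (S.Pos k) 0 := by
      calc 4 * (c * ep k) * S.Pos k ≤ 4 * (c * ep k) * max (S.Pos k) 0 :=
            mul_le_mul_of_nonneg_left hm1 (by positivity)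
        _ ≤ 4 * (c * (15 / 16) ^ k) * max (S.Pos k) 0 := by gcongr
        _ = _ := by ring
    have h5 : C * (c * ep k + √(c * ep k)) * B ≤ 2 * c * C * (15 / 16) ^ k * B := by
      calc C * (c * ep k + √(c * ep k)) * B
          ≤ C * (c * (15 / 16) ^ k + c * (15 / 16) ^ k) * B := by gcongr
        _ = _ := by ring
    have h6 : 0 ≤ 4 * c * (15 / 16) ^ k * B := by positivity
    have h7 : 0 ≤ 2 * c * C * (15 / 16) ^ k * max (S.Pos k) 0 := by positivity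
    nlinarith

/-- The normal part. -/
theorem layer_normal (hd : 0 < d) {A : ℝ} (hA : 1 ≤ A) : ∃ C : ℝ, 0 ≤ C ∧ ∀ (S : Sit d) (k : ℕ)
    (B : ℝ) (y : E d) (ζ : E d → ℝ), S.Ok → 60 ≤ k → S.Bd (k + 1) B → ‖y - S.x‖ = S.r →
    IsBump A y (S.kap (k + 1)) ζ →
    Integrable (fun p => ⟪((S.X (k + 1) p - S.X k p) * ζ p) •
      (⟪S.nn p - S.nn y, S.v⟫ • S.nn y - ⟪S.nn p - S.nn y, S.nn y⟫ • S.v -
        S.sv y • (S.nn p - S.nn y)), S.μ p⟫) ∧
    |tst S.μ fun p => ((S.X (k + 1) p - S.X k p) * ζ p) •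
      (⟪S.nn p - S.nn y, S.v⟫ • S.nn y - ⟪S.nn p - S.nn y, S.nn y⟫ • S.v -
        S.sv y • (S.nn p - S.nn y))| ≤
      C * (15 / 16) ^ (k + 1) * (max (S.Pos (k + 1)) 0 + B) := by
  obtain ⟨C, hC, H⟩ := layer_small hd (A := 2 ^ (d + 2) + A + 3) (c := 48) (by positivity)
    (by norm_num)
  refine ⟨C, hC, fun S k B y ζ hS hk hB hy hζ => ?_⟩
  have ht := S.tau_pos (k + 1)
  have hR := S.R_pos
  have hs := hS.abs_sv_le hy
  have hn := layer_norm_n0 hS hy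
  have he := ep_small (k := k + 1) (by omega)
  have he0 := ep_pos (k + 1)
  have hψ0 := layer_psi_nonneg hd hS k
  have hψ1 : ∀ p, S.X (k + 1) p - S.X k p ≤ 1 := fun p =>
    (layer_psi_le hd hS k p).trans (hS.X_le_one hd _ p)
  have hζl : Lip (A / S.tau (k + 1)) ζ :=
    hζ.lip.mono (div_le_div_of_nonneg_left (by linarith) ht (layer_tau_le_kap S _))
  have ha : Lip (2 ^ (d + 2) / S.tau (k + 1) * 1 + 1 * (A / S.tau (k + 1)))
      fun p => (S.X (k + 1) p - S.X k p) • ζ p := by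
    refine Lip.smul (S := univ) (layer_psi_lip hd hS k) hζl (by positivity) (by positivity)
      zero_le_one (fun p => ?_) (fun p hp => absurd (mem_univ p) hp) (fun p _ => ?_)
    · rw [abs_of_nonneg (hψ0 p)]; exact hψ1 p
    · rw [Real.norm_eq_abs, abs_of_nonneg (hζ.nonneg p)]
      exact hζ.le_one p
  have ha1 : ∀ p, |(S.X (k + 1) p - S.X k p) * ζ p| ≤ S.X (k + 1) p := fun p => by
    rw [abs_of_nonneg (mul_nonneg (hψ0 p) (hζ.nonneg p))]
    nlinarith [hψ0 p, layer_psi_le hd hS k p, hζ.le_one p, hζ.nonneg p]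
  have hW : Lip (3 / S.tau (k + 1)) fun p =>
      ⟪S.nn p - S.nn y, S.v⟫ • S.nn y - ⟪S.nn p - S.nn y, S.nn y⟫ • S.v -
        S.sv y • (S.nn p - S.nn y) := by
    intro p p'
    have h1 := layer_W_norm hS.nv hn hs (S.nn p - S.nn p')
    have h2 := hS.lip_nn' (k + 1) p p'
    have h3 : (⟪S.nn p - S.nn y, S.v⟫ • S.nn y - ⟪S.nn p - S.nn y, S.nn y⟫ • S.v -
        S.sv y • (S.nn p - S.nn y)) - (⟪S.nn p' - S.nn y, S.v⟫ • S.nn y -
        ⟪S.nn p' - S.nn y, S.nn y⟫ • S.v - S.sv y • (S.nn p' - S.nn y)) =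
        ⟪S.nn p - S.nn p', S.v⟫ • S.nn y - ⟪S.nn p - S.nn p', S.nn y⟫ • S.v -
        S.sv y • (S.nn p - S.nn p') := by
      simp only [inner_sub_left]
      module
    show ‖_ - _‖ ≤ _
    rw [h3]
    calc _ ≤ 3 * ‖S.nn p - S.nn p'‖ := h1
      _ ≤ 3 * (1 / S.tau (k + 1) * ‖p - p'‖) := by gcongr
      _ = _ := by ring
  have hWn : ∀ p ∈ ball y (8 * S.kap (k + 1)),
      ‖⟪S.nn p - S.nn y, S.v⟫ • S.nn y - ⟪S.nn p - S.nn y, S.nn y⟫ • S.v -
        S.sv y • (S.nn p - S.nn y)‖ ≤ 48 * ep (k + 1) := by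
    intro p hp
    have h1 := layer_W_norm hS.nv hn hs (S.nn p - S.nn y)
    have h2 := hS.lip_nn p y
    rw [mem_ball, dist_eq_norm] at hp
    calc _ ≤ 3 * ‖S.nn p - S.nn y‖ := h1
      _ ≤ 3 * (2 / S.R * ‖p - y‖) := by gcongr
      _ ≤ 3 * (2 / S.R * (8 * S.kap (k + 1))) := by gcongr
      _ = _ := by rw [kap]; field_simp; norm_num
  refine H S (k + 1) B _ hS hB (fun p => ?_) ?_
  · by_cases hp : p ∈ ball y (8 * S.kap (k + 1))
    · rw [norm_smul, Real.norm_eq_abs, mul_comm (48 * _)]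
      exact mul_le_mul (ha1 p) (hWn p hp) (norm_nonneg _) (hS.X_nonneg hd _ p)
    · rw [hζ.zero p hp, mul_zero, zero_smul, norm_zero]
      have := hS.X_nonneg hd (k + 1) p
      positivity
  · refine (Lip.smul (S := ball y (8 * S.kap (k + 1))) (M1 := 1) (M2 := 1) ha hW
      (by positivity) (by positivity) zero_le_one
      (fun p => (ha1 p).trans (hS.X_le_one hd _ p))
      (fun p hp => by rw [hζ.zero p hp, smul_zero])
      (fun p hp => (hWn p hp).trans (by linarith))).mono (le_of_eq ?_)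
    ring

/-- The tangential part. -/
theorem layer_tan (hd : 0 < d) {A : ℝ} (hA : 1 ≤ A) : ∃ C : ℝ, 0 ≤ C ∧ ∀ (S : Sit d) (k : ℕ)
    (B : ℝ) (y : E d) (ζ : E d → ℝ), S.Ok → 60 ≤ k → S.Bd (k + 1) B → ‖y - S.x‖ = S.r →
    IsBump A y (S.kap (k + 1)) ζ →
    |tst S.μ fun p => (ζ p * (S.X (k + 1) p - S.X k p)) •
      (⟪S.nn p, S.nn y⟫ • S.v - ⟪S.nn p, S.v⟫ • S.nn y)| ≤
      C * (15 / 16) ^ (k + 1) * (max (S.Pos (k + 1)) 0 + B) := by
  obtain ⟨C, hC, H⟩ := layer_small hd (A := 6 * A) (c := 4 * A) (by positivity) (by linarith)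
  refine ⟨C, hC, fun S k B y ζ hS hk hB hy hζ => ?_⟩
  have ht := S.tau_pos (k + 1)
  have ht' := S.tau_pos k
  have hts := S.tau_succ k
  have htl := S.tau_le k
  have hR := S.R_pos
  have hr := hS.r_pos
  have hr1 := hS.r1
  have hr2 := hS.r2
  have hκ := S.kap_pos (k + 1)
  have htκ := layer_tau_le_kap S (k + 1)
  have hn := layer_norm_n0 hS hy
  have he := ep_small (k := k + 1) (by omega)
  have he0 := ep_pos (k + 1)
  have a1 : 0 < S.r - S.tau (k + 1) := by linarith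
  have a2 : S.r - S.tau (k + 1) < S.r := by linarith
  have b1 : 0 < S.r - S.tau k := by linarith
  have b2 : S.r - S.tau k < S.r := by linarith
  set G : ℝ → ℝ := fun ρ => chi d (S.r - S.tau (k + 1)) S.r ρ - chi d (S.r - S.tau k) S.r ρ
    with hG
  have hGc : Continuous G := (continuous_chi hd a1 a2).sub (continuous_chi hd b1 b2)
  have hG0 : ∀ ρ, 0 ≤ G ρ := fun ρ => sub_nonneg.2 (chi_mono_left hd b1 (by linarith) a2 ρ)
  have hGH : ∀ ρ, G ρ ≤ chi d (S.r - S.tau (k + 1)) S.r ρ := fun ρ => by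
    have := chi_nonneg hd b1 b2 ρ
    simp only [hG]; linarith
  have hG1 : ∀ ρ, G ρ ≤ 1 := fun ρ => (hGH ρ).trans (chi_le_one hd a1 a2 ρ)
  have hGr : ∀ ρ, S.r ≤ ρ → G ρ = 0 := fun ρ h => by
    simp only [hG]; rw [chi_eq_zero a1 a2 h, chi_eq_zero b1 b2 h, sub_self]
  have hGl : ∀ ρ, ρ ≤ S.r - S.tau k → G ρ = 0 := fun ρ h => by
    simp only [hG]; rw [chi_eq_one hd a1 a2 (by linarith), chi_eq_one hd b1 b2 h, sub_self]
  have hO : closedBall y (8 * S.kap (k + 1)) ⊆ S.O := by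
    refine subset_trans (fun p hp => ?_) hS.sub
    rw [mem_closedBall, dist_eq_norm] at hp
    rw [mem_ball, dist_eq_norm]
    have h1 := norm_add_le (p - y) (y - S.x)
    rw [sub_add_sub_cancel, hy] at h1
    have h2 : S.kap (k + 1) ≤ S.R / 1000 := by
      rw [kap]; nlinarith
    linarith
  have hI := ibp hS.pair.pair.im hS.pair.curl hGc S.x hr hζ hO S.v (S.nn y)
  have hE : (tst S.μ fun p => (ζ p * (S.X (k + 1) p - S.X k p)) •
      (⟪S.nn p, S.nn y⟫ • S.v - ⟪S.nn p, S.v⟫ • S.nn y)) =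
      tst S.μ fun p => gam G S.x S.r p •
        (fderiv ℝ ζ p S.v • S.nn y - fderiv ℝ ζ p (S.nn y) • S.v) := hI
  rw [hE]
  have hg : ∀ p, |gam G S.x S.r p| ≤ S.tau k * S.X (k + 1) p := fun p =>
    gam_bound hGc (chi_anti hd a1 a2) hG0 hGH S.x ht' (by linarith) hGl hGr p
  have hU : ∀ p, ‖fderiv ℝ ζ p S.v • S.nn y - fderiv ℝ ζ p (S.nn y) • S.v‖ ≤
      2 * (A / S.kap (k + 1)) := fun p =>
    (layer_U_norm hS.nv hn _).trans (by linarith [hζ.dnorm p])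
  have hUl : Lip (2 * (A / S.kap (k + 1) ^ 2))
      fun p => fderiv ℝ ζ p S.v • S.nn y - fderiv ℝ ζ p (S.nn y) • S.v := by
    intro p p'
    have h1 := layer_U_norm hS.nv hn (fderiv ℝ ζ p - fderiv ℝ ζ p')
    have h2 := hζ.dlip p p'
    have h3 : (fderiv ℝ ζ p S.v • S.nn y - fderiv ℝ ζ p (S.nn y) • S.v) -
        (fderiv ℝ ζ p' S.v • S.nn y - fderiv ℝ ζ p' (S.nn y) • S.v) =
        (fderiv ℝ ζ p - fderiv ℝ ζ p') S.v • S.nn y -
          (fderiv ℝ ζ p - fderiv ℝ ζ p') (S.nn y) • S.v := by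
      simp only [sub_apply]
      module
    show ‖_ - _‖ ≤ _
    rw [h3]
    linarith
  refine (H S (k + 1) B _ hS hB (fun p => ?_) ?_).2
  · rw [norm_smul, Real.norm_eq_abs]
    have hX := hS.X_nonneg hd (k + 1) p
    have h1 := S.tau_le_ep_mul_kap (k + 1)
    calc _ ≤ (S.tau k * S.X (k + 1) p) * (2 * (A / S.kap (k + 1))) :=
          mul_le_mul (hg p) (hU p) (norm_nonneg _) (by positivity)
      _ = (4 * A * S.X (k + 1) p / S.kap (k + 1)) * S.tau (k + 1) := by rw [hts]; ring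
      _ ≤ (4 * A * S.X (k + 1) p / S.kap (k + 1)) * (ep (k + 1) * S.kap (k + 1)) := by gcongr
      _ = _ := by field_simp
  · refine (Lip.smul (S := univ) (M1 := 2 * S.tau (k + 1)) (M2 := 2 * (A / S.kap (k + 1)))
      (gam_lip hGc hG0 hG1 S.x hr hGr) hUl zero_le_one (by positivity) (by positivity)
      (fun p => ?_) (fun p hp => absurd (mem_univ p) hp) (fun p _ => hU p)).mono ?_
    · have := hS.X_le_one hd (k + 1) p
      refine (hg p).trans ?_
      rw [← hts]; nlinarith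
    · have h1 : A / S.kap (k + 1) ≤ A / S.tau (k + 1) :=
        div_le_div_of_nonneg_left (by linarith) ht htκ
      have h2 : A / S.kap (k + 1) ^ 2 ≤ A / S.tau (k + 1) ^ 2 :=
        div_le_div_of_nonneg_left (by linarith) (by positivity) (by gcongr)
      calc 1 * (2 * (A / S.kap (k + 1))) + 2 * S.tau (k + 1) * (2 * (A / S.kap (k + 1) ^ 2))
          ≤ 1 * (2 * (A / S.tau (k + 1))) +
            2 * S.tau (k + 1) * (2 * (A / S.tau (k + 1) ^ 2)) := by gcongr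
        _ = _ := by field_simp; norm_num

theorem layer (hd : 0 < d) : ∃ C : ℝ, 0 ≤ C ∧ ∀ (S : Sit d) (k : ℕ) (B : ℝ) (y : E d), S.Ok →
    60 ≤ k → S.Bd (k + 1) B → S.Conc (k + 1) y B →
    |(S.Vv (k + 1) - S.sv y * S.Rad (k + 1)) - (S.Vv k - S.sv y * S.Rad k)| ≤
      C * (15 / 16) ^ (k + 1) * (max (S.Pos (k + 1)) 0 + B) := by
  obtain ⟨A, hA, HB⟩ := exists_bump (d := d)
  obtain ⟨C1, hC1, H1⟩ := layer_far hd hA
  obtain ⟨C2, hC2, H2⟩ := layer_tan hd hA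
  obtain ⟨C3, hC3, H3⟩ := layer_normal hd hA
  refine ⟨C1 + C2 + C3, by positivity, fun S k B y hS hk hB hc => ?_⟩
  obtain ⟨ζ, hζ⟩ := HB y _ (S.kap_pos (k + 1))
  obtain ⟨i1, e1⟩ := H1 S k B y ζ hS hB.1 hc hζ
  have e2 := H2 S k B y ζ hS hk hB hc.1 hζ
  obtain ⟨i3, e3⟩ := H3 S k B y ζ hS hk hB hc.1 hζ
  have hn := layer_norm_n0 hS hc.1
  have hnn : ⟪S.nn y, S.nn y⟫ = 1 := by rw [real_inner_self_eq_norm_sq, hn]; norm_num
  have j : ∀ m, Integrable fun p => ⟪S.X m p • S.v - S.sv y • S.X m p • S.nn p, S.μ p⟫ := by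
    intro m
    refine ((hS.integrable_Vv hd m).sub ((hS.integrable_Rad hd m).const_mul (S.sv y))).congr
      (Eventually.of_forall fun p => ?_)
    simp only [Pi.sub_apply, inner_sub_left, real_inner_smul_left]
  have jt : ∀ m, (tst S.μ fun p => S.X m p • S.v - S.sv y • S.X m p • S.nn p) =
      S.Vv m - S.sv y * S.Rad m := by
    intro m
    rw [tst_sub (hS.integrable_Vv hd m), tst_smul]
    · rfl
    · refine ((hS.integrable_Rad hd m).const_mul (S.sv y)).congr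
        (Eventually.of_forall fun p => ?_)
      simp only [real_inner_smul_left]
  have j0 : Integrable fun p => ⟪(S.X (k + 1) p • S.v - S.sv y • S.X (k + 1) p • S.nn p) -
      (S.X k p • S.v - S.sv y • S.X k p • S.nn p), S.μ p⟫ := by
    refine ((j (k + 1)).sub (j k)).congr (Eventually.of_forall fun p => ?_)
    simp only [Pi.sub_apply, inner_sub_left]
  have j1 : Integrable fun p => ⟪((S.X (k + 1) p • S.v - S.sv y • S.X (k + 1) p • S.nn p) -
      (S.X k p • S.v - S.sv y • S.X k p • S.nn p)) -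
      ((S.X (k + 1) p - S.X k p) * (1 - ζ p)) • (S.v - S.sv y • S.nn p), S.μ p⟫ := by
    refine (j0.sub i1).congr (Eventually.of_forall fun p => ?_)
    simp only [Pi.sub_apply, inner_sub_left]
  have key : (fun p => (ζ p * (S.X (k + 1) p - S.X k p)) •
      (⟪S.nn p, S.nn y⟫ • S.v - ⟪S.nn p, S.v⟫ • S.nn y)) = fun p =>
      (((S.X (k + 1) p • S.v - S.sv y • S.X (k + 1) p • S.nn p) -
      (S.X k p • S.v - S.sv y • S.X k p • S.nn p)) -
      ((S.X (k + 1) p - S.X k p) * (1 - ζ p)) • (S.v - S.sv y • S.nn p)) -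
      ((S.X (k + 1) p - S.X k p) * ζ p) •
      (⟪S.nn p - S.nn y, S.v⟫ • S.nn y - ⟪S.nn p - S.nn y, S.nn y⟫ • S.v -
        S.sv y • (S.nn p - S.nn y)) := by
    funext p
    have : ⟪S.nn y, S.v⟫ = S.sv y := real_inner_comm _ _
    simp only [inner_sub_left, hnn, this]
    module
  rw [key, tst_sub j1 i3, tst_sub j0 i1, tst_sub (j (k + 1)) (j k), jt, jt] at e2
  have hq : (0 : ℝ) < (15 / 16) ^ (k + 1) := by positivity
  have hm0 : 0 ≤ max (S.Pos (k + 1)) 0 := le_max_right _ _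
  have hB0 := hB.1
  have e4 : C1 * ep (k + 1) * B ≤ C1 * (15 / 16) ^ (k + 1) * (max (S.Pos (k + 1)) 0 + B) := by
    have := ep_le_pow (k + 1)
    have := ep_pos (k + 1)
    gcongr
    linarith
  have e1' := abs_le.1 (e1.trans e4)
  have e2' := abs_le.1 e2
  have e3' := abs_le.1 e3
  rw [abs_le]
  constructor <;> nlinarith [e1'.1, e1'.2, e2'.1, e2'.2, e3'.1, e3'.2]

end Sit

end Vale.Agent.P137
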