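import Vale.Agent.P137.C.IvtC

/-! P137 C/LowC: charging an up crossing of `N` inside a tree.

`p u = x + u v`, `lam = N x`, `t = g.tt j0 y0`, `Core i = {q ∈ Nb T 3 i | 11 R i ≤ t q}` (nonempty only for `j0 ≤ i ≤ K`).
`P = {u > 0 | (∀ s ∈ (0, u], lam < N (p s)) ∧ ∃ i, p u ∈ Core i ∧ lam < Ni i (p u)}`.
* nonempty: `Ni j` has positive derivative along `v` at `x` (`fderiv_eq_of_touch`), so `lam < Ni j (p s) ≤ N (p s)` for small
  `s > 0`, and `p s ∈ Core j` (`deep_tt`, `Nb_near`). Bounded by `√d len j0` (points of the cube).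
* `u* = sSup P`; `lam < N (p s)` on `(0, u*)`; finitely many levels give `i` with points of `P` of level `i` arbitrarily close to
  `u*`; so `lam ≤ Ni i (p u*)`, and `p u ∈ DD i` for `u ∈ [u*, u* + R i / 2]`.
* Case I: `Ni i (p w) = lam` for some `w ∈ [u*, u* + R i/2]`; take the least such `w` (closed set). Then `lam < N` on `(0, w)`,
  and `lam < Ni i` at points arbitrarily close to the left of `w`. Claim: if `j0 ≤ i'`, `p w ∈ Nb 2 i'`, `11.5 R i' ≤ t (p w)` then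
  `Ni i' (p w) ≤ lam` (otherwise `w + ε ∈ P` by continuity). Hence `p w ∈ ZP i`, or `i > j0` and the claim applies to
  `i - 1` (`Nb 4 i ⊆ Nb 2 (i-1)`, `23 R i < t`) and `i + 1`, so `p w ∈ Best i` (`mem_Best`): `ChgP`.
* Case II: `lam < Ni i` on `[u*, e]`, `e = u* + R i/2` (continuity, IVT); `lam < N` on `(0, e]`, and `e ∉ P`, so `y = p e ∉ Core i` and
  `Ni i' y ≤ lam` whenever `y ∈ Core i'`. If `22 R i ≤ t y` then `y ∉ Nb 3 i`, so `i > j0`, `y ∈ Core (i-1)`,
  `av h y (R i) ≤ Ni (i-1) y ≤ lam`: `near_b` on the interval `(e - g0 R i, e)`. Otherwise `ivt_disc`.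
-/

namespace Vale.Agent.P137

open MeasureTheory Metric Set Filter Topology
open scoped ENNReal NNReal RealInnerProductSpace

variable {d : ℕ}

theorem Chg.mono_lowc {h N : E d → ℝ} {C C' : ℝ≥0} {R : ℕ → ℝ} {w : ℕ → E d → ℝ≥0∞} {Tm : ℝ}
    {u x : E d} (hC : C ≤ C') (hc : Chg h N C R w Tm u x) : Chg h N C' R w Tm u x := by
  obtain ⟨j, s0, h1, h2, h3, h4⟩ := hc
  exact ⟨j, s0, h1, h2, fun s hs => (h3 s hs).mono hC fun _ _ => le_rfl, h4⟩

theorem lowc_start {F : E d → ℝ} {x v : E d} (hF : DifferentiableAt ℝ F x)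
    (h : 0 < fderiv ℝ F x v) : ∃ δ : ℝ, 0 < δ ∧ ∀ s : ℝ, 0 < s → s < δ → F x < F (x + s • v) := by
  have h1 : HasDerivAt (fun s : ℝ => x + s • v) v 0 := by
    simpa using ((hasDerivAt_id (0 : ℝ)).smul_const v).const_add x
  have h2 : HasFDerivAt F (fderiv ℝ F x) (x + (0 : ℝ) • v) := by
    rw [zero_smul, add_zero]
    exact hF.hasFDerivAt
  have h3 : HasDerivAt (fun s : ℝ => F (x + s • v)) (fderiv ℝ F x v) 0 :=
    h2.comp_hasDerivAt (0 : ℝ) h1
  have h4 := h3.tendsto_slope_zero_right.eventually (lt_mem_nhds h)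
  obtain ⟨δ, hδ, h5⟩ := (mem_nhdsGT_iff_exists_Ioo_subset).1 h4
  refine ⟨δ, hδ, fun s s1 s2 => ?_⟩
  have h6 : 0 < s⁻¹ • (F (x + (0 + s) • v) - F (x + (0 : ℝ) • v)) := h5 ⟨s1, s2⟩
  rw [zero_add, zero_smul, add_zero, smul_eq_mul] at h6
  exact sub_pos.1 ((mul_pos_iff_of_pos_left (inv_pos.2 s1)).1 h6)

theorem lowc_ivt {f : ℝ → ℝ} (hf : Continuous f) {a s lam : ℝ} (has : a ≤ s) (ha : lam ≤ f a)
    (hne : ∀ s', a ≤ s' → s' ≤ s → f s' ≠ lam) : lam < f s := by
  by_contra hcon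
  obtain ⟨s', h1, h2⟩ := intermediate_value_Icc' has hf.continuousOn ⟨not_lt.1 hcon, ha⟩
  exact hne s' h1.1 h1.2 h2

theorem low_pointC (hd : 0 < d) : ∃ C : ℝ≥0, ∀ (h N : E d → ℝ) (μ : E d → E d) (g : Grid d)
    (j0 K : ℕ) (y0 : E d) (T : ℕ → Set (E d)) (ν : E d) (Gd : Set (E d)) (v x : E d) (j : ℕ),
    Pair h μ (g.cube j0 y0) → IsTree g j0 y0 T → (∀ i, K < i → T i = ∅) → Cone ν Gd →
    ‖v‖ = 1 → (∀ l, 1 / (88 * √(d : ℝ)) ≤ |v l|) →
    (∀ i, j0 ≤ i → i ≤ K → ∀ y, Ni g h i y ≤ N y) →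
    DifferentiableAt ℝ N x → 0 < fderiv ℝ N x v → Ni g h j x = N x →
    DifferentiableAt ℝ (Ni g h j) x → g.Deep j x → x ∈ T j →
    Chg h N C g.R (wC g μ Gd j0 y0 T) (√(d : ℝ) * g.len j0) v x ∨
      ChgP N (Ni g h) (SP h g j0 y0 T) (√(d : ℝ) * g.len j0) v x := by
  obtain ⟨C1, hC1⟩ := near_b hd
  obtain ⟨C2, hC2⟩ := ivt_disc hd
  refine ⟨C1 + C2, ?_⟩
  intro h N μ g j0 K y0 T ν Gd v x j hP hT hK hG hv hvl hN hx hdir hj hxj hdeep hxT
  have hj0 := hT.le_of_mem hxT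
  have hjK : j ≤ K := ivtc_le_K hK (Grid.subset_Nb (g := g) 0 j hxT)
  have hRj := g.R_pos j
  have htx := hT.deep_tt hd hxT hdeep
  have hp : Continuous fun s : ℝ => x + s • v := by fun_prop
  have hct : Continuous fun s : ℝ => g.tt j0 y0 (x + s • v) := (g.continuous_tt j0 y0 hd).comp hp
  have hcN : ∀ k, Continuous fun s : ℝ => Ni g h k (x + s • v) := fun k =>
    (continuous_Ni hP.ih g k).comp hp
  have hNb : ∀ {n k : ℕ} {z : E d}, z ∈ g.Nb T n k → ∀ y, Ni g h k y ≤ N y := fun hz =>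
    hN _ (hT.le_of_mem_Nb hz) (ivtc_le_K hK hz)
  have hbound : ∀ s : ℝ, 0 < g.tt j0 y0 (x + s • v) → s ≤ √(d : ℝ) * g.len j0 := fun s hs =>
    ivtc_bound hd hv (by linarith) hs
  let V : ℕ → Set ℝ := fun k => {u | 0 < u ∧ (∀ s, 0 < s → s ≤ u → N x < N (x + s • v)) ∧
    x + u • v ∈ g.Nb T 3 k ∧ 11 * g.R k ≤ g.tt j0 y0 (x + u • v) ∧ N x < Ni g h k (x + u • v)}
  let P : Set ℝ := ⋃ k ∈ Finset.range (K + 1), V k
  have hVP : ∀ k w, w ∈ V k → w ∈ P := fun k w hw =>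
    mem_biUnion (Finset.mem_coe.2 (Finset.mem_range.2
      (Nat.lt_succ_of_le (ivtc_le_K hK hw.2.2.1)))) hw
  have hbdd : BddAbove P := by
    refine ⟨√(d : ℝ) * g.len j0, fun w hw => ?_⟩
    obtain ⟨k, -, hk⟩ := mem_iUnion₂.1 hw
    exact hbound w (by linarith [hk.2.2.2.1, g.R_pos k])
  obtain ⟨u1, hu1⟩ : ∃ u1, u1 ∈ V j := by
    obtain ⟨δ, hδ, h1⟩ := lowc_start hxj (v := v)
      (by rwa [fderiv_eq_of_touch hx hxj (hN j hj0 hjK) hj])
    rw [hj] at h1
    have m1 := min_le_left (δ / 2) (g.R j)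
    have m2 := min_le_right (δ / 2) (g.R j)
    have m3 : 0 < min (δ / 2) (g.R j) := lt_min (by linarith) hRj
    refine ⟨min (δ / 2) (g.R j), m3,
      fun s s1 s2 => (h1 s s1 (by linarith)).trans_le (hN j hj0 hjK _), ?_, ?_,
      h1 _ m3 (by linarith)⟩
    · refine Grid.Nb_near (Grid.subset_Nb 2 j hxT) ?_
      rw [add_sub_cancel_left, norm_smul, hv, mul_one, Real.norm_of_nonneg m3.le]
      linarith [ivtc_R_le hd g j]
    · have h2 := ivtc_tt hd g j0 y0 hv x 0 (min (δ / 2) (g.R j))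
      rw [zero_smul, add_zero, zero_sub, abs_neg, abs_of_pos m3] at h2
      linarith
  have hne : P.Nonempty := ⟨u1, hVP j u1 hu1⟩
  set us := sSup P with hus
  have hle : ∀ k w, w ∈ V k → w ≤ us := fun k w hw => le_csSup hbdd (hVP k w hw)
  have hus0 : 0 < us := hu1.1.trans_le (hle j u1 hu1)
  have hbefore : ∀ s, 0 < s → s < us → N x < N (x + s • v) := fun s s1 s2 => by
    obtain ⟨w, hw, h1⟩ := exists_lt_of_lt_csSup hne s2
    obtain ⟨k, -, hk⟩ := mem_iUnion₂.1 hw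
    exact hk.2.1 s s1 h1.le
  have hcl : us ∈ closure P := csSup_mem_closure hne hbdd
  rw [Finset.closure_biUnion] at hcl
  obtain ⟨i, -, hi⟩ := mem_iUnion₂.1 hcl
  have hRi := g.R_pos i
  have happ : ∀ ε, 0 < ε → ∃ w, w ∈ V i ∧ us - ε < w := fun ε hε => by
    obtain ⟨w, hw, h1⟩ := Metric.mem_closure_iff.1 hi ε hε
    rw [Real.dist_eq] at h1
    exact ⟨w, hw, by linarith [(abs_lt.1 h1).2]⟩
  have a1 : N x ≤ Ni g h i (x + us • v) :=
    closure_minimal (fun w hw => hw.2.2.2.2.le) (isClosed_le continuous_const (hcN i)) hi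
  have a2 : 11 * g.R i ≤ g.tt j0 y0 (x + us • v) :=
    closure_minimal (fun w hw => hw.2.2.2.1) (isClosed_le continuous_const hct) hi
  have hDD : ∀ u, us ≤ u → u ≤ us + g.R i / 2 → x + u • v ∈ DD g j0 y0 T i := fun u u1 u2 => by
    obtain ⟨w, hw, h1⟩ := happ (g.R i) hRi
    have h2 := hle i w hw
    refine ⟨Grid.Nb_near hw.2.2.1 ?_, ?_⟩
    · rw [ivtc_norm hv]
      have h3 := ivtc_R_le hd g i
      exact abs_le.2 ⟨by linarith, by linarith⟩
    · have h3 := ivtc_tt hd g j0 y0 hv x us u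
      have h4 : |us - u| ≤ g.R i / 2 := abs_le.2 ⟨by linarith, by linarith⟩
      linarith
  have hiN := hNb (hDD us le_rfl (by linarith)).1
  have hi0 := hT.le_of_mem_Nb (hDD us le_rfl (by linarith)).1
  by_cases hcase : ∃ w, w ∈ Icc us (us + g.R i / 2) ∩ {w | Ni g h i (x + w • v) = N x}
  · right
    obtain ⟨w, ⟨hw1, hw2⟩, hw3⟩ := (isCompact_Icc.inter_right
      (isClosed_eq (hcN i) continuous_const)).exists_isLeast hcase
    have hw2' : Ni g h i (x + w • v) = N x := hw2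
    have b1 : ∀ s, us ≤ s → s < w → N x < Ni g h i (x + s • v) := fun s s1 s2 =>
      lowc_ivt (hcN i) s1 a1 fun s' t1 t2 t3 => by
        have t4 : w ≤ s' := hw3 ⟨⟨t1, by linarith [hw1.2]⟩, t3⟩
        linarith
    have b2 : ∀ s, 0 < s → s < w → N x < N (x + s • v) := fun s s1 s2 => by
      rcases lt_or_ge s us with h1 | h1
      · exact hbefore s s1 h1
      · exact (b1 s h1 s2).trans_le (hiN _)
    have hwD := hDD w hw1.1 hw1.2
    have claim : ∀ k, x + w • v ∈ g.Nb T 2 k → 23 / 2 * g.R k ≤ g.tt j0 y0 (x + w • v) →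
        Ni g h k (x + w • v) ≤ N x := fun k k1 k2 => by
      by_contra hcon
      have hRk := g.R_pos k
      have h1 := ((hcN k).tendsto w).eventually (lt_mem_nhds (not_le.1 hcon))
      obtain ⟨δ, hδ, h2⟩ := Metric.eventually_nhds_iff.1 h1
      have m1 := min_le_left (δ / 2) (g.R k / 2)
      have m2 := min_le_right (δ / 2) (g.R k / 2)
      have m3 : 0 < min (δ / 2) (g.R k / 2) := lt_min (by linarith) (by linarith)
      have h3 : ∀ s, w ≤ s → s ≤ w + min (δ / 2) (g.R k / 2) → N x < Ni g h k (x + s • v) :=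
        fun s s1 s2 => h2 (by
          rw [Real.dist_eq]
          exact abs_lt.2 ⟨by linarith, by linarith⟩)
      have h4 : w + min (δ / 2) (g.R k / 2) ∈ V k := by
        refine ⟨by linarith [hw1.1], fun s s1 s2 => ?_, Grid.Nb_near k1 ?_, ?_,
          h3 _ (by linarith) le_rfl⟩
        · rcases lt_or_ge s w with h5 | h5
          · exact b2 s s1 h5
          · exact (h3 s h5 s2).trans_le (hNb k1 _)
        · rw [ivtc_norm hv, add_sub_cancel_left, abs_of_pos m3]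
          linarith [ivtc_R_le hd g k]
        · have h5 := ivtc_tt hd g j0 y0 hv x w (w + min (δ / 2) (g.R k / 2))
          rw [abs_sub_comm, add_sub_cancel_left, abs_of_pos m3] at h5
          linarith
      linarith [hle k _ h4, hw1.1]
    refine ⟨i, w, by linarith [hw1.1], hbound w (by linarith [hwD.2]), ?_, hw2', fun ε hε => ?_,
      fun s' s1 s2 => ?_⟩
    · by_cases hZ : x + w • v ∈ ZP g j0 y0 T i
      · exact Or.inr hZ
      · have z1 : ¬ (i = j0 ∨ g.tt j0 y0 (x + w • v) ≤ 23 * g.R i ∨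
            x + w • v ∉ g.Nb T 2 (i + 1)) := fun z => hZ ⟨hwD, z⟩
        simp only [not_or, not_le, not_not] at z1
        obtain ⟨z1, z2, z3⟩ := z1
        obtain ⟨k, rfl⟩ : ∃ k, i = k + 1 := ⟨i - 1, by omega⟩
        have r1 := g.R_succ k
        have r2 := g.R_succ (k + 1)
        refine Or.inl ⟨hwD, mem_Best hP.ih g ?_ ?_⟩
        · rw [hw2']
          exact claim k (Grid.Nb_succ (n := 2) (hT.anti k (by omega)) hwD.1) (by linarith)
        · rw [hw2']
          exact claim (k + 1 + 1) z3 (by linarith)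
    · rcases hw1.1.lt_or_eq with h1 | h1
      · have m1 := le_max_left us (w - ε / 2)
        have m2 := le_max_right us (w - ε / 2)
        have m3 : max us (w - ε / 2) < w := max_lt h1 (by linarith)
        exact ⟨max us (w - ε / 2), by linarith, m3, b1 _ m1 m3⟩
      · obtain ⟨u, hu, h2⟩ := happ ε hε
        refine ⟨u, by linarith, ?_, hu.2.2.2.2⟩
        refine lt_of_le_of_ne (h1 ▸ hle i u hu) fun h3 => ?_
        have h4 := hu.2.2.2.2
        rw [h3, hw2'] at h4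
        exact lt_irrefl _ h4
    · by_contra hcon
      exact (b2 s' s1 (not_le.1 hcon)).ne' s2
  · left
    set e := us + g.R i / 2 with he
    have b1 : ∀ s, us ≤ s → s ≤ e → N x < Ni g h i (x + s • v) := fun s s1 s2 =>
      lowc_ivt (hcN i) s1 a1 fun s' t1 t2 t3 => hcase ⟨s', ⟨t1, t2.trans s2⟩, t3⟩
    have b2 : ∀ s, 0 < s → s ≤ e → N x < N (x + s • v) := fun s s1 s2 => by
      rcases lt_or_ge s us with h1 | h1
      · exact hbefore s s1 h1
      · exact (b1 s h1 s2).trans_le (hiN _)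
    have b3 : ∀ s', 0 < s' → N (x + s' • v) = N x → e < s' := fun s' s1 s2 => by
      by_contra hcon
      exact (b2 s' s1 (not_lt.1 hcon)).ne' s2
    have b4 : ∀ k, x + e • v ∈ g.Nb T 3 k → 11 * g.R k ≤ g.tt j0 y0 (x + e • v) →
        Ni g h k (x + e • v) ≤ N x := fun k k1 k2 => by
      by_contra hcon
      have h1 := hle k e ⟨by linarith, b2, k1, k2, not_le.1 hcon⟩
      linarith
    have heD := hDD e (by linarith) le_rfl
    have b5 := b1 e (by linarith) le_rfl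
    by_cases hdeepe : 22 * g.R i ≤ g.tt j0 y0 (x + e • v)
    · have z1 : x + e • v ∉ g.Nb T 3 i := fun z => absurd (b4 i z (by linarith)) (not_le.2 b5)
      have z2 : i ≠ j0 := fun z => z1 (Grid.subset_Nb 3 i (by
        have z0 := g.mem_cube_of_tt j0 y0 hd (z := x + e • v) (by linarith)
        rw [← hT.top] at z0
        exact z ▸ z0))
      obtain ⟨k, hk⟩ : ∃ k, i = k + 1 := ⟨i - 1, by omega⟩
      have r1 := g.R_succ k
      rw [← hk] at r1
      have z3 : x + e • v ∈ g.Nb T 2 k :=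
        Grid.Nb_succ (n := 2) (hT.anti k (by omega)) (hk ▸ heD.1)
      have z4 := (le_Ni hP.ih g k (x + e • v) (r := g.R i) (by linarith) (by linarith)).trans
        (b4 k (Grid.Nb_mono (by norm_num) k z3) (by linarith))
      obtain ⟨r2, f1, f2, f3⟩ := exists_opt_Ni hP.ih g i (x + e • v)
      obtain ⟨g1, g2⟩ := ivtc_g0 hd g i
      refine Chg.mono_lowc le_self_add ⟨i, e - g0 d * g.R i, by linarith, ?_, fun s hs => ?_,
        fun s' s1 _ s2 => ?_⟩
      · linarith [hbound e (by linarith)]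
      · refine hC1 h μ g j0 y0 T ν Gd i (x + e • v) _ (g.R i) r2 _ hP hT hG heD.1 z1 heD.2 ?_
          (by linarith) le_rfl f1 f2 z4 (b5.le.trans f3.ge)
        rw [ivtc_norm hv]
        exact abs_le.2 ⟨by linarith [hs.1], by linarith [hs.2]⟩
      · linarith [b3 s' s1 s2]
    · exact Chg.mono_lowc le_add_self (hC2 h N μ g j0 K y0 T ν Gd v x e j i hP hT hK hG hv hvl
        (fun k k1 k2 => hN k k1 k2 x) ⟨Grid.subset_Nb 4 j hxT, by linarith⟩ heD
        (not_le.1 hdeepe).le (by linarith) b5 b3)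

end Vale.Agent.P137
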