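import Vale.Agent.P137.C.PW
import Vale.Agent.P137.C.Conc
import Vale.Agent.P137.C.NcBasic
import Vale.Agent.P137.Charge

/-! P137 C/NegA: tools for integrating the pointwise bound (only the items stated in this file). `R = g.R j`.

For a fixed `x0` the quantities `BB x0 k`, `Ex C1 x0 k`, `tau`, `kap`, `mm` of `S = ⟨h, μ, O, g, j, ν, Gd, v, x, r⟩` do not depend
on `v, x, r` (`rfl`).
* `exc_sum`: `conc` with `L = 4 tau k`, `κ = kap k`, `T/m1 = C1 / ep k`; `(1/ep k)^4 2^(-k) ≤ (15/16)^k`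
  (`(16/15)^9 ≤ 2`); if `BB = 0` the term vanishes. Use `toMeasurable` of `Ex` and `lintegral_tsum`.
* `sum_BB_le`: `lintegral_tsum` and `tsum_BD_le` (`lev k = j + aa d + k`).
* `shell_int`: Tonelli; for fixed `p` the set of `x` with `p ∈ Sh x ρ L` is `Sh p ρ L`, of volume
  `≤ om ((ρ + 2L)^d - (ρ - L)^d) ≤ C L R^(d-1)`; and `Sh x ρ L ⊆ ball x0 (3R)`.
* `neg_local`: at `x` where `Ni` is differentiable, `fderiv (Ni g h j) x v = (om r^d)⁻¹ ⟪v, ∫_{ball x r} μ⟫` for an
  optimal `r` (`fderiv_Nc`, `av_eq`), `(om r^d)⁻¹ ≤ 2^d/(om R^d)`; `pw` with `τs = R/4 = 4 tau 0` (so `One = 0`);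
  at the other points `fderiv = 0`. Integrate over `ball x0 (R/4)`.
* `zone_local`: `Gd = ∅`, `ν = 0`, `v = -uv (∫_{ball x r} μ)` (if the integral is `0` the gradient vanishes),
  `τs = min (r - R/2) (R - r)`; if `τs < 4 tau k` then `Sh x r (4 tau k) ⊆ Sh x R (8 tau k) ∪ Sh x (R/2) (8 tau k)`;
  `mm_empty_le`, `shell_int`, `2^(-k) ≤ (15/16)^k`.
* `local_to_set`: as `me_set` in ME.lean (`lintegral_ball_lintegral`).
-/

namespace Vale.Agent.P137

open MeasureTheory Metric Set Filter Topology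
open scoped ENNReal NNReal RealInnerProductSpace

variable {d : ℕ}

theorem nega_meas {w : E d → ℝ≥0∞} (hw : Measurable w) (ρ L : ℝ) :
    Measurable ({q : E d × E d | |‖q.2 - q.1‖ - ρ| ≤ L}.indicator fun q => w q.2) :=
  (hw.comp measurable_snd).indicator (measurableSet_le (by fun_prop) measurable_const)

theorem nega_meas_Sh (x : E d) (r L : ℝ) : MeasurableSet (Sh x r L) :=
  measurableSet_le (by fun_prop) measurable_const

theorem nega_Sh_eq (w : E d → ℝ≥0∞) (ρ L : ℝ) (x : E d) : ∫⁻ p in Sh x ρ L, w p =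
    ∫⁻ p, {q : E d × E d | |‖q.2 - q.1‖ - ρ| ≤ L}.indicator (fun q => w q.2) (x, p) := by
  rw [← lintegral_indicator (nega_meas_Sh x ρ L)]
  rfl

theorem nega_vol_Sh (hd : 0 < d) (p : E d) {R ρ L : ℝ} (hR : 0 < R) (h1 : R / 2 ≤ ρ) (h2 : ρ ≤ R)
    (hL : 0 < L) (hLR : L ≤ R / 2) :
    volume (Sh p ρ L) ≤ ENNReal.ofReal (om d * (3 * d * 2 ^ (d - 1)) * (L / R * R ^ d)) := by
  have hom : 0 < om d := om_pos
  have h0 : 0 ≤ ρ - L := by linarith
  have hin : ENNReal.ofReal (om d * (ρ - L) ^ d) ≤ volume (ball p (ρ - L)) := by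
    rcases h0.eq_or_lt with h | h
    · rw [← h, zero_pow hd.ne', mul_zero, ENNReal.ofReal_zero]
      exact zero_le
    · exact (volume_ball_eq p h).ge
  have hdisj : Disjoint (Sh p ρ L) (ball p (ρ - L)) := by
    rw [Set.disjoint_left]
    intro q hq hq'
    have h3 : |‖q - p‖ - ρ| ≤ L := hq
    rw [mem_ball_iff_norm] at hq'
    linarith [(abs_le.1 h3).1]
  have hsub : Sh p ρ L ∪ ball p (ρ - L) ⊆ ball p (ρ + 2 * L) := by
    rintro q (hq | hq)
    · have h3 : |‖q - p‖ - ρ| ≤ L := hq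
      rw [mem_ball_iff_norm]
      linarith [(abs_le.1 h3).2]
    · exact ball_subset_ball (by linarith) hq
  have h3 := measure_mono (μ := volume) hsub
  rw [measure_union hdisj measurableSet_ball, volume_ball_eq p (by linarith : 0 < ρ + 2 * L)] at h3
  have h4 : volume (Sh p ρ L) ≤
      ENNReal.ofReal (om d * (ρ + 2 * L) ^ d) - ENNReal.ofReal (om d * (ρ - L) ^ d) :=
    ENNReal.le_sub_of_add_le_right ENNReal.ofReal_ne_top ((add_le_add le_rfl hin).trans h3)
  rw [← ENNReal.ofReal_sub _ (by positivity)] at h4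
  refine h4.trans (ENNReal.ofReal_le_ofReal ?_)
  have h5 := abs_pow_sub_pow_le (a := ρ + 2 * L) (b := ρ - L) (n := d)
  have h6 : max |ρ + 2 * L| |ρ - L| ≤ 2 * R := by
    rw [abs_of_nonneg (by linarith), abs_of_nonneg h0]
    exact max_le (by linarith) (by linarith)
  have h7 : |ρ + 2 * L - (ρ - L)| = 3 * L := by
    rw [abs_of_nonneg (by linarith)]; ring
  have h8 : (ρ + 2 * L) ^ d - (ρ - L) ^ d ≤ 3 * L * d * (2 * R) ^ (d - 1) := by
    refine (le_abs_self _).trans (h5.trans ?_)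
    rw [h7]
    gcongr
  have h9 : R ^ d = R * R ^ (d - 1) := by
    rw [← pow_succ']; congr 1; omega
  rw [← mul_sub, mul_assoc]
  gcongr
  refine h8.trans (le_of_eq ?_)
  rw [h9, mul_pow]
  field_simp

theorem exc_sum (hd : 0 < d) {C1 : ℝ} (hC1 : 0 ≤ C1) : ∃ C : ℝ≥0, ∀ (S : Sit d) (x0 : E d),
    Integrable S.μ →
    ∑' k, volume (S.Ex C1 x0 k) * S.BB x0 k ≤
      C * ENNReal.ofReal (S.R ^ d) * ∑' k, (15 / 16 : ℝ≥0∞) ^ k * S.BB x0 k := by
  obtain ⟨C0, hC0, H⟩ := conc hd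
  refine ⟨(C0 * (C1 + 1) ^ 2).toNNReal, fun S x0 hμ => ?_⟩
  rw [← ENNReal.tsum_mul_left]
  refine ENNReal.tsum_le_tsum fun k => ?_
  by_cases hb : S.BB x0 k = 0
  · rw [hb, mul_zero]
    exact zero_le
  have hfin : S.BB x0 k ≠ ⊤ := by
    refine ne_top_of_le_ne_top ?_ ((setLIntegral_le_lintegral _ _).trans
      (S.g.lintegral_BD_le hμ S.Gd _))
    exact ENNReal.mul_ne_top (by norm_num) hμ.2.ne
  have hb0 : 0 < (S.BB x0 k).toReal := ENNReal.toReal_pos hb hfin
  have hR := S.R_pos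
  have hτ := S.tau_pos k
  have hep : 0 < ep k := by unfold ep; positivity
  have hep1 : ep k ≤ 1 := by unfold ep; exact pow_le_one₀ (by norm_num) (by norm_num)
  have key := H (S.mm k) x0 S.R (4 * S.tau k) (S.kap k) (C1 * (S.BB x0 k).toReal)
    (ep k * (S.BB x0 k).toReal) (S.g.measurable_mm S.Gd _) (S.g.lintegral_mm_ne_top hμ S.Gd _) hR
    (by positivity) (by linarith [S.tau_le k]) (S.four_tau_le_kap k) (by positivity)
    (by positivity)
  rw [← mul_assoc]
  refine mul_le_mul_left (key.trans ?_) _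
  have e15 : (15 / 16 : ℝ≥0∞) ^ k = ENNReal.ofReal ((15 / 16) ^ k) := by
    rw [ENNReal.ofReal_pow (by norm_num), ENNReal.ofReal_div_of_pos (by norm_num)]
    norm_num
  rw [e15]
  change _ ≤ ENNReal.ofReal (C0 * (C1 + 1) ^ 2) * _ * _
  rw [← ENNReal.ofReal_mul (by positivity), ← ENNReal.ofReal_mul (by positivity)]
  refine ENNReal.ofReal_le_ofReal ?_
  have h1 : C1 * (S.BB x0 k).toReal / (ep k * (S.BB x0 k).toReal) + 1 ≤ (C1 + 1) / ep k := by
    rw [mul_div_mul_right _ _ hb0.ne', add_div]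
    gcongr
    rw [le_div_iff₀ hep]; linarith
  have h2 : 4 * S.tau k * S.R / S.kap k ^ 2 ≤ 1 / (2 ^ k * ep k ^ 2) := by
    unfold Sit.tau Sit.kap
    rw [div_le_div_iff₀ (by positivity) (by positivity)]
    have : 4 * (S.R / (16 * 2 ^ k)) * S.R * (2 ^ k * ep k ^ 2) = (S.R * ep k) ^ 2 / 4 := by
      field_simp; ring
    rw [this]
    linarith [sq_nonneg (S.R * ep k)]
  have h3 : 1 / (2 ^ k * ep k ^ 4) ≤ (15 / 16 : ℝ) ^ k := by
    rw [div_le_iff₀ (by positivity)]
    unfold ep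
    have : (15 / 16 : ℝ) ^ k * (2 ^ k * ((15 / 16) ^ (2 * k)) ^ 4) = (2 * (15 / 16) ^ 9) ^ k := by
      rw [mul_pow, ← pow_mul, ← pow_mul, mul_left_comm, ← pow_add]
      congr 2; ring
    rw [this]
    exact one_le_pow₀ (by norm_num)
  calc C0 * (C1 * (S.BB x0 k).toReal / (ep k * (S.BB x0 k).toReal) + 1) ^ 2
        * (4 * S.tau k * S.R / S.kap k ^ 2) * S.R ^ d
      ≤ C0 * ((C1 + 1) / ep k) ^ 2 * (1 / (2 ^ k * ep k ^ 2)) * S.R ^ d := by gcongr
    _ = C0 * (C1 + 1) ^ 2 * S.R ^ d * (1 / (2 ^ k * ep k ^ 4)) := by field_simp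
    _ ≤ _ := by gcongr

theorem sum_BB_le (S : Sit d) (x0 : E d) :
    ∑' k, (15 / 16 : ℝ≥0∞) ^ k * S.BB x0 k ≤
      5 * ∫⁻ p in ball x0 (3 * S.R), S.g.BE S.μ S.Gd (S.j + aa d) p := by
  rw [← lintegral_const_mul' _ _ (by norm_num)]
  calc ∑' k, (15 / 16 : ℝ≥0∞) ^ k * S.BB x0 k
      = ∑' k, ∫⁻ p in ball x0 (3 * S.R),
          (15 / 16 : ℝ≥0∞) ^ k * S.g.BD S.μ S.Gd (S.j + aa d + k) p := by
        refine tsum_congr fun k => ?_
        rw [lintegral_const_mul _ (S.g.measurable_BD S.Gd _)]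
        rfl
    _ = ∫⁻ p in ball x0 (3 * S.R),
          ∑' k, (15 / 16 : ℝ≥0∞) ^ k * S.g.BD S.μ S.Gd (S.j + aa d + k) p :=
        (lintegral_tsum fun k => ((S.g.measurable_BD S.Gd _).const_mul _).aemeasurable).symm
    _ ≤ _ := lintegral_mono fun p => S.g.tsum_BD_le S.Gd _ p

theorem shell_int (hd : 0 < d) : ∃ C : ℝ≥0, ∀ (w : E d → ℝ≥0∞) (x0 : E d) (R ρ L : ℝ),
    Measurable w → 0 < R → R / 2 ≤ ρ → ρ ≤ R → 0 < L → L ≤ R / 2 →
    ∫⁻ x in ball x0 (R / 4), ∫⁻ p in Sh x ρ L, w p ≤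
      C * ENNReal.ofReal (L / R * R ^ d) * ∫⁻ p in ball x0 (3 * R), w p := by
  refine ⟨(om d * (3 * d * 2 ^ (d - 1))).toNNReal, fun w x0 R ρ L hw hR h1 h2 hL hLR => ?_⟩
  have hom : 0 < om d := om_pos
  simp only [nega_Sh_eq]
  rw [lintegral_lintegral_swap (f := fun x p : E d =>
    {q : E d × E d | |‖q.2 - q.1‖ - ρ| ≤ L}.indicator (fun q => w q.2) (x, p))
    (nega_meas hw ρ L).aemeasurable, ← lintegral_indicator measurableSet_ball,
    ← lintegral_const_mul _ (hw.indicator measurableSet_ball)]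
  refine lintegral_mono fun p => ?_
  by_cases hp : p ∈ ball x0 (3 * R)
  · rw [indicator_of_mem hp]
    refine (setLIntegral_le_lintegral _ _).trans ?_
    have e : (fun x : E d => {q : E d × E d | |‖q.2 - q.1‖ - ρ| ≤ L}.indicator
        (fun q => w q.2) (x, p)) = (Sh p ρ L).indicator fun _ => w p := by
      funext x
      simp only [indicator, Sh, mem_ofPred_eq, norm_sub_rev]
    rw [e, lintegral_indicator (nega_meas_Sh _ _ _), setLIntegral_const, mul_comm]
    refine mul_le_mul_left ((nega_vol_Sh hd p hR h1 h2 hL hLR).trans (le_of_eq ?_)) _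
    rw [ENNReal.ofReal_mul (by positivity)]
    rfl
  · rw [setLIntegral_congr_fun (g := fun _ => 0) measurableSet_ball fun x hx => ?_, lintegral_zero]
    · exact zero_le
    · refine indicator_of_notMem (fun h => hp ?_) _
      have h3 : |‖p - x‖ - ρ| ≤ L := h
      rw [mem_ball_iff_norm] at hx ⊢
      have h4 : ‖p - x0‖ ≤ ‖p - x‖ + ‖x - x0‖ := norm_sub_le_norm_sub_add_norm_sub _ _ _
      linarith [(abs_le.1 h3).2]

theorem measurable_lintegral_Sh {w : E d → ℝ≥0∞} (hw : Measurable w) (ρ L : ℝ) :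
    Measurable fun x : E d => ∫⁻ p in Sh x ρ L, w p := by
  simp only [nega_Sh_eq]
  exact (nega_meas hw ρ L).lintegral_prod_right'

theorem local_to_set {f w : E d → ℝ≥0∞} (hf : Measurable f) (hw : Measurable w) {X : Set (E d)}
    (hX : MeasurableSet X) {R : ℝ} (hR : 0 < R) (C : ℝ≥0∞)
    (h : ∀ x0, ball x0 (3 * R) ⊆ thickening (4 * R) X →
      ∫⁻ x in ball x0 (R / 4), f x ≤ C * ∫⁻ p in ball x0 (3 * R), w p) :
    ∫⁻ x in X, f x ≤ C * 12 ^ d * ∫⁻ p in thickening (4 * R) X, w p := by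
  have hom : 0 < om d := om_pos
  have hT : MeasurableSet (thickening (4 * R) X) := isOpen_thickening.measurableSet
  have h1 := lintegral_ball_lintegral (hf.indicator hX) (show 0 < R / 4 by positivity)
  have h2 := lintegral_ball_lintegral (hw.indicator hT) (show 0 < 3 * R by positivity)
  rw [lintegral_indicator hX] at h1
  rw [lintegral_indicator hT] at h2
  have h3 : ∀ x0, ∫⁻ u in ball x0 (R / 4), X.indicator f u ≤
      C * ∫⁻ u in ball x0 (3 * R), (thickening (4 * R) X).indicator w u := by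
    intro x0
    by_cases hx : (ball x0 (R / 4) ∩ X).Nonempty
    · obtain ⟨x, hx1, hx2⟩ := hx
      have hsub : ball x0 (3 * R) ⊆ thickening (4 * R) X := fun u hu => by
        refine mem_thickening_iff.mpr ⟨x, hx2, ?_⟩
        have h4 := dist_triangle_right u x x0
        rw [mem_ball] at hu hx1
        linarith
      refine (lintegral_mono fun u => indicator_le_self _ _ u).trans
        ((h x0 hsub).trans (le_of_eq ?_))
      congr 1
      exact setLIntegral_congr_fun measurableSet_ball fun u hu =>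
        (indicator_of_mem (hsub hu) _).symm
    · rw [setLIntegral_congr_fun (g := fun _ => 0) measurableSet_ball fun u hu =>
        indicator_of_notMem (fun h' => hx ⟨u, hu, h'⟩) _, lintegral_zero]
      exact zero_le
  have h4 := lintegral_mono (μ := volume) h3
  have hm : Measurable fun x0 : E d =>
      ∫⁻ u in ball x0 (3 * R), (thickening (4 * R) X).indicator w u := by
    have e : ∀ y : E d, ∫⁻ u in ball y (3 * R), (thickening (4 * R) X).indicator w u =
        ∫⁻ u, {p : E d × E d | dist p.2 p.1 < 3 * R}.indicator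
          (fun p => (thickening (4 * R) X).indicator w p.2) (y, u) := by
      intro y
      rw [← lintegral_indicator measurableSet_ball]
      rfl
    simp only [e]
    exact (((hw.indicator hT).comp measurable_snd).indicator
      (measurableSet_lt (by fun_prop) measurable_const)).lintegral_prod_right'
  have e : ENNReal.ofReal (om d * (3 * R) ^ d) = ENNReal.ofReal (om d * (R / 4) ^ d) * 12 ^ d := by
    have : (12 : ℝ≥0∞) ^ d = ENNReal.ofReal (12 ^ d) := by
      rw [ENNReal.ofReal_pow (by norm_num)]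
      norm_num
    rw [this, ← ENNReal.ofReal_mul (by positivity), mul_assoc, ← mul_pow]
    congr 3
    ring
  rw [h1, lintegral_const_mul _ hm, h2, e, mul_assoc, mul_left_comm C,
    ENNReal.mul_le_mul_iff_right (ENNReal.ofReal_pos.mpr (by positivity)).ne'
      ENNReal.ofReal_ne_top, ← mul_assoc] at h4
  exact h4


end Vale.Agent.P137
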