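import Vale.Agent.P137.C.Basic
import Vale.Agent.P137.C.Bump

/-! P137 C/Switch: upper bounds for the radial functional, limits, and the crude telescoping bound.

`ω = Xp k - X k ∈ [0,1]` vanishes off `Sh x r (tau k)` (`Xp_eq_X`), `tau k = 2 tau (k+1)`, `‖nn‖ ≤ 2` on the shell, and
`Rad k ≤ -tst (ω • nn)` (`rad_le_shell`). Split with a bump `ζ` at `y`, scale `kap (k+1)`.
* `rad_far`: `((1-ζ) ω) • nn` is handled by `far` at level `k+1`, `(ζ ω) • nn` by `far` at level `k` with `y'`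
  (its support lies in `ball y (8 kap (k+1))`, disjoint from `ball y' (4 kap k)`; `tau_le_kap_succ`).
* `rad_front`: the far part as before; on `ball y (8 kap (k+1))`, `‖nn p - nn y‖ ≤ 16/1000` and for `ξ ∈ Gd`
  `⟪nn y, ξ⟫ ≥ ‖ξ‖ sv y - (9/20) ‖ξ‖ ≥ ‖ξ‖/20`, so `(ζ ω) • nn` is a cone field (`κ = 1/100`): `test_cone` at level
  `lev (k+1)` with `ρ = r + tau k + tau k`, `ρ' = 2 R`.
* `tendsto_Vv`, `rad_small`: dominated convergence; `X k → indicator (ball x r)` pointwise, and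
  `|tst (ω • nn)| ≤ 2 ∫_{Sh (tau k)} ‖μ‖ → 0` because the sphere is null (`Measure.addHaar_sphere`).
* `one_bound`: induction on `k`; `ball0` for `X 0 • v`, `X 0 • nn`, and `shell` at level `k+1` for
  `(X (k+1) - X k) • v`, `(X (k+1) - X k) • nn` (`X_succ_eq`).
-/

namespace Vale.Agent.P137

open MeasureTheory Metric Set Filter Topology
open scoped ENNReal NNReal RealInnerProductSpace

variable {d : ℕ}

namespace Sit

theorem sw_sh_mono (x : E d) (r : ℝ) {L L' : ℝ} (h : L ≤ L') : Sh x r L ⊆ Sh x r L' :=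
  fun _ hp => le_trans hp h

theorem sw_field {S : Sit d} (hS : S.Ok) (k : ℕ) {w : E d → ℝ} {c : ℝ} (hc : 0 ≤ c)
    (hw : Lip (c / S.tau k) w) (h1 : ∀ p, |w p| ≤ 1)
    (h0 : ∀ p, p ∉ Sh S.x S.r (4 * S.tau k) → w p = 0) :
    (∀ p, ‖w p • S.nn p‖ ≤ 2) ∧ Lip ((2 * c + 1) / S.tau k) fun p => w p • S.nn p := by
  have ht := S.tau_pos k
  refine ⟨fun p => ?_, ?_⟩
  · by_cases hp : p ∈ Sh S.x S.r (4 * S.tau k)
    · rw [norm_smul, Real.norm_eq_abs]
      have h2 := hS.norm_nn_le_two k hp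
      have h3 := h1 p
      have h4 := abs_nonneg (w p)
      have h5 := norm_nonneg (S.nn p)
      nlinarith
    · rw [h0 p hp, zero_smul, norm_zero]; norm_num
  · have h := Lip.smul (M1 := 1) (M2 := 2) (S := Sh S.x S.r (4 * S.tau k)) hw (hS.lip_nn' k)
      (by positivity) (by positivity) (by norm_num) h1 h0 (fun p hp => hS.norm_nn_le_two k hp)
    refine h.mono (le_of_eq ?_)
    field_simp

theorem sw_om {S : Sit d} (hd : 0 < d) (hS : S.Ok) (k : ℕ) :
    Lip ((2 * 2 ^ (d + 1)) / S.tau k) (fun p => S.Xp k p - S.X k p) ∧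
      (∀ p, 0 ≤ S.Xp k p - S.X k p) ∧ (∀ p, S.Xp k p - S.X k p ≤ 1) ∧
      ∀ p, p ∉ Sh S.x S.r (S.tau k) → S.Xp k p - S.X k p = 0 := by
  refine ⟨((hS.lip_Xp hd k).sub (hS.lip_X hd k)).mono (le_of_eq (by ring)), fun p => ?_,
    fun p => ?_, fun p hp => ?_⟩
  · linarith [hS.X_le_Xp hd k p]
  · linarith [hS.Xp_le_one hd k p, hS.X_nonneg hd k p]
  · rw [hS.Xp_eq_X hd k hp, sub_self]

theorem sw_mul {c c' : ℝ} {a b : E d → ℝ} (ha : Lip c a) (hb : Lip c' b) (hc : 0 ≤ c)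
    (hc' : 0 ≤ c') (h1 : ∀ p, |a p| ≤ 1) (h2 : ∀ p, |b p| ≤ 1) :
    Lip (c + c') fun p => a p * b p := by
  have h := Lip.smul (M1 := 1) (M2 := 1) (S := univ) ha hb hc hc' (by norm_num) h1
    (fun p hp => absurd (mem_univ p) hp) (fun p _ => h2 p)
  simpa only [smul_eq_mul, mul_one, one_mul] using h

/-- The splitting of the shell field by a bump. -/
theorem sw_split {S : Sit d} (hd : 0 < d) (hS : S.Ok) {k : ℕ} (hv : S.Valid k) {A : ℝ}
    (hA : 1 ≤ A) {y : E d} {ζ : E d → ℝ} (hζ : IsBump A y (S.kap (k + 1)) ζ) :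
    ∃ w1 w2 : E d → ℝ, S.Rad k ≤ -tst S.μ (fun p => w1 p • S.nn p) -
        tst S.μ (fun p => w2 p • S.nn p) ∧
      (∀ p, ‖w1 p • S.nn p‖ ≤ 2) ∧ (∀ p, ‖w2 p • S.nn p‖ ≤ 2) ∧
      Lip ((2 * (A + 2 * 2 ^ (d + 1)) + 1) / S.tau k) (fun p => w1 p • S.nn p) ∧
      Lip ((2 * (A + 2 * 2 ^ (d + 1)) + 1) / S.tau k) (fun p => w2 p • S.nn p) ∧
      (∀ p, p ∉ Sh S.x S.r (S.tau k) → w1 p = 0) ∧ (∀ p, p ∉ Sh S.x S.r (S.tau k) → w2 p = 0) ∧
      (∀ p ∈ ball y (4 * S.kap (k + 1)), w1 p = 0) ∧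
      (∀ p, p ∉ ball y (8 * S.kap (k + 1)) → w2 p = 0) ∧ ∀ p, 0 ≤ w2 p := by
  obtain ⟨ol, o0, o1, oz⟩ := sw_om hd hS k
  have ht := S.tau_pos k
  have hk := S.tau_le_kap_succ k
  have hz : Lip (A / S.tau k) ζ :=
    hζ.lip.mono (div_le_div_of_nonneg_left (by linarith) ht hk)
  have hz' : Lip (A / S.tau k) fun p => 1 - ζ p :=
    ((lip_const (1 : ℝ)).sub hz).mono (le_of_eq (by ring))
  have oa : ∀ p, |S.Xp k p - S.X k p| ≤ 1 := fun p => by
    rw [abs_of_nonneg (o0 p)]; exact o1 p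
  have za : ∀ p, |ζ p| ≤ 1 := fun p => by
    rw [abs_of_nonneg (hζ.nonneg p)]; exact hζ.le_one p
  have za' : ∀ p, |1 - ζ p| ≤ 1 := fun p => by
    rw [abs_of_nonneg (by linarith [hζ.le_one p])]; linarith [hζ.nonneg p]
  have hA0 : 0 ≤ A := by linarith
  have l1 : Lip ((A + 2 * 2 ^ (d + 1)) / S.tau k)
      fun p => (1 - ζ p) * (S.Xp k p - S.X k p) :=
    (sw_mul hz' ol (by positivity) (by positivity) za' oa).mono (le_of_eq (by ring))
  have l2 : Lip ((A + 2 * 2 ^ (d + 1)) / S.tau k) fun p => ζ p * (S.Xp k p - S.X k p) :=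
    (sw_mul hz ol (by positivity) (by positivity) za oa).mono (le_of_eq (by ring))
  have a1 : ∀ p, |(1 - ζ p) * (S.Xp k p - S.X k p)| ≤ 1 := fun p => by
    rw [abs_mul]; exact mul_le_one₀ (za' p) (abs_nonneg _) (oa p)
  have a2 : ∀ p, |ζ p * (S.Xp k p - S.X k p)| ≤ 1 := fun p => by
    rw [abs_mul]; exact mul_le_one₀ (za p) (abs_nonneg _) (oa p)
  have z1 : ∀ p, p ∉ Sh S.x S.r (S.tau k) → (1 - ζ p) * (S.Xp k p - S.X k p) = 0 :=
    fun p hp => by rw [oz p hp, mul_zero]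
  have z2 : ∀ p, p ∉ Sh S.x S.r (S.tau k) → ζ p * (S.Xp k p - S.X k p) = 0 :=
    fun p hp => by rw [oz p hp, mul_zero]
  have hsub : Sh S.x S.r (S.tau k) ⊆ Sh S.x S.r (4 * S.tau k) := sw_sh_mono _ _ (by linarith)
  obtain ⟨n1, f1⟩ := sw_field hS k (by positivity) l1 a1 fun p hp => z1 p fun h => hp (hsub h)
  obtain ⟨n2, f2⟩ := sw_field hS k (by positivity) l2 a2 fun p hp => z2 p fun h => hp (hsub h)
  refine ⟨fun p => (1 - ζ p) * (S.Xp k p - S.X k p), fun p => ζ p * (S.Xp k p - S.X k p), ?_,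
    n1, n2, f1, f2, z1, z2, fun p hp => ?_, fun p hp => ?_,
    fun p => mul_nonneg (hζ.nonneg p) (o0 p)⟩
  · have h := hS.rad_le_shell hd hv
    have e := tst_add (integrable_tst hS.pair.pair.im f1.continuous n1)
      (integrable_tst hS.pair.pair.im f2.continuous n2)
    have e2 : (fun p => ((1 - ζ p) * (S.Xp k p - S.X k p)) • S.nn p +
        (ζ p * (S.Xp k p - S.X k p)) • S.nn p) = fun p => (S.Xp k p - S.X k p) • S.nn p := by
      funext p
      rw [← add_smul]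
      congr 1
      ring
    rw [e2] at e
    linarith
  · simp only [hζ.one p hp, sub_self, zero_mul]
  · simp only [hζ.zero p hp, zero_mul]

theorem rad_far (hd : 0 < d) : ∃ C : ℝ, 0 ≤ C ∧ ∀ (S : Sit d) (k : ℕ) (B B' : ℝ) (y y' : E d),
    S.Ok → S.Valid k → 0 ≤ B → 0 ≤ B' → S.Conc (k + 1) y B → S.Conc k y' B' →
    20 * S.kap k ≤ ‖y - y'‖ → S.Rad k ≤ C * (ep (k + 1) * B + ep k * B') := by
  obtain ⟨A, hA, hb⟩ := exists_bump (d := d)
  have hA' : (2 : ℝ) ≤ 2 * (A + 2 * 2 ^ (d + 1)) + 1 := by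
    have : (0 : ℝ) < 2 ^ (d + 1) := by positivity
    linarith
  obtain ⟨C, hC, hfar⟩ := far hd (A := 2 * (A + 2 * 2 ^ (d + 1)) + 1) (by linarith)
  refine ⟨C, hC, fun S k B B' y y' hS hv hB hB' hc hc' hyy => ?_⟩
  obtain ⟨ζ, hζ⟩ := hb y _ (S.kap_pos (k + 1))
  obtain ⟨w1, w2, hr, n1, n2, f1, f2, z1, z2, b1, b2, -⟩ := sw_split hd hS hv hA hζ
  have ht := S.tau_pos (k + 1)
  have ht' := S.tau_succ k
  have hk := S.kap_pos (k + 1)
  have hk' := S.kap_succ_le k
  have g1 := hfar S (k + 1) B y _ hS hB hc (fun p => (n1 p).trans hA')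
    (f1.mono (div_le_div_of_nonneg_left (by linarith) ht (by linarith))) fun p hp => by
      by_cases h : p ∈ ball y (4 * S.kap (k + 1))
      · rw [b1 p h, zero_smul]
      · rw [z1 p fun h' => hp ⟨sw_sh_mono _ _ (by linarith) h', h⟩, zero_smul]
  have g2 := hfar S k B' y' _ hS hB' hc' (fun p => (n2 p).trans hA') f2 fun p hp => by
    by_cases h : p ∈ ball y' (4 * S.kap k)
    · rw [b2 p fun h' => ?_, zero_smul]
      rw [mem_ball, dist_eq_norm] at h h'
      have h3 : ‖y - y'‖ ≤ ‖p - y‖ + ‖p - y'‖ := by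
        have e : y - y' = -(p - y) + (p - y') := by abel
        rw [e]
        exact (norm_add_le _ _).trans (by rw [norm_neg])
      linarith
    · rw [z2 p fun h' => hp ⟨sw_sh_mono _ _ (by linarith) h', h⟩, zero_smul]
  have g3 := neg_abs_le (tst S.μ fun p => w1 p • S.nn p)
  have g4 := neg_abs_le (tst S.μ fun p => w2 p • S.nn p)
  nlinarith

theorem sw_cone {S : Sit d} (hS : S.Ok) {y p ξ : E d} (hy : ‖y - S.x‖ = S.r) (hs : 1 / 2 < S.sv y)
    (hp : ‖p - y‖ ≤ 8 / 1000 * S.R) (hξ : ξ ∈ S.Gd) : 1 / 50 * ‖ξ‖ ≤ ⟪S.nn p, ξ⟫ := by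
  have hR := S.R_pos
  have hr := hS.r_pos
  have n1 : ‖S.nn y‖ = 1 := by rw [hS.norm_nn, hy, div_self hr.ne']
  have n2 : ‖S.nn p - S.nn y‖ ≤ 16 / 1000 := by
    refine (hS.lip_nn p y).trans ?_
    calc 2 / S.R * ‖p - y‖ ≤ 2 / S.R * (8 / 1000 * S.R) := by gcongr
      _ = 16 / 1000 := by field_simp; norm_num
  have e : ⟪S.nn p, ξ⟫ = ‖ξ‖ * S.sv y - ⟪S.nn y, ‖ξ‖ • S.v - ξ⟫ + ⟪S.nn p - S.nn y, ξ⟫ := by
    rw [inner_sub_left, inner_sub_right, real_inner_smul_right, sv, real_inner_comm (S.nn y) S.v]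
    ring
  have h1 := real_inner_le_norm (S.nn y) (‖ξ‖ • S.v - ξ)
  rw [n1, one_mul] at h1
  have h2 := hS.near ξ hξ
  have h3 := neg_abs_le ⟪S.nn p - S.nn y, ξ⟫
  have h4 := abs_real_inner_le_norm (S.nn p - S.nn y) ξ
  have h5 := norm_nonneg ξ
  have h6 : ‖S.nn p - S.nn y‖ * ‖ξ‖ ≤ 16 / 1000 * ‖ξ‖ := by gcongr
  have h7 : ‖ξ‖ * (1 / 2) ≤ ‖ξ‖ * S.sv y := by gcongr
  linarith

theorem rad_front (hd : 0 < d) : ∃ C : ℝ, 0 ≤ C ∧ ∀ (S : Sit d) (k : ℕ) (B : ℝ) (y : E d),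
    S.Ok → 60 ≤ k → S.Valid k → S.Bd (k + 1) B → S.Conc (k + 1) y B → 1 / 2 < S.sv y →
    S.Rad k ≤ C * B := by
  obtain ⟨A, hA, hb⟩ := exists_bump (d := d)
  have hA' : (2 : ℝ) ≤ 2 * (A + 2 * 2 ^ (d + 1)) + 1 := by
    have : (0 : ℝ) < 2 ^ (d + 1) := by positivity
    linarith
  obtain ⟨C, hC, hfar⟩ := far hd (A := 2 * (A + 2 * 2 ^ (d + 1)) + 1) (by linarith)
  obtain ⟨C', hC', hcone⟩ := test_cone hd (κ := 1 / 100) (by norm_num)
  refine ⟨C + C' * (2 + √(2 * (2 * (A + 2 * 2 ^ (d + 1)) + 1))), by positivity,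
    fun S k B y hS hk60 hv hB hc hs => ?_⟩
  obtain ⟨ζ, hζ⟩ := hb y _ (S.kap_pos (k + 1))
  obtain ⟨w1, w2, hr, n1, n2, f1, f2, z1, z2, b1, b2, p2⟩ := sw_split hd hS hv hA hζ
  have ht := S.tau_pos (k + 1)
  have ht' := S.tau_succ k
  have hk := S.kap_pos (k + 1)
  have hR := S.R_pos
  have g1 := hfar S (k + 1) B y _ hS hB.1 hc (fun p => (n1 p).trans hA')
    (f1.mono (div_le_div_of_nonneg_left (by linarith) ht (by linarith))) fun p hp => by
      by_cases h : p ∈ ball y (4 * S.kap (k + 1))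
      · rw [b1 p h, zero_smul]
      · rw [z1 p fun h' => hp ⟨sw_sh_mono _ _ (by linarith) h', h⟩, zero_smul]
  have g2 := hcone S.g S.μ S.ν S.Gd (fun p => w2 p • S.nn p) 2 (2 * (A + 2 * 2 ^ (d + 1)) + 1)
    (S.tau (k + 1)) B S.x (S.r + S.tau k + S.tau k) (2 * S.R) (S.lev (k + 1)) hS.pair.pair.im
    hS.cone (by linarith) (S.len_lev_le' hd (k + 1)) n2
    (f2.mono (div_le_div_of_nonneg_left (by linarith) ht (by linarith)))
    (fun p hp => by
      rw [z2 p fun h' => hp ?_, zero_smul]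
      rw [mem_ball, dist_eq_norm]
      have h2 : |‖p - S.x‖ - S.r| ≤ S.tau k := h'
      linarith [le_abs_self (‖p - S.x‖ - S.r)])
    (fun p ξ hξ => by
      by_cases h : p ∈ ball y (8 * S.kap (k + 1))
      · by_cases h' : p ∈ Sh S.x S.r (S.tau k)
        · rw [mem_ball, dist_eq_norm] at h
          have he : ep (k + 1) ≤ 1 / 1000 := ep_small (by omega)
          have hkap : S.kap (k + 1) ≤ S.R * (1 / 1000) := by
            unfold kap; gcongr
          have c1 := sw_cone hS (p := p) hc.1 hs (by linarith) hξ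
          have c2 := hS.norm_nn_le_two k (sw_sh_mono _ _ (by linarith) h')
          rw [norm_smul, real_inner_smul_left, Real.norm_eq_abs, abs_of_nonneg (p2 p)]
          have c3 := p2 p
          have c4 := norm_nonneg ξ
          have c5 : w2 p * ‖S.nn p‖ * ‖ξ‖ ≤ w2 p * 2 * ‖ξ‖ := by gcongr
          have c6 : w2 p * (1 / 50 * ‖ξ‖) ≤ w2 p * ⟪S.nn p, ξ⟫ := by gcongr
          linarith
        · simp only [z2 p h', zero_smul, norm_zero, zero_mul, mul_zero, inner_zero_left, le_refl]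
      · simp only [b2 p h, zero_smul, norm_zero, zero_mul, mul_zero, inner_zero_left, le_refl])
    (by linarith [S.len_lev_le (k + 1), S.tau_le k, hS.r2]) hB.1 hB.2
  have g3 := neg_abs_le (tst S.μ fun p => w1 p • S.nn p)
  have g4 : C * ep (k + 1) * B ≤ C * 1 * B := by
    have := hB.1
    gcongr
    exact ep_le_one _
  linarith

theorem sw_tau (S : Sit d) {ε : ℝ} (hε : 0 < ε) : ∀ᶠ k in atTop, S.tau k < ε := by
  have h : Tendsto (fun k : ℕ => S.R / 16 * (1 / 2 : ℝ) ^ k) atTop (𝓝 (S.R / 16 * 0)) :=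
    (tendsto_pow_atTop_nhds_zero_of_lt_one (by norm_num) (by norm_num)).const_mul _
  rw [mul_zero] at h
  filter_upwards [h.eventually (gt_mem_nhds hε)] with k hk
  have e : S.tau k = S.R / 16 * (1 / 2 : ℝ) ^ k := by
    unfold tau
    rw [one_div, inv_pow]
    field_simp
  rw [e]
  exact hk

theorem tendsto_Vv (hd : 0 < d) {S : Sit d} (hS : S.Ok) :
    Tendsto S.Vv atTop (𝓝 ⟪S.v, ∫ p in ball S.x S.r, S.μ p⟫) := by
  have hμ := hS.pair.pair.im
  rw [← integral_inner hμ.integrableOn, ← integral_indicator measurableSet_ball]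
  refine tendsto_integral_of_dominated_convergence (fun p => ‖S.μ p‖)
    (fun k => (hS.integrable_Vv hd k).aestronglyMeasurable) hμ.norm
    (fun k => Eventually.of_forall fun p => ?_) (Eventually.of_forall fun p => ?_)
  · rw [Real.norm_eq_abs]
    refine (abs_real_inner_le_norm _ _).trans ?_
    rw [norm_smul, hS.nv, mul_one, Real.norm_eq_abs, abs_of_nonneg (hS.X_nonneg hd k p)]
    exact mul_le_of_le_one_left (norm_nonneg _) (hS.X_le_one hd k p)
  · by_cases hp : p ∈ ball S.x S.r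
    · rw [indicator_of_mem hp]
      rw [mem_ball, dist_eq_norm] at hp
      refine tendsto_const_nhds.congr' ?_
      filter_upwards [sw_tau S (sub_pos.2 hp)] with k hk
      rw [hS.X_eq_one hd k (by linarith), one_smul]
    · rw [indicator_of_notMem hp]
      rw [mem_ball, dist_eq_norm, not_lt] at hp
      simp only [hS.X_eq_zero _ hp, zero_smul, inner_zero_left]
      exact tendsto_const_nhds

theorem rad_small (hd : 0 < d) {S : Sit d} (hS : S.Ok) {ε : ℝ} (hε : 0 < ε) :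
    ∀ᶠ k in atTop, S.Valid k → |S.Rad k| ≤ ε := by
  have hμ := hS.pair.pair.im
  have hf : ∀ k, (∀ p, ‖(S.Xp k p - S.X k p) • S.nn p‖ ≤ 2) ∧
      Lip ((2 * (2 * 2 ^ (d + 1)) + 1) / S.tau k) fun p => (S.Xp k p - S.X k p) • S.nn p := by
    intro k
    obtain ⟨ol, o0, o1, oz⟩ := sw_om hd hS k
    have ht := S.tau_pos k
    exact sw_field hS k (by positivity) ol (fun p => by rw [abs_of_nonneg (o0 p)]; exact o1 p)
      fun p hp => oz p fun h => hp (sw_sh_mono _ _ (by linarith) h)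
  have : Nontrivial (E d) := by
    have : Nonempty (Fin d) := ⟨⟨0, hd⟩⟩
    infer_instance
  have hnull : ∀ᵐ p : E d, p ∉ sphere S.x S.r :=
    measure_eq_zero_iff_ae_notMem.1 (Measure.addHaar_sphere volume S.x S.r)
  have hlim : Tendsto (fun k => tst S.μ fun p => (S.Xp k p - S.X k p) • S.nn p) atTop
      (𝓝 (∫ _ : E d, (0 : ℝ))) := by
    refine tendsto_integral_of_dominated_convergence (fun p => 2 * ‖S.μ p‖)
      (fun k => (integrable_tst hμ (hf k).2.continuous (hf k).1).aestronglyMeasurable)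
      (hμ.norm.const_mul 2) (fun k => Eventually.of_forall fun p => ?_) ?_
    · rw [Real.norm_eq_abs]
      refine (abs_real_inner_le_norm _ _).trans ?_
      gcongr
      exact (hf k).1 p
    · filter_upwards [hnull] with p hp
      rw [mem_sphere, dist_eq_norm, ← sub_eq_zero, ← ne_eq, ← abs_pos] at hp
      refine tendsto_const_nhds.congr' ?_
      filter_upwards [sw_tau S hp] with k hk
      rw [(sw_om hd hS k).2.2.2 p (not_le.2 hk), zero_smul, inner_zero_left]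
  rw [integral_zero] at hlim
  filter_upwards [hlim.eventually (lt_mem_nhds (show -ε < 0 by linarith))] with k hk hv
  rw [abs_of_nonneg (hS.rad_nonneg hd hv)]
  linarith [hS.rad_le_shell hd hv]

theorem one_bound (hd : 0 < d) : ∃ C : ℝ, 0 ≤ C ∧ ∀ (S : Sit d) (k : ℕ) (M : ℕ → ℝ), S.Ok →
    (∀ i, i ≤ k → 0 ≤ M i) →
    ∫⁻ p in ball S.x (2 * S.R), S.mm 0 p ≤ ENNReal.ofReal (M 0) →
    (∀ i, 1 ≤ i → i ≤ k → ∫⁻ p in Sh S.x S.r (4 * S.tau i), S.mm i p ≤ ENNReal.ofReal (M i)) →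
    |S.Vv k| + |S.Rad k| ≤ C * ∑ i ∈ Finset.range (k + 1), M i := by
  have hD : (1 : ℝ) ≤ 2 ^ (d + 1) := one_le_pow₀ (by norm_num)
  obtain ⟨C, hC, h0⟩ := ball0 hd (A := 2 * (2 * 2 ^ (d + 1)) + 1) (by positivity)
  obtain ⟨C', hC', h1⟩ := shell hd (A := 2 * (2 * 2 ^ (d + 1)) + 1) (by positivity)
  refine ⟨2 * (C + C'), by positivity, fun S k M hS => ?_⟩
  have hμ := hS.pair.pair.im
  induction k with
  | zero =>
    intro hM hb _
    have ht := S.tau_pos 0
    have hM0 := hM 0 le_rfl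
    have xa : ∀ p, |S.X 0 p| ≤ 1 := fun p => by
      rw [abs_of_nonneg (hS.X_nonneg hd 0 p)]; exact hS.X_le_one hd 0 p
    have xz : ∀ p, p ∉ ball S.x S.r → S.X 0 p = 0 := fun p hp => by
      rw [mem_ball, dist_eq_norm, not_lt] at hp
      exact hS.X_eq_zero 0 hp
    have nb : ∀ p ∈ ball S.x S.r, ‖S.nn p‖ ≤ 1 := fun p hp => by
      rw [mem_ball, dist_eq_norm] at hp
      rw [hS.norm_nn, div_le_one hS.r_pos]
      exact hp.le
    have g1 := h0 S 0 (M 0) (fun p => S.X 0 p • S.v) hS hM0 hb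
      (fun p => by
        rw [norm_smul, hS.nv, mul_one, Real.norm_eq_abs]
        linarith [xa p])
      (((hS.lip_X hd 0).smul_const S.v).mono (by
        rw [hS.nv, mul_one]
        gcongr
        linarith))
      fun p hp => by rw [xz p hp, zero_smul]
    have g2 := h0 S 0 (M 0) (fun p => S.X 0 p • S.nn p) hS hM0 hb
      (fun p => by
        by_cases hp : p ∈ ball S.x S.r
        · rw [norm_smul, Real.norm_eq_abs]
          have := mul_le_one₀ (xa p) (norm_nonneg _) (nb p hp)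
          linarith
        · rw [xz p hp, zero_smul, norm_zero]; positivity)
      ((Lip.smul (M1 := 1) (M2 := 1) (S := ball S.x S.r) (hS.lip_X hd 0) (hS.lip_nn' 0)
        (by positivity) (by positivity) (by norm_num) xa xz nb).mono (by
          rw [mul_one, one_mul, ← add_div]
          gcongr
          linarith))
      fun p hp => by rw [xz p hp, zero_smul]
    rw [Finset.sum_range_one]
    have g3 : 0 ≤ C' * M 0 := by positivity
    unfold Vv Rad
    linarith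
  | succ k ih =>
    intro hM hb hs
    have ih' := ih (fun i hi => hM i (by omega)) hb fun i h1 h2 => hs i h1 (by omega)
    have ht := S.tau_pos (k + 1)
    have ht' := S.tau_succ k
    have hMk := hM (k + 1) le_rfl
    have hsk := hs (k + 1) (by omega) le_rfl
    have wl : Lip ((2 * 2 ^ (d + 1)) / S.tau (k + 1)) fun p => S.X (k + 1) p - S.X k p :=
      ((hS.lip_X hd (k + 1)).sub (hS.lip_X hd k)).mono (by
        have : (2 : ℝ) ^ (d + 1) / S.tau k ≤ 2 ^ (d + 1) / S.tau (k + 1) :=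
          div_le_div_of_nonneg_left (by linarith) ht (by linarith)
        rw [two_mul, add_div]
        linarith)
    have wa : ∀ p, |S.X (k + 1) p - S.X k p| ≤ 1 := fun p => by
      rw [abs_of_nonneg (by linarith [hS.X_le_succ hd k p])]
      linarith [hS.X_le_one hd (k + 1) p, hS.X_nonneg hd k p]
    have wz : ∀ p, p ∉ Sh S.x S.r (3 * S.tau (k + 1)) → S.X (k + 1) p - S.X k p = 0 :=
      fun p hp => by
        rw [hS.X_succ_eq hd k fun h => hp (sw_sh_mono _ _ (by linarith) h), sub_self]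
    obtain ⟨n2, f2⟩ := sw_field hS (k + 1) (by positivity) wl wa
      fun p hp => wz p fun h => hp (sw_sh_mono _ _ (by linarith) h)
    have g1 := h1 S (k + 1) (M (k + 1)) (fun p => (S.X (k + 1) p - S.X k p) • S.v) hS hMk hsk
      (fun p => by
        rw [norm_smul, hS.nv, mul_one, Real.norm_eq_abs]
        linarith [wa p])
      ((wl.smul_const S.v).mono (by
        rw [hS.nv, mul_one]
        gcongr
        linarith))
      fun p hp => by rw [wz p hp, zero_smul]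
    have g2 := h1 S (k + 1) (M (k + 1)) (fun p => (S.X (k + 1) p - S.X k p) • S.nn p) hS hMk hsk
      (fun p => by linarith [n2 p]) f2 fun p hp => by rw [wz p hp, zero_smul]
    have e1 := tst_sub (hS.integrable_Vv hd (k + 1)) (hS.integrable_Vv hd k)
    have e2 := tst_sub (hS.integrable_Rad hd (k + 1)) (hS.integrable_Rad hd k)
    simp only [← sub_smul] at e1 e2
    rw [e1] at g1
    rw [e2] at g2
    rw [Finset.sum_range_succ, mul_add]
    have g3 : 0 ≤ C * M (k + 1) := by positivity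
    unfold Vv Rad at *
    have g4 := abs_sub_abs_le_abs_sub (tst S.μ fun p => S.X (k + 1) p • S.v)
      (tst S.μ fun p => S.X k p • S.v)
    have g5 := abs_sub_abs_le_abs_sub (tst S.μ fun p => S.X (k + 1) p • S.nn p)
      (tst S.μ fun p => S.X k p • S.nn p)
    linarith

end Sit

end Vale.Agent.P137
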