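import Vale.Agent.P137.C.Layer
import Vale.Agent.P137.C.Switch

/-! P137 C/PW: the pointwise lower bound for `⟪v, ∫_{B(x,r)} μ⟫`.

`chain`: with `Σ k = ∑_{i ≤ k} e i`, induction gives `good k → -Σ k ≤ V k - s k * P k`; so for every `k` either
`-Σ k ≤ V k` or (`good k` and `-Σ k ≤ V k - s k * P k`); let `k → ∞` (`ENNReal.sum_le_tsum`).

`pw`: let `C0` dominate the constants of `basic`, `deep`, `layer`, `rad_far`, `rad_front`, `one_bound`; `K = 20 C0 + 1`
(any `K` with `K/4 ≥ C0 + (4/3) C0`), `C1 = C0 (K + 1)`. `B k = (𝔅 k).toReal` (finite by `lintegral_BD_le`;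
`Bd k (B k)` since `ball x (2R) ⊆ ball x0 (3R)`; `B (k+1) ≤ (4/3) B k` by `BD_succ_le`). `M k` = real value of the one-term
of level `k`. `val k := tau k ≤ τs` (implies `Valid k`), `skip k := K * B k < Pos k`,
`good k := 61 ≤ k ∧ val (k-1) ∧ ¬ skip k ∧ ∃ y, Conc k y (B k)`; `y k` a chosen point, `s k = sv (y k)`.
`e k = C2 ((15/16)^k (B k + B (k-1)) + [x ∈ Ex k] B k + [τs < 4 tau k] M k)`, `C2` large (it absorbs `(16/15)^61`).
* not good: `k ≤ 60`: `V ≥ -2 C0 B`; `¬ val (k-1)`: `τs < 2 tau k`, `one_bound`; skip: `V ≥ Pos/4 - C0 B ≥ 0`; else no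
  concentration point and `deep` give `x ∈ Ex k`, `V ≥ -2 C0 B`.
* `good (k+1)`, `good k`: `J (k+1) - J k = layer - (s (k+1) - s k) Rad k`; if `‖y (k+1) - y k‖ < 20 kap k` use `sv_sub`
  (`≤ 40 ep k`) and `|Rad k| ≤ (4K + C0) B k`; otherwise `0 ≤ Rad k ≤ rad_far` and `|s (k+1) - s k| ≤ 2`.
* `good (k+1)`, not `good k`: `k = 60` or `x ∈ Ex k`: `J (k+1) ≥ -(6K + C0) B (k+1)`; `¬ val (k-1)`: `τs < 4 tau (k+1)`,
  `one_bound`; skip `k`: `Vv k - s Rad k ≥ 0` in the three cases `s ≤ 0` (`rad_nonneg`), `0 ≤ s ≤ 1/2`, `1/2 < s`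
  (`rad_front`), then `layer`.
* limit: `tendsto_Vv`, `rad_small` (`good k → val (k-1) → val k`).
-/

namespace Vale.Agent.P137

open MeasureTheory Metric Set Filter Topology
open scoped ENNReal NNReal RealInnerProductSpace

variable {d : ℕ}

theorem chain (V P s e : ℕ → ℝ) (good : ℕ → Prop) (Y : ℝ) (he : ∀ k, 0 ≤ e k) (h0 : ¬ good 0)
    (h1 : ∀ k, ¬ good k → -∑ i ∈ Finset.range (k + 1), e i ≤ V k)
    (h3 : ∀ k, good (k + 1) → good k →
      V k - s k * P k - e (k + 1) ≤ V (k + 1) - s (k + 1) * P (k + 1))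
    (h4 : ∀ k, good (k + 1) → ¬ good k →
      -∑ i ∈ Finset.range (k + 2), e i ≤ V (k + 1) - s (k + 1) * P (k + 1))
    (hV : Tendsto V atTop (𝓝 Y))
    (hP : ∀ ε, 0 < ε → ∀ᶠ k in atTop, good k → |s k * P k| ≤ ε) :
    ENNReal.ofReal (-Y) ≤ ∑' k, ENNReal.ofReal (e k) := by
  have hA : ∀ k, good k → -∑ i ∈ Finset.range (k + 1), e i ≤ V k - s k * P k := by
    intro k
    induction k with
    | zero => exact fun h => absurd h h0
    | succ k ih =>
      intro hg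
      by_cases hk : good k
      · have := h3 k hg hk
        have := ih hk
        rw [Finset.sum_range_succ]
        linarith
      · exact h4 k hg hk
  by_cases ht : ∑' k, ENNReal.ofReal (e k) = ⊤
  · rw [ht]; exact le_top
  have hS : ∀ k, ∑ i ∈ Finset.range (k + 1), e i ≤ (∑' k, ENNReal.ofReal (e k)).toReal := by
    intro k
    rw [← ENNReal.ofReal_le_iff_le_toReal ht, ENNReal.ofReal_sum_of_nonneg fun i _ => he i]
    exact ENNReal.sum_le_tsum _
  rw [ENNReal.ofReal_le_iff_le_toReal ht]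
  refine le_of_forall_pos_le_add fun ε hε => ?_
  have hε2 : 0 < ε / 2 := by linarith
  obtain ⟨k, hk1, hk2⟩ :=
    ((hP (ε / 2) hε2).and (hV.eventually (gt_mem_nhds (show Y < Y + ε / 2 by linarith)))).exists
  have := hS k
  by_cases hg : good k
  · have := hA k hg
    have := (abs_le.1 (hk1 hg)).1
    linarith
  · have := h1 k hg
    linarith

namespace Sit

/-- Bad mass of level `k` near `x0`. -/
noncomputable def BB (S : Sit d) (x0 : E d) (k : ℕ) : ℝ≥0∞ :=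
  ∫⁻ p in ball x0 (3 * S.R), S.g.BD S.μ S.Gd (S.lev k) p

/-- The exceptional set of level `k`. -/
def Ex (S : Sit d) (C1 : ℝ) (x0 : E d) (k : ℕ) : Set (E d) :=
  Exc (S.mm k) x0 S.R (4 * S.tau k) (S.kap k) (C1 * (S.BB x0 k).toReal) (ep k * (S.BB x0 k).toReal)

/-- The error of the levels which are not covered by the optimality range `τs`. -/
noncomputable def One (S : Sit d) (τs : ℝ) (k : ℕ) : ℝ≥0∞ :=
  if τs < 4 * S.tau k then
    (∫⁻ p in Sh S.x S.r (4 * S.tau k), S.mm k p) +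
      if k = 0 then ∫⁻ p in ball S.x (2 * S.R), S.mm 0 p else 0
  else 0

theorem pw_q61 {k : ℕ} (hk : k ≤ 61) : (1 : ℝ) ≤ 60 * (15 / 16) ^ k := by
  have h1 : ((15 : ℝ) / 16) ^ 61 ≤ (15 / 16) ^ k :=
    pow_le_pow_of_le_one (by norm_num) (by norm_num) hk
  have h2 : (1 : ℝ) ≤ 60 * (15 / 16) ^ 61 := by norm_num
  linarith

/-- The bookkeeping of `pw` for abstract sequences. -/
theorem pw_core {ι : Type} [Inhabited ι] {C : ℝ} (hC : 1 ≤ C) (V P Pos B I M : ℕ → ℝ)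
    (val : ℕ → Prop) (Cc : ℕ → ι → Prop) (sv : ι → ℝ) (Y : ℝ)
    (hB : ∀ k, 0 ≤ B k) (hI : ∀ k, 0 ≤ I k) (hM : ∀ k, 0 ≤ M k)
    (hBs : ∀ k, B (k + 1) ≤ 4 / 3 * B k) (hval : ∀ k, val k → val (k + 1))
    (b1 : ∀ k, Pos k / 4 - C * B k ≤ V k) (b2 : ∀ k, -(C * B k) ≤ Pos k)
    (b4 : ∀ k s, |s| ≤ 1 → -(6 * Pos k) - C * B k ≤ V k - s * P k)
    (b5 : ∀ k s, 0 ≤ s → s ≤ 1 / 2 → Pos k / 4 - C * B k ≤ V k - s * P k)
    (hsv : ∀ k y, Cc k y → |sv y| ≤ 1)
    (hEx : ∀ k, Pos k ≤ 20 * (C * B k) → (∀ y, ¬ Cc k y) → I k = B k)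
    (hone : ∀ k m, ¬ val k → m ≤ k + 2 → |V m| + |P m| ≤ C * ∑ i ∈ Finset.range (m + 1), M i)
    (hlay : ∀ k y, 60 ≤ k → Cc (k + 1) y →
      |(V (k + 1) - sv y * P (k + 1)) - (V k - sv y * P k)| ≤
        C * (15 / 16) ^ (k + 1) * (max (Pos (k + 1)) 0 + B (k + 1)))
    (hsw : ∀ k y y', val k → Cc (k + 1) y → Cc k y' → Pos k ≤ 20 * (C * B k) →
      (sv y - sv y') * P k ≤
        3240 * (C * ((15 / 16) ^ (k + 1) * B (k + 1) + (15 / 16) ^ k * B k)))
    (hpos : ∀ k, val k → 0 ≤ P k)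
    (hfr : ∀ k y, 60 ≤ k → val k → Cc (k + 1) y → 1 / 2 < sv y → P k ≤ C * B (k + 1))
    (hV : Tendsto V atTop (𝓝 Y)) (hP : ∀ ε, 0 < ε → ∀ᶠ k in atTop, val k → |P k| ≤ ε) :
    ENNReal.ofReal (-Y) ≤ ∑' k, ENNReal.ofReal (10000 * C ^ 2 *
      ((15 / 16) ^ k * B k + (15 / 16) ^ (k - 1) * B (k - 1) + I k + M k)) := by
  classical
  have hC0 : 0 ≤ C := by linarith
  have hup : ∀ x, 0 ≤ x → C * x ≤ C ^ 2 * x := fun x hx =>
    mul_le_mul_of_nonneg_right (by nlinarith) hx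
  have ha : ∀ k, 0 ≤ (15 / 16 : ℝ) ^ k * B k := fun k => mul_nonneg (by positivity) (hB k)
  set e : ℕ → ℝ := fun k => 10000 * C ^ 2 *
      ((15 / 16) ^ k * B k + (15 / 16) ^ (k - 1) * B (k - 1) + I k + M k) with he
  have hee : ∀ k, e k = 10000 * (C ^ 2 * ((15 / 16) ^ k * B k)) +
      10000 * (C ^ 2 * ((15 / 16) ^ (k - 1) * B (k - 1))) + 10000 * (C ^ 2 * I k) +
      10000 * (C ^ 2 * M k) := fun k => by simp only [he]; ring
  have p1 : ∀ k, 0 ≤ C ^ 2 * ((15 / 16) ^ k * B k) := fun k => mul_nonneg (by positivity) (ha k)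
  have p2 : ∀ k, 0 ≤ C ^ 2 * I k := fun k => mul_nonneg (by positivity) (hI k)
  have p3 : ∀ k, 0 ≤ C ^ 2 * M k := fun k => mul_nonneg (by positivity) (hM k)
  have p4 : ∀ k, 0 ≤ C * B k := fun k => mul_nonneg hC0 (hB k)
  have he0 : ∀ k, 0 ≤ e k := fun k => by
    rw [hee]; linarith [p1 k, p1 (k - 1), p2 k, p3 k]
  have hsum : ∀ i m, i ≤ m → e i ≤ ∑ j ∈ Finset.range (m + 1), e j := fun i m h =>
    Finset.single_le_sum (fun j _ => he0 j) (Finset.mem_range.2 (by omega))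
  have hsumM : ∀ m, C * ∑ i ∈ Finset.range (m + 1), M i ≤ ∑ j ∈ Finset.range (m + 1), e j := by
    intro m
    rw [Finset.mul_sum]
    refine Finset.sum_le_sum fun i _ => ?_
    rw [hee]; linarith [p1 i, p1 (i - 1), p2 i, p3 i, hup _ (hM i)]
  have hearly : ∀ k, k ≤ 61 → C * B k ≤ 60 * (C ^ 2 * ((15 / 16) ^ k * B k)) := by
    intro k hk
    have h1 := mul_le_mul_of_nonneg_right (pw_q61 hk) (p4 k)
    have h2 := hup _ (ha k)
    nlinarith
  have hexc : ∀ k, Pos k ≤ 20 * (C * B k) → (∀ y, ¬ Cc k y) → 10000 * (C * B k) ≤ e k := by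
    intro k h1 h2
    rw [hee, hEx k h1 h2]
    linarith [p1 k, p1 (k - 1), p3 k, hup _ (hB k)]
  have hlay' : ∀ k y, 60 ≤ k → Cc (k + 1) y → Pos (k + 1) ≤ 20 * (C * B (k + 1)) →
      V k - sv y * P k - 21 * (C ^ 2 * ((15 / 16) ^ (k + 1) * B (k + 1))) ≤
        V (k + 1) - sv y * P (k + 1) := by
    intro k y hk hc hp
    have h1 := (abs_le.1 (hlay k y hk hc)).1
    have h2 : max (Pos (k + 1)) 0 + B (k + 1) ≤ 21 * (C * B (k + 1)) := by
      have : max (Pos (k + 1)) 0 ≤ 20 * (C * B (k + 1)) := max_le hp (by linarith [p4 (k + 1)])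
      have : B (k + 1) ≤ C * B (k + 1) := le_mul_of_one_le_left (hB _) hC
      linarith
    have h3 : C * (15 / 16) ^ (k + 1) * (max (Pos (k + 1)) 0 + B (k + 1)) ≤
        C * (15 / 16) ^ (k + 1) * (21 * (C * B (k + 1))) :=
      mul_le_mul_of_nonneg_left h2 (by positivity)
    have h4 : C * (15 / 16) ^ (k + 1) * (21 * (C * B (k + 1))) =
        21 * (C ^ 2 * ((15 / 16) ^ (k + 1) * B (k + 1))) := by ring
    linarith
  let y : ℕ → ι := fun k => Classical.epsilon (Cc k)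
  have hy : ∀ k, (∃ z, Cc k z) → Cc k (y k) := fun k h => Classical.epsilon_spec h
  refine chain V P (fun k => sv (y k)) e
    (fun k => 61 ≤ k ∧ val (k - 1) ∧ Pos k ≤ 20 * (C * B k) ∧ ∃ z, Cc k z) Y he0
    (fun h => absurd h.1 (by norm_num)) (fun k hk => ?_) (fun k hg hk => ?_) (fun k hg hk => ?_)
    hV (fun ε hε => ?_)
  · have hs := hsum k k le_rfl
    have hb1 := b1 k
    have hb2 := b2 k
    have := p4 k
    by_cases c1 : 61 ≤ k
    · by_cases c2 : val (k - 1)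
      · by_cases c3 : Pos k ≤ 20 * (C * B k)
        · have := hexc k c3 fun z hz => hk ⟨c1, c2, c3, z, hz⟩
          linarith
        · have := he0 k
          linarith
      · have h1 := hone (k - 1) k c2 (by omega)
        have h2 := hsumM k
        have := neg_abs_le (V k)
        have := abs_nonneg (P k)
        linarith
    · have h1 := hearly k (by omega)
      rw [hee] at hs
      linarith [p1 k, p1 (k - 1), p2 k, p3 k]
  · obtain ⟨g1, g2, g3, g4⟩ := hg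
    obtain ⟨k1, -, k3, k4⟩ := hk
    rw [Nat.add_sub_cancel] at g2
    have h1 := hlay' k _ (by omega) (hy _ g4) g3
    have h2 := hsw k _ _ g2 (hy _ g4) (hy _ k4) k3
    have h3 := hup _ (add_nonneg (ha (k + 1)) (ha k))
    rw [hee, Nat.add_sub_cancel]
    rw [mul_add (C ^ 2)] at h3
    rw [sub_mul] at h2
    linarith [p1 k, p1 (k + 1), p2 (k + 1), p3 (k + 1)]
  · obtain ⟨g1, g2, g3, g4⟩ := hg
    rw [Nat.add_sub_cancel] at g2
    have hc := hy _ g4
    have hs1 := hsv _ _ hc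
    have hJ := b4 (k + 1) _ hs1
    have hs := hsum (k + 1) (k + 1) le_rfl
    show -∑ i ∈ Finset.range (k + 1 + 1), e i ≤ V (k + 1) - sv (y (k + 1)) * P (k + 1)
    by_cases c1 : 61 ≤ k
    · by_cases c2 : val (k - 1)
      · by_cases c3 : Pos k ≤ 20 * (C * B k)
        · have h1 := hexc k c3 fun z hz => hk ⟨c1, c2, c3, z, hz⟩
          have h2 := hsum k (k + 1) (by omega)
          have h3 := mul_le_mul_of_nonneg_left (hBs k) hC0
          have := p4 k
          linarith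
        · have h1 := hlay' k _ (by omega) hc g3
          have hp := hpos k g2
          have := p4 k
          have h2 : 0 ≤ V k - sv (y (k + 1)) * P k := by
            rcases le_or_gt (sv (y (k + 1))) 0 with d1 | d1
            · have := mul_nonneg (neg_nonneg.2 d1) hp
              linarith [b1 k]
            · rcases le_or_gt (sv (y (k + 1))) (1 / 2) with d2 | d2
              · linarith [b5 k _ d1.le d2]
              · have h3 := hfr k _ (by omega) g2 hc d2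
                have h4 := mul_le_mul_of_nonneg_left (hBs k) hC0
                have h5 := mul_le_mul_of_nonneg_right (abs_le.1 hs1).2 hp
                linarith [b1 k]
          rw [hee] at hs
          linarith [p1 (k + 1), p1 (k + 1 - 1), p2 (k + 1), p3 (k + 1)]
      · have h1 := hone (k - 1) (k + 1) c2 (by omega)
        have h2 := hsumM (k + 1)
        have h3 := neg_abs_le (V (k + 1))
        have h4 : sv (y (k + 1)) * P (k + 1) ≤ |P (k + 1)| := by
          refine (le_abs_self _).trans ?_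
          rw [abs_mul]
          exact mul_le_of_le_one_left (abs_nonneg _) hs1
        linarith
    · have h1 := hearly (k + 1) (by omega)
      rw [hee] at hs
      linarith [p1 (k + 1), p1 (k + 1 - 1), p2 (k + 1), p3 (k + 1), p4 (k + 1)]
  · filter_upwards [hP ε hε] with k hk hg
    obtain ⟨g1, g2, -, g4⟩ := hg
    have hv := hval _ g2
    rw [Nat.sub_add_cancel (by omega)] at hv
    rw [abs_mul]
    exact (mul_le_of_le_one_left (abs_nonneg _) (hsv _ _ (hy _ g4))).trans (hk hv)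

theorem pw_tau_anti (S : Sit d) : Antitone S.tau :=
  antitone_nat_of_succ_le fun k => by linarith [S.tau_succ k, S.tau_pos (k + 1)]

theorem pw_BB_ne_top {S : Sit d} (hS : S.Ok) (x0 : E d) (k : ℕ) : S.BB x0 k ≠ ⊤ := by
  refine ne_top_of_le_ne_top ?_ ((setLIntegral_le_lintegral _ _).trans
    (S.g.lintegral_BD_le hS.pair.pair.im S.Gd (S.lev k)))
  exact ENNReal.mul_ne_top (by norm_num) hS.pair.pair.im.2.ne

theorem pw_One_ne_top {S : Sit d} (hS : S.Ok) (τs : ℝ) (k : ℕ) : S.One τs k ≠ ⊤ := by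
  have h : ∀ (m : ℕ) (W : Set (E d)), ∫⁻ p in W, S.mm m p ≠ ⊤ := fun m W =>
    ne_top_of_le_ne_top (S.g.lintegral_mm_ne_top hS.pair.pair.im S.Gd (S.lev m))
      (setLIntegral_le_lintegral _ _)
  unfold One
  split_ifs
  · exact ENNReal.add_ne_top.2 ⟨h _ _, h _ _⟩
  · exact ENNReal.add_ne_top.2 ⟨h _ _, ENNReal.zero_ne_top⟩
  · exact ENNReal.zero_ne_top

theorem pw_Bd {S : Sit d} (hS : S.Ok) {x0 : E d} (hx : S.x ∈ ball x0 (S.R / 4)) (k : ℕ) :
    S.Bd k (S.BB x0 k).toReal := by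
  refine ⟨ENNReal.toReal_nonneg, ?_⟩
  rw [ENNReal.ofReal_toReal (pw_BB_ne_top hS x0 k)]
  refine lintegral_mono_set fun p hp => ?_
  rw [mem_ball] at hp hx ⊢
  linarith [dist_triangle p S.x x0, S.R_pos]

theorem pw_BB_succ {S : Sit d} (hS : S.Ok) (x0 : E d) (k : ℕ) :
    (S.BB x0 (k + 1)).toReal ≤ 4 / 3 * (S.BB x0 k).toReal := by
  have h1 : 3 / 4 * S.BB x0 (k + 1) ≤ S.BB x0 k := by
    unfold BB
    rw [← lintegral_const_mul' _ _ (by finiteness)]
    exact lintegral_mono fun p => S.g.BD_succ_le S.Gd (S.lev k) p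
  have h2 := ENNReal.toReal_mono (pw_BB_ne_top hS x0 k) h1
  rw [ENNReal.toReal_mul, ENNReal.toReal_div] at h2
  norm_num at h2
  linarith

theorem pw_sum (c : ℝ) (hc : 0 ≤ c) (b i m : ℕ → ℝ≥0∞) (hb : ∀ k, b k ≠ ⊤) (hi : ∀ k, i k ≠ ⊤)
    (hm : ∀ k, m k ≠ ⊤) :
    ∑' k, ENNReal.ofReal (c * ((15 / 16) ^ k * (b k).toReal +
      (15 / 16) ^ (k - 1) * (b (k - 1)).toReal + (i k).toReal + (m k).toReal)) ≤
      ((3 * c).toNNReal : ℝ≥0∞) *
        ((∑' k, (15 / 16 : ℝ≥0∞) ^ k * b k) + (∑' k, i k) + ∑' k, m k) := by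
  have hq : ENNReal.ofReal (15 / 16) = 15 / 16 := by
    rw [ENNReal.ofReal_div_of_pos (by norm_num)]; norm_num
  have h0 : ∀ k, ENNReal.ofReal ((15 / 16) ^ k * (b k).toReal) = (15 / 16 : ℝ≥0∞) ^ k * b k := by
    intro k
    rw [ENNReal.ofReal_mul (by positivity), ENNReal.ofReal_pow (by norm_num), hq,
      ENNReal.ofReal_toReal (hb k)]
  have h1 : ∀ k, ENNReal.ofReal (c * ((15 / 16) ^ k * (b k).toReal +
      (15 / 16) ^ (k - 1) * (b (k - 1)).toReal + (i k).toReal + (m k).toReal)) =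
      ENNReal.ofReal c * ((15 / 16 : ℝ≥0∞) ^ k * b k + (15 / 16 : ℝ≥0∞) ^ (k - 1) * b (k - 1) +
        i k + m k) := by
    intro k
    rw [ENNReal.ofReal_mul hc, ENNReal.ofReal_add (by positivity) (by positivity),
      ENNReal.ofReal_add (by positivity) (by positivity),
      ENNReal.ofReal_add (by positivity) (by positivity), h0, h0, ENNReal.ofReal_toReal (hi k),
      ENNReal.ofReal_toReal (hm k)]
  simp only [h1]
  rw [ENNReal.tsum_mul_left, ENNReal.tsum_add, ENNReal.tsum_add, ENNReal.tsum_add]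
  have h2 : ∑' k, (15 / 16 : ℝ≥0∞) ^ (k - 1) * b (k - 1) ≤
      2 * ∑' k, (15 / 16 : ℝ≥0∞) ^ k * b k := by
    rw [tsum_eq_zero_add' ENNReal.summable, two_mul]
    exact add_le_add (ENNReal.le_tsum (f := fun k => (15 / 16 : ℝ≥0∞) ^ k * b k) 0) le_rfl
  have h3 : ((3 * c).toNNReal : ℝ≥0∞) = ENNReal.ofReal c * 3 := by
    change ENNReal.ofReal (3 * c) = _
    rw [ENNReal.ofReal_mul (by norm_num), mul_comm]; norm_num
  rw [h3, mul_assoc]
  gcongr
  calc _ ≤ (∑' k, (15 / 16 : ℝ≥0∞) ^ k * b k) + 2 * (∑' k, (15 / 16 : ℝ≥0∞) ^ k * b k) +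
        3 * (∑' k, i k) + 3 * ∑' k, m k := by
        gcongr
        · exact le_mul_of_one_le_left' (by norm_num)
        · exact le_mul_of_one_le_left' (by norm_num)
    _ = _ := by ring

theorem pw (hd : 0 < d) : ∃ (C : ℝ≥0) (C1 : ℝ), 0 ≤ C1 ∧ ∀ (S : Sit d) (x0 : E d) (τs : ℝ), S.Ok →
    S.x ∈ ball x0 (S.R / 4) → (∀ ρ, |ρ - S.r| ≤ τs → av S.h S.x ρ ≤ av S.h S.x S.r) →
    ENNReal.ofReal (-⟪S.v, ∫ p in ball S.x S.r, S.μ p⟫) ≤
      C * ((∑' k, (15 / 16 : ℝ≥0∞) ^ k * S.BB x0 k) +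
        (∑' k, (S.Ex C1 x0 k).indicator (fun _ => S.BB x0 k) S.x) + ∑' k, S.One τs k) := by
  classical
  obtain ⟨Cb, hCb, Hb⟩ := basic hd
  obtain ⟨Cd, hCd, Hd⟩ := deep hd
  obtain ⟨Cl, hCl, Hl⟩ := layer hd
  obtain ⟨Cf, hCf, Hf⟩ := rad_far hd
  obtain ⟨Cr, hCr, Hr⟩ := rad_front hd
  obtain ⟨Co, hCo, Ho⟩ := one_bound hd
  obtain ⟨C, hC, lb, ld, ll, lf, lr, lo⟩ : ∃ C : ℝ, 1 ≤ C ∧ Cb ≤ C ∧ Cd ≤ C ∧ Cl ≤ C ∧ Cf ≤ C ∧
      Cr ≤ C ∧ Co ≤ C := ⟨1 + Cb + Cd + Cl + Cf + Cr + Co, by linarith, by linarith, by linarith,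
    by linarith, by linarith, by linarith, by linarith⟩
  have hC0 : 0 ≤ C := by linarith
  refine ⟨(3 * (10000 * C ^ 2)).toNNReal, 21 * C ^ 2, by positivity, fun S x0 τs hS hx hτ => ?_⟩
  have hBd := pw_Bd hS hx
  have hB : ∀ k, 0 ≤ (S.BB x0 k).toReal := fun k => ENNReal.toReal_nonneg
  have hbC : ∀ k, Cb * (S.BB x0 k).toReal ≤ C * (S.BB x0 k).toReal := fun k =>
    mul_le_mul_of_nonneg_right lb (hB k)
  have hvalid : ∀ k, S.tau k ≤ τs → S.Valid k := by
    intro k hk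
    have := S.tau_pos k
    refine ⟨hτ _ ?_, hτ _ ?_⟩
    · rw [sub_sub_cancel_left, abs_neg, abs_of_pos this]; exact hk
    · rw [add_sub_cancel_left, abs_of_pos this]; exact hk
  refine le_trans ?_ (pw_sum (10000 * C ^ 2) (by positivity) (S.BB x0)
    (fun k => (S.Ex (21 * C ^ 2) x0 k).indicator (fun _ => S.BB x0 k) S.x) (S.One τs)
    (pw_BB_ne_top hS x0) (fun k => ?_) (pw_One_ne_top hS τs))
  swap
  · exact ne_top_of_le_ne_top (pw_BB_ne_top hS x0 k) (indicator_le_self _ _ _)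
  refine pw_core (ι := E d) hC S.Vv S.Rad S.Pos (fun k => (S.BB x0 k).toReal) _ _
    (fun k => S.tau k ≤ τs) (fun k y => S.Conc k y (S.BB x0 k).toReal) S.sv _ hB
    (fun k => ENNReal.toReal_nonneg) (fun k => ENNReal.toReal_nonneg) (pw_BB_succ hS x0)
    (fun k hk => (pw_tau_anti S (Nat.le_succ k)).trans hk)
    (fun k => ?_) (fun k => ?_) (fun k s hs => ?_) (fun k s h1 h2 => ?_)
    (fun k y hy => hS.abs_sv_le hy.1) (fun k h1 h2 => ?_) (fun k m h1 h2 => ?_)
    (fun k y hk hy => ?_) (fun k y y' hv hy hy' hp => ?_)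
    (fun k hk => hS.rad_nonneg hd (hvalid k hk)) (fun k y hk hv hy hs => ?_)
    (tendsto_Vv hd hS) (fun ε hε => ?_)
  · linarith [(Hb S k _ hS (hBd k)).1, hbC k]
  · linarith [(Hb S k _ hS (hBd k)).2.1, hbC k]
  · linarith [(Hb S k _ hS (hBd k)).2.2.2.1 s hs, hbC k]
  · linarith [(Hb S k _ hS (hBd k)).2.2.2.2 s h1 h2, hbC k]
  · have hm : S.x ∈ S.Ex (21 * C ^ 2) x0 k := by
      refine ⟨hx, S.r, hS.r1, hS.r2, (Hd S k _ hS (hBd k)).trans (ENNReal.ofReal_le_ofReal ?_),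
        fun y hy => lt_of_not_ge fun h => h2 y ⟨hy, h⟩⟩
      have p4 : 0 ≤ C * (S.BB x0 k).toReal := mul_nonneg hC0 (hB k)
      have a1 : max (S.Pos k) 0 ≤ 20 * (C * (S.BB x0 k).toReal) := max_le h1 (by linarith)
      have a2 : (S.BB x0 k).toReal ≤ C * (S.BB x0 k).toReal := le_mul_of_one_le_left (hB _) hC
      have a3 : 0 ≤ max (S.Pos k) 0 := le_max_right _ _
      calc Cd * (max (S.Pos k) 0 + (S.BB x0 k).toReal)
          ≤ C * (21 * (C * (S.BB x0 k).toReal)) :=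
            mul_le_mul ld (by linarith) (add_nonneg a3 (hB k)) hC0
        _ = _ := by ring
    simp only [indicator_of_mem hm]
  · have hlt : ∀ i, i ≤ m → τs < 4 * S.tau i := by
      intro i hi
      have a1 := pw_tau_anti S (hi.trans h2)
      have a2 := S.tau_succ k
      have a3 := S.tau_succ (k + 1)
      have a4 : τs < S.tau k := lt_of_not_ge h1
      change S.tau (k + 1 + 1) ≤ S.tau i at a1
      linarith
    refine (Ho S m (fun i => (S.One τs i).toReal) hS (fun i _ => ENNReal.toReal_nonneg) ?_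
      fun i _ hi => ?_).trans (mul_le_mul_of_nonneg_right lo
        (Finset.sum_nonneg fun i _ => ENNReal.toReal_nonneg))
    · rw [ENNReal.ofReal_toReal (pw_One_ne_top hS τs 0), One, if_pos (hlt 0 (Nat.zero_le _)),
        if_pos rfl]
      exact le_add_self
    · rw [ENNReal.ofReal_toReal (pw_One_ne_top hS τs i), One, if_pos (hlt i hi)]
      exact le_self_add
  · refine (Hl S k _ y hS hk (hBd _) hy).trans ?_
    have a3 : 0 ≤ max (S.Pos (k + 1)) 0 := le_max_right _ _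
    have := hB (k + 1)
    gcongr
  · have hq1 : 0 ≤ (15 / 16 : ℝ) ^ (k + 1) * (S.BB x0 (k + 1)).toReal :=
      mul_nonneg (by positivity) (hB _)
    have hq0 : 0 ≤ (15 / 16 : ℝ) ^ k * (S.BB x0 k).toReal := mul_nonneg (by positivity) (hB _)
    by_cases hyy : 20 * S.kap k ≤ ‖y - y'‖
    · have a1 := Hf S k _ _ y y' hS (hvalid k hv) (hB _) (hB _) hy hy' hyy
      have a2 := hS.rad_nonneg hd (hvalid k hv)
      have a3 := (abs_le.1 (hS.abs_sv_le hy.1)).2
      have a4 := (abs_le.1 (hS.abs_sv_le hy'.1)).1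
      have a5 : Cf * (ep (k + 1) * (S.BB x0 (k + 1)).toReal + ep k * (S.BB x0 k).toReal) ≤
          C * ((15 / 16) ^ (k + 1) * (S.BB x0 (k + 1)).toReal +
            (15 / 16) ^ k * (S.BB x0 k).toReal) := by
        have := ep_pos k
        have := ep_pos (k + 1)
        have := hB k
        have := hB (k + 1)
        gcongr
        · exact ep_le_pow _
        · exact ep_le_pow _
      have a6 : (S.sv y - S.sv y') * S.Rad k ≤ 2 * S.Rad k :=
        mul_le_mul_of_nonneg_right (by linarith) a2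
      have a7 := mul_nonneg hC0 (add_nonneg hq1 hq0)
      linarith
    · have hR := S.R_pos
      have a1 : |S.sv y - S.sv y'| ≤ 40 * (15 / 16) ^ k := by
        calc _ ≤ 2 / S.R * ‖y - y'‖ := hS.sv_sub y y'
          _ ≤ 2 / S.R * (20 * S.kap k) := by gcongr; exact (lt_of_not_ge hyy).le
          _ = 40 * ep k := by rw [kap]; field_simp; ring
          _ ≤ _ := by linarith [ep_le_pow k]
      have a2 : |S.Rad k| ≤ 81 * (C * (S.BB x0 k).toReal) := by
        linarith [(Hb S k _ hS (hBd k)).2.2.1, hbC k]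
      have a3 := mul_nonneg hC0 hq1
      calc (S.sv y - S.sv y') * S.Rad k ≤ |S.sv y - S.sv y'| * |S.Rad k| := by
            rw [← abs_mul]; exact le_abs_self _
        _ ≤ (40 * (15 / 16) ^ k) * (81 * (C * (S.BB x0 k).toReal)) :=
            mul_le_mul a1 a2 (abs_nonneg _) (by positivity)
        _ = 3240 * (C * ((15 / 16) ^ k * (S.BB x0 k).toReal)) := by ring
        _ ≤ _ := by rw [mul_add C]; linarith
  · exact (Hr S k _ y hS hk (hvalid k hv) (hBd _) hy hs).trans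
      (mul_le_mul_of_nonneg_right lr (hB _))
  · filter_upwards [rad_small hd hS hε] with k hk hv using hk (hvalid k hv)

end Sit

end Vale.Agent.P137
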