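import Vale.Agent.P137.Grid
import Vale.Agent.P137.C.Chi
import Vale.Agent.P137.C.CTest

/-! P137 C/Prof: elementary facts on a `Sit` (from Chi.lean; `tau k ≤ R/16 ≤ r/8`).

* `len_lev_le`: `len_add`, `len_aa_le`.
* `rad_nonneg`, `radp_nonpos`: `Pair.eq` with `c = x`, `ρ = 2 R`, `fld_radial`, `tst_smul`.
-/

namespace Vale.Agent.P137

open MeasureTheory Metric Set Filter Topology
open scoped ENNReal NNReal RealInnerProductSpace

variable {d : ℕ}

namespace Sit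

variable {S : Sit d}

theorem R_pos (S : Sit d) : 0 < S.R := by
  exact S.g.R_pos _

theorem tau_pos (S : Sit d) (k : ℕ) : 0 < S.tau k := by
  have := S.R_pos
  unfold tau
  positivity

theorem tau_succ (S : Sit d) (k : ℕ) : S.tau k = 2 * S.tau (k + 1) := by
  unfold tau
  rw [pow_succ]
  field_simp

theorem tau_le (S : Sit d) (k : ℕ) : S.tau k ≤ S.R / 16 := by
  have := S.R_pos
  unfold tau
  have h : (1 : ℝ) ≤ 2 ^ k := one_le_pow₀ (by norm_num)
  exact div_le_div_of_nonneg_left this.le (by norm_num) (by linarith)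

theorem prof_tau_eq (S : Sit d) (k : ℕ) : S.tau k = S.R * ((1 / 2) ^ k * (1 / 16)) := by
  unfold tau
  rw [one_div_pow]
  field_simp

theorem prof_half_le (k : ℕ) : (1 / 2 : ℝ) ^ k ≤ ep k * ep k := by
  unfold ep
  rw [← pow_add, show 2 * k + 2 * k = 4 * k by ring, pow_mul]
  gcongr
  norm_num

theorem prof_lt (S : Sit d) (k : ℕ) : S.r - S.tau k < S.r := by
  have := S.tau_pos k
  linarith

theorem prof_lt' (S : Sit d) (k : ℕ) : S.r < S.r + S.tau k := by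
  have := S.tau_pos k
  linarith

theorem prof_abs (p p' x : E d) : |‖p - x‖ - ‖p' - x‖| ≤ ‖p - p'‖ := by
  have h := abs_norm_sub_norm_le (p - x) (p' - x)
  rwa [sub_sub_sub_cancel_right] at h

theorem kap_pos (S : Sit d) (k : ℕ) : 0 < S.kap k := by
  exact mul_pos S.R_pos (ep_pos k)

theorem kap_succ_le (S : Sit d) (k : ℕ) : S.kap (k + 1) ≤ S.kap k := by
  exact mul_le_mul_of_nonneg_left (ep_succ_le k) S.R_pos.le

theorem tau_le_kap_succ (S : Sit d) (k : ℕ) : S.tau k ≤ S.kap (k + 1) := by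
  have hR := S.R_pos
  have h := prof_half_le k
  have e : S.tau k = S.R * ((1 / 2) ^ k * (1 / 16)) := prof_tau_eq S k
  have e2 : ep (k + 1) = ep k * (225 / 256) := by
    unfold ep
    rw [mul_add, pow_add]
    norm_num
  have hp : (0 : ℝ) < (1 / 2) ^ k := by positivity
  have h1 := ep_le_one k
  have h0 := ep_pos k
  rw [e, kap, e2]
  apply mul_le_mul_of_nonneg_left _ hR.le
  nlinarith

theorem four_tau_le_kap (S : Sit d) (k : ℕ) : 4 * S.tau k ≤ S.kap k := by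
  have hR := S.R_pos
  have h := prof_half_le k
  have e : S.tau k = S.R * ((1 / 2) ^ k * (1 / 16)) := prof_tau_eq S k
  have hp : (0 : ℝ) < (1 / 2) ^ k := by positivity
  have h1 := ep_le_one k
  have h0 := ep_pos k
  have h2 : 4 * ((1 / 2 : ℝ) ^ k * (1 / 16)) ≤ ep k := by nlinarith
  rw [e, kap]
  nlinarith [mul_le_mul_of_nonneg_left h2 hR.le]

/-- `tau k / kap k ≤ ep k`. -/
theorem tau_le_ep_mul_kap (S : Sit d) (k : ℕ) : S.tau k ≤ ep k * S.kap k := by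
  have hR := S.R_pos
  have h := prof_half_le k
  have e : S.tau k = S.R * ((1 / 2) ^ k * (1 / 16)) := prof_tau_eq S k
  have hp : (0 : ℝ) < (1 / 2) ^ k := by positivity
  have h2 : ((1 / 2 : ℝ) ^ k * (1 / 16)) ≤ ep k * ep k := by nlinarith
  rw [e, kap]
  nlinarith [mul_le_mul_of_nonneg_left h2 hR.le]

theorem len_lev_le (S : Sit d) (k : ℕ) : 100 * (√(d : ℝ) * S.g.len (S.lev k)) ≤ S.tau k := by
  have hR := S.R_pos
  have h := S.g.len_aa_le S.j
  have hp : (0 : ℝ) < 2 ^ k := by positivity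
  unfold lev tau
  rw [Grid.len_add, ← div_div S.R, ← mul_div_assoc, ← mul_div_assoc]
  apply div_le_div_of_nonneg_right _ hp.le
  unfold R at hR ⊢
  linarith

theorem len_lev_le' (hd : 0 < d) (S : Sit d) (k : ℕ) : S.g.len (S.lev k) ≤ S.tau k := by
  have h := S.len_lev_le k
  have h1 : (1 : ℝ) ≤ √(d : ℝ) := by
    rw [Real.one_le_sqrt]
    exact_mod_cast hd
  have h2 := S.g.len_pos (S.lev k)
  nlinarith

theorem Ok.r_pos (hS : S.Ok) : 0 < S.r := by
  have := S.R_pos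
  have := hS.r1
  linarith

theorem Ok.prof_in (hS : S.Ok) (k : ℕ) : 0 < S.r - S.tau k := by
  have h1 := S.tau_le k
  have h2 := hS.r1
  have h3 := S.R_pos
  linarith

theorem Ok.X_nonneg (hd : 0 < d) (hS : S.Ok) (k : ℕ) (p : E d) : 0 ≤ S.X k p := by
  exact chi_nonneg hd (hS.prof_in k) (prof_lt S k) _

theorem Ok.X_le_one (hd : 0 < d) (hS : S.Ok) (k : ℕ) (p : E d) : S.X k p ≤ 1 := by
  exact chi_le_one hd (hS.prof_in k) (prof_lt S k) _

theorem Ok.X_eq_one (hd : 0 < d) (hS : S.Ok) (k : ℕ) {p : E d} (hp : ‖p - S.x‖ ≤ S.r - S.tau k) :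
    S.X k p = 1 := by
  exact chi_eq_one hd (hS.prof_in k) (prof_lt S k) hp

theorem Ok.X_eq_zero (hS : S.Ok) (k : ℕ) {p : E d} (hp : S.r ≤ ‖p - S.x‖) : S.X k p = 0 := by
  exact chi_eq_zero (hS.prof_in k) (prof_lt S k) hp

theorem Ok.X_le_succ (hd : 0 < d) (hS : S.Ok) (k : ℕ) (p : E d) : S.X k p ≤ S.X (k + 1) p := by
  have h1 := S.tau_succ k
  have h2 := S.tau_pos (k + 1)
  exact chi_mono_left hd (hS.prof_in k) (by linarith) (prof_lt S (k + 1)) _

theorem Ok.lip_X (hd : 0 < d) (hS : S.Ok) (k : ℕ) : Lip (2 ^ (d + 1) / S.tau k) (S.X k) := by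
  intro p p'
  have h1 := S.tau_le k
  have h2 := hS.r1
  have h3 := S.R_pos
  have h := chi_lip hd (hS.prof_in k) (prof_lt S k) (by linarith) ‖p - S.x‖ ‖p' - S.x‖
  rw [sub_sub_cancel] at h
  have h4 := S.tau_pos k
  exact h.trans (mul_le_mul_of_nonneg_left (prof_abs p p' S.x) (by positivity))

theorem Ok.Xp_le_one (hd : 0 < d) (hS : S.Ok) (k : ℕ) (p : E d) : S.Xp k p ≤ 1 := by
  exact chi_le_one hd hS.r_pos (prof_lt' S k) _

theorem Ok.X_le_Xp (hd : 0 < d) (hS : S.Ok) (k : ℕ) (p : E d) : S.X k p ≤ S.Xp k p := by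
  rcases le_total ‖p - S.x‖ S.r with h | h
  · have : S.Xp k p = 1 := chi_eq_one hd hS.r_pos (prof_lt' S k) h
    rw [this]
    exact hS.X_le_one hd k p
  · rw [hS.X_eq_zero k h]
    exact chi_nonneg hd hS.r_pos (prof_lt' S k) _

theorem Ok.Xp_eq_zero (hS : S.Ok) (k : ℕ) {p : E d} (hp : S.r + S.tau k ≤ ‖p - S.x‖) :
    S.Xp k p = 0 := by
  exact chi_eq_zero hS.r_pos (prof_lt' S k) hp

theorem Ok.lip_Xp (hd : 0 < d) (hS : S.Ok) (k : ℕ) : Lip (2 ^ (d + 1) / S.tau k) (S.Xp k) := by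
  intro p p'
  have h1 := S.tau_le k
  have h2 := hS.r1
  have h3 := S.R_pos
  have h := chi_lip hd hS.r_pos (prof_lt' S k) (by linarith) ‖p - S.x‖ ‖p' - S.x‖
  rw [add_sub_cancel_left] at h
  have h4 := S.tau_pos k
  exact h.trans (mul_le_mul_of_nonneg_left (prof_abs p p' S.x) (by positivity))

theorem Ok.Xp_eq_X (hd : 0 < d) (hS : S.Ok) (k : ℕ) {p : E d} (hp : p ∉ Sh S.x S.r (S.tau k)) :
    S.Xp k p = S.X k p := by
  have h4 := S.tau_pos k
  simp only [Sh, mem_ofPred_eq, not_le, lt_abs] at hp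
  rcases hp with h | h
  · rw [hS.Xp_eq_zero k (by linarith), hS.X_eq_zero k (by linarith)]
  · have : S.Xp k p = 1 := chi_eq_one hd hS.r_pos (prof_lt' S k) (by linarith)
    rw [this, hS.X_eq_one hd k (by linarith)]

theorem Ok.X_succ_eq (hd : 0 < d) (hS : S.Ok) (k : ℕ) {p : E d} (hp : p ∉ Sh S.x S.r (S.tau k)) :
    S.X (k + 1) p = S.X k p := by
  have h4 := S.tau_pos (k + 1)
  have h5 := S.tau_succ k
  simp only [Sh, mem_ofPred_eq, not_le, lt_abs] at hp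
  rcases hp with h | h
  · rw [hS.X_eq_zero k (by linarith), hS.X_eq_zero (k + 1) (by linarith)]
  · rw [hS.X_eq_one hd k (by linarith), hS.X_eq_one hd (k + 1) (by linarith)]

theorem Ok.lip_nn (hS : S.Ok) : Lip (2 / S.R) S.nn := by
  intro p p'
  have h1 := hS.r_pos
  have h2 := hS.r1
  have h3 := S.R_pos
  unfold nn
  rw [← smul_sub, sub_sub_sub_cancel_right, norm_smul, Real.norm_eq_abs,
    abs_of_pos (inv_pos.2 h1)]
  apply mul_le_mul_of_nonneg_right _ (norm_nonneg _)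
  rw [inv_eq_one_div, div_le_div_iff₀ h1 h3]
  linarith

theorem Ok.lip_nn' (hS : S.Ok) (k : ℕ) : Lip (1 / S.tau k) S.nn := by
  apply hS.lip_nn.mono
  have h1 := S.tau_le k
  have h2 := S.tau_pos k
  have h3 := S.R_pos
  rw [div_le_div_iff₀ h3 h2]
  linarith

theorem Ok.norm_nn (hS : S.Ok) (p : E d) : ‖S.nn p‖ = ‖p - S.x‖ / S.r := by
  have h1 := hS.r_pos
  unfold nn
  rw [norm_smul, Real.norm_eq_abs, abs_of_pos (inv_pos.2 h1), div_eq_inv_mul]

theorem Ok.norm_nn_le_two (hS : S.Ok) (k : ℕ) {p : E d} (hp : p ∈ Sh S.x S.r (4 * S.tau k)) :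
    ‖S.nn p‖ ≤ 2 := by
  have h1 := hS.r_pos
  have h2 := hS.r1
  have h3 := S.tau_le k
  have h4 := (abs_le.1 (show |‖p - S.x‖ - S.r| ≤ 4 * S.tau k from hp)).2
  rw [hS.norm_nn, div_le_iff₀ h1]
  linarith

theorem Ok.abs_sv_le (hS : S.Ok) {y : E d} (hy : ‖y - S.x‖ = S.r) : |S.sv y| ≤ 1 := by
  have h1 := hS.r_pos
  have h := abs_real_inner_le_norm S.v (S.nn y)
  rw [hS.nv, hS.norm_nn, hy, div_self h1.ne', mul_one] at h
  exact h

theorem Ok.sv_sub (hS : S.Ok) (y y' : E d) : |S.sv y - S.sv y'| ≤ 2 / S.R * ‖y - y'‖ := by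
  have h := abs_real_inner_le_norm S.v (S.nn y - S.nn y')
  rw [hS.nv, one_mul, inner_sub_right] at h
  exact h.trans (hS.lip_nn y y')

theorem Ok.inner_v (hS : S.Ok) {ξ : E d} (hξ : ξ ∈ S.Gd) : 89 / 100 * ‖ξ‖ ≤ ⟪S.v, ξ⟫ := by
  have h := hS.near ξ hξ
  have h0 := norm_nonneg ξ
  have h1 : ‖‖ξ‖ • S.v - ξ‖ ^ 2 = 2 * ‖ξ‖ ^ 2 - 2 * (‖ξ‖ * ⟪S.v, ξ⟫) := by
    rw [norm_sub_sq_real, norm_smul, hS.nv, real_inner_smul_left, norm_norm]
    ring
  have h2 : ‖‖ξ‖ • S.v - ξ‖ ^ 2 ≤ (9 / 20 * ‖ξ‖) ^ 2 := by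
    gcongr
  rcases h0.eq_or_lt with h3 | h3
  · have : ξ = 0 := norm_eq_zero.1 h3.symm
    simp [this]
  · by_contra hc
    push Not at hc
    nlinarith [mul_lt_mul_of_pos_left hc h3]

theorem Ok.integrable_Pos (hd : 0 < d) (hS : S.Ok) (k : ℕ) :
    Integrable fun p => ⟪S.X k p • S.ν, S.μ p⟫ := by
  refine integrable_tst hS.pair.pair.im (((hS.lip_X hd k).smul_const S.ν).continuous)
    (M := ‖S.ν‖) fun p => ?_
  rw [norm_smul, Real.norm_eq_abs, abs_of_nonneg (hS.X_nonneg hd k p)]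
  exact mul_le_of_le_one_left (norm_nonneg _) (hS.X_le_one hd k p)

theorem Ok.integrable_Vv (hd : 0 < d) (hS : S.Ok) (k : ℕ) :
    Integrable fun p => ⟪S.X k p • S.v, S.μ p⟫ := by
  refine integrable_tst hS.pair.pair.im (((hS.lip_X hd k).smul_const S.v).continuous)
    (M := ‖S.v‖) fun p => ?_
  rw [norm_smul, Real.norm_eq_abs, abs_of_nonneg (hS.X_nonneg hd k p)]
  exact mul_le_of_le_one_left (norm_nonneg _) (hS.X_le_one hd k p)

theorem Ok.integrable_Rad (hd : 0 < d) (hS : S.Ok) (k : ℕ) :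
    Integrable fun p => ⟪S.X k p • S.nn p, S.μ p⟫ := by
  refine integrable_tst hS.pair.pair.im ((hS.lip_X hd k).continuous.smul hS.lip_nn.continuous)
    (M := 1) fun p => ?_
  have h1 := hS.r_pos
  rcases le_total ‖p - S.x‖ S.r with h | h
  · rw [norm_smul, Real.norm_eq_abs, abs_of_nonneg (hS.X_nonneg hd k p), hS.norm_nn]
    exact mul_le_one₀ (hS.X_le_one hd k p) (by positivity) ((div_le_one h1).2 h)
  · rw [hS.X_eq_zero k h]
    simp

theorem Ok.integrable_Radp (hd : 0 < d) (hS : S.Ok) (k : ℕ) :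
    Integrable fun p => ⟪S.Xp k p • S.nn p, S.μ p⟫ := by
  refine integrable_tst hS.pair.pair.im ((hS.lip_Xp hd k).continuous.smul hS.lip_nn.continuous)
    (M := 2) fun p => ?_
  have h1 := hS.r_pos
  have h2 := hS.r1
  have h3 := S.tau_le k
  have h4 := S.R_pos
  rcases le_total ‖p - S.x‖ (S.r + S.tau k) with h | h
  · have h0 : 0 ≤ S.Xp k p := (hS.X_nonneg hd k p).trans (hS.X_le_Xp hd k p)
    rw [norm_smul, Real.norm_eq_abs, abs_of_nonneg h0, hS.norm_nn]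
    have h5 : ‖p - S.x‖ / S.r ≤ 2 := by
      rw [div_le_iff₀ h1]
      linarith
    exact (mul_le_of_le_one_left (by positivity) (hS.Xp_le_one hd k p)).trans h5
  · rw [hS.Xp_eq_zero k h]
    simp

theorem Ok.prof_dil (hd : 0 < d) (hS : S.Ok) {r1 r2 : ℝ} (h1 : 0 < r1) (h2 : r1 < r2)
    (h3 : r2 ≤ 2 * S.R) : ∃ c : ℝ, 0 < c ∧ av S.h S.x r2 - av S.h S.x r1 =
      c * tst S.μ fun p => chi d r1 r2 ‖p - S.x‖ • S.nn p := by
  have hr := hS.r_pos
  have hom : 0 < om d := by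
    unfold om
    exact ENNReal.toReal_pos (measure_ball_pos volume _ one_pos).ne' measure_ball_lt_top.ne
  have hd' : (0 : ℝ) < d := by exact_mod_cast hd
  have hlt : (r2 ^ d)⁻¹ < (r1 ^ d)⁻¹ :=
    inv_strictAnti₀ (by positivity) (pow_lt_pow_left₀ h2 h1.le hd.ne')
  refine ⟨((r1 ^ d)⁻¹ - (r2 ^ d)⁻¹) / (d * om d) * S.r,
    mul_pos (div_pos (by linarith) (by positivity)) hr, ?_⟩
  rw [hS.pair.pair.eq S.x (2 * S.R) S.x r1 S.x r2 hS.sub h1 (h1.trans h2)
    (by rw [sub_self, norm_zero]; linarith) (by rw [sub_self, norm_zero]; linarith), ← tst_smul]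
  unfold tst
  congr 1
  ext p
  rw [fld_radial hd h1 h2]
  congr 1
  unfold nn
  beta_reduce
  rw [smul_smul, smul_smul]
  congr 1
  field_simp

theorem Ok.rad_nonneg (hd : 0 < d) (hS : S.Ok) {k : ℕ} (hv : S.Valid k) : 0 ≤ S.Rad k := by
  have h1 := hS.r2
  have h4 := S.R_pos
  obtain ⟨c, hc, e⟩ := hS.prof_dil hd (hS.prof_in k) (prof_lt S k) (by linarith)
  have h5 := hv.1
  have h6 : 0 ≤ c * S.Rad k := by
    change 0 ≤ c * tst S.μ fun p => chi d (S.r - S.tau k) S.r ‖p - S.x‖ • S.nn p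
    linarith
  exact nonneg_of_mul_nonneg_right h6 hc

theorem Ok.radp_nonpos (hd : 0 < d) (hS : S.Ok) {k : ℕ} (hv : S.Valid k) :
    tst S.μ (fun p => S.Xp k p • S.nn p) ≤ 0 := by
  have h1 := hS.r2
  have h3 := S.tau_le k
  have h4 := S.R_pos
  obtain ⟨c, hc, e⟩ := hS.prof_dil hd hS.r_pos (prof_lt' S k) (by linarith)
  have h5 := hv.2
  have h6 : c * tst S.μ (fun p => S.Xp k p • S.nn p) ≤ 0 := by
    change c * (tst S.μ fun p => chi d S.r (S.r + S.tau k) ‖p - S.x‖ • S.nn p) ≤ 0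
    linarith
  by_contra hn
  push Not at hn
  nlinarith [mul_pos hc hn]

theorem Ok.rad_le_shell (hd : 0 < d) (hS : S.Ok) {k : ℕ} (hv : S.Valid k) :
    S.Rad k ≤ -tst S.μ fun p => (S.Xp k p - S.X k p) • S.nn p := by
  have h := hS.radp_nonpos hd hv
  have e : (tst S.μ fun p => (S.Xp k p - S.X k p) • S.nn p) =
      tst S.μ (fun p => S.Xp k p • S.nn p) - S.Rad k := by
    unfold Rad
    rw [← tst_sub (hS.integrable_Radp hd k) (hS.integrable_Rad hd k)]
    simp only [sub_smul]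
  rw [e]
  linarith

end Sit


end Vale.Agent.P137
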